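import Vale.Agent.P202.Hodge2

namespace Vale.Agent.P202

open Finset IsLocalRing Filter

section Lin

variable {S : Type*} [CommRing S] [IsLocalRing S]

theorem IsB.lin {n A A' C : Ideal S} {b b' : ℤ} (hA : Pm A) (h : IsB n A C b)
    (h' : IsB n A' C b') (hA' : Pm A') (q x : ℕ) :
    IsB n (A ^ q * A' ^ x) C (q * b + x * b') :=
  IsB.mul (hA.pow q) (h.pow hA q) (h'.pow hA' x)

theorem IsB.quad {n A A' B B' : Ideal S} {b11 b12 b21 b22 : ℤ} (hA : Pm A) (hA' : Pm A')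
    (hB : Pm B) (hB' : Pm B') (h11 : IsB n A B b11) (h12 : IsB n A B' b12)
    (h21 : IsB n A' B b21) (h22 : IsB n A' B' b22) (q x q' x' : ℕ) :
    IsB n (A ^ q * A' ^ x) (B ^ q' * B' ^ x')
      (q' * (q * b11 + x * b21) + x' * (q * b12 + x * b22)) :=
  (IsB.lin hB (IsB.lin hA h11 h21 hA' q x).symm (IsB.lin hA h12 h22 hA' q x).symm hB' q' x').symm

end Lin

section Index

variable {S : Type*} [CommRing S] [IsLocalRing S] [IsNoetherianRing S]

theorem hodge_index (hG : Good S) (n m A C : Ideal S) (hn : Pm n) (hnm : n ≤ maximalIdeal S)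
    (hm : m ∣ n) (hA : A ∣ n) (hC : C ∣ n) {a c d e f g : ℤ} (hAA : IsB n A A a)
    (hCC : IsB n C C c) (hAC : IsB n A C d) (hmm : IsB n m m e) (hAm : IsB n A m f)
    (hCm : IsB n C m g) (he : 0 < e) : (f - g) ^ 2 ≤ e * (a + c - 2 * d) := by
  obtain ⟨q, hq⟩ : ∃ q : ℕ, (q : ℤ) = e := ⟨e.toNat, Int.toNat_of_nonneg he.le⟩
  obtain ⟨x, y, hxy⟩ : ∃ x y : ℕ, (y : ℤ) - x = f - g := by
    refine ⟨(g - f).toNat, (f - g).toNat, ?_⟩
    omega
  have hPm : Pm m := hn.of_dvd hm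
  have hPA : Pm A := hn.of_dvd hA
  have hPC : Pm C := hn.of_dvd hC
  have hs : 0 < q + x + y := by
    have : (0 : ℤ) < q := by rw [hq]; exact he
    omega
  have hdvd1 : A ^ q * m ^ x ∣ n ^ (q + x + y) := by
    have h1 : A ^ q * m ^ x ∣ n ^ q * n ^ x := mul_dvd_mul (pow_dvd_pow_of_dvd hA q)
      (pow_dvd_pow_of_dvd hm x)
    rw [← pow_add] at h1
    exact h1.trans (pow_dvd_pow _ (by omega))
  have hdvd2 : C ^ q * m ^ y ∣ n ^ (q + x + y) := by
    have h1 : C ^ q * m ^ y ∣ n ^ q * n ^ y := mul_dvd_mul (pow_dvd_pow_of_dvd hC q)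
      (pow_dvd_pow_of_dvd hm y)
    rw [← pow_add] at h1
    exact h1.trans (pow_dvd_pow _ (by omega))
  obtain ⟨F, hF⟩ := hdvd2
  have hnm' : n ^ (q + x + y) ≤ maximalIdeal S :=
    (Ideal.pow_le_self (by omega)).trans hnm
  have h1 := IsB.quad hPA hPm hPA hPm hAA hAm hAm.symm hmm q x q x
  have h2 := IsB.quad hPC hPm hPC hPm hCC hCm hCm.symm hmm q y q y
  have h3 := IsB.quad hPA hPm hPC hPm hAC hAm hCm.symm hmm q x q y
  have h4 := hodge hG (n ^ (q + x + y)) (A ^ q * m ^ x) (C ^ q * m ^ y) F (hn.pow _) hnm'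
    hF.symm hdvd1 (h1.pow_base _ hs) (h2.pow_base _ hs) (h3.pow_base _ hs)
  rw [hq] at h4
  have hy : (y : ℤ) = x + (f - g) := by linarith
  rw [hy] at h4
  have h5 : 0 ≤ e * (e * (a + c - 2 * d) - (f - g) ^ 2) := by
    refine h4.trans (le_of_eq ?_)
    ring
  have h6 := nonneg_of_mul_nonneg_right h5 he
  linarith

theorem IsB.mono (hG : Good S) {n A A' C : Ideal S} (hn : Pm n) (hC : C ∣ n) (hA : Pm A)
    (hle : A ≤ A') {b b' : ℤ} (h : IsB n A C b) (h' : IsB n A' C b') : b' ≤ b := by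
  classical
  have := hG.inf
  have hPC : Pm C := hn.of_dvd hC
  have hPA' : Pm A' := hA.mono hle
  obtain ⟨C', hC'⟩ := hC
  obtain ⟨x, hxC, -, hx⟩ := exists_x hG.dep n C C' hC'.symm hPC {A, A'}
  have key : ∀ E ∈ ({A, A'} : Finset (Ideal S)), Pm E → ∀ᶠ N in atTop,
      cl (n ^ N * (E * C)) = cl (n ^ N * E) + cl (n ^ N * (E * C) ⊔ Ideal.span {x}) := by
    intro E hE _
    obtain ⟨N₀, hN₀⟩ := hx E hE
    filter_upwards [eventually_ge_atTop N₀] with N hN
    have q1 : qt (n ^ N * (E * C)) x = n ^ N * E := by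
      apply le_antisymm
      · intro w hw
        rw [mem_qt] at hw
        refine hN₀ N hN w ?_
        rw [mul_comm C E]
        exact hw
      · intro w hw
        rw [mem_qt]
        have : n ^ N * (E * C) = C * (n ^ N * E) := by ring
        rw [this]
        exact Ideal.mul_mem_mul hxC hw
    have := cl_qt (n ^ N * (E * C)) x
    rwa [q1] at this
  obtain ⟨N, ⟨⟨h1, h2⟩, h3⟩, h4⟩ := ((((h ⊤ Pm_top).and (h' ⊤ Pm_top)).and
    (key A (by simp) hA)).and (key A' (by simp) hPA')).exists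
  rw [Ideal.top_mul, Ideal.top_mul, Ideal.top_mul, Ideal.mul_top] at h1 h2
  obtain ⟨a1, e1, f1⟩ := exists_hh ((hn.pow N).mul (hA.mul hPC))
  obtain ⟨a2, e2, f2⟩ := exists_hh ((hn.pow N).mul (hPA'.mul hPC))
  obtain ⟨a3, e3, f3⟩ := exists_hh ((hn.pow N).mul hA)
  obtain ⟨a4, e4, f4⟩ := exists_hh ((hn.pow N).mul hPA')
  obtain ⟨a5, e5, f5⟩ := exists_hh (((hn.pow N).mul (hA.mul hPC)).mono
    (le_sup_left (b := Ideal.span {x})))
  obtain ⟨a6, e6, f6⟩ := exists_hh (((hn.pow N).mul (hPA'.mul hPC)).mono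
    (le_sup_left (b := Ideal.span {x})))
  have h5 : cl (n ^ N * (A' * C) ⊔ Ideal.span {x}) ≤ cl (n ^ N * (A * C) ⊔ Ideal.span {x}) :=
    cl_anti (sup_le_sup_right (Ideal.mul_mono_right (Ideal.mul_mono_left hle)) _)
  rw [e1, e3, e5] at h3
  rw [e2, e4, e6] at h4
  rw [e5, e6] at h5
  rw [f1, f3] at h1
  rw [f2, f4] at h2
  have g1 : a1 = a3 + a5 := by exact_mod_cast h3
  have g2 : a2 = a4 + a6 := by exact_mod_cast h4
  have g3 : a6 ≤ a5 := by exact_mod_cast h5
  omega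

theorem growth (hG : Good S) (n : Ideal S) (hn : Pm n) (hnm : n ≤ maximalIdeal S)
    (hm : maximalIdeal S ∣ n) {e : ℤ} (he : IsB n (maximalIdeal S) (maximalIdeal S) e) :
    0 ≤ e ∧ ∃ K : ℕ, ∀ k : ℕ, 2 * hh (maximalIdeal S ^ k) ≤ e * k ^ 2 + K * k := by
  classical
  obtain ⟨x, y, η, hgd⟩ := exists_Gd hG n (maximalIdeal S) (maximalIdeal S) hn hnm hm hm
    {⊤, maximalIdeal S}
  have hb := hgd.eq_b hn hnm hm hm (by simp) (by simp) (by simp) he
  obtain ⟨N₀, -, hη⟩ := hgd.eta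
  obtain ⟨c, hc⟩ := hn
  have hft : ∀ k, Pm (maximalIdeal S ^ k ⊔ Ideal.span {x}) := fun k =>
    (Pm_max.pow k).mono le_sup_left
  choose a ha ha' using fun k => exists_hh (hft k)
  choose l hl hl' using fun k => exists_hh ((Pm_max (S := S)).pow k)
  obtain ⟨b, hb1, hb2⟩ := exists_hh hgd.pm
  have hstep1 : ∀ k, l (k + 1) ≤ l k + a (k + 1) := by
    intro k
    have h1 := cl_qt (maximalIdeal S ^ (k + 1)) x
    have h2 : cl (qt (maximalIdeal S ^ (k + 1)) x) ≤ cl (maximalIdeal S ^ k) := by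
      refine cl_anti fun w hw => ?_
      rw [mem_qt, pow_succ']
      exact Ideal.mul_mem_mul hgd.hxA hw
    have h3 : cl (maximalIdeal S ^ (k + 1)) ≤ cl (maximalIdeal S ^ k) +
        cl (maximalIdeal S ^ (k + 1) ⊔ Ideal.span {x}) := by
      rw [h1]
      gcongr
    rw [hl, hl, ha] at h3
    exact_mod_cast h3
  have hstep2 : ∀ k, c * N₀ ≤ k → a (k + 1) + η ≤ a k + b := by
    intro k hk
    have h1 := cl_qt (maximalIdeal S ^ (k + 1) ⊔ Ideal.span {x}) y
    have h2 : cl (qt (maximalIdeal S ^ (k + 1) ⊔ Ideal.span {x}) y) ≤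
        cl (maximalIdeal S ^ k ⊔ qt (Ideal.span {x}) y) := by
      refine cl_anti (sup_le ?_ (qt_mono le_sup_right _))
      intro w hw
      rw [mem_qt, pow_succ']
      exact Ideal.mem_sup_left (Ideal.mul_mem_mul hgd.hyC hw)
    have h3 : cl (maximalIdeal S ^ (k + 1) ⊔ Ideal.span {x} ⊔ Ideal.span {y}) ≤
        cl (Ideal.span {x} ⊔ Ideal.span {y}) :=
      cl_anti (sup_le_sup_right le_sup_right _)
    have h4 := hη (maximalIdeal S ^ k) (by
      refine (Ideal.pow_le_pow_right hk).trans ?_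
      rw [pow_mul]
      exact Ideal.pow_right_mono hc N₀) (Pm_max.pow k).cl_ne_top
    have h5 : cl (maximalIdeal S ^ (k + 1) ⊔ Ideal.span {x}) + η ≤
        cl (maximalIdeal S ^ k ⊔ Ideal.span {x}) + cl (Ideal.span {x} ⊔ Ideal.span {y}) := by
      rw [h1, h4]
      calc _ ≤ cl (maximalIdeal S ^ k ⊔ qt (Ideal.span {x}) y) +
            cl (Ideal.span {x} ⊔ Ideal.span {y}) + η := by gcongr
        _ = _ := by ring
    rw [ha, ha, hb1] at h5
    exact_mod_cast h5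
  have hbe : (b : ℤ) - η = e := by rw [← hb, bxy, hb2]
  have hamono : ∀ k k', k ≤ k' → a k ≤ a k' := by
    intro k k' hkk
    have h1 : cl (maximalIdeal S ^ k ⊔ Ideal.span {x}) ≤
        cl (maximalIdeal S ^ k' ⊔ Ideal.span {x}) :=
      cl_anti (sup_le_sup_right (Ideal.pow_le_pow_right hkk) _)
    rw [ha, ha] at h1
    exact_mod_cast h1
  have he0 : 0 ≤ e := by
    have h1 := hstep2 (c * N₀) le_rfl
    have h2 := hamono (c * N₀) (c * N₀ + 1) (by omega)
    omega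
  have hak : ∀ i, (a (c * N₀ + i) : ℤ) ≤ a (c * N₀) + i * e := by
    intro i
    induction i with
    | zero => simp
    | succ i ih =>
      have h1 := hstep2 (c * N₀ + i) (by omega)
      rw [show c * N₀ + (i + 1) = c * N₀ + i + 1 from rfl]
      push_cast
      have h2 : ((a (c * N₀ + i + 1) : ℤ)) + η ≤ a (c * N₀ + i) + b := by exact_mod_cast h1
      linarith
  have hak' : ∀ k : ℕ, (a k : ℤ) ≤ a (c * N₀) + k * e := by
    intro k
    rcases le_total k (c * N₀) with h | h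
    · have h1 := hamono _ _ h
      have h2 : (a k : ℤ) ≤ a (c * N₀) := by exact_mod_cast h1
      have h3 : 0 ≤ (k : ℤ) * e := by positivity
      linarith
    · obtain ⟨i, rfl⟩ := Nat.exists_eq_add_of_le h
      refine (hak i).trans ?_
      push_cast
      have h3 : 0 ≤ ((c : ℤ) * N₀) * e := by positivity
      linarith
  refine ⟨he0, 2 * a (c * N₀) + e.toNat, fun k => ?_⟩
  rw [hl']
  have hK : ((2 * a (c * N₀) + e.toNat : ℕ) : ℤ) = 2 * a (c * N₀) + e := by
    push_cast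
    rw [Int.toNat_of_nonneg he0]
  rw [hK]
  have hl0 : l 0 = 0 := by
    have h1 := hl 0
    rw [pow_zero, Ideal.one_eq_top, cl_top] at h1
    exact_mod_cast h1.symm
  induction k with
  | zero => rw [hl0]; simp
  | succ k ih =>
    have h1 := hstep1 k
    have h2 := hak' (k + 1)
    have h3 : (l (k + 1) : ℤ) ≤ l k + a (k + 1) := by exact_mod_cast h1
    push_cast at *
    nlinarith

end Index

end Vale.Agent.P202
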