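import Vale.Agent.P202.Abs2

namespace Vale.Agent.P202

open Finset IsLocalRing Filter

section Abs3

variable {S : Type*} [CommRing S] [IsLocalRing S] [IsNoetherianRing S]

def Eqv (A A' : Ideal S) : Prop := ∀ I, Pm I → cl (I * A) = cl (I * A')

omit [IsNoetherianRing S] in
theorem Eqv.hh {A A' : Ideal S} (h : Eqv A A') {I : Ideal S} (hI : Pm I) :
    hh (I * A) = hh (I * A') := by
  unfold Vale.Agent.P202.hh
  rw [h I hI]

omit [IsNoetherianRing S] in
theorem IsB.congr {n A A' C : Ideal S} {b : ℤ} (hn : Pm n) (hC : Pm C) (h : Eqv A A')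
    (hb : IsB n A C b) : IsB n A' C b := by
  intro E hE
  filter_upwards [hb E hE] with N hN
  have e1 : hh (n ^ N * (E * (A' * C))) = hh (n ^ N * (E * (A * C))) := by
    have h1 : ∀ B : Ideal S, n ^ N * (E * (B * C)) = (n ^ N * (E * C)) * B := fun B => by ring
    rw [h1, h1]
    exact (h.hh ((hn.pow N).mul (hE.mul hC))).symm
  have e2 : hh (n ^ N * (E * A')) = hh (n ^ N * (E * A)) := by
    rw [← mul_assoc, ← mul_assoc]
    exact (h.hh ((hn.pow N).mul hE)).symm
  rw [e1, e2]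
  exact hN

theorem abs_main2 (hG : Good S) (G H : ℕ → Ideal S) (a β τ : ℕ) (hβ : β ≤ a) (hτ : τ ≤ a)
    (hPm : ∀ t, Pm (G t)) (hPmH : ∀ t, Pm (H t)) (hGH : ∀ t, Eqv (G t) (H t)) (h0 : ∀ t, t ≤ a - β → G t = ⊤)
    (h1 : ∀ t, a + τ ≤ t → t ≤ 2 * a → G t = ⊤)
    (hd : H a ≤ maximalIdeal S ^ β) (hd' : G a ≤ maximalIdeal S ^ τ) (l₀ : ℕ)
    (hK : ∀ I, Pm I → ∃ K : ℕ → Ideal S, (∀ t, t < 2 * a → K t * G t ≤ I * H (t + 1)) ∧
      ∑ t ∈ range (2 * a), cl (K t) ≤ l₀ + (2 * a : ℕ) * cl I)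
    (E₀ K₀ : ℕ) (hE : ∀ k : ℕ, (E₀ : ℤ) * k ^ 2 ≤ 2 * hh (maximalIdeal S ^ k) + K₀ * k + K₀) :
    β * E₀ ≤ l₀ := by
  classical
  set n := maximalIdeal S * ∏ t ∈ range (2 * a + 1), (G t * H t) with hndef
  have hn : Pm n := by
    refine Pm_max.mul ?_
    have : ∀ s : Finset ℕ, Pm (∏ t ∈ s, (G t * H t)) := by
      intro s
      induction s using Finset.induction_on with
      | empty => rw [prod_empty, Ideal.one_eq_top]; exact Pm_top
      | insert t s hts ih => rw [prod_insert hts]; exact ((hPm t).mul (hPmH t)).mul ih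
    exact this _
  have hnm : n ≤ maximalIdeal S := Ideal.mul_le_left
  have hm : maximalIdeal S ∣ n := dvd_mul_right _ _
  have hGHn : ∀ t, t ≤ 2 * a → G t * H t ∣ n := fun t ht =>
    (dvd_prod_of_mem (fun t => G t * H t) (mem_range.mpr (by omega))).trans (dvd_mul_left _ _)
  have hGn : ∀ t, t ≤ 2 * a → G t ∣ n := fun t ht => (dvd_mul_right _ _).trans (hGHn t ht)
  have hHn : ∀ t, t ≤ 2 * a → H t ∣ n := fun t ht => (dvd_mul_left _ _).trans (hGHn t ht)
  have hF : ∀ t, ∃ F, t ≤ 2 * a → n = G t * F := by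
    intro t
    by_cases ht : t ≤ 2 * a
    · obtain ⟨F, hF⟩ := hGn t ht
      exact ⟨F, fun _ => hF⟩
    · exact ⟨⊥, fun h => absurd h ht⟩
  choose F hF using hF
  have hPF : ∀ t, t ≤ 2 * a → Pm (F t) := fun t ht =>
    hn.mono (by rw [hF t ht]; exact Ideal.mul_le_right)
  have hB : ∀ t t', ∃ b, t ≤ 2 * a → t' ≤ 2 * a → IsB n (G t) (G t') b := by
    intro t t'
    by_cases ht : t ≤ 2 * a
    · by_cases ht' : t' ≤ 2 * a
      · obtain ⟨b, hb⟩ := exists_B hG n (G t) (G t') hn hnm (hGn t ht) (hGn t' ht')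
        exact ⟨b, fun _ _ => hb⟩
      · exact ⟨0, fun _ h => absurd h ht'⟩
    · exact ⟨0, fun h => absurd h ht⟩
  choose b hb using hB
  have hC : ∀ t, ∃ c, t ≤ 2 * a → IsB n (G t) (maximalIdeal S) c := by
    intro t
    by_cases ht : t ≤ 2 * a
    · obtain ⟨b, hb⟩ := exists_B hG n (G t) (maximalIdeal S) hn hnm (hGn t ht) hm
      exact ⟨b, fun _ => hb⟩
    · exact ⟨0, fun h => absurd h ht⟩
  choose c hc using hC
  obtain ⟨e, he⟩ := exists_B hG n (maximalIdeal S) (maximalIdeal S) hn hnm hm hm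
  obtain ⟨he0, K, hgr⟩ := growth hG n hn hnm hm he
  have hEe : (E₀ : ℤ) ≤ e := by
    by_contra hcon
    push Not at hcon
    have h2 := hE (K + K₀ + K₀ + 1)
    have h3 := hgr (K + K₀ + K₀ + 1)
    set k : ℤ := ((K + K₀ + K₀ + 1 : ℕ) : ℤ) with hk
    have hk' : k = K + K₀ + K₀ + 1 := by rw [hk]; push_cast; ring
    have h4 : (E₀ : ℤ) * k ^ 2 ≤ e * k ^ 2 + K * k + K₀ * k + K₀ := by linarith
    have h5 : (e + 1) * k ^ 2 ≤ E₀ * k ^ 2 := by
      have : e + 1 ≤ (E₀ : ℤ) := hcon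
      gcongr
    have hK0 : (0 : ℤ) ≤ K := by positivity
    have hK00 : (0 : ℤ) ≤ K₀ := by positivity
    have h6 : k ^ 2 ≤ (K + K₀) * k + K₀ := by linarith
    nlinarith
  have hcol : ∀ t, ∀ᶠ N in atTop, t ≤ 2 * a → ∀ w,
      (∀ u ∈ n ^ 1, w * u ∈ n ^ (N + 1) * (F t * H (t + 1))) → w ∈ n ^ N * (F t * H (t + 1)) := by
    intro t
    obtain ⟨N₀, hN₀⟩ := colon_stable hG n hn (F t * H (t + 1))
    filter_upwards [eventually_ge_atTop N₀] with N hN _ w hw
    exact hN₀ N hN 1 w hw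
  have hdiff : ∀ t, ∀ᶠ N in atTop, t < 2 * a →
      hh (n ^ N * (F t * H (t + 1))) - hh (n ^ (N + 1)) =
        (hh (n ^ (N + 1) * G (t + 1)) - hh (n ^ (N + 1) * G t)) + (b t t - b (t + 1) t) := by
    intro t
    by_cases ht : t < 2 * a
    · filter_upwards [hb t t ht.le ht.le (F t) (hPF t ht.le),
        (hb (t + 1) t (by omega) ht.le).congr hn (hPm t) (hGH (t + 1)) (F t) (hPF t ht.le)]
        with N h2 h3 _
      have hFt := hF t ht.le
      have e1 : n ^ N * (F t * (G t * G t)) = n ^ (N + 1) * G t := by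
        rw [pow_succ]; nth_rw 3 [hFt]; ring
      have e2 : n ^ N * (F t * G t) = n ^ (N + 1) := by
        rw [pow_succ]; nth_rw 3 [hFt]; ring
      have e3 : n ^ N * (F t * (H (t + 1) * G t)) = n ^ (N + 1) * H (t + 1) := by
        rw [pow_succ]; nth_rw 3 [hFt]; ring
      have e4 : hh (n ^ (N + 1) * G (t + 1)) = hh (n ^ (N + 1) * H (t + 1)) :=
        (hGH (t + 1)).hh (hn.pow _)
      rw [e1, e2] at h2
      rw [e3, e2] at h3
      rw [e4]
      linarith
    · filter_upwards with N h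
      exact absurd h ht
  have hsumb : ∑ t ∈ range (2 * a), (b t t - b (t + 1) t) ≤ l₀ := by
    have hev : ∀ᶠ N in atTop, (∀ t ∈ range (2 * a), t ≤ 2 * a → ∀ w,
        (∀ u ∈ n ^ 1, w * u ∈ n ^ (N + 1) * (F t * H (t + 1))) →
          w ∈ n ^ N * (F t * H (t + 1))) ∧
        (∀ t ∈ range (2 * a), t < 2 * a → hh (n ^ N * (F t * H (t + 1))) - hh (n ^ (N + 1)) =
        (hh (n ^ (N + 1) * G (t + 1)) - hh (n ^ (N + 1) * G t)) + (b t t - b (t + 1) t)) := by
      refine Eventually.and ?_ ?_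
      · exact (Filter.eventually_all_finset _).mpr fun t _ => hcol t
      · exact (Filter.eventually_all_finset _).mpr fun t _ => hdiff t
    obtain ⟨N, hN1, hN2⟩ := hev.exists
    obtain ⟨Kt, hKt, hsum⟩ := hK (n ^ (N + 1)) (hn.pow _)
    have hle : ∀ t ∈ range (2 * a), cl (n ^ N * (F t * H (t + 1))) ≤ cl (Kt t) := by
      intro t ht
      have ht' := mem_range.mp ht
      refine cl_anti fun w hw => hN1 t ht ht'.le w ?_
      intro u hu
      have h2 : Kt t * n ≤ n ^ (N + 1) * (F t * H (t + 1)) := by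
        have h3 : Kt t * n = Kt t * G t * F t := by
          nth_rw 1 [hF t ht'.le]; ring
        have h4 : n ^ (N + 1) * (F t * H (t + 1)) = n ^ (N + 1) * H (t + 1) * F t := by ring
        rw [h3, h4]
        exact Ideal.mul_mono_left (hKt t ht')
      rw [pow_one] at hu
      exact h2 (Ideal.mul_mem_mul hw hu)
    have hfin : ∀ t ∈ range (2 * a), ∃ x : ℕ, cl (n ^ N * (F t * H (t + 1))) = x ∧
        hh (n ^ N * (F t * H (t + 1))) = x := by
      intro t ht
      exact exists_hh ((hn.pow N).mul ((hPF t (mem_range.mp ht).le).mul (hPmH _)))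
    obtain ⟨x, hx1, hx2⟩ := exists_hh (hn.pow (N + 1))
    have h2 : ∑ t ∈ range (2 * a), cl (n ^ N * (F t * H (t + 1))) ≤
        l₀ + (2 * a : ℕ) * (x : ℕ∞) := by
      refine (sum_le_sum hle).trans ?_
      rw [← hx1]
      exact hsum
    have h3 : ∑ t ∈ range (2 * a), cl (n ^ N * (F t * H (t + 1))) =
        ((∑ t ∈ range (2 * a), (hh (n ^ N * (F t * H (t + 1)))).toNat : ℕ) : ℕ∞) := by
      rw [Nat.cast_sum]
      refine sum_congr rfl fun t ht => ?_
      obtain ⟨y, hy1, hy2⟩ := hfin t ht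
      rw [hy1, hy2]
      simp
    rw [h3] at h2
    have h4 : ∑ t ∈ range (2 * a), (hh (n ^ N * (F t * H (t + 1)))).toNat ≤
        l₀ + 2 * a * x := by exact_mod_cast h2
    have h5 : ∑ t ∈ range (2 * a), hh (n ^ N * (F t * H (t + 1))) ≤ l₀ + 2 * a * x := by
      have h6 : ((∑ t ∈ range (2 * a), (hh (n ^ N * (F t * H (t + 1)))).toNat : ℕ) : ℤ) ≤
          ((l₀ + 2 * a * x : ℕ) : ℤ) := by exact_mod_cast h4
      rw [Nat.cast_sum] at h6
      have h7 : ∀ t ∈ range (2 * a), (((hh (n ^ N * (F t * H (t + 1)))).toNat : ℕ) : ℤ) =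
          hh (n ^ N * (F t * H (t + 1))) := fun t _ => Int.toNat_of_nonneg (hh_nonneg _)
      rw [sum_congr rfl h7] at h6
      push_cast at h6
      exact h6
    have h6 : ∑ t ∈ range (2 * a), (hh (n ^ N * (F t * H (t + 1))) - hh (n ^ (N + 1))) =
        ∑ t ∈ range (2 * a), (b t t - b (t + 1) t) := by
      rw [sum_congr rfl fun t ht => hN2 t ht (mem_range.mp ht), sum_add_distrib,
        Finset.sum_range_sub (fun t => hh (n ^ (N + 1) * G t)) (2 * a), h0 0 (by omega),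
        h1 (2 * a) (by omega) le_rfl, sub_self, zero_add]
    rw [← h6, sum_sub_distrib, sum_const, card_range, nsmul_eq_mul, hx2]
    push_cast
    linarith
  rcases lt_or_eq_of_le he0 with hepos | hezero
  · have hQ : ∀ t ∈ range (2 * a), (c (t + 1) - c t) ^ 2 ≤
        e * (b (t + 1) (t + 1) + b t t - 2 * b (t + 1) t) := by
      intro t ht
      have ht' := mem_range.mp ht
      exact hodge_index hG n (maximalIdeal S) (G (t + 1)) (G t) hn hnm hm (hGn _ (by omega))
        (hGn _ ht'.le) (hb _ _ (by omega) (by omega)) (hb _ _ ht'.le ht'.le)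
        (hb _ _ (by omega) ht'.le) he (hc _ (by omega)) (hc _ ht'.le) hepos
    have hb0 : b 0 0 = 0 := by
      have h2 := hb 0 0 (by omega) (by omega)
      rw [h0 0 (by omega)] at h2
      exact h2.unique IsB.top
    have hb2 : b (2 * a) (2 * a) = 0 := by
      have h2 := hb (2 * a) (2 * a) le_rfl le_rfl
      rw [h1 (2 * a) (by omega) le_rfl] at h2
      exact h2.unique IsB.top
    have htel : ∑ t ∈ range (2 * a), (b (t + 1) (t + 1) + b t t - 2 * b (t + 1) t) =
        2 * ∑ t ∈ range (2 * a), (b t t - b (t + 1) t) := by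
      have h2 := Finset.sum_range_sub (fun t => b t t) (2 * a)
      rw [hb0, hb2, sub_zero] at h2
      have h3 : ∑ t ∈ range (2 * a), (b (t + 1) (t + 1) + b t t - 2 * b (t + 1) t) =
          ∑ t ∈ range (2 * a), (b (t + 1) (t + 1) - b t t) +
            2 * ∑ t ∈ range (2 * a), (b t t - b (t + 1) t) := by
        rw [mul_sum, ← sum_add_distrib]
        exact sum_congr rfl fun t _ => by ring
      rw [h3, h2, zero_add]
    have hsum2 : ∑ t ∈ range (2 * a), (c (t + 1) - c t) ^ 2 ≤ 2 * (l₀ : ℤ) * e := by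
      refine (sum_le_sum hQ).trans ?_
      rw [← mul_sum, htel]
      nlinarith
    have hczero : ∀ t, t ≤ 2 * a → G t = ⊤ → c t = 0 := by
      intro t ht htop
      have h2 := hc t ht
      rw [htop] at h2
      exact h2.unique IsB.top
    have hcb : ∀ μ : ℕ, G a ≤ maximalIdeal S ^ μ → (μ : ℤ) * e ≤ c a := fun μ hμ =>
      IsB.mono hG hn hm (hPm a) hμ (hc a (by omega)) (he.pow Pm_max μ)
    have hcb2 : ∀ μ : ℕ, H a ≤ maximalIdeal S ^ μ → (μ : ℤ) * e ≤ c a := fun μ hμ =>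
      IsB.mono hG hn hm (hPmH a) hμ ((hc a (by omega)).congr hn Pm_max (hGH a))
        (he.pow Pm_max μ)
    have hfin := final_num β τ a hβ e l₀ c hepos (by positivity) hsum2 hτ
      (hczero _ (by omega) (h0 _ le_rfl)) (hczero _ (by omega) (h1 _ le_rfl (by omega)))
      (hcb2 β hd) (hcb τ hd')
    have h2 : (β : ℤ) * E₀ ≤ l₀ := by
      refine le_trans ?_ hfin
      gcongr
    exact_mod_cast h2
  · have h2 : E₀ = 0 := by
      have : (E₀ : ℤ) ≤ 0 := by rw [hezero]; exact hEe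
      omega
    rw [h2]
    simp

end Abs3

end Vale.Agent.P202
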