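import Vale.Agent.P202.Exist

namespace Vale.Agent.P202

open Filter Topology IsLocalRing

theorem tendsto_err (D t : ℕ) :
    Tendsto (fun N : ℕ => ((t + 1).factorial : ℝ) * ((D * N ^ t : ℕ) : ℝ) / (N : ℝ) ^ (t + 1))
      atTop (𝓝 0) := by
  have h1 : Tendsto (fun N : ℕ => (((t + 1).factorial : ℝ) * D) / (N : ℝ)) atTop (𝓝 0) :=
    tendsto_const_div_atTop_nhds_zero_nat _
  refine h1.congr' ?_
  filter_upwards [eventually_gt_atTop 0] with N hN
  have hN' : (N : ℝ) ≠ 0 := by exact_mod_cast hN.ne'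
  push_cast
  rw [pow_succ]
  field_simp

theorem tendsto_one_add (t : ℕ) :
    Tendsto (fun N : ℕ => (((N : ℝ) + t) / N) ^ (t + 1)) atTop (𝓝 1) := by
  have h1 : Tendsto (fun N : ℕ => 1 + (t : ℝ) / (N : ℝ)) atTop (𝓝 (1 + 0)) :=
    tendsto_const_nhds.add (tendsto_const_div_atTop_nhds_zero_nat _)
  have h2 := h1.pow (t + 1)
  rw [add_zero, one_pow] at h2
  refine h2.congr' ?_
  filter_upwards [eventually_gt_atTop 0] with N hN
  have hN' : (N : ℝ) ≠ 0 := by exact_mod_cast hN.ne'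
  congr 1
  field_simp

theorem tendsto_one_sub (t : ℕ) :
    Tendsto (fun N : ℕ => (((N : ℝ) - t) / N) ^ (t + 1)) atTop (𝓝 1) := by
  have h1 : Tendsto (fun N : ℕ => 1 - (t : ℝ) / (N : ℝ)) atTop (𝓝 (1 - 0)) :=
    tendsto_const_nhds.sub (tendsto_const_div_atTop_nhds_zero_nat _)
  have h2 := h1.pow (t + 1)
  rw [sub_zero, one_pow] at h2
  refine h2.congr' ?_
  filter_upwards [eventually_gt_atTop 0] with N hN
  have hN' : (N : ℝ) ≠ 0 := by exact_mod_cast hN.ne'
  congr 1
  field_simp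

theorem tendsto_choose_add (t : ℕ) :
    Tendsto (fun N : ℕ => ((t + 1).factorial : ℝ) * ((N + t).choose (t + 1) : ℝ) /
      (N : ℝ) ^ (t + 1)) atTop (𝓝 1) := by
  refine tendsto_of_tendsto_of_tendsto_of_le_of_le' tendsto_const_nhds (tendsto_one_add t) ?_ ?_
  · filter_upwards [eventually_gt_atTop 0] with N hN
    have hN' : (0 : ℝ) < N := by exact_mod_cast hN
    rw [le_div_iff₀ (by positivity), one_mul]
    have h1 := Nat.pow_sub_le_descFactorial (N + t) (t + 1)
    rw [Nat.descFactorial_eq_factorial_mul_choose] at h1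
    have h2 : N + t + 1 - (t + 1) = N := by omega
    rw [h2] at h1
    exact_mod_cast h1
  · filter_upwards [eventually_gt_atTop 0] with N hN
    have hN' : (0 : ℝ) < N := by exact_mod_cast hN
    rw [div_pow]
    gcongr
    have h1 := Nat.descFactorial_le_pow (N + t) (t + 1)
    rw [Nat.descFactorial_eq_factorial_mul_choose] at h1
    exact_mod_cast h1

theorem tendsto_choose (t : ℕ) :
    Tendsto (fun N : ℕ => ((t + 1).factorial : ℝ) * (N.choose (t + 1) : ℝ) /
      (N : ℝ) ^ (t + 1)) atTop (𝓝 1) := by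
  refine tendsto_of_tendsto_of_tendsto_of_le_of_le' (tendsto_one_sub t) tendsto_const_nhds ?_ ?_
  · filter_upwards [eventually_gt_atTop t] with N hN
    have hN' : (0 : ℝ) < N := by exact_mod_cast (by omega : 0 < N)
    rw [div_pow]
    gcongr
    have h1 := Nat.pow_sub_le_descFactorial N (t + 1)
    rw [Nat.descFactorial_eq_factorial_mul_choose] at h1
    have h2 : N + 1 - (t + 1) = N - t := by omega
    rw [h2] at h1
    have h3 : ((N - t : ℕ) : ℝ) = (N : ℝ) - t := Nat.cast_sub (by omega)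
    rw [← h3]
    exact_mod_cast h1
  · filter_upwards [eventually_gt_atTop 0] with N hN
    have hN' : (0 : ℝ) < N := by exact_mod_cast hN
    rw [div_le_iff₀ (by positivity), one_mul]
    have h1 := Nat.descFactorial_le_pow N (t + 1)
    rw [Nat.descFactorial_eq_factorial_mul_choose] at h1
    exact_mod_cast h1

theorem tendsto_upper (c D t : ℕ) :
    Tendsto (fun N : ℕ => ((t + 1).factorial : ℝ) *
      ((c * (N + t).choose (t + 1) + D * N ^ t : ℕ) : ℝ) / (N : ℝ) ^ (t + 1))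
      atTop (𝓝 c) := by
  have h1 := ((tendsto_choose_add t).const_mul (c : ℝ)).add (tendsto_err D t)
  rw [mul_one, add_zero] at h1
  refine h1.congr fun N => ?_
  push_cast
  ring

theorem tendsto_lower (c D t : ℕ) :
    Tendsto (fun N : ℕ => ((t + 1).factorial : ℝ) *
      ((c * N.choose (t + 1) : ℕ) : ℝ) / (N : ℝ) ^ (t + 1) -
        ((t + 1).factorial : ℝ) * ((D * N ^ t : ℕ) : ℝ) / (N : ℝ) ^ (t + 1))
      atTop (𝓝 c) := by
  have h1 := ((tendsto_choose t).const_mul (c : ℝ)).sub (tendsto_err D t)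
  rw [mul_one, sub_zero] at h1
  refine h1.congr fun N => ?_
  push_cast
  ring

theorem limit_le (l : ℕ → ℕ) (a : ℝ) (c D t : ℕ)
    (hl : Tendsto (fun N : ℕ => ((t + 1).factorial : ℝ) * (l N : ℝ) / (N : ℝ) ^ (t + 1))
      atTop (𝓝 a))
    (h : ∀ N, l N ≤ c * (N + t).choose (t + 1) + D * N ^ t) : a ≤ c := by
  refine le_of_tendsto_of_tendsto' hl (tendsto_upper c D t) fun N => ?_
  gcongr
  exact h N

theorem le_limit (l : ℕ → ℕ) (a : ℝ) (c D t : ℕ)
    (hl : Tendsto (fun N : ℕ => ((t + 1).factorial : ℝ) * (l N : ℝ) / (N : ℝ) ^ (t + 1))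
      atTop (𝓝 a))
    (h : ∀ N, c * N.choose (t + 1) ≤ l N + D * N ^ t) : (c : ℝ) ≤ a := by
  refine le_of_tendsto_of_tendsto' (tendsto_lower c D t) hl fun N => ?_
  rw [sub_le_iff_le_add, ← add_div, ← mul_add]
  gcongr
  exact_mod_cast h N

theorem limit_exists (l : ℕ → ℕ) (c D t : ℕ)
    (h1 : ∀ N, l N ≤ c * (N + t).choose (t + 1) + D * N ^ t)
    (h2 : ∀ N, c * N.choose (t + 1) ≤ l N + D * N ^ t) :
    Tendsto (fun N : ℕ => ((t + 1).factorial : ℝ) * (l N : ℝ) / (N : ℝ) ^ (t + 1))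
      atTop (𝓝 c) := by
  refine tendsto_of_tendsto_of_tendsto_of_le_of_le (tendsto_lower c D t) (tendsto_upper c D t)
    (fun N => ?_) (fun N => ?_)
  · show _ - _ ≤ _
    rw [sub_le_iff_le_add, ← add_div, ← mul_add]
    gcongr
    exact_mod_cast h2 N
  · show _ / _ ≤ _ / _
    gcongr
    exact h1 N

end Vale.Agent.P202
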