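import Vale.Agent.P202.XY

namespace Vale.Agent.P202

open Finset IsLocalRing Filter

section B

variable {S : Type*} [CommRing S] [IsLocalRing S] [IsNoetherianRing S]

noncomputable def hh (I : Ideal S) : ℤ := ((cl I).toNat : ℤ)

theorem exists_hh {I : Ideal S} (hI : Pm I) : ∃ a : ℕ, cl I = a ∧ hh I = a := by
  obtain ⟨a, ha⟩ := ENat.ne_top_iff_exists.mp hI.cl_ne_top
  refine ⟨a, ha.symm, ?_⟩
  unfold hh
  rw [← ha]
  simp

omit [IsLocalRing S] [IsNoetherianRing S] in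
theorem hh_top : hh (⊤ : Ideal S) = 0 := by
  unfold hh
  rw [cl_top]
  simp

omit [IsLocalRing S] [IsNoetherianRing S] in
theorem hh_nonneg (I : Ideal S) : 0 ≤ hh I := by
  unfold hh
  positivity

theorem hh_anti {I J : Ideal S} (hI : Pm I) (h : I ≤ J) : hh J ≤ hh I := by
  obtain ⟨a, ha, ha'⟩ := exists_hh hI
  obtain ⟨b, hb, hb'⟩ := exists_hh (hI.mono h)
  have h1 := cl_anti h
  rw [ha, hb] at h1
  rw [ha', hb']
  exact_mod_cast h1

theorem exists_eta_xy (n : Ideal S) (hn : Pm n) (hnm : n ≤ maximalIdeal S) (x y : S)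
    (hT : ∃ s, maximalIdeal S ^ s * qt (Ideal.span {x}) y ≤ Ideal.span {x}) :
    ∃ η N₀ : ℕ, n ^ N₀ ⊓ qt (Ideal.span {x}) y ≤ Ideal.span {x} ∧ ∀ K ≤ n ^ N₀, cl K ≠ ⊤ →
      cl (K ⊔ Ideal.span {x}) = cl (K ⊔ qt (Ideal.span {x}) y) + η := by
  obtain ⟨s, hs⟩ := hT
  obtain ⟨k, hk⟩ := artin_rees n (qt (Ideal.span {x}) y)
  have h1 : n ^ (k + s) ⊓ qt (Ideal.span {x}) y ≤ Ideal.span {x} := by
    refine (hk (k + s) (by omega)).trans ?_
    have : k + s - k = s := by omega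
    rw [this]
    exact (Ideal.mul_mono_left (Ideal.pow_right_mono hnm s)).trans hs
  obtain ⟨η, hη⟩ := exists_eta (Ideal.span {x}) (qt (Ideal.span {x}) y) (n ^ (k + s))
    (le_qt _ _) h1 (hn.pow _).cl_ne_top
  exact ⟨η, k + s, h1, hη⟩

theorem second_diff (n A C E : Ideal S) (x y : S) (η : ℕ) (hn : Pm n)
    (hnm : n ≤ maximalIdeal S) (hA : Pm A) (hE : Pm E) (hxA : x ∈ A) (hyC : y ∈ C)
    (hx1 : ∃ N₀, ∀ N, N₀ ≤ N → ∀ w, x * w ∈ n ^ N * (A * (E * C)) → w ∈ n ^ N * (E * C))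
    (hx2 : ∃ N₀, ∀ N, N₀ ≤ N → ∀ w, x * w ∈ n ^ N * (A * E) → w ∈ n ^ N * E)
    (hy1 : ∃ N₀, ∀ N, N₀ ≤ N → ∀ w, y * w ∈ n ^ N * (C * (E * A)) ⊔ Ideal.span {x} →
      w ∈ n ^ N * (E * A) ⊔ qt (Ideal.span {x}) y)
    (hxy : Pm (Ideal.span {x} ⊔ Ideal.span {y}))
    (hη : ∃ N₀ : ℕ, ∀ K ≤ n ^ N₀, cl K ≠ ⊤ →
      cl (K ⊔ Ideal.span {x}) = cl (K ⊔ qt (Ideal.span {x}) y) + η) :
    ∀ᶠ N in atTop, cl (n ^ N * (E * (A * C))) + cl (n ^ N * E) + η =
      cl (n ^ N * (E * A)) + cl (n ^ N * (E * C)) + cl (Ideal.span {x} ⊔ Ideal.span {y}) := by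
  obtain ⟨N1, hN1⟩ := hx1
  obtain ⟨N2, hN2⟩ := hx2
  obtain ⟨N3, hN3⟩ := hy1
  obtain ⟨N4, hN4⟩ := hη
  obtain ⟨N5, hN5⟩ := hxy
  filter_upwards [eventually_ge_atTop (N1 + N2 + N3 + N4 + N5)] with N hN
  have hxs : Ideal.span {x} ≤ A := (Ideal.span_singleton_le_iff_mem _).mpr hxA
  have hys : Ideal.span {y} ≤ C := (Ideal.span_singleton_le_iff_mem _).mpr hyC
  have q1 : qt (n ^ N * (E * (A * C))) x = n ^ N * (E * C) := by
    apply le_antisymm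
    · intro w hw
      rw [mem_qt] at hw
      refine hN1 N (by omega) w ?_
      have : n ^ N * (A * (E * C)) = n ^ N * (E * (A * C)) := by ring
      rw [this]
      exact hw
    · intro w hw
      rw [mem_qt]
      have : n ^ N * (E * (A * C)) = A * (n ^ N * (E * C)) := by ring
      rw [this]
      exact Ideal.mul_mem_mul hxA hw
  have q2 : qt (n ^ N * (E * A)) x = n ^ N * E := by
    apply le_antisymm
    · intro w hw
      rw [mem_qt] at hw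
      refine hN2 N (by omega) w ?_
      have : n ^ N * (A * E) = n ^ N * (E * A) := by ring
      rw [this]
      exact hw
    · intro w hw
      rw [mem_qt]
      have : n ^ N * (E * A) = A * (n ^ N * E) := by ring
      rw [this]
      exact Ideal.mul_mem_mul hxA hw
  have q3 : qt (n ^ N * (E * (A * C)) ⊔ Ideal.span {x}) y =
      n ^ N * (E * A) ⊔ qt (Ideal.span {x}) y := by
    apply le_antisymm
    · intro w hw
      rw [mem_qt] at hw
      refine hN3 N (by omega) w ?_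
      have : n ^ N * (C * (E * A)) = n ^ N * (E * (A * C)) := by ring
      rw [this]
      exact hw
    · refine sup_le ?_ (qt_mono le_sup_right _)
      intro w hw
      rw [mem_qt]
      have : n ^ N * (E * (A * C)) = C * (n ^ N * (E * A)) := by ring
      rw [this]
      exact Ideal.mem_sup_left (Ideal.mul_mem_mul hyC hw)
  have hdeep : n ^ N * (E * (A * C)) ≤ Ideal.span {x} ⊔ Ideal.span {y} := by
    refine Ideal.mul_le_left.trans ?_
    refine (Ideal.pow_right_mono hnm N).trans ?_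
    exact (Ideal.pow_le_pow_right (by omega)).trans hN5
  have e1 := cl_qt (n ^ N * (E * (A * C))) x
  have e2 := cl_qt (n ^ N * (E * A)) x
  have e3 := cl_qt (n ^ N * (E * (A * C)) ⊔ Ideal.span {x}) y
  have e4 := hN4 (n ^ N * (E * A))
    (Ideal.mul_le_left.trans (Ideal.pow_le_pow_right (by omega)))
    ((hn.pow N).mul (hE.mul hA)).cl_ne_top
  have e5 : n ^ N * (E * (A * C)) ⊔ Ideal.span {x} ⊔ Ideal.span {y} =
      Ideal.span {x} ⊔ Ideal.span {y} := by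
    rw [sup_assoc]
    exact sup_eq_right.mpr hdeep
  rw [q1] at e1
  rw [q2] at e2
  rw [q3, e5] at e3
  rw [e1, e3, e2, e4]
  ring

structure Gd (n A C : Ideal S) (𝓔 : Finset (Ideal S)) (x y : S) (η : ℕ) : Prop where
  hxA : x ∈ A
  hyC : y ∈ C
  nz : x ∈ nonZeroDivisors S
  pm : Pm (Ideal.span {x} ⊔ Ideal.span {y})
  colx : ∀ E ∈ 𝓔, ∃ N₀, ∀ N, N₀ ≤ N → ∀ w, x * w ∈ n ^ N * (A * E) → w ∈ n ^ N * E
  coly : ∀ E ∈ 𝓔, ∃ N₀, ∀ N, N₀ ≤ N → ∀ w, y * w ∈ n ^ N * (C * E) ⊔ Ideal.span {x} →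
    w ∈ n ^ N * E ⊔ qt (Ideal.span {x}) y
  eta : ∃ N₀ : ℕ, n ^ N₀ ⊓ qt (Ideal.span {x}) y ≤ Ideal.span {x} ∧ ∀ K ≤ n ^ N₀, cl K ≠ ⊤ →
    cl (K ⊔ Ideal.span {x}) = cl (K ⊔ qt (Ideal.span {x}) y) + η

structure Good (S : Type*) [CommRing S] [IsLocalRing S] [IsNoetherianRing S] : Prop where
  inf : Infinite (ResidueField S)
  dep : ∀ w : S, (∀ z ∈ maximalIdeal S, z * w = 0) → w = 0
  dim : ringKrullDim S ≤ 2

omit [IsNoetherianRing S] in
theorem Pm.of_dvd {n A : Ideal S} (hn : Pm n) (hA : A ∣ n) : Pm A := by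
  obtain ⟨A', rfl⟩ := hA
  exact hn.mono Ideal.mul_le_left

theorem exists_Gd (hG : Good S) (n A C : Ideal S) (hn : Pm n) (hnm : n ≤ maximalIdeal S)
    (hA : A ∣ n) (hC : C ∣ n) (𝓔 : Finset (Ideal S)) : ∃ x y η, Gd n A C 𝓔 x y η := by
  have := hG.inf
  have hPA := hn.of_dvd hA
  have hPC := hn.of_dvd hC
  obtain ⟨A', hA'⟩ := hA
  obtain ⟨C', hC'⟩ := hC
  obtain ⟨x, hxA, hnz, hx⟩ := exists_x hG.dep n A A' hA'.symm hPA 𝓔
  obtain ⟨y, hyC, hpm, hs, hy⟩ := exists_y hG.dim x hnz n C C' hC'.symm hPC 𝓔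
  obtain ⟨η, N₀, h1, h2⟩ := exists_eta_xy n hn hnm x y hs
  exact ⟨x, y, η, hxA, hyC, hnz, hpm, hx, hy, N₀, h1, h2⟩

noncomputable def bxy (x y : S) (η : ℕ) : ℤ := hh (Ideal.span {x} ⊔ Ideal.span {y}) - η

theorem Gd.diff {n A C : Ideal S} {𝓔 : Finset (Ideal S)} {x y : S} {η : ℕ}
    (h : Gd n A C 𝓔 x y η) (hn : Pm n) (hnm : n ≤ maximalIdeal S) (hA : A ∣ n) (hC : C ∣ n)
    (E : Ideal S) (hE : Pm E) (h1 : E ∈ 𝓔) (h2 : E * C ∈ 𝓔) (h3 : E * A ∈ 𝓔) :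
    ∀ᶠ N in atTop, hh (n ^ N * (E * (A * C))) + hh (n ^ N * E) =
      hh (n ^ N * (E * A)) + hh (n ^ N * (E * C)) + bxy x y η := by
  have hPA := hn.of_dvd hA
  have hPC := hn.of_dvd hC
  filter_upwards [second_diff n A C E x y η hn hnm hPA hE h.hxA h.hyC (h.colx _ h2)
    (h.colx _ h1) (h.coly _ h3) h.pm (by
      obtain ⟨N₀, -, h4⟩ := h.eta
      exact ⟨N₀, h4⟩)] with N hN
  obtain ⟨a1, e1, f1⟩ := exists_hh ((hn.pow N).mul (hE.mul (hPA.mul hPC)))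
  obtain ⟨a2, e2, f2⟩ := exists_hh ((hn.pow N).mul hE)
  obtain ⟨a3, e3, f3⟩ := exists_hh ((hn.pow N).mul (hE.mul hPA))
  obtain ⟨a4, e4, f4⟩ := exists_hh ((hn.pow N).mul (hE.mul hPC))
  obtain ⟨a5, e5, f5⟩ := exists_hh h.pm
  rw [e1, e2, e3, e4, e5] at hN
  unfold bxy
  rw [f1, f2, f3, f4, f5]
  have h6 : a1 + a2 + η = a3 + a4 + a5 := by exact_mod_cast hN
  omega

def IsB (n A C : Ideal S) (b : ℤ) : Prop :=
  ∀ E, Pm E → ∀ᶠ N in atTop, hh (n ^ N * (E * (A * C))) + hh (n ^ N * E) =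
    hh (n ^ N * (E * A)) + hh (n ^ N * (E * C)) + b

omit [IsNoetherianRing S] in
theorem IsB.unique {n A C : Ideal S} {b b' : ℤ} (h : IsB n A C b) (h' : IsB n A C b') :
    b = b' := by
  obtain ⟨N, h1, h2⟩ := ((h ⊤ Pm_top).and (h' ⊤ Pm_top)).exists
  omega

theorem exists_B (hG : Good S) (n A C : Ideal S) (hn : Pm n) (hnm : n ≤ maximalIdeal S)
    (hA : A ∣ n) (hC : C ∣ n) : ∃ b, IsB n A C b := by
  classical
  have key : ∀ E, Pm E → ∃ b, (∀ᶠ N in atTop, hh (n ^ N * (E * (A * C))) + hh (n ^ N * E) =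
      hh (n ^ N * (E * A)) + hh (n ^ N * (E * C)) + b) ∧
      (∀ᶠ N in atTop, hh (n ^ N * (⊤ * (A * C))) + hh (n ^ N * ⊤) =
      hh (n ^ N * (⊤ * A)) + hh (n ^ N * (⊤ * C)) + b) := by
    intro E hE
    obtain ⟨x, y, η, h⟩ := exists_Gd hG n A C hn hnm hA hC
      {E, E * C, E * A, ⊤, ⊤ * C, ⊤ * A}
    exact ⟨bxy x y η, h.diff hn hnm hA hC E hE (by simp) (by simp) (by simp),
      h.diff hn hnm hA hC ⊤ Pm_top (by simp) (by simp) (by simp)⟩
  obtain ⟨b, -, hb⟩ := key ⊤ Pm_top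
  refine ⟨b, fun E hE => ?_⟩
  obtain ⟨b', h1, h2⟩ := key E hE
  obtain ⟨N, h3, h4⟩ := (hb.and h2).exists
  have : b' = b := by omega
  rwa [this] at h1

theorem Gd.eq_b {n A C : Ideal S} {𝓔 : Finset (Ideal S)} {x y : S} {η : ℕ}
    (h : Gd n A C 𝓔 x y η) (hn : Pm n) (hnm : n ≤ maximalIdeal S) (hA : A ∣ n) (hC : C ∣ n)
    (h1 : ⊤ ∈ 𝓔) (h2 : C ∈ 𝓔) (h3 : A ∈ 𝓔) {b : ℤ} (hb : IsB n A C b) : bxy x y η = b := by
  have h4 := h.diff hn hnm hA hC ⊤ Pm_top h1 (by rwa [Ideal.top_mul]) (by rwa [Ideal.top_mul])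
  obtain ⟨N, h5, h6⟩ := (h4.and (hb ⊤ Pm_top)).exists
  omega

omit [IsNoetherianRing S] in
theorem IsB.symm {n A C : Ideal S} {b : ℤ} (h : IsB n A C b) : IsB n C A b := by
  intro E hE
  filter_upwards [h E hE] with N hN
  rw [mul_comm C A, hN]
  ring

omit [IsNoetherianRing S] in
theorem IsB.mul {n A A' C : Ideal S} {b b' : ℤ} (hPA : Pm A) (h : IsB n A C b)
    (h' : IsB n A' C b') : IsB n (A * A') C (b + b') := by
  intro E hE
  filter_upwards [h E hE, h' (E * A) (hE.mul hPA)] with N h1 h2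
  have e1 : E * (A * A' * C) = E * A * (A' * C) := by ring
  have e2 : E * (A * A') = E * A * A' := by ring
  have e3 : E * (A * C) = E * A * C := by ring
  rw [e3] at h1
  rw [e1, e2]
  omega

omit [IsNoetherianRing S] in
theorem IsB.top {n C : Ideal S} : IsB n ⊤ C 0 := by
  intro E hE
  filter_upwards with N
  rw [Ideal.top_mul, Ideal.mul_top]
  ring

omit [IsNoetherianRing S] in
theorem IsB.pow {n A C : Ideal S} {b : ℤ} (hPA : Pm A) (h : IsB n A C b) (k : ℕ) :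
    IsB n (A ^ k) C (k * b) := by
  induction k with
  | zero => rw [pow_zero, Ideal.one_eq_top]; simpa using IsB.top
  | succ k ih =>
    have h1 : (((k + 1 : ℕ) : ℤ)) * b = k * b + b := by push_cast; ring
    rw [pow_succ, h1]
    exact IsB.mul (hPA.pow k) ih h

omit [IsNoetherianRing S] in
theorem IsB.pow_base {n A C : Ideal S} {b : ℤ} (h : IsB n A C b) (k : ℕ) (hk : 0 < k) :
    IsB (n ^ k) A C b := by
  intro E hE
  have h1 : Tendsto (fun N : ℕ => k * N) atTop atTop :=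
    tendsto_id.const_mul_atTop' hk
  filter_upwards [h1.eventually (h E hE)] with N hN
  rw [← pow_mul]
  exact hN

end B

end Vale.Agent.P202
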