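import Vale.Agent.P202.Rel

namespace Vale.Agent.P202

open Finset IsLocalRing

section Pm

variable {S : Type*} [CommRing S] [IsLocalRing S]

def Pm (I : Ideal S) : Prop := ∃ c, maximalIdeal S ^ c ≤ I

theorem Pm.mono {I J : Ideal S} (h : Pm I) (hIJ : I ≤ J) : Pm J := by
  obtain ⟨c, hc⟩ := h
  exact ⟨c, hc.trans hIJ⟩

theorem Pm.mul {I J : Ideal S} (hI : Pm I) (hJ : Pm J) : Pm (I * J) := by
  obtain ⟨c, hc⟩ := hI
  obtain ⟨c', hc'⟩ := hJ
  exact ⟨c + c', by rw [pow_add]; exact Ideal.mul_mono hc hc'⟩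

theorem Pm_top : Pm (⊤ : Ideal S) := ⟨0, le_top⟩

theorem Pm.pow {I : Ideal S} (hI : Pm I) (k : ℕ) : Pm (I ^ k) := by
  induction k with
  | zero => rw [pow_zero, Ideal.one_eq_top]; exact Pm_top
  | succ k ih => rw [pow_succ]; exact ih.mul hI

theorem Pm_max : Pm (maximalIdeal S) := ⟨1, by rw [pow_one]⟩

theorem Pm.cl_ne_top [IsNoetherianRing S] {I : Ideal S} (hI : Pm I) : cl I ≠ ⊤ := by
  obtain ⟨c, hc⟩ := hI
  have := cl_sup_pow_ne_top (⊥ : Ideal S) c
  rw [bot_sup_eq] at this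
  exact ne_top_of_le_ne_top this (cl_anti hc)

theorem Pm.le_prime {I Q : Ideal S} (hI : Pm I) (hQ : Q.IsPrime) (h : I ≤ Q) :
    Q = maximalIdeal S := by
  obtain ⟨c, hc⟩ := hI
  have h1 : maximalIdeal S ≤ Q := hQ.le_of_pow_le (hc.trans h)
  exact ((maximalIdeal.isMaximal S).eq_of_le hQ.ne_top h1).symm

end Pm

section Eta

variable {S : Type*} [CommRing S]

theorem exists_eta (X T K₀ : Ideal S) (hXT : X ≤ T) (h0 : K₀ ⊓ T ≤ X) (hfin : cl K₀ ≠ ⊤) :
    ∃ η : ℕ, ∀ K ≤ K₀, cl K ≠ ⊤ → cl (K ⊔ X) = cl (K ⊔ T) + η := by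
  have h1 : cl (K₀ ⊔ T) ≤ cl (K₀ ⊔ X) := cl_anti (sup_le_sup_left hXT _)
  have h2 : cl (K₀ ⊔ X) ≠ ⊤ := ne_top_of_le_ne_top hfin (cl_anti le_sup_left)
  have h3 : cl (K₀ ⊔ T) ≠ ⊤ := ne_top_of_le_ne_top hfin (cl_anti le_sup_left)
  obtain ⟨a, ha⟩ := ENat.ne_top_iff_exists.mp h2
  obtain ⟨b, hb⟩ := ENat.ne_top_iff_exists.mp h3
  rw [← ha, ← hb] at h1
  have h1' : b ≤ a := by exact_mod_cast h1
  obtain ⟨η, rfl⟩ := Nat.exists_eq_add_of_le h1'
  refine ⟨η, fun K hK hKfin => ?_⟩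
  have h4 := cl_modular (K ⊔ T) (K₀ ⊔ X)
  have h5 : (K ⊔ T) ⊔ (K₀ ⊔ X) = K₀ ⊔ T := by
    apply le_antisymm
    · exact sup_le (sup_le (hK.trans le_sup_left) le_sup_right)
        (sup_le le_sup_left (hXT.trans le_sup_right))
    · exact sup_le (le_sup_left.trans le_sup_right) (le_sup_right.trans le_sup_left)
  have h6 : (K ⊔ T) ⊓ (K₀ ⊔ X) = K ⊔ X := by
    apply le_antisymm
    · rintro w ⟨hw1, hw2⟩
      obtain ⟨k, hk, t, ht, rfl⟩ := Submodule.mem_sup.mp hw1
      obtain ⟨k', hk', x, hx, hkx⟩ := Submodule.mem_sup.mp hw2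
      refine Submodule.add_mem_sup hk ?_
      have h7 : t - x ∈ K₀ ⊓ T := by
        refine ⟨?_, Ideal.sub_mem _ ht (hXT hx)⟩
        have : t - x = k' - k := by linear_combination -hkx
        rw [this]
        exact Ideal.sub_mem _ hk' (hK hk)
      have h8 : t = (t - x) + x := by ring
      rw [h8]
      exact Ideal.add_mem _ (h0 h7) hx
    · exact le_inf (sup_le_sup_left hXT _) (sup_le_sup_right hK _)
  rw [h5, h6, ← ha, ← hb] at h4
  have h7 : cl (K ⊔ T) ≠ ⊤ := ne_top_of_le_ne_top hKfin (cl_anti le_sup_left)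
  have h8 : cl (K ⊔ X) ≠ ⊤ := ne_top_of_le_ne_top hKfin (cl_anti le_sup_left)
  obtain ⟨u, hu⟩ := ENat.ne_top_iff_exists.mp h7
  obtain ⟨v, hv⟩ := ENat.ne_top_iff_exists.mp h8
  rw [← hu, ← hv] at h4 ⊢
  have h9 : u + (b + η) = v + b := by exact_mod_cast h4
  have h10 : v = u + η := by omega
  exact_mod_cast h10

end Eta

section ExistsXY

variable {S : Type*} [CommRing S] [IsLocalRing S] [IsNoetherianRing S]

omit [IsNoetherianRing S] in
theorem dep_pow (hdep : ∀ w : S, (∀ z ∈ maximalIdeal S, z * w = 0) → w = 0) (k : ℕ) :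
    ∀ w : S, (∀ z ∈ maximalIdeal S ^ k, z * w = 0) → w = 0 := by
  induction k with
  | zero =>
    intro w hw
    simpa using hw 1 (by simp)
  | succ k ih =>
    intro w hw
    refine hdep w fun z hz => ih _ fun z' hz' => ?_
    rw [← mul_assoc]
    exact hw _ (by rw [pow_succ]; exact Ideal.mul_mem_mul hz' hz)

theorem not_le_assoc (hdep : ∀ w : S, (∀ z ∈ maximalIdeal S, z * w = 0) → w = 0)
    {A : Ideal S} (hA : Pm A) {Q : Ideal S} (hQ : Q ∈ associatedPrimes S S) : ¬ A ≤ Q := by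
  intro h
  obtain ⟨hprime, w, hw⟩ := hQ
  have h1 := hA.le_prime hprime h
  rw [h1] at hw
  obtain ⟨k, hk⟩ := Ideal.exists_pow_le_of_le_radical_of_fg (le_of_eq hw)
    (IsNoetherian.noetherian _)
  have h2 : w = 0 := dep_pow hdep k w fun z hz => by
    have := Submodule.mem_colon_singleton.mp (hk hz)
    simpa using this
  subst h2
  apply (maximalIdeal.isMaximal S).ne_top
  rw [hw, Ideal.eq_top_iff_one]
  apply Ideal.le_radical
  rw [Submodule.mem_colon_singleton]
  simp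

theorem exists_x [Infinite (ResidueField S)]
    (hdep : ∀ w : S, (∀ z ∈ maximalIdeal S, z * w = 0) → w = 0)
    (n A A' : Ideal S) (hn : A * A' = n) (hA : Pm A) (𝓔 : Finset (Ideal S)) :
    ∃ x ∈ A, x ∈ nonZeroDivisors S ∧
      ∀ E ∈ 𝓔, ∃ N₀, ∀ N, N₀ ≤ N → ∀ w, x * w ∈ n ^ N * (A * E) → w ∈ n ^ N * E := by
  classical
  have hfin := associatedPrimes.finite S S
  obtain ⟨x, hxA, hxV, hxE⟩ := exists_sup2 A A' hn
    ((insert n 𝓔).image (fun E => (E, (⊥ : Ideal S)))) hfin.toFinset (by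
      intro V hV
      exact not_le_assoc hdep hA ((Set.Finite.mem_toFinset _).mp hV))
  have hnz : x ∈ nonZeroDivisors S := by
    by_contra hcon
    have h1 : x ∈ ((nonZeroDivisors S : Set S))ᶜ := hcon
    rw [← biUnion_associatedPrimes_eq_compl_nonZeroDivisors S] at h1
    simp only [Set.mem_iUnion] at h1
    obtain ⟨V, hV, hxV'⟩ := h1
    exact hxV V ((Set.Finite.mem_toFinset _).mpr hV) hxV'
  refine ⟨x, hxA, hnz, fun E hE => ?_⟩
  have h1 : SupE n A E ⊥ x := hxE (E, ⊥) (mem_image_of_mem _ (mem_insert_of_mem hE))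
  have h2 : SupE n A n ⊥ x := hxE (n, ⊥) (mem_image_of_mem _ (mem_insert_self _ _))
  obtain ⟨N₀, hN₀⟩ := col h1 h2
  refine ⟨N₀, fun N hN w hw => ?_⟩
  have h3 := hN₀ N hN w (by rw [sup_bot_eq]; exact hw)
  have h4 : qt (⊥ : Ideal S) x = ⊥ := by
    rw [eq_bot_iff]
    intro v hv
    rw [mem_qt, Ideal.mem_bot] at hv
    exact (mul_left_mem_nonZeroDivisors_eq_zero_iff hnz).mp hv
  rwa [h4, sup_bot_eq] at h3

theorem exists_y [Infinite (ResidueField S)] (hdim : ringKrullDim S ≤ 2)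
    (x : S) (hx : x ∈ nonZeroDivisors S)
    (n C C' : Ideal S) (hn : C * C' = n) (hC : Pm C) (𝓔 : Finset (Ideal S)) :
    ∃ y ∈ C, Pm (Ideal.span {x} ⊔ Ideal.span {y}) ∧
      (∃ s, maximalIdeal S ^ s * qt (Ideal.span {x}) y ≤ Ideal.span {x}) ∧
      ∀ E ∈ 𝓔, ∃ N₀, ∀ N, N₀ ≤ N → ∀ w, y * w ∈ n ^ N * (C * E) ⊔ Ideal.span {x} →
        w ∈ n ^ N * E ⊔ qt (Ideal.span {x}) y := by
  classical
  obtain ⟨t, ht, hprim⟩ := Submodule.isLasker S S (Ideal.span {x})
  obtain ⟨y, hyC, hyV, hyE⟩ := exists_sup2 C C' hn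
    ((insert n 𝓔).image (fun E => (E, Ideal.span {x})))
    ((t.image Ideal.radical).filter (fun V => ¬ C ≤ V))
    (fun V hV => (mem_filter.mp hV).2)
  have hgood : ∀ q ∈ t, ¬ C ≤ Ideal.radical q → y ∉ Ideal.radical q := fun q hq h =>
    hyV _ (mem_filter.mpr ⟨mem_image_of_mem _ hq, h⟩)
  refine ⟨y, hyC, ?_, ?_, ?_⟩
  · have hdim1 : Ring.KrullDimLE 1 (S ⧸ Ideal.span {x}) := by
      rw [Ring.krullDimLE_iff]
      have h1 := (ringKrullDim_quotient_succ_le_of_nonZeroDivisor hx).trans hdim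
      have h2 : (2 : WithBot ℕ∞) = 1 + 1 := by norm_num
      rw [h2] at h1
      exact ENat.WithBot.add_le_add_natCast_right_iff.mp h1
    have hprime : ∀ Q : Ideal S, Q.IsPrime → Ideal.span {x} ⊔ Ideal.span {y} ≤ Q →
        Q = maximalIdeal S := by
      intro Q hQ hle
      have hxQ : Ideal.span {x} ≤ Q := le_sup_left.trans hle
      have hyQ : y ∈ Q := hle (Ideal.mem_sup_right (Ideal.mem_span_singleton_self y))
      have h1 : t.inf id ≤ Q := by rw [ht]; exact hxQ
      obtain ⟨q, hq, hqQ⟩ := (hQ.inf_le').mp h1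
      have hrad : Ideal.radical q ≤ Q := (hQ.radical_le_iff).mpr hqQ
      by_cases h : C ≤ Ideal.radical q
      · exact hC.le_prime hQ (h.trans hrad)
      · have hyq := hgood q hq h
        have hP : (Ideal.radical q).IsPrime := Ideal.isPrime_radical (hprim hq)
        have hxP : Ideal.span {x} ≤ Ideal.radical q := by
          have h2 : t.inf id ≤ q := Finset.inf_le (f := id) hq
          rw [ht] at h2
          exact h2.trans Ideal.le_radical
        have hQ' : (Q.map (Ideal.Quotient.mk (Ideal.span {x}))).IsPrime :=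
          Ideal.map_isPrime_of_surjective Ideal.Quotient.mk_surjective (by rwa [Ideal.mk_ker])
        have hP' : ((Ideal.radical q).map (Ideal.Quotient.mk (Ideal.span {x}))).IsPrime :=
          Ideal.map_isPrime_of_surjective Ideal.Quotient.mk_surjective (by rwa [Ideal.mk_ker])
        have hcomap : ∀ J : Ideal S, Ideal.span {x} ≤ J →
            (J.map (Ideal.Quotient.mk (Ideal.span {x}))).comap
              (Ideal.Quotient.mk (Ideal.span {x})) = J := by
          intro J hJ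
          rw [Ideal.comap_map_of_surjective _ Ideal.Quotient.mk_surjective,
            ← RingHom.ker_eq_comap_bot, Ideal.mk_ker, sup_eq_left]
          exact hJ
        rcases Ring.krullDimLE_one_iff.mp hdim1 _ hQ' with h3 | h3
        · exfalso
          have h4 := h3.2 ⟨hP', bot_le⟩ (Ideal.map_mono hrad)
          have h5 := Ideal.comap_mono (f := Ideal.Quotient.mk (Ideal.span {x})) h4
          rw [hcomap Q hxQ, hcomap _ hxP] at h5
          exact hyq (h5 hyQ)
        · have h4 := Ideal.comap_isMaximal_of_surjective (Ideal.Quotient.mk (Ideal.span {x}))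
            Ideal.Quotient.mk_surjective (K := Q.map (Ideal.Quotient.mk (Ideal.span {x})))
          rw [hcomap Q hxQ] at h4
          exact IsLocalRing.eq_maximalIdeal h4
    have hrad : maximalIdeal S ≤ (Ideal.span {x} ⊔ Ideal.span {y}).radical := by
      rw [Ideal.radical_eq_sInf]
      refine le_sInf fun Q hQ => ?_
      exact le_of_eq (hprime Q hQ.2 hQ.1).symm
    exact Ideal.exists_pow_le_of_le_radical_of_fg hrad (IsNoetherian.noetherian _)
  · have hk : ∀ q : Ideal S, ∃ k, C ≤ Ideal.radical q → maximalIdeal S ^ k ≤ q := by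
      intro q
      by_cases h : C ≤ Ideal.radical q
      · obtain ⟨c, hc⟩ := hC
        obtain ⟨k, hk⟩ := Ideal.exists_pow_le_of_le_radical_of_fg (hc.trans h)
          (IsNoetherian.noetherian _)
        exact ⟨c * k, fun _ => by rw [pow_mul]; exact hk⟩
      · exact ⟨0, fun h' => absurd h' h⟩
    choose kk hkk using hk
    refine ⟨t.sup kk, ?_⟩
    refine le_trans (Finset.le_inf (f := id) fun q hq => ?_) (le_of_eq ht)
    show _ ≤ q
    by_cases h : C ≤ Ideal.radical q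
    · exact Ideal.mul_le_left.trans ((Ideal.pow_le_pow_right (Finset.le_sup hq)).trans (hkk q h))
    · refine Ideal.mul_le_right.trans fun w hw => ?_
      rw [mem_qt] at hw
      have h2 : t.inf id ≤ q := Finset.inf_le (f := id) hq
      rw [ht] at h2
      have h3 : w * y ∈ q := by rw [mul_comm]; exact h2 hw
      rcases (Ideal.isPrimary_iff.mp (hprim hq)).2 h3 with h4 | h4
      · exact h4
      · exact absurd h4 (hgood q hq h)
  · intro E hE
    have h1 : SupE n C E (Ideal.span {x}) y :=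
      hyE (E, Ideal.span {x}) (mem_image_of_mem _ (mem_insert_of_mem hE))
    have h2 : SupE n C n (Ideal.span {x}) y :=
      hyE (n, Ideal.span {x}) (mem_image_of_mem _ (mem_insert_self _ _))
    exact col h1 h2

end ExistsXY

end Vale.Agent.P202
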