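import Vale.Agent.P202.Rel
import Vale.Agent.P202.XY

namespace Vale.Agent.P202

open IsLocalRing

section Fields

variable {k L : Type*} [Field k] [Field L] [Algebra k L]

def Ind {ι : Type*} [Fintype ι] (K : Set L) (z : ι → L) : Prop :=
  ∀ c : ι → L, (∀ s, c s ∈ K) → ∑ s, c s * z s = 0 → ∀ s, c s = 0

theorem tower_basis (K K' : IntermediateField k L) (h : K ≤ K') [FiniteDimensional k K'] :
    ∃ (n : ℕ) (w : Fin n → L), (∀ t, w t ∈ K') ∧ Ind (K : Set L) w ∧
      (∀ x ∈ K', ∃ c : Fin n → L, (∀ t, c t ∈ K) ∧ x = ∑ t, c t * w t) ∧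
      Module.finrank k K' = n * Module.finrank k K := by
  let M := IntermediateField.extendScalars h
  have hfd : FiniteDimensional K M := by
    have : FiniteDimensional k M := (inferInstance : FiniteDimensional k K')
    exact FiniteDimensional.right k K M
  have hfree : Module.Free K M := Module.Free.of_divisionRing K M
  have hfree2 : Module.Free k K := Module.Free.of_divisionRing k K
  let b := Module.finBasis K M
  refine ⟨Module.finrank K M, fun t => (b t : L), fun t => (b t).2, ?_, ?_, ?_⟩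
  · intro c hc hsum
    have h1 := b.linearIndependent
    rw [Fintype.linearIndependent_iff] at h1
    intro s
    have h2 := h1 (fun s => ⟨c s, hc s⟩) (by
      apply Subtype.ext
      rw [AddSubmonoidClass.coe_finsetSum]
      exact hsum) s
    exact congrArg Subtype.val h2
  · intro x hx
    have h1 := b.sum_repr ⟨x, hx⟩
    refine ⟨fun t => (b.repr ⟨x, hx⟩ t : L), fun t => (b.repr ⟨x, hx⟩ t).2, ?_⟩
    have h2 := congrArg Subtype.val h1
    rw [AddSubmonoidClass.coe_finsetSum] at h2
    exact h2.symm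
  · have h1 := Module.finrank_mul_finrank k K M
    have h2 : Module.finrank k M = Module.finrank k K' := rfl
    rw [← h2, ← h1, mul_comm]

theorem Ind.mul {ι κ : Type*} [Fintype ι] [Fintype κ] {K K' : Set L} {z : ι → L} {w : κ → L}
    (hz : Ind K' z) (hw : Ind K w) (hK' : ∀ c : κ → L, (∀ t, c t ∈ K) → ∑ t, c t * w t ∈ K') :
    Ind K (fun p : ι × κ => z p.1 * w p.2) := by
  intro c hc hsum
  rw [Fintype.sum_prod_type] at hsum
  have h1 : ∑ s, (∑ t, c (s, t) * w t) * z s = 0 := by
    rw [← hsum]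
    refine Finset.sum_congr rfl fun s _ => ?_
    rw [Finset.sum_mul]
    refine Finset.sum_congr rfl fun t _ => ?_
    ring
  have h2 := hz _ (fun s => hK' _ fun t => hc (s, t)) h1
  rintro ⟨s, t⟩
  exact hw _ (fun t => hc (s, t)) (h2 s) t

end Fields

section RL

variable {A T N : Type*} [CommRing A] [AddCommGroup T] [Module A T] [AddCommGroup N] [Module A N]

theorem rl_le_of_map {U₁ U₂ : Submodule A T} (f : U₂ →ₗ[A] N) (P : Submodule A N)
    (hP : ∀ v, f v ∈ P) (h : ∀ v : U₂, f v = 0 → (v : T) ∈ U₁) :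
    rl U₁ U₂ ≤ Module.length A P := by
  let g : U₂ →ₗ[A] P := f.codRestrict P hP
  have h1 : Module.length A (U₂ ⧸ LinearMap.ker g) ≤ Module.length A P := by
    rw [g.quotKerEquivRange.length_eq]
    exact Module.length_le_of_injective (LinearMap.range g).subtype
      (Submodule.injective_subtype _)
  refine le_trans ?_ h1
  have h2 : LinearMap.ker g ≤ U₁.submoduleOf U₂ := by
    intro v hv
    refine h v ?_
    exact congrArg Subtype.val (LinearMap.mem_ker.mp hv)
  exact Module.length_le_of_surjective (Submodule.factor h2) (Submodule.factor_surjective h2)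

theorem le_rl_of_map {U₁ U₂ : Submodule A T} (f : U₂ →ₗ[A] N) (P : Submodule A N)
    (hP : ∀ p ∈ P, ∃ v, f v = p) (h : ∀ v : U₂, (v : T) ∈ U₁ → f v = 0) :
    Module.length A P ≤ rl U₁ U₂ := by
  have h1 : P ≤ LinearMap.range f := fun p hp => hP p hp
  have h2 : Module.length A P ≤ Module.length A (LinearMap.range f) :=
    Module.length_le_of_injective (Submodule.inclusion h1) (Submodule.inclusion_injective h1)
  refine h2.trans ?_
  rw [← f.quotKerEquivRange.length_eq]
  have h3 : U₁.submoduleOf U₂ ≤ LinearMap.ker f := fun v hv => h v hv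
  exact Module.length_le_of_surjective (Submodule.factor h3) (Submodule.factor_surjective h3)

theorem rl_eq_zero {U : Submodule A T} : rl U U = 0 := by
  unfold rl
  rw [Module.length_eq_zero_iff]
  refine ⟨fun a b => ?_⟩
  obtain ⟨a, rfl⟩ := Submodule.Quotient.mk_surjective _ a
  obtain ⟨b, rfl⟩ := Submodule.Quotient.mk_surjective _ b
  rw [Submodule.Quotient.eq]
  exact U.sub_mem a.2 b.2

theorem rl_bot (U : Submodule A T) : rl ⊥ U = Module.length A U := by
  unfold rl
  have h1 : (⊥ : Submodule A T).submoduleOf U = ⊥ := by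
    ext v
    constructor
    · intro h
      exact Subtype.ext h
    · intro h
      rw [(Submodule.mem_bot A).mp h]
      exact Submodule.zero_mem _
  rw [h1]
  exact (Submodule.quotEquivOfEqBot ⊥ rfl).length_eq

end RL

section Pi

variable {T : Type*} [CommRing T] [IsLocalRing T]

theorem exists_pi (I : Ideal T) (z : T) (hz : z ∉ I) (hn : ∀ r ∈ maximalIdeal T, r * z ∈ I) :
    ∃ π : ↥(I ⊔ Ideal.span {z}) →ₗ[T] ResidueField T, (∀ v, π v = 0 ↔ (v : T) ∈ I) ∧
      ∀ t, ∀ i ∈ I, ∀ v : ↥(I ⊔ Ideal.span {z}), (v : T) = i + t * z → π v = residue T t := by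
  let f : ResidueField T →ₗ[T] T ⧸ I := Submodule.liftQ (maximalIdeal T)
    (LinearMap.toSpanSingleton T (T ⧸ I) (Ideal.Quotient.mk I z)) (by
      intro r hr
      rw [LinearMap.mem_ker, LinearMap.toSpanSingleton_apply]
      have : r • (Ideal.Quotient.mk I z) = Ideal.Quotient.mk I (r * z) := rfl
      rw [this, Ideal.Quotient.eq_zero_iff_mem]
      exact hn r hr)
  have hf : ∀ t : T, f (residue T t) = Ideal.Quotient.mk I (t * z) := fun t => rfl
  have hinj : Function.Injective f := by
    rw [← LinearMap.ker_eq_bot, LinearMap.ker_eq_bot']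
    intro x hx
    obtain ⟨t, rfl⟩ := residue_surjective x
    rw [hf, Ideal.Quotient.eq_zero_iff_mem] at hx
    rw [residue_eq_zero_iff]
    by_contra ht
    have htu : IsUnit t := by
      by_contra h
      exact ht ((mem_maximalIdeal t).mpr h)
    exact hz ((Ideal.unit_mul_mem_iff_mem I htu).mp hx)
  let e := LinearEquiv.ofInjective f hinj
  let g : ↥(I ⊔ Ideal.span {z}) →ₗ[T] LinearMap.range f :=
    LinearMap.codRestrict (LinearMap.range f)
      ((Submodule.mkQ I).comp (Submodule.subtype (I ⊔ Ideal.span {z}))) (by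
      rintro ⟨v, hv⟩
      obtain ⟨i, hi, q, hq, rfl⟩ := Submodule.mem_sup.mp hv
      obtain ⟨t, rfl⟩ := Ideal.mem_span_singleton'.mp hq
      refine ⟨residue T t, ?_⟩
      rw [hf]
      show Ideal.Quotient.mk I (t * z) = Ideal.Quotient.mk I (i + t * z)
      rw [map_add, Ideal.Quotient.eq_zero_iff_mem.mpr hi, zero_add])
  have hg : ∀ v, ((g v : LinearMap.range f) : T ⧸ I) = Ideal.Quotient.mk I (v : T) := fun v => rfl
  refine ⟨e.symm.toLinearMap.comp g, ?_, ?_⟩
  · intro v
    rw [LinearMap.comp_apply, LinearEquiv.coe_coe, LinearEquiv.map_eq_zero_iff,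
      ← Ideal.Quotient.eq_zero_iff_mem, ← hg]
    exact ⟨fun h => congrArg Subtype.val h, fun h => Subtype.ext h⟩
  · intro t i hi v hv
    rw [LinearMap.comp_apply, LinearEquiv.coe_coe, LinearEquiv.symm_apply_eq]
    apply Subtype.ext
    rw [hg]
    have h1 : ((e (residue T t) : LinearMap.range f) : T ⧸ I) = f (residue T t) := rfl
    rw [h1, hf, hv, map_add, Ideal.Quotient.eq_zero_iff_mem.mpr hi, zero_add]

theorem rl_cover (I : Ideal T) (z : T) (hz : z ∉ I) (hn : ∀ r ∈ maximalIdeal T, r * z ∈ I) :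
    rl I (I ⊔ Ideal.span {z}) = 1 := by
  obtain ⟨π, h1, h2⟩ := exists_pi I z hz hn
  have h3 : Module.length T (⊤ : Submodule T (ResidueField T)) = 1 := by
    rw [Module.length_top, Module.length_eq_of_surjective (R := ResidueField T) (S := T)
      residue_surjective]
    exact Module.length_eq_one _ _
  apply le_antisymm
  · rw [← h3]
    exact rl_le_of_map π ⊤ (fun _ => trivial) fun v hv => (h1 v).mp hv
  · rw [← h3]
    refine le_rl_of_map π ⊤ (fun p _ => ?_) fun v hv => (h1 v).mpr hv
    obtain ⟨t, rfl⟩ := residue_surjective p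
    exact ⟨⟨t * z, Ideal.mem_sup_right (Ideal.mul_mem_left _ _
      (Ideal.mem_span_singleton_self z))⟩, h2 t 0 I.zero_mem _ (by simp)⟩

theorem exists_cover (hnil : ∃ K, maximalIdeal T ^ K = ⊥) (J' J : Ideal T) (h : J' < J) :
    ∃ z ∈ J, z ∉ J' ∧ ∀ r ∈ maximalIdeal T, r * z ∈ J' := by
  classical
  obtain ⟨K, hK⟩ := hnil
  have hex : ∃ k, maximalIdeal T ^ k * J ≤ J' := ⟨K, by rw [hK, Ideal.bot_mul]; exact bot_le⟩
  have h1 := Nat.find_spec hex
  have h0 : Nat.find hex ≠ 0 := by
    intro h0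
    rw [h0, pow_zero, Ideal.one_eq_top, Ideal.top_mul] at h1
    exact absurd h (not_lt_of_ge h1)
  obtain ⟨k, hk⟩ := Nat.exists_eq_succ_of_ne_zero h0
  have h2 : ¬ maximalIdeal T ^ k * J ≤ J' := Nat.find_min hex (by omega)
  obtain ⟨z, hz, hz'⟩ := Set.not_subset.mp h2
  refine ⟨z, Ideal.mul_le_right hz, hz', fun r hr => ?_⟩
  refine h1 ?_
  rw [hk, Nat.succ_eq_add_one, pow_succ', mul_assoc]
  exact Ideal.mul_mem_mul hr hz

end Pi

end Vale.Agent.P202
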