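import Vale.Agent.P202.Cpl
import Vale.Agent.P202.LemV1

namespace Vale.Agent.P202

open IsLocalRing Polynomial

section BaseA

variable {R S : Type*} [CommRing R] [IsLocalRing R] [CommRing S] [IsLocalRing S] [Algebra R S]
  [IsLocalHom (algebraMap R S)]

def AA (R S : Type*) [CommRing R] [IsLocalRing R] [CommRing S] [IsLocalRing S] [Algebra R S] :
    Set (Subalgebra R S) :=
  {A | (∀ a ∈ A, a ∉ maximalIdeal S → ∃ b ∈ A, a * b = 1) ∧
    ∀ a ∈ A, a ∈ maximalIdeal S → a ∈ (maximalIdeal R) • (Subalgebra.toSubmodule A)}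

theorem AA_bot : (⊥ : Subalgebra R S) ∈ AA R S := by
  refine ⟨?_, ?_⟩
  · intro a ha hn
    obtain ⟨r, rfl⟩ := Algebra.mem_bot.mp ha
    have h1 : IsUnit r := by
      by_contra h
      rw [mem_maximalIdeal, mem_nonunits_iff, not_not, isUnit_map_iff] at hn
      exact h hn
    obtain ⟨u, rfl⟩ := h1
    refine ⟨algebraMap R S (↑u⁻¹ : R), Algebra.mem_bot.mpr ⟨_, rfl⟩, ?_⟩
    rw [← map_mul, Units.mul_inv, map_one]
  · intro a ha hn
    obtain ⟨r, rfl⟩ := Algebra.mem_bot.mp ha
    have h1 : r ∈ maximalIdeal R := by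
      rw [mem_maximalIdeal, mem_nonunits_iff] at hn ⊢
      intro h
      exact hn (h.map _)
    rw [Algebra.algebraMap_eq_smul_one]
    exact Submodule.smul_mem_smul h1 (one_mem (⊥ : Subalgebra R S))

theorem exists_max : ∃ A : Subalgebra R S, A ∈ AA R S ∧ ∀ B ∈ AA R S, A ≤ B → B = A := by
  obtain ⟨A, -, hA⟩ := zorn_le_nonempty₀ (AA R S) (by
    intro c hc hchain y hy
    have hne : Nonempty c := ⟨⟨y, hy⟩⟩
    have hdir : Directed (· ≤ ·) (fun A : c => (A : Subalgebra R S)) :=
      hchain.directed
    refine ⟨⨆ A : c, (A : Subalgebra R S), ⟨?_, ?_⟩, fun z hz => le_iSup (fun A : c =>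
      (A : Subalgebra R S)) ⟨z, hz⟩⟩
    · intro a ha hn
      have h1 : a ∈ ((⨆ A : c, (A : Subalgebra R S) : Subalgebra R S) : Set S) := ha
      rw [Subalgebra.coe_iSup_of_directed hdir] at h1
      obtain ⟨B, hB⟩ := Set.mem_iUnion.mp h1
      obtain ⟨b, hb, hab⟩ := (hc B.2).1 a hB hn
      exact ⟨b, (le_iSup (fun A : c => (A : Subalgebra R S)) B) hb, hab⟩
    · intro a ha hn
      have h1 : a ∈ ((⨆ A : c, (A : Subalgebra R S) : Subalgebra R S) : Set S) := ha
      rw [Subalgebra.coe_iSup_of_directed hdir] at h1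
      obtain ⟨B, hB⟩ := Set.mem_iUnion.mp h1
      have h2 : Subalgebra.toSubmodule (B : Subalgebra R S) ≤
          Subalgebra.toSubmodule (⨆ A : c, (A : Subalgebra R S)) :=
        le_iSup (fun A : c => (A : Subalgebra R S)) B
      exact Submodule.smul_mono le_rfl h2 ((hc B.2).2 a hB hn)) ⊥ AA_bot
  refine ⟨A, hA.prop, fun B hB hAB => le_antisymm (hA.2 hB hAB) hAB⟩

variable {A : Subalgebra R S} (hA : A ∈ AA R S)

omit [IsLocalHom (algebraMap R S)] in
include hA in
theorem coeff_mem {s : S} (hs : ∀ F : A[X], F.Monic → aeval s F ∉ maximalIdeal S) (n : ℕ) :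
    ∀ f : A[X], f.natDegree ≤ n → aeval s f ∈ maximalIdeal S →
      ∀ i, ((f.coeff i : A) : S) ∈ maximalIdeal S := by
  induction n with
  | zero =>
    intro f hf hfs i
    have h1 := eq_C_of_natDegree_le_zero hf
    rw [h1, aeval_C] at hfs
    rw [h1, coeff_C]
    split_ifs
    · exact hfs
    · exact Ideal.zero_mem _
  | succ n ih =>
    intro f hf hfs
    have hlead : ((f.coeff (n + 1) : A) : S) ∈ maximalIdeal S := by
      by_contra hlead
      obtain ⟨b, hb, hab⟩ := hA.1 _ (f.coeff (n + 1)).2 hlead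
      have hab' : (⟨b, hb⟩ : A) * f.coeff (n + 1) = 1 := by
        apply Subtype.ext
        show b * (f.coeff (n + 1) : S) = 1
        rw [mul_comm]; exact hab
      have hmon : (Polynomial.C (⟨b, hb⟩ : A) * f).Monic := by
        refine monic_of_natDegree_le_of_coeff_eq_one (n + 1) ?_ ?_
        · exact (natDegree_C_mul_le _ _).trans hf
        · rw [coeff_C_mul, hab']
      refine hs _ hmon ?_
      rw [map_mul]
      exact Ideal.mul_mem_left _ _ hfs
    have h2 := ih (f.eraseLead) (by
      rcases Nat.lt_or_ge f.natDegree (n + 1) with h | h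
      · exact (eraseLead_natDegree_le f).trans (by omega)
      · exact (eraseLead_natDegree_le f).trans (by omega))
    intro i
    by_cases hi : f.natDegree = n + 1
    · have h3 : aeval s f.eraseLead ∈ maximalIdeal S := by
        have h4 : f.eraseLead = f - monomial f.natDegree f.leadingCoeff := by
          rw [← eraseLead_add_monomial_natDegree_leadingCoeff f]
          simp
        rw [h4, map_sub, aeval_monomial]
        refine Ideal.sub_mem _ hfs (Ideal.mul_mem_right _ _ ?_)
        rw [leadingCoeff, hi]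
        exact hlead
      by_cases hin : i = n + 1
      · rw [hin]; exact hlead
      · have h4 := h2 h3 i
        rwa [eraseLead_coeff_of_ne i (by rw [hi]; exact hin)] at h4
    · exact ih f (by omega) hfs i

include hA in
theorem exists_monic (hmax : ∀ B ∈ AA R S, A ≤ B → B = A) (s : S) :
    ∃ F : A[X], F.Monic ∧ aeval s F ∈ maximalIdeal S := by
  by_contra hcon
  push Not at hcon
  have hg1 : ∀ f g : A[X], aeval s f ∉ maximalIdeal S → aeval s g ∉ maximalIdeal S →
      aeval s (f * g) ∉ maximalIdeal S := by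
    intro f g hf hg h
    rw [map_mul] at h
    rcases (inferInstance : (maximalIdeal S).IsPrime).mem_or_mem h with h | h
    · exact hf h
    · exact hg h
  let B : Subalgebra R S :=
    { carrier := {x | ∃ f g : A[X], aeval s g ∉ maximalIdeal S ∧ x * aeval s g = aeval s f}
      mul_mem' := by
        rintro x y ⟨f, g, hg, hx⟩ ⟨f', g', hg', hy⟩
        refine ⟨f * f', g * g', hg1 _ _ hg hg', ?_⟩
        rw [map_mul, map_mul]
        linear_combination aeval s f' * hx + x * aeval s g * hy
      add_mem' := by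
        rintro x y ⟨f, g, hg, hx⟩ ⟨f', g', hg', hy⟩
        refine ⟨f * g' + f' * g, g * g', hg1 _ _ hg hg', ?_⟩
        rw [map_mul, map_add, map_mul, map_mul]
        linear_combination aeval s g' * hx + aeval s g * hy
      algebraMap_mem' := by
        intro r
        refine ⟨Polynomial.C (algebraMap R A r), 1, ?_, ?_⟩
        · rw [map_one]
          exact (Ideal.ne_top_iff_one _).mp (maximalIdeal.isMaximal S).ne_top
        · rw [map_one, mul_one, aeval_C]
          rfl }
  have hmemB : ∀ x, x ∈ B ↔ ∃ f g : A[X], aeval s g ∉ maximalIdeal S ∧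
      x * aeval s g = aeval s f := fun x => Iff.rfl
  have h1S : (1 : S) ∉ maximalIdeal S := (Ideal.ne_top_iff_one _).mp
    (maximalIdeal.isMaximal S).ne_top
  have hAB : A ≤ B := by
    intro a ha
    rw [hmemB]
    refine ⟨Polynomial.C ⟨a, ha⟩, 1, ?_, ?_⟩
    · rwa [map_one]
    · rw [map_one, mul_one, aeval_C]
      rfl
  have hsB : s ∈ B := by
    rw [hmemB]
    refine ⟨X, 1, ?_, ?_⟩
    · rwa [map_one]
    · rw [map_one, mul_one, aeval_X]
  have hBA : B ∈ AA R S := by
    refine ⟨?_, ?_⟩
    · intro a ha hn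
      obtain ⟨f, g, hg, hfg⟩ := (hmemB a).mp ha
      have hau : IsUnit a := by
        by_contra h
        exact hn ((mem_maximalIdeal a).mpr h)
      obtain ⟨b, hab⟩ := hau.exists_right_inv
      refine ⟨b, (hmemB b).mpr ⟨g, f, ?_, ?_⟩, hab⟩
      · rw [← hfg]
        intro h
        rcases (inferInstance : (maximalIdeal S).IsPrime).mem_or_mem h with h | h
        · exact hn h
        · exact hg h
      · rw [← hfg]
        linear_combination aeval s g * hab
    · intro a ha hn
      obtain ⟨f, g, hg, hfg⟩ := (hmemB a).mp ha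
      have hgu : IsUnit (aeval s g) := by
        by_contra h
        exact hg ((mem_maximalIdeal _).mpr h)
      obtain ⟨b, hgb⟩ := hgu.exists_right_inv
      have hbB : b ∈ B := (hmemB b).mpr ⟨1, g, hg, by rw [map_one, mul_comm]; exact hgb⟩
      have hc := coeff_mem hA hcon f.natDegree f le_rfl (by
        rw [← hfg]; exact Ideal.mul_mem_right _ _ hn)
      have h2 : a = ∑ i ∈ Finset.range (f.natDegree + 1), ((f.coeff i : A) : S) * (s ^ i * b) := by
        have h3 : a = aeval s f * b := by
          rw [← hfg]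
          linear_combination -a * hgb
        rw [h3, aeval_eq_sum_range, Finset.sum_mul]
        refine Finset.sum_congr rfl fun i _ => ?_
        rw [Algebra.smul_def, mul_assoc]
        rfl
      rw [h2]
      refine Submodule.sum_mem _ fun i _ => ?_
      have h4 := hA.2 _ (f.coeff i).2 (hc i)
      have h5 : s ^ i * b ∈ B := B.mul_mem (B.pow_mem hsB i) hbB
      generalize ((f.coeff i : A) : S) = c at h4
      refine Submodule.smul_induction_on h4 ?_ ?_
      · intro r hr n hn
        rw [smul_mul_assoc]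
        exact Submodule.smul_mem_smul hr (B.mul_mem (hAB hn) h5)
      · intro x y hx hy
        rw [add_mul]
        exact Submodule.add_mem _ hx hy
  have hBA2 := hmax B hBA hAB
  have hsA : s ∈ A := by rw [← hBA2]; exact hsB
  refine hcon (X - Polynomial.C ⟨s, hsA⟩) (monic_X_sub_C _) ?_
  rw [map_sub, aeval_X, aeval_C]
  have : algebraMap A S ⟨s, hsA⟩ = s := rfl
  rw [this, sub_self]
  exact Ideal.zero_mem _

end BaseA

end Vale.Agent.P202
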