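import Vale.Agent.P202.BaseA

namespace Vale.Agent.P202

open IsLocalRing Polynomial

universe u v

section BaseP

variable {R : Type u} {S : Type v} [CommRing R] [IsLocalRing R] [CommRing S] [IsLocalRing S]
  [Algebra R S] [IsLocalHom (algebraMap R S)]

theorem exists_base [IsNoetherianRing R] [Module.Flat R S]
    (hK : ∃ K, maximalIdeal S ^ K ≤ (maximalIdeal R).map (algebraMap R S)) (M : ℕ)
    (J : Ideal S) (hJ : J = ((maximalIdeal R) ^ M).map (algebraMap R S)) :
    ∃ (P : Type v) (_ : CommRing P) (_ : IsLocalRing P) (φ : R →+* P) (ψ : P →+* S ⧸ J),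
      IsNoetherianRing P ∧ IsAdicComplete (maximalIdeal P) P ∧
      (maximalIdeal R).map φ = maximalIdeal P ∧
      (∀ r, ψ (φ r) = Ideal.Quotient.mk J (algebraMap R S r)) ∧
      (∀ I : Ideal R, (∃ k, maximalIdeal R ^ k ≤ I) → ∀ r, φ r ∈ I.map φ → r ∈ I) ∧
      ∀ t, ψ.IsIntegralElem t := by
  obtain ⟨A, hA, hmax⟩ := exists_max (R := R) (S := S)
  have hloc : IsLocalHom (algebraMap A S) := by
    refine ⟨fun a ha => ?_⟩
    have h1 : (a : S) ∉ maximalIdeal S := by
      rw [mem_maximalIdeal, mem_nonunits_iff, not_not]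
      exact ha
    obtain ⟨b, hb, hab⟩ := hA.1 _ a.2 h1
    exact IsUnit.of_mul_eq_one ⟨b, hb⟩ (Subtype.ext hab)
  have hlr : IsLocalRing A := RingHom.domain_isLocalRing (algebraMap A S)
  have hmem : ∀ a : A, a ∈ maximalIdeal A ↔ (a : S) ∈ maximalIdeal S := by
    intro a
    rw [mem_maximalIdeal, mem_maximalIdeal, mem_nonunits_iff, mem_nonunits_iff,
      ← isUnit_map_iff (algebraMap A S) a]
    exact Iff.rfl
  have hsm : ∀ x ∈ (maximalIdeal R) • (Subalgebra.toSubmodule A),
      ∃ y ∈ (maximalIdeal R).map (algebraMap R A), (y : S) = x := by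
    intro x hx
    refine Submodule.smul_induction_on hx ?_ ?_
    · intro r hr n hn
      refine ⟨algebraMap R A r * ⟨n, hn⟩, Ideal.mul_mem_right _ _ (Ideal.mem_map_of_mem _ hr), ?_⟩
      rw [Algebra.smul_def]
      rfl
    · rintro x y ⟨x', hx', rfl⟩ ⟨y', hy', rfl⟩
      exact ⟨x' + y', Ideal.add_mem _ hx' hy', rfl⟩
  have hmA : (maximalIdeal R).map (algebraMap R A) = maximalIdeal A := by
    apply le_antisymm
    · rw [Ideal.map_le_iff_le_comap]
      intro r hr
      rw [Ideal.mem_comap, hmem]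
      have h1 : ((algebraMap R A r : A) : S) = algebraMap R S r := rfl
      rw [h1, mem_maximalIdeal, mem_nonunits_iff, isUnit_map_iff]
      exact hr
    · intro a ha
      obtain ⟨y, hy, hya⟩ := hsm _ (hA.2 _ a.2 ((hmem a).mp ha))
      have : y = a := Subtype.ext hya
      rwa [← this]
  have hfg : (maximalIdeal A).FG := by
    rw [← hmA]
    exact Ideal.FG.map (IsNoetherian.noetherian (maximalIdeal R)) _
  have hlrP := AdicCompletion.isLocalRing_of_fg hfg
  have hmP := AdicCompletion.maximalIdeal_eq_map_of_fg hfg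
  have hacP := AdicCompletion.isAdicComplete_of_fg hfg
  have hfgP : (maximalIdeal (AdicCompletion (maximalIdeal A) A)).FG := by
    rw [hmP]
    exact Ideal.FG.map hfg _
  have hnP : IsNoetherianRing (AdicCompletion (maximalIdeal A) A) := noeth_local hfgP
  let ev : ∀ n, AdicCompletion (maximalIdeal A) A →+* A ⧸ maximalIdeal A ^ n := fun n =>
    (AdicCompletion.evalₐ (maximalIdeal A) n : AdicCompletion (maximalIdeal A) A →+*
      A ⧸ maximalIdeal A ^ n)
  have hev : ∀ n a, ev n (algebraMap A (AdicCompletion (maximalIdeal A) A) a) =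
      Ideal.Quotient.mk _ a := fun n a =>
    (AdicCompletion.evalₐ (maximalIdeal A) n).commutes a
  have hq : maximalIdeal A ^ M ≤ J.comap (algebraMap A S) := by
    rw [← hmA, ← Ideal.map_pow, Ideal.map_le_iff_le_comap]
    intro r hr
    rw [Ideal.mem_comap, Ideal.mem_comap, hJ]
    exact Ideal.mem_map_of_mem (algebraMap R S) hr
  let θ : A ⧸ maximalIdeal A ^ M →+* S ⧸ J := Ideal.quotientMap J (algebraMap A S) hq
  have hθ : ∀ a, θ (Ideal.Quotient.mk _ a) = Ideal.Quotient.mk J (a : S) := fun a =>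
    Ideal.quotientMap_mk
  have hψA : ∀ a, (θ.comp (ev M)) (algebraMap A (AdicCompletion (maximalIdeal A) A) a) =
      Ideal.Quotient.mk J (a : S) := by
    intro a
    rw [RingHom.comp_apply, hev, hθ]
  refine ⟨AdicCompletion (maximalIdeal A) A, inferInstance, hlrP,
    (algebraMap A (AdicCompletion (maximalIdeal A) A)).comp (algebraMap R A), θ.comp (ev M),
    hnP, hacP, ?_, ?_, ?_, ?_⟩
  · rw [← Ideal.map_map, hmA, hmP]
  · intro r
    rw [RingHom.comp_apply (algebraMap A _), hψA]
    rfl
  · rintro I ⟨k, hk⟩ r hr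
    have h1 : ev k (((algebraMap A (AdicCompletion (maximalIdeal A) A)).comp
        (algebraMap R A)) r) ∈ (I.map ((algebraMap A (AdicCompletion (maximalIdeal A) A)).comp
        (algebraMap R A))).map (ev k) := Ideal.mem_map_of_mem _ hr
    rw [RingHom.comp_apply, hev, Ideal.map_map] at h1
    have h2 : (ev k).comp ((algebraMap A (AdicCompletion (maximalIdeal A) A)).comp
        (algebraMap R A)) = (Ideal.Quotient.mk (maximalIdeal A ^ k)).comp (algebraMap R A) := by
      ext x
      rw [RingHom.comp_apply, RingHom.comp_apply, hev]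
      rfl
    rw [h2, ← Ideal.map_map, ← Ideal.mem_comap,
      Ideal.comap_map_of_surjective _ Ideal.Quotient.mk_surjective, ← RingHom.ker_eq_comap_bot,
      Ideal.mk_ker] at h1
    have h3 : I.map (algebraMap R A) ⊔ maximalIdeal A ^ k = I.map (algebraMap R A) := by
      refine sup_eq_left.mpr ?_
      rw [← hmA, ← Ideal.map_pow]
      exact Ideal.map_mono hk
    rw [h3] at h1
    have h4 : algebraMap R S r ∈ I.map (algebraMap R S) := by
      have h5 : (I.map (algebraMap R A)).map (algebraMap A S) = I.map (algebraMap R S) := by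
        rw [Ideal.map_map]
        rfl
      rw [← h5]
      exact Ideal.mem_map_of_mem (algebraMap A S) h1
    have hff : Module.FaithfullyFlat R S := Module.FaithfullyFlat.of_flat_of_isLocalHom
    have h5 := Ideal.comap_map_eq_self_of_faithfullyFlat (B := S) I
    rw [← h5]
    exact h4
  · intro t
    obtain ⟨s, rfl⟩ := Ideal.Quotient.mk_surjective t
    obtain ⟨F, hF, hFs⟩ := exists_monic hA hmax s
    obtain ⟨K, hK⟩ := hK
    have h1 : aeval s (F ^ (K * M)) ∈ J := by
      rw [map_pow, pow_mul, hJ, Ideal.map_pow]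
      exact Ideal.pow_mem_pow (hK (Ideal.pow_mem_pow hFs K)) M
    refine ⟨(F ^ (K * M)).map (algebraMap A (AdicCompletion (maximalIdeal A) A)),
      (hF.pow _).map _, ?_⟩
    rw [eval₂_map]
    have h2 : (θ.comp (ev M)).comp (algebraMap A (AdicCompletion (maximalIdeal A) A)) =
        (Ideal.Quotient.mk J).comp (algebraMap A S) := by
      ext a
      rw [RingHom.comp_apply, hψA]
      rfl
    rw [h2, ← hom_eval₂, Ideal.Quotient.eq_zero_iff_mem]
    exact h1

end BaseP

end Vale.Agent.P202
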