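import Vale.Agent.P202.SSide

namespace Vale.Agent.P202

open Finset IsLocalRing

theorem chain_lower (f g : ℕ → ℕ) (D : ℕ) (h : ∀ N, g (N + 1) + f N ≤ f (N + 1) + D)
    (e D' t : ℕ) (hg : ∀ N, e * N.choose (t + 1) ≤ g N + D' * N ^ t) :
    ∃ D'', ∀ N, e * N.choose (t + 2) ≤ f N + D'' * N ^ (t + 1) := by
  have key : ∀ N, e * N.choose (t + 2) ≤ f N + (D + D' * N ^ t) * N := by
    intro N
    induction N with
    | zero => simp
    | succ N ih =>
      have h1 : (N + 1).choose (t + 2) = N.choose (t + 1) + N.choose (t + 2) :=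
        Nat.choose_succ_succ N (t + 1)
      have h2 : N.choose (t + 1) ≤ (N + 1).choose (t + 1) :=
        Nat.choose_le_choose _ (Nat.le_succ N)
      have h3 := hg (N + 1)
      have h4 := h N
      have h5 : N ^ t ≤ (N + 1) ^ t := Nat.pow_le_pow_left (Nat.le_succ N) t
      have h6 : e * N.choose (t + 1) ≤ e * (N + 1).choose (t + 1) := Nat.mul_le_mul_left _ h2
      have h7 : D' * N ^ t * N ≤ D' * (N + 1) ^ t * N := by gcongr
      rw [h1, mul_add]
      nlinarith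
  refine ⟨D + D', fun N => (key N).trans (Nat.add_le_add_left ?_ _)⟩
  rcases Nat.eq_zero_or_pos N with h0 | h0
  · subst h0; simp
  · have h1 : 1 ≤ N ^ t := Nat.one_le_pow _ _ h0
    rw [pow_succ, ← mul_assoc]
    refine Nat.mul_le_mul_right _ ?_
    nlinarith

theorem chain_upper (f g : ℕ → ℕ) (D : ℕ) (h : ∀ N, g (N + 1) + f N ≤ f (N + 1) + D)
    (hmono : Monotone g) (A t : ℕ) (hf : ∀ N, f N ≤ A * (N + 1) ^ (t + 1)) :
    ∃ A', ∀ N, g N ≤ A' * (N + 1) ^ t := by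
  have key : ∀ N K, K * g N + f N ≤ f (N + K) + K * D := by
    intro N K
    induction K with
    | zero => simp
    | succ K ih =>
      have h1 := h (N + K)
      have h2 : g N ≤ g (N + K + 1) := hmono (by omega)
      have h3 : N + (K + 1) = N + K + 1 := by ring
      rw [h3]
      nlinarith
  refine ⟨A * 2 ^ (t + 1) + D, fun N => ?_⟩
  have h1 := key N (N + 1)
  have h2 := hf (N + (N + 1))
  have h3 : N + (N + 1) + 1 = 2 * (N + 1) := by ring
  rw [h3] at h2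
  have h4 : (N + 1) * g N ≤ (N + 1) * (A * 2 ^ (t + 1) * (N + 1) ^ t + D) := by
    have : A * (2 * (N + 1)) ^ (t + 1) = (N + 1) * (A * 2 ^ (t + 1) * (N + 1) ^ t) := by
      rw [mul_pow, pow_succ (N + 1)]; ring
    nlinarith
  have h5 := Nat.le_of_mul_le_mul_left h4 (Nat.succ_pos N)
  refine h5.trans ?_
  rw [add_mul]
  gcongr
  exact Nat.le_mul_of_pos_right _ (Nat.pos_of_ne_zero (by positivity))

section

variable {S : Type*} [CommRing S]

theorem exists_stable (𝔭 : Ideal S) (x : S) (hfin : cl (𝔭 ⊔ Ideal.span {x}) ≠ ⊤) :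
    ∃ e c Λ : ℕ, (∀ i, c ≤ i → cl (qt 𝔭 (x ^ i) ⊔ Ideal.span {x}) ≤ e) ∧
      (∀ i, cl (qt 𝔭 (x ^ i) ⊔ Ideal.span {x}) ≤ Λ) ∧
      (∀ i, (e : ℕ∞) ≤ cl (qt 𝔭 (x ^ i) ⊔ Ideal.span {x})) := by
  have hanti : ∀ i j, i ≤ j → cl (qt 𝔭 (x ^ j) ⊔ Ideal.span {x}) ≤
      cl (qt 𝔭 (x ^ i) ⊔ Ideal.span {x}) := by
    intro i j hij
    refine cl_anti (sup_le_sup_right ?_ _)
    obtain ⟨k, rfl⟩ := Nat.exists_eq_add_of_le hij
    rw [pow_add]
    exact qt_le_mul _ _ _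
  have h0 : ∀ i, cl (qt 𝔭 (x ^ i) ⊔ Ideal.span {x}) ≤ cl (𝔭 ⊔ Ideal.span {x}) :=
    fun i => cl_anti (sup_le_sup_right (le_qt _ _) _)
  have hft : ∀ i, cl (qt 𝔭 (x ^ i) ⊔ Ideal.span {x}) ≠ ⊤ := fun i => ne_top_of_le_ne_top hfin (h0 i)
  choose l hl using fun i => ENat.ne_top_iff_exists.mp (hft i)
  obtain ⟨Λ, hΛ⟩ := ENat.ne_top_iff_exists.mp hfin
  have hlanti : ∀ i j, i ≤ j → l j ≤ l i := by
    intro i j hij
    have := hanti i j hij
    rw [← hl, ← hl] at this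
    exact_mod_cast this
  have hex : ∃ e, ∃ c, l c = e := ⟨l 0, 0, rfl⟩
  classical
  obtain ⟨c, hc⟩ := Nat.find_spec hex
  have hmin : ∀ i, Nat.find hex ≤ l i := fun i => Nat.find_min' hex ⟨i, rfl⟩
  refine ⟨Nat.find hex, c, Λ, ?_, ?_, ?_⟩
  · intro i hi
    rw [← hl]
    exact_mod_cast (hlanti c i hi).trans (le_of_eq hc)
  · intro i
    rw [hΛ]
    exact h0 i
  · intro i
    rw [← hl]
    exact_mod_cast hmin i

theorem le_cl_span_pow (𝔭 : Ideal S) (x : S) (e : ℕ)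
    (he : ∀ i, (e : ℕ∞) ≤ cl (qt 𝔭 (x ^ i) ⊔ Ideal.span {x})) (a : ℕ) :
    ((e * a : ℕ) : ℕ∞) ≤ cl (𝔭 ⊔ Ideal.span {x ^ a}) := by
  rw [cl_layer (𝔭 ⊔ Ideal.span {x ^ a}) x a]
  refine le_trans ?_ le_self_add
  have h1 : ∀ i ∈ range a, (e : ℕ∞) ≤
      cl (qt (𝔭 ⊔ Ideal.span {x ^ a}) (x ^ i) ⊔ Ideal.span {x}) := by
    intro i hi
    refine (he i).trans (cl_anti ?_)
    refine sup_le ?_ le_sup_right
    intro w hw
    rw [mem_qt] at hw
    obtain ⟨p, hp, q, hq, hpq⟩ := Submodule.mem_sup.mp hw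
    obtain ⟨v, rfl⟩ := Ideal.mem_span_singleton'.mp hq
    have hia := mem_range.mp hi
    obtain ⟨k, hk⟩ := Nat.exists_eq_add_of_lt hia
    have hxa : x ^ a = x ^ i * (x * x ^ k) := by
      rw [hk, ← pow_succ', ← pow_add, add_assoc]
    have h2 : w = (w - x * (v * x ^ k)) + x * (v * x ^ k) := by ring
    rw [h2]
    refine Submodule.add_mem_sup ?_ (Ideal.mul_mem_right _ _ (Ideal.mem_span_singleton_self x))
    rw [mem_qt]
    have h3 : x ^ i * (w - x * (v * x ^ k)) = p := by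
      rw [mul_sub, ← hpq, hxa]; ring
    rw [h3]
    exact hp
  have h2 := sum_le_sum h1
  rw [sum_const, card_range, nsmul_eq_mul] at h2
  refine le_trans (le_of_eq ?_) h2
  push_cast
  ring

theorem exists_pow_le_of_bounded [IsLocalRing S] [IsNoetherianRing S] (𝔭 : Ideal S) (A : ℕ)
    (hA : ∀ N, cl (𝔭 ⊔ maximalIdeal S ^ N) ≤ A) : ∃ c, maximalIdeal S ^ c ≤ 𝔭 := by
  have hft : ∀ N, cl (𝔭 ⊔ maximalIdeal S ^ N) ≠ ⊤ :=
    fun N => ne_top_of_le_ne_top (ENat.natCast_ne_top A) (hA N)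
  choose l hl using fun N => ENat.ne_top_iff_exists.mp (hft N)
  have hlA : ∀ N, l N ≤ A := by
    intro N
    have := hA N
    rw [← hl] at this
    exact_mod_cast this
  have hmono : Monotone l := by
    intro i j hij
    have h1 : cl (𝔭 ⊔ maximalIdeal S ^ i) ≤ cl (𝔭 ⊔ maximalIdeal S ^ j) :=
      cl_anti (sup_le_sup_left (Ideal.pow_le_pow_right hij) _)
    rw [← hl, ← hl] at h1
    exact_mod_cast h1
  obtain ⟨N, hN⟩ : ∃ N, l (N + 1) ≤ l N := by
    by_contra hcon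
    push Not at hcon
    have : ∀ N, N ≤ l N := by
      intro N
      induction N with
      | zero => exact Nat.zero_le _
      | succ N ih => exact Nat.succ_le_of_lt (lt_of_le_of_lt ih (hcon N))
    have h1 := this (A + 1)
    have h2 := hlA (A + 1)
    omega
  have heq : 𝔭 ⊔ maximalIdeal S ^ (N + 1) = 𝔭 ⊔ maximalIdeal S ^ N := by
    refine eq_of_cl_le (sup_le_sup_left (Ideal.pow_le_pow_right (Nat.le_succ N)) _) ?_ (hft _)
    rw [← hl, ← hl]
    exact_mod_cast hN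
  refine ⟨N, ?_⟩
  refine Submodule.le_of_le_smul_of_le_jacobson_bot (I := maximalIdeal S)
    (IsNoetherian.noetherian _) (IsLocalRing.maximalIdeal_le_jacobson _) ?_
  rw [smul_eq_mul, ← pow_succ', heq]
  exact le_sup_right

end

end Vale.Agent.P202
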