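import Vale.Agent.P202.Sup2

namespace Vale.Agent.P202

open Finset IsLocalRing

section Col

variable {S : Type*} [CommRing S]

def SupE (n L E 𝔭 : Ideal S) (x : S) : Prop :=
  ∃ c, ∀ j, c ≤ j → ∀ w ∈ n ^ j, x * w ∈ n ^ j * (L * E) ⊔ 𝔭 → w ∈ n ^ j * E ⊔ 𝔭

theorem col [IsNoetherianRing S] {n L E 𝔭 : Ideal S} {x : S}
    (h1 : SupE n L E 𝔭 x) (h2 : SupE n L n 𝔭 x) :
    ∃ N₀, ∀ N, N₀ ≤ N → ∀ w, x * w ∈ n ^ N * (L * E) ⊔ 𝔭 → w ∈ n ^ N * E ⊔ qt 𝔭 x := by
  obtain ⟨c1, hc1⟩ := h1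
  obtain ⟨c2, hc2⟩ := h2
  obtain ⟨k, hk⟩ := artin_rees n (𝔭 ⊔ Ideal.span {x})
  refine ⟨c1 + c2 + k, fun N hN w hw => ?_⟩
  have hstart : ∃ w' ∈ n ^ (N - k), w - w' ∈ qt 𝔭 x := by
    obtain ⟨u, hu, p, hp, hup⟩ := Submodule.mem_sup.mp hw
    have hu' : u ∈ n ^ N := Ideal.mul_le_left hu
    have hu2 : u ∈ 𝔭 ⊔ Ideal.span {x} := by
      have : u = -p + x * w := by rw [← hup]; ring
      rw [this]
      exact Submodule.add_mem_sup (Ideal.neg_mem_iff _ |>.mpr hp)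
        (Ideal.mul_mem_right _ _ (Ideal.mem_span_singleton_self x))
    have h3 := hk N (by omega) ⟨hu', hu2⟩
    rw [Ideal.mul_sup] at h3
    obtain ⟨a, ha, b, hb, hab⟩ := Submodule.mem_sup.mp h3
    obtain ⟨v, hv, hvb⟩ := Ideal.mem_mul_span_singleton.mp hb
    refine ⟨v, hv, ?_⟩
    rw [mem_qt]
    have : x * (w - v) = p + a := by
      rw [mul_sub, ← hup, ← hab, ← hvb]; ring
    rw [this]
    exact Ideal.add_mem _ hp (Ideal.mul_le_right ha)
  have claim : ∀ i, N - k + i ≤ N → ∃ w' ∈ n ^ (N - k + i), w - w' ∈ qt 𝔭 x := by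
    intro i
    induction i with
    | zero => intro _; exact hstart
    | succ i ih =>
      intro hi
      obtain ⟨w', hw', hww⟩ := ih (by omega)
      have h3 : x * w' ∈ n ^ (N - k + i) * (L * n) ⊔ 𝔭 := by
        have h4 : x * w' = x * w - x * (w - w') := by ring
        rw [h4]
        refine Ideal.sub_mem _ ?_ (Ideal.mem_sup_right hww)
        have h5 : n ^ N * (L * E) ≤ n ^ N * L := by
          rw [← mul_assoc]; exact Ideal.mul_le_left
        have h6 : n ^ (N - k + i) * (L * n) = n ^ (N - k + i + 1) * L := by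
          rw [pow_succ]; ring
        have h7 : n ^ N * (L * E) ≤ n ^ (N - k + i) * (L * n) := by
          refine h5.trans ?_
          rw [h6]
          exact Ideal.mul_mono_left (Ideal.pow_le_pow_right (by omega))
        have h8 : n ^ N * (L * E) ⊔ 𝔭 ≤ n ^ (N - k + i) * (L * n) ⊔ 𝔭 := sup_le_sup_right h7 _
        exact h8 hw
      have h4 := hc2 (N - k + i) (by omega) w' hw' h3
      obtain ⟨u, hu, p, hp, hup⟩ := Submodule.mem_sup.mp h4
      refine ⟨u, ?_, ?_⟩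
      · rw [← add_assoc, pow_succ]; exact hu
      · have h5 : w - u = (w - w') + p := by rw [← hup]; ring
        rw [h5]
        exact Ideal.add_mem _ hww (le_qt _ _ hp)
  obtain ⟨w', hw', hww⟩ := claim k (by omega)
  have hNk : N - k + k = N := by omega
  rw [hNk] at hw'
  have h3 : x * w' ∈ n ^ N * (L * E) ⊔ 𝔭 := by
    have h4 : x * w' = x * w - x * (w - w') := by ring
    rw [h4]
    exact Ideal.sub_mem _ hw (Ideal.mem_sup_right hww)
  have h4 := hc1 N (by omega) w' hw' h3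
  have h5 : w = w' + (w - w') := by ring
  rw [h5]
  refine Ideal.add_mem _ ?_ (Ideal.mem_sup_right hww)
  have h6 : n ^ N * E ⊔ 𝔭 ≤ n ^ N * E ⊔ qt 𝔭 x := sup_le_sup_left (le_qt _ _) _
  exact h6 h4

end Col

end Vale.Agent.P202
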