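import Vale.Agent.P202.B

namespace Vale.Agent.P202

open Finset IsLocalRing Filter

section Colon

variable {S : Type*} [CommRing S] [IsLocalRing S] [IsNoetherianRing S]

theorem colon_stable (hG : Good S) (n : Ideal S) (hn : Pm n) (E : Ideal S) :
    ∃ N₀, ∀ N, N₀ ≤ N → ∀ k w, (∀ u ∈ n ^ k, w * u ∈ n ^ (N + k) * E) → w ∈ n ^ N * E := by
  have := hG.inf
  obtain ⟨x, hxn, -, hx⟩ := exists_x hG.dep n n ⊤ (Ideal.mul_top n) hn {E}
  obtain ⟨N₀, hN₀⟩ := hx E (mem_singleton_self E)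
  refine ⟨N₀, fun N hN => ?_⟩
  have key : ∀ k w, x ^ k * w ∈ n ^ (N + k) * E → w ∈ n ^ N * E := by
    intro k
    induction k with
    | zero => intro w hw; simpa using hw
    | succ k ih =>
      intro w hw
      refine ih w (hN₀ (N + k) (by omega) _ ?_)
      have h1 : n ^ (N + k) * (n * E) = n ^ (N + (k + 1)) * E := by
        rw [← mul_assoc, ← pow_succ]; rfl
      rw [h1, ← mul_assoc, ← pow_succ']
      exact hw
  intro k w hw
  refine key k w ?_
  rw [mul_comm (x ^ k) w]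
  exact hw _ (Ideal.pow_mem_pow hxn k)

omit [IsNoetherianRing S] in
theorem Gd.red {n : Ideal S} {𝓔 : Finset (Ideal S)} {x y : S} {η : ℕ}
    (h : Gd n n n 𝓔 x y η) (hnm : n ≤ maximalIdeal S) (htop : ⊤ ∈ 𝓔) :
    ∃ r, ∀ N, r ≤ N → ∀ w ∈ n ^ (N + 1), ∃ a ∈ n ^ N, ∃ b ∈ n ^ N, w = x * a + y * b := by
  obtain ⟨N1, h1⟩ := h.colx ⊤ htop
  obtain ⟨N2, h2⟩ := h.coly ⊤ htop
  obtain ⟨N3, h3⟩ := h.pm
  refine ⟨N1 + N2 + N3, fun N hN w hw => ?_⟩
  have hw2 : w ∈ Ideal.span {x} ⊔ Ideal.span {y} := by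
    refine h3 ?_
    have h4 : n ^ (N + 1) ≤ maximalIdeal S ^ N3 :=
      (Ideal.pow_right_mono hnm _).trans (Ideal.pow_le_pow_right (by omega))
    exact h4 hw
  obtain ⟨u, hu, v, hv, huv⟩ := Submodule.mem_sup.mp hw2
  obtain ⟨a, rfl⟩ := Ideal.mem_span_singleton'.mp hu
  obtain ⟨b, rfl⟩ := Ideal.mem_span_singleton'.mp hv
  have h5 : y * b ∈ n ^ N * (n * ⊤) ⊔ Ideal.span {x} := by
    have h6 : y * b = w + (-a) * x := by rw [← huv]; ring
    rw [h6, Ideal.mul_top, ← pow_succ]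
    exact Submodule.add_mem_sup hw (Ideal.mem_span_singleton'.mpr ⟨-a, rfl⟩)
  have h6 := h2 N (by omega) b h5
  rw [Ideal.mul_top] at h6
  obtain ⟨b', hb', t, ht, hbt⟩ := Submodule.mem_sup.mp h6
  rw [mem_qt] at ht
  obtain ⟨t', ht'⟩ := Ideal.mem_span_singleton'.mp ht
  have h7 : w = x * (a + t') + y * b' := by
    rw [← huv, ← hbt]
    linear_combination -ht'
  refine ⟨a + t', ?_, b', hb', h7⟩
  have h8 : x * (a + t') ∈ n ^ N * (n * ⊤) := by
    have h9 : x * (a + t') = w - y * b' := by rw [h7]; ring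
    rw [h9, Ideal.mul_top, ← pow_succ]
    refine Ideal.sub_mem _ hw ?_
    rw [pow_succ']
    exact Ideal.mul_mem_mul h.hyC hb'
  have h9 := h1 N (by omega) _ h8
  rwa [Ideal.mul_top] at h9

omit [IsNoetherianRing S] in
theorem Gd.syz {n A C : Ideal S} {𝓔 : Finset (Ideal S)} {x y : S} {η : ℕ}
    (h : Gd n A C 𝓔 x y η) :
    ∃ r, ∀ a b, b ∈ n ^ r → x * a = y * b → ∃ c, a = y * c ∧ b = x * c := by
  obtain ⟨r, hr, -⟩ := h.eta
  refine ⟨r, fun a b hb hab => ?_⟩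
  have h1 : b ∈ Ideal.span {x} := by
    refine hr ⟨hb, ?_⟩
    show y * b ∈ Ideal.span {x}
    rw [← hab]
    exact Ideal.mul_mem_right _ _ (Ideal.mem_span_singleton_self x)
  obtain ⟨c, rfl⟩ := Ideal.mem_span_singleton'.mp h1
  refine ⟨c, ?_, by ring⟩
  have h2 : x * (a - y * c) = 0 := by linear_combination hab
  have h3 := (mul_left_mem_nonZeroDivisors_eq_zero_iff h.nz).mp h2
  linear_combination h3

end Colon

section Sat

variable {S : Type*} [CommRing S] [IsLocalRing S]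

def sat (I : Ideal S) : Ideal S where
  carrier := {w | ∃ k, ∀ u ∈ maximalIdeal S ^ k, u * w ∈ I}
  add_mem' := by
    rintro a b ⟨k, hk⟩ ⟨k', hk'⟩
    refine ⟨k + k', fun u hu => ?_⟩
    rw [mul_add]
    exact I.add_mem (hk u (Ideal.pow_le_pow_right (by omega) hu))
      (hk' u (Ideal.pow_le_pow_right (by omega) hu))
  zero_mem' := ⟨0, fun u _ => by simp⟩
  smul_mem' := by
    rintro c a ⟨k, hk⟩
    refine ⟨k, fun u hu => ?_⟩
    have : u * (c • a) = c * (u * a) := by rw [smul_eq_mul]; ring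
    rw [this]
    exact I.mul_mem_left _ (hk u hu)

theorem mem_sat {I : Ideal S} {w : S} : w ∈ sat I ↔ ∃ k, ∀ u ∈ maximalIdeal S ^ k, u * w ∈ I :=
  Iff.rfl

theorem le_sat (I : Ideal S) : I ≤ sat I := fun _ hw => ⟨0, fun _ _ => I.mul_mem_left _ hw⟩

theorem mem_sat_of_Pm {I J : Ideal S} (hJ : Pm J) {w : S} (h : ∀ u ∈ J, u * w ∈ I) :
    w ∈ sat I := by
  obtain ⟨k, hk⟩ := hJ
  exact ⟨k, fun u hu => h u (hk hu)⟩

variable [IsNoetherianRing S]

theorem exists_sat_pow (I : Ideal S) : ∃ s, maximalIdeal S ^ s * sat I ≤ I := by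
  classical
  obtain ⟨G, hG⟩ := IsNoetherian.noetherian (sat I)
  have h1 : ∀ g : S, ∃ k, g ∈ sat I → ∀ u ∈ maximalIdeal S ^ k, u * g ∈ I := by
    intro g
    by_cases hg : g ∈ sat I
    · obtain ⟨k, hk⟩ := hg
      exact ⟨k, fun _ => hk⟩
    · exact ⟨0, fun h => absurd h hg⟩
  choose kk hkk using h1
  refine ⟨G.sup kk, ?_⟩
  rw [Ideal.mul_le]
  intro u hu w hw
  have h2 : w ∈ Submodule.span S (G : Set S) := by rw [hG]; exact hw
  refine Submodule.span_induction (p := fun w _ => u * w ∈ I) ?_ ?_ ?_ ?_ h2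
  · intro g hg
    have hg' : g ∈ sat I := by rw [← hG]; exact Submodule.subset_span hg
    exact hkk g hg' u (Ideal.pow_le_pow_right (Finset.le_sup (by exact_mod_cast hg)) hu)
  · simp
  · intro a b _ _ ha hb
    rw [mul_add]
    exact I.add_mem ha hb
  · intro c a _ ha
    have : u * (c • a) = c * (u * a) := by rw [smul_eq_mul]; ring
    rw [this]
    exact I.mul_mem_left _ ha

theorem exists_sat_inf (n : Ideal S) (hnm : n ≤ maximalIdeal S) (I : Ideal S) :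
    ∃ N, n ^ N ⊓ sat I ≤ I := by
  obtain ⟨s, hs⟩ := exists_sat_pow I
  obtain ⟨k, hk⟩ := artin_rees n (sat I)
  refine ⟨k + s, (hk (k + s) (by omega)).trans ?_⟩
  have : k + s - k = s := by omega
  rw [this]
  exact (Ideal.mul_mono_left (Ideal.pow_right_mono hnm s)).trans hs

theorem rl_sat_ne_top (I : Ideal S) : rl I (sat I) ≠ ⊤ := by
  obtain ⟨N, hN⟩ := exists_sat_inf (maximalIdeal S) le_rfl I
  have h1 : sat I ⊓ (maximalIdeal S ^ N ⊔ I) = I := by
    apply le_antisymm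
    · rintro w ⟨hw1, hw2⟩
      obtain ⟨u, hu, v, hv, rfl⟩ := Submodule.mem_sup.mp hw2
      refine I.add_mem (hN ⟨hu, ?_⟩) hv
      have : u = (u + v) - v := by ring
      rw [this]
      exact Ideal.sub_mem _ hw1 (le_sat I hv)
    · exact le_inf (le_sat I) le_sup_right
  have h2 := rl_sup (maximalIdeal S ^ N ⊔ I) (sat I)
  rw [h1] at h2
  rw [← h2]
  have h3 := cl_eq_rl_add (V := maximalIdeal S ^ N ⊔ I) (U := sat I ⊔ (maximalIdeal S ^ N ⊔ I))
    le_sup_right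
  have h4 : cl (maximalIdeal S ^ N ⊔ I) ≠ ⊤ := by
    rw [sup_comm]; exact cl_sup_pow_ne_top I N
  rw [h3] at h4
  exact fun h => h4 (by rw [h]; simp)

end Sat

end Vale.Agent.P202
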