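import Vale.Agent.P202.Det

namespace Vale.Agent.P202

open Finset Matrix Polynomial

section Ident

variable {R : Type*} [CommRing R] {n : Type*} [Fintype n] [DecidableEq n]

theorem ident_unit (X Y P U D : Matrix n n R) (hPU : P * U = 1) (hXY : X * Y = Y * X)
    (hX : IsUnit X.det) :
    (X * P * (1 - D) + Y * D).det = P.det * ((1 - D) * X + D * U * Y).det := by
  have h1 : X * X⁻¹ = 1 := Matrix.mul_nonsing_inv X hX
  have h2 : X⁻¹ * X = 1 := Matrix.nonsing_inv_mul X hX
  have h3 : X⁻¹ * Y = Y * X⁻¹ := by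
    calc X⁻¹ * Y = X⁻¹ * (Y * (X * X⁻¹)) := by rw [h1, mul_one]
      _ = X⁻¹ * ((Y * X) * X⁻¹) := by noncomm_ring
      _ = X⁻¹ * ((X * Y) * X⁻¹) := by rw [hXY]
      _ = (X⁻¹ * X) * Y * X⁻¹ := by noncomm_ring
      _ = Y * X⁻¹ := by rw [h2, one_mul]
  have e1 : X * P * (1 - D) + Y * D = X * (P * (1 + (U * (X⁻¹ * Y) - 1) * D)) := by
    calc X * P * (1 - D) + Y * D = X * P * (1 - D) + 1 * Y * D := by rw [one_mul]
      _ = X * P * (1 - D) + (X * 1 * X⁻¹) * Y * D := by rw [mul_one, h1]
      _ = X * P * (1 - D) + (X * (P * U) * X⁻¹) * Y * D := by rw [hPU]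
      _ = _ := by noncomm_ring
  have e2 : (1 - D) * X + D * U * Y = (1 + D * (U * (X⁻¹ * Y) - 1)) * X := by
    calc (1 - D) * X + D * U * Y = (1 - D) * X + D * U * Y * 1 := by rw [mul_one]
      _ = (1 - D) * X + D * U * Y * (X⁻¹ * X) := by rw [h2]
      _ = (1 - D) * X + D * U * (Y * X⁻¹) * X := by noncomm_ring
      _ = (1 - D) * X + D * U * (X⁻¹ * Y) * X := by rw [h3]
      _ = _ := by noncomm_ring
  rw [e1, e2, det_mul, det_mul, det_mul, Matrix.det_one_add_mul_comm]
  ring

theorem ident (X Y P U D : Matrix n n R) (hPU : P * U = 1) (hXY : X * Y = Y * X) :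
    (X * P * (1 - D) + Y * D).det = P.det * ((1 - D) * X + D * U * Y).det := by
  let φ : Matrix n n R →+* Matrix n n R[X] := (Polynomial.C : R →+* R[X]).mapMatrix
  let XX : Matrix n n R[X] := charmatrix (-X)
  have hXX : XX = φ X + scalar n (Polynomial.X : R[X]) := by
    simp only [XX, charmatrix, φ, map_neg, sub_neg_eq_add]
    rw [add_comm]
  have hcomm : XX * φ Y = φ Y * XX := by
    rw [hXX, add_mul, mul_add, ← map_mul, ← map_mul, hXY]
    congr 1
    exact scalar_commute _ (fun r' => Commute.all _ _) _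
  have hmonic : XX.det.Monic := charpoly_monic (-X)
  have hnz : XX.det ∈ nonZeroDivisors R[X] := hmonic.mem_nonZeroDivisors
  let ρ : R[X] →+* Localization.Away XX.det := algebraMap R[X] (Localization.Away XX.det)
  have hinj : Function.Injective ρ := by
    refine IsLocalization.injective _ (M := Submonoid.powers XX.det) ?_
    rintro _ ⟨k, rfl⟩
    exact pow_mem hnz k
  have hunit : IsUnit (ρ.mapMatrix XX).det := by
    rw [← RingHom.map_det]
    exact IsLocalization.Away.algebraMap_isUnit XX.det
  have key : (XX * φ P * (1 - φ D) + φ Y * φ D).det =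
      (φ P).det * ((1 - φ D) * XX + φ D * φ U * φ Y).det := by
    apply hinj
    rw [map_mul, RingHom.map_det, RingHom.map_det, RingHom.map_det]
    simp only [map_mul, map_add, map_sub, map_one]
    refine ident_unit _ _ _ _ _ ?_ ?_ hunit
    · rw [← map_mul, ← map_mul, hPU, map_one, map_one]
    · rw [← map_mul, ← map_mul, hcomm]
  have h0 := congrArg (Polynomial.evalRingHom (0 : R)) key
  have hev : ∀ M : Matrix n n R, (Polynomial.evalRingHom (0 : R)).mapMatrix (φ M) = M := by
    intro M
    ext i j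
    simp [φ]
  have hevX : (Polynomial.evalRingHom (0 : R)).mapMatrix XX = X := by
    rw [hXX, map_add, hev]
    ext i j
    simp [Matrix.scalar_apply]
  rw [map_mul, RingHom.map_det, RingHom.map_det, RingHom.map_det] at h0
  simp only [map_mul, map_add, map_sub, map_one, hev, hevX] at h0
  exact h0

end Ident

section Perm

variable {R : Type*} [CommRing R] {a : ℕ}

theorem exists_perm (s : Finset (Fin a)) (f : Fin a → Fin a) (hf : Set.InjOn f s) :
    ∃ σ : Equiv.Perm (Fin a), ∀ i ∈ s, σ i = f i := by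
  obtain ⟨g, hg⟩ := Finset.exists_equiv_extend_of_card_eq (t := (Finset.univ : Finset (Fin a)))
    (by simp) (s := s) (f := f) (Finset.subset_univ _) hf
  refine ⟨g.trans (Equiv.subtypeUnivEquiv (fun x => Finset.mem_univ x)), fun i hi => ?_⟩
  exact hg i hi

theorem minor_mem (X Y : Matrix (Fin a) (Fin a) R) (hXY : X * Y = Y * X)
    (c : Fin a → Fin a ⊕ Fin a) : ((fromCols X Y).submatrix id c).det ∈
      Ideal.span {d | ∃ c', d = ((fromRows X Y).submatrix c' id).det} := by
  classical
  by_cases hc : Function.Injective c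
  · obtain ⟨τ, hτ⟩ := exists_perm (Finset.univ.filter fun j => (c j).isRight)
      (fun j => Sum.elim id id (c j)) (by
        intro i hi j hj hij
        simp only [Finset.coe_filter, Finset.mem_univ, true_and, Set.mem_ofPred_eq] at hi hj
        obtain ⟨r, hr⟩ := Sum.isRight_iff.mp hi
        obtain ⟨r', hr'⟩ := Sum.isRight_iff.mp hj
        simp only [hr, hr', Sum.elim_inr, id] at hij
        exact hc (by rw [hr, hr', hij]))
    obtain ⟨σ, hσ⟩ := exists_perm (Finset.univ.filter fun j => (c j).isLeft)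
      (fun j => Sum.elim id id (c j)) (by
        intro i hi j hj hij
        simp only [Finset.coe_filter, Finset.mem_univ, true_and, Set.mem_ofPred_eq] at hi hj
        obtain ⟨r, hr⟩ := Sum.isLeft_iff.mp hi
        obtain ⟨r', hr'⟩ := Sum.isLeft_iff.mp hj
        simp only [hr, hr', Sum.elim_inl, id] at hij
        exact hc (by rw [hr, hr', hij]))
    have hτ' : ∀ j r, c j = Sum.inr r → τ j = r := by
      intro j r h
      have := hτ j (by simp [h])
      simpa [h] using this
    have hσ' : ∀ j r, c j = Sum.inl r → σ j = r := by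
      intro j r h
      have := hσ j (by simp [h])
      simpa [h] using this
    set π : Equiv.Perm (Fin a) := σ * τ⁻¹ with hπ
    set P : Matrix (Fin a) (Fin a) R := (1 : Matrix (Fin a) (Fin a) R).submatrix id π with hP
    set U : Matrix (Fin a) (Fin a) R := (1 : Matrix (Fin a) (Fin a) R).submatrix π id with hU
    set D : Matrix (Fin a) (Fin a) R :=
      Matrix.diagonal (fun p => if ∃ j, c j = Sum.inr p then 1 else 0) with hD
    have hPU : P * U = 1 := by
      rw [hP, hU, Matrix.submatrix_mul_equiv, one_mul]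
      exact Matrix.submatrix_one_equiv (Equiv.refl _)
    have h1 := ident X Y P U D hPU hXY
    have h2 : (fromCols X Y).submatrix id c = (X * P * (1 - D) + Y * D).submatrix id τ := by
      ext i j
      have hXP : X * P = X.submatrix id π := by
        rw [hP]
        ext i j
        simp [Matrix.mul_apply, Matrix.one_apply]
      rw [Matrix.submatrix_apply, Matrix.submatrix_apply, hXP, mul_sub, mul_one,
        Matrix.add_apply, Matrix.sub_apply, hD, Matrix.mul_diagonal, Matrix.mul_diagonal,
        Matrix.submatrix_apply]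
      rcases h : c j with r | r
      · have hnot : ¬ ∃ j', c j' = Sum.inr (τ j) := by
          rintro ⟨j', hj'⟩
          have h3 := hτ' j' _ hj'
          have h4 := τ.injective h3
          rw [h4, h] at hj'
          exact absurd hj' (by simp)
        rw [if_neg hnot]
        have h5 : π (τ j) = r := by
          rw [hπ, Equiv.Perm.mul_apply, Equiv.Perm.inv_def, Equiv.symm_apply_apply, hσ' j r h]
        simp [h5]
      · have hyes : ∃ j', c j' = Sum.inr (τ j) := ⟨j, by rw [h, hτ' j r h]⟩
        rw [if_pos hyes, hτ' j r h]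
        simp
    have h3 : (1 - D) * X + D * U * Y = (fromRows X Y).submatrix
        (fun p => if ∃ j, c j = Sum.inr p then Sum.inr (π p) else Sum.inl p) id := by
      have hUY : U * Y = Y.submatrix π id := by
        rw [hU]
        ext i j
        simp [Matrix.mul_apply, Matrix.one_apply]
      ext i j
      rw [mul_assoc, hUY, sub_mul, one_mul, Matrix.add_apply, Matrix.sub_apply, hD,
        Matrix.diagonal_mul, Matrix.diagonal_mul, Matrix.submatrix_apply, Matrix.submatrix_apply]
      split_ifs with h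
      · simp
      · simp
    rw [h2, Matrix.det_permute', h1, h3]
    refine Ideal.mul_mem_left _ _ (Ideal.mul_mem_left _ _ (Ideal.subset_span ⟨_, rfl⟩))
  · rw [Function.not_injective_iff] at hc
    obtain ⟨i, j, hij, hne⟩ := hc
    rw [Matrix.det_zero_of_column_eq hne (fun k => by
      rw [Matrix.submatrix_apply, Matrix.submatrix_apply, hij])]
    exact Ideal.zero_mem _

variable {ι : Type*} [Fintype ι] [DecidableEq ι]

omit [DecidableEq ι] in
theorem mem_JI_top {Φ : Matrix (Fin a) ι R} (Q : Matrix ι (Fin a) R) :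
    (Φ * Q).det ∈ JI Φ a := Ideal.subset_span ⟨le_rfl, Q, rfl⟩

omit [DecidableEq ι] in
theorem JI_top_le {Φ : Matrix (Fin a) ι R} {J : Ideal R}
    (h : ∀ Q : Matrix ι (Fin a) R, (Φ * Q).det ∈ J) : JI Φ a ≤ J := by
  unfold JI
  rw [Ideal.span_le]
  rintro _ ⟨_, Q, rfl⟩
  exact h Q

omit [DecidableEq ι] in
theorem JI_top_le_of_minors {Φ : Matrix (Fin a) ι R} {J : Ideal R}
    (h : ∀ c : Fin a → ι, (Φ.submatrix id c).det ∈ J) : JI Φ a ≤ J := by
  refine JI_top_le fun Q => ?_
  have h1 : (Φ * Q).det = Matrix.detRowAlternating (fun j => ∑ c, Q c j • Φᵀ c) := by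
    rw [← Matrix.det_transpose]
    show Matrix.detRowAlternating _ = _
    congr 1
    ext j i
    simp [Matrix.mul_apply, mul_comm]
  rw [h1]
  have h2 := MultilinearMap.map_sum
    (Matrix.detRowAlternating (n := Fin a) (R := R)).toMultilinearMap
    (fun j c => Q c j • Φᵀ c)
  have h3 : Matrix.detRowAlternating (fun j => ∑ c, Q c j • Φᵀ c) =
      ∑ f : Fin a → ι, (∏ j, Q (f j) j) * (Φ.submatrix id f).det := by
    refine h2.trans (sum_congr rfl fun f _ => ?_)
    rw [MultilinearMap.map_smul_univ, smul_eq_mul]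
    congr 1
    rw [← Matrix.det_transpose]
    rfl
  rw [h3]
  exact Ideal.sum_mem _ fun f _ => Ideal.mul_mem_left _ _ (h f)

theorem JI_cols_le (X Y : Matrix (Fin a) (Fin a) R) (hXY : X * Y = Y * X) :
    JI (fromCols X Y) a ≤ JI (fromCols Xᵀ Yᵀ) a := by
  refine JI_top_le_of_minors fun c => ?_
  have h1 := minor_mem X Y hXY c
  refine (Ideal.span_le.mpr ?_) h1
  rintro _ ⟨c', rfl⟩
  have h2 : ((fromRows X Y).submatrix c' id).det =
      (fromCols Xᵀ Yᵀ * (1 : Matrix (Fin a ⊕ Fin a) (Fin a ⊕ Fin a) R).submatrix id c').det := by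
    rw [← Matrix.det_transpose]
    congr 1
    ext i j
    rw [Matrix.mul_apply, Matrix.transpose_apply, Matrix.submatrix_apply]
    rcases h : c' j with r | r
    · simp [h, Matrix.one_apply]
    · simp [h, Matrix.one_apply]
  rw [h2]
  exact mem_JI_top _

theorem JI_cols_eq (X Y : Matrix (Fin a) (Fin a) R) (hXY : X * Y = Y * X) :
    JI (fromCols X Y) a = JI (fromCols Xᵀ Yᵀ) a := by
  apply le_antisymm (JI_cols_le X Y hXY)
  have h := JI_cols_le Xᵀ Yᵀ (by rw [← transpose_mul, ← transpose_mul, hXY])
  simpa using h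

end Perm

end Vale.Agent.P202
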