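import Vale.Agent.P202.Frac

namespace Vale.Agent.P202

open Finset IsLocalRing Filter

section Conv

variable {S : Type*} [CommRing S]

def mulR (x : S) {Q R : Ideal S} (h : ∀ a ∈ Q, x * a ∈ R) : Q →ₗ[S] R :=
  (LinearMap.mulLeft S x).restrict h

def mulQ (x : S) {Q Q' R R' : Ideal S} (h : ∀ a ∈ Q, x * a ∈ R) (h' : ∀ a ∈ Q', x * a ∈ R') :
    (Q ⧸ Q'.submoduleOf Q) →ₗ[S] (R ⧸ R'.submoduleOf R) :=
  Submodule.mapQ _ _ (mulR x h) (fun a ha => h' a.1 ha)

theorem mulQ_mk (x : S) {Q Q' R R' : Ideal S} (h : ∀ a ∈ Q, x * a ∈ R)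
    (h' : ∀ a ∈ Q', x * a ∈ R') (a : Q) :
    mulQ x h h' (Submodule.Quotient.mk a) = Submodule.Quotient.mk ⟨x * a.1, h a.1 a.2⟩ := rfl

theorem mk_eq_iff {R R' : Ideal S} (a b : R) :
    (Submodule.Quotient.mk a : R ⧸ R'.submoduleOf R) = Submodule.Quotient.mk b ↔
      a.1 - b.1 ∈ R' := by
  rw [Submodule.Quotient.eq]
  rfl

theorem mk_zero_iff {R R' : Ideal S} (a : R) :
    (Submodule.Quotient.mk a : R ⧸ R'.submoduleOf R) = 0 ↔ a.1 ∈ R' := by
  rw [Submodule.Quotient.mk_eq_zero]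
  rfl

theorem rl_koszul (x y : S) {P P' Q Q' R R' : Ideal S}
    (h1 : ∀ c ∈ P, x * c ∈ Q) (h2 : ∀ c ∈ P, y * c ∈ Q)
    (h1' : ∀ c ∈ P', x * c ∈ Q') (h2' : ∀ c ∈ P', y * c ∈ Q')
    (h3 : ∀ a ∈ Q, x * a ∈ R) (h4 : ∀ a ∈ Q, y * a ∈ R)
    (h3' : ∀ a ∈ Q', x * a ∈ R') (h4' : ∀ a ∈ Q', y * a ∈ R')
    (hex : ∀ a ∈ Q, ∀ b ∈ Q, x * a - y * b ∈ R' → ∃ c ∈ P, a - y * c ∈ Q' ∧ b - x * c ∈ Q') :
    rl Q' Q + rl Q' Q ≤ rl P' P + rl R' R := by
  unfold rl
  rw [← Module.length_prod]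
  refine rl_exact_le ((mulQ y h2 h2').prod (mulQ x h1 h1'))
    ((mulQ x h3 h3').coprod (-(mulQ y h4 h4'))) ?_
  rintro ⟨a, b⟩ hab
  obtain ⟨a, rfl⟩ := Submodule.Quotient.mk_surjective _ a
  obtain ⟨b, rfl⟩ := Submodule.Quotient.mk_surjective _ b
  rw [LinearMap.coprod_apply, LinearMap.neg_apply, mulQ_mk, mulQ_mk, ← sub_eq_add_neg,
    sub_eq_zero, mk_eq_iff] at hab
  obtain ⟨c, hc, h5, h6⟩ := hex a.1 a.2 b.1 b.2 hab
  refine ⟨Submodule.Quotient.mk ⟨c, hc⟩, ?_⟩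
  refine Prod.ext ((mk_eq_iff _ _).mpr ?_) ((mk_eq_iff _ _).mpr ?_)
  · have : y * c - a.1 = -(a.1 - y * c) := by ring
    show y * c - a.1 ∈ Q'
    rw [this]
    exact Q'.neg_mem h5
  · have : x * c - b.1 = -(b.1 - x * c) := by ring
    show x * c - b.1 ∈ Q'
    rw [this]
    exact Q'.neg_mem h6

theorem rl_span_mul {z : S} (hz : z ∈ nonZeroDivisors S) (G : Ideal S) :
    rl (Ideal.span {z} * G) (Ideal.span {z}) = cl G := by
  unfold rl cl
  have h1 : ∀ a ∈ (⊤ : Ideal S), z * a ∈ Ideal.span {z} := fun a _ =>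
    Ideal.mul_mem_right _ _ (Ideal.mem_span_singleton_self z)
  have h2 : ∀ a ∈ G, z * a ∈ Ideal.span {z} * G := fun a ha =>
    Ideal.mul_mem_mul (Ideal.mem_span_singleton_self z) ha
  have h3 := rl_top G
  unfold rl at h3
  rw [← h3]
  refine (LinearEquiv.ofBijective (mulQ z h1 h2) ⟨?_, ?_⟩).symm.length_eq
  · rw [← LinearMap.ker_eq_bot, LinearMap.ker_eq_bot']
    intro a ha
    obtain ⟨a, rfl⟩ := Submodule.Quotient.mk_surjective _ a
    rw [mulQ_mk] at ha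
    have h4 : z * a.1 ∈ Ideal.span {z} * G := (mk_zero_iff _).mp ha
    obtain ⟨g, hg, hga⟩ := Ideal.mem_span_singleton_mul.mp h4
    have h5 : a.1 = g := by
      have h6 : z * (a.1 - g) = 0 := by linear_combination -hga
      have h7 := (mul_left_mem_nonZeroDivisors_eq_zero_iff hz).mp h6
      linear_combination h7
    refine (mk_zero_iff _).mpr ?_
    rw [h5]; exact hg
  · intro b
    obtain ⟨⟨b, hb⟩, rfl⟩ := Submodule.Quotient.mk_surjective _ b
    obtain ⟨c, rfl⟩ := Ideal.mem_span_singleton'.mp hb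
    refine ⟨Submodule.Quotient.mk ⟨c, trivial⟩, ?_⟩
    rw [mulQ_mk, mk_eq_iff]
    have : z * c - c * z = 0 := by ring
    show z * c - c * z ∈ _
    rw [this]
    exact Ideal.zero_mem _

theorem rl_self (V : Ideal S) : rl V V = 0 := by
  have h := rl_add (le_refl V) (le_refl V)
  unfold rl
  rw [Module.length_eq_zero_iff]
  refine ⟨fun a b => ?_⟩
  obtain ⟨a, rfl⟩ := Submodule.Quotient.mk_surjective _ a
  obtain ⟨b, rfl⟩ := Submodule.Quotient.mk_surjective _ b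
  rw [mk_eq_iff]
  exact V.sub_mem a.2 b.2

theorem rl_mono {V U W : Ideal S} (h1 : V ≤ U) (h2 : U ≤ W) : rl V U ≤ rl V W := by
  rw [rl_add h1 h2]
  exact le_self_add

variable [IsLocalRing S]

theorem sat_mono {I J : Ideal S} (h : I ≤ J) : sat I ≤ sat J := by
  rintro w ⟨k, hk⟩
  exact ⟨k, fun u hu => h (hk u hu)⟩

theorem rl_sat_pow {z : S} (hz : z ∈ nonZeroDivisors S) (p : ℕ) :
    rl (Ideal.span {z ^ p}) (sat (Ideal.span {z ^ p})) ≤
      p * rl (Ideal.span {z}) (sat (Ideal.span {z})) := by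
  induction p with
  | zero =>
    have h1 : Ideal.span {z ^ 0} = (⊤ : Ideal S) := by
      rw [pow_zero, Ideal.span_singleton_one]
    have h2 : sat (⊤ : Ideal S) = ⊤ := top_le_iff.mp (le_sat _)
    rw [h1, h2, rl_self]
    exact zero_le
  | succ p ih =>
    have hle : Ideal.span {z ^ (p + 1)} ≤ Ideal.span {z} := by
      rw [Ideal.span_singleton_le_iff_mem, pow_succ']
      exact Ideal.mul_mem_right _ _ (Ideal.mem_span_singleton_self z)
    have h1 : ∀ a ∈ sat (Ideal.span {z ^ p}), z * a ∈ sat (Ideal.span {z ^ (p + 1)}) := by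
      rintro a ⟨k, hk⟩
      refine ⟨k, fun u hu => ?_⟩
      obtain ⟨c, hc⟩ := Ideal.mem_span_singleton'.mp (hk u hu)
      refine Ideal.mem_span_singleton'.mpr ⟨c, ?_⟩
      rw [pow_succ]
      linear_combination z * hc
    have h1' : ∀ a ∈ Ideal.span {z ^ p}, z * a ∈ Ideal.span {z ^ (p + 1)} := by
      intro a ha
      obtain ⟨c, rfl⟩ := Ideal.mem_span_singleton'.mp ha
      refine Ideal.mem_span_singleton'.mpr ⟨c, ?_⟩
      rw [pow_succ]; ring
    have h2 : ∀ a ∈ sat (Ideal.span {z ^ (p + 1)}), 1 * a ∈ sat (Ideal.span {z}) := by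
      intro a ha
      rw [one_mul]
      exact sat_mono hle ha
    have h2' : ∀ a ∈ Ideal.span {z ^ (p + 1)}, 1 * a ∈ Ideal.span {z} := by
      intro a ha
      rw [one_mul]
      exact hle ha
    have h3 := rl_exact_le (mulQ z h1 h1') (mulQ 1 h2 h2') (by
      intro b hb
      obtain ⟨b, rfl⟩ := Submodule.Quotient.mk_surjective _ b
      rw [mulQ_mk] at hb
      have h4 : 1 * b.1 ∈ Ideal.span {z} := (mk_zero_iff _).mp hb
      rw [one_mul] at h4
      obtain ⟨c, hc⟩ := Ideal.mem_span_singleton'.mp h4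
      have h5 : c ∈ sat (Ideal.span {z ^ p}) := by
        obtain ⟨k, hk⟩ := b.2
        refine ⟨k, fun u hu => ?_⟩
        obtain ⟨d, hd⟩ := Ideal.mem_span_singleton'.mp (hk u hu)
        refine Ideal.mem_span_singleton'.mpr ⟨d, ?_⟩
        have h6 : z * (d * z ^ p - u * c) = 0 := by
          linear_combination hd - u * hc
        have h7 := (mul_left_mem_nonZeroDivisors_eq_zero_iff hz).mp h6
        linear_combination h7
      refine ⟨Submodule.Quotient.mk ⟨c, h5⟩, ?_⟩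
      rw [mulQ_mk, mk_eq_iff]
      have : z * c - b.1 = 0 := by linear_combination hc
      show z * c - b.1 ∈ _
      rw [this]
      exact Ideal.zero_mem _)
    unfold rl at *
    refine h3.trans ?_
    push_cast
    rw [add_mul, one_mul]
    gcongr

end Conv

section Num

theorem num_conv (r : ℕ → ℤ) (s1 s2 : ℤ) (c₀ : ℕ) (j : ℕ) (h0 : r (c₀ + j) = 0)
    (h1 : ∀ i, i + 1 = j → r (c₀ + i) = s1)
    (h : ∀ N, c₀ + 1 ≤ N → N + 1 ≤ c₀ + j →
      2 * r N + s1 ≤ r (N - 1) + s2 + r (N + 1)) :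
    2 * (j : ℤ) * s1 - (s2 - s1) * j * (j - 1) ≤ 2 * r c₀ := by
  have key : ∀ i, i ≤ j → 2 * (i : ℤ) * s1 - (s2 - s1) * i * (i - 1) ≤ 2 * r (c₀ + j - i) ∧
      (i + 1 ≤ j → s1 - (s2 - s1) * i ≤ r (c₀ + j - (i + 1)) - r (c₀ + j - i)) := by
    intro i
    induction i with
    | zero =>
      intro _
      refine ⟨by simp [h0], fun hj => ?_⟩
      have h2 := h1 (j - 1) (by omega)
      have h3 : c₀ + j - (0 + 1) = c₀ + (j - 1) := by omega
      rw [h3, h2, Nat.sub_zero, h0]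
      simp
    | succ i ih =>
      intro hi
      obtain ⟨ih1, ih2⟩ := ih (by omega)
      have ih2' := ih2 hi
      refine ⟨?_, fun hj => ?_⟩
      · push_cast
        nlinarith
      · have h2 := h (c₀ + j - (i + 1)) (by omega) (by omega)
        have e1 : c₀ + j - (i + 1) - 1 = c₀ + j - (i + 1 + 1) := by omega
        have e2 : c₀ + j - (i + 1) + 1 = c₀ + j - i := by omega
        rw [e1, e2] at h2
        push_cast
        linarith
  have h2 := (key j le_rfl).1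
  have e3 : c₀ + j - j = c₀ := by omega
  rwa [e3] at h2

end Num

end Vale.Agent.P202
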