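import Vale.Agent.P202.Dim

namespace Vale.Agent.P202

open IsLocalRing

universe u v

theorem core_infinite {R : Type u} {S : Type v} [CommRing R] [IsLocalRing R] [IsNoetherianRing R]
    [CommRing S] [IsLocalRing S] [IsNoetherianRing S] [Algebra R S] [Module.Flat R S]
    [IsLocalHom (algebraMap R S)] [Infinite (ResidueField S)]
    (hfib : ∃ K, maximalIdeal S ^ K ≤ (maximalIdeal R).map (algebraMap R S))
    (δ A : ℕ)
    (hA : ∀ N, cl (maximalIdeal S ^ N) ≤ ((A * (N + 1) ^ (δ + 2) : ℕ) : ℕ∞))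
    (r : ℕ) (hr : 1 ≤ r) (g : Fin r → S) (hgn : ∀ j, g j ∈ maximalIdeal S)
    (hg : maximalIdeal S ≤
      (maximalIdeal R).map (algebraMap R S) ⊔ Ideal.span (Set.range g)) :
    ∃ e D : ℕ, (∀ N, cl (maximalIdeal R ^ N) ≤
      ((e * ((min r (δ + 2) - 1).factorial * (N + (δ + 1)).choose (δ + 2)) +
        D * N ^ (δ + 1) : ℕ) : ℕ∞)) ∧
      (∀ N : ℕ, ((e * N.choose (δ + 2) : ℕ) : ℕ∞) ≤
        cl (maximalIdeal S ^ N) + ((D * N ^ (δ + 1) : ℕ) : ℕ∞)) := by
  obtain ⟨X, hX, hs, hc⟩ := exists_seq ((maximalIdeal R).map (algebraMap R S)) (δ + 2)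
  refine numeric hfib X δ hX hs A hA r hr fun hrr => ?_
  exact gens_of_seq _ X (δ + 2) hX hc r g hgn hg (by omega)

theorem core {R : Type u} {S : Type v} [CommRing R] [IsLocalRing R] [IsNoetherianRing R]
    [CommRing S] [IsLocalRing S] [IsNoetherianRing S] [Algebra R S] [Module.Flat R S]
    [IsLocalHom (algebraMap R S)]
    (hfib : ∃ K, maximalIdeal S ^ K ≤ (maximalIdeal R).map (algebraMap R S))
    (δ A : ℕ)
    (hA : ∀ N, cl (maximalIdeal S ^ N) ≤ ((A * (N + 1) ^ (δ + 2) : ℕ) : ℕ∞))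
    (r : ℕ) (hr : 1 ≤ r) (g : Fin r → S) (hgn : ∀ j, g j ∈ maximalIdeal S)
    (hg : maximalIdeal S ≤
      (maximalIdeal R).map (algebraMap R S) ⊔ Ideal.span (Set.range g)) :
    ∃ e D : ℕ, (∀ N, cl (maximalIdeal R ^ N) ≤
      ((e * ((min r (δ + 2) - 1).factorial * (N + (δ + 1)).choose (δ + 2)) +
        D * N ^ (δ + 1) : ℕ) : ℕ∞)) ∧
      (∀ N : ℕ, ((e * N.choose (δ + 2) : ℕ) : ℕ∞) ≤
        cl (maximalIdeal S ^ N) + ((D * N ^ (δ + 1) : ℕ) : ℕ∞)) := by
  obtain ⟨S', i1, i2, i3, i4, hflat, hloc, hmap, hinf⟩ := exists_infinite_residue S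
  let _ : Algebra R S' := ((algebraMap S S').comp (algebraMap R S)).toAlgebra
  have htower : IsScalarTower R S S' := IsScalarTower.of_algebraMap_eq fun _ => rfl
  have hflat' : Module.Flat R S' := Module.Flat.trans R S S'
  have hloc' : IsLocalHom (algebraMap R S') := by
    rw [IsScalarTower.algebraMap_eq R S S']
    infer_instance
  have hmm : (maximalIdeal R).map (algebraMap R S') =
      ((maximalIdeal R).map (algebraMap R S)).map (algebraMap S S') := by
    rw [Ideal.map_map, IsScalarTower.algebraMap_eq R S S']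
  have hcl : ∀ N, cl (maximalIdeal S' ^ N) = cl (maximalIdeal S ^ N) := by
    intro N
    rw [← hmap, ← Ideal.map_pow]
    exact cl_flat S S' hmap _
  obtain ⟨e, D, h1, h2⟩ := core_infinite (R := R) (S := S') (by
    obtain ⟨K, hK⟩ := hfib
    refine ⟨K, ?_⟩
    rw [← hmap, ← Ideal.map_pow, hmm]
    exact Ideal.map_mono hK) δ A (fun N => by rw [hcl]; exact hA N) r hr
    (fun j => algebraMap S S' (g j)) (fun j => by
      rw [← hmap]
      exact Ideal.mem_map_of_mem _ (hgn j)) (by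
      rw [← hmap, hmm]
      refine (Ideal.map_mono hg).trans ?_
      rw [Ideal.map_sup, Ideal.map_span, ← Set.range_comp]
      exact le_rfl)
  refine ⟨e, D, h1, fun N => ?_⟩
  rw [← hcl]
  exact h2 N

end Vale.Agent.P202
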