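import Vale.Agent.P202.Layer

namespace Vale.Agent.P202

open Finset

section Count

variable {S : Type*} [CommRing S] (y : ℕ → S)

open Classical in
noncomputable def ind (I : Ideal S) : ℕ∞ := if I = ⊤ then 0 else 1

theorem ind_top : ind (⊤ : Ideal S) = 0 := by simp [ind]

theorem ind_le_one (I : Ideal S) : ind I ≤ 1 := by
  unfold ind; split <;> simp

theorem ind_anti {I J : Ideal S} (h : I ≤ J) : ind J ≤ ind I := by
  by_cases hI : I = ⊤
  · subst hI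
    rw [top_le_iff.mp h]
  · have : ind I = 1 := by simp [ind, hI]
    rw [this]
    exact ind_le_one J

theorem ind_le_cl (I : Ideal S) : ind I ≤ cl I := by
  by_cases hI : I = ⊤
  · subst hI; simp [ind_top]
  · have : ind I = 1 := by simp [ind, hI]
    rw [this, Order.one_le_iff_ne_zero]
    exact fun h => hI (cl_eq_zero.mp h)

theorem cl_le_mul_ind {I : Ideal S} {c : ℕ∞} (h : cl I ≤ c) : cl I ≤ c * ind I := by
  by_cases hI : I = ⊤
  · subst hI; simp [cl_top]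
  · have : ind I = 1 := by simp [ind, hI]
    rw [this, mul_one]
    exact h

variable (𝔮 𝔪 : Ideal S)

def Qf (j : ℕ) : Ideal S := 𝔮 ⊔ 𝔪 ^ j

theorem Qf_zero : Qf 𝔮 𝔪 0 = ⊤ := by simp [Qf]

theorem Qf_mul (i j : ℕ) : Qf 𝔮 𝔪 i * Qf 𝔮 𝔪 j ≤ Qf 𝔮 𝔪 (i + j) := by
  unfold Qf
  rw [Ideal.mul_le]
  intro u hu v hv
  obtain ⟨u1, hu1, u2, hu2, rfl⟩ := Submodule.mem_sup.mp hu
  obtain ⟨v1, hv1, v2, hv2, rfl⟩ := Submodule.mem_sup.mp hv
  have h1 : (u1 + u2) * (v1 + v2) = (u1 * (v1 + v2) + u2 * v1) + u2 * v2 := by ring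
  rw [h1]
  refine Submodule.add_mem_sup (Ideal.add_mem _ (Ideal.mul_mem_right _ _ hu1)
    (Ideal.mul_mem_left _ _ hv1)) ?_
  rw [pow_add]
  exact Ideal.mul_mem_mul hu2 hv2

theorem Qf_anti {i j : ℕ} (h : i ≤ j) : Qf 𝔮 𝔪 j ≤ Qf 𝔮 𝔪 i :=
  sup_le_sup_left (Ideal.pow_le_pow_right h) _

theorem Qf_pow (j : ℕ) : Qf 𝔮 𝔪 1 ^ j ≤ Qf 𝔮 𝔪 j := by
  induction j with
  | zero => simp [Qf_zero]
  | succ j ih =>
    rw [pow_succ]
    exact (Ideal.mul_mono_left ih).trans (Qf_mul 𝔮 𝔪 j 1)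

theorem count_base (s j M : ℕ) (hj : 0 < j) :
    boxSum M s (fun a => ind (C y s (Qf 𝔮 𝔪 j) a)) ≤ (j : ℕ∞) ^ s * cl (Qf 𝔮 𝔪 1) := by
  have hM : M ≤ j * M := Nat.le_mul_of_pos_left M hj
  refine (boxSum_mono_size hM s _).trans ?_
  have h1 : boxSum (j * M) s (fun a => ind (C y s (Qf 𝔮 𝔪 j) a)) ≤
      boxSum (j * M) s (fun a => ind (C y s (Qf 𝔮 𝔪 1) (fun n => a n / j))) := by
    refine boxSum_mono _ _ fun a => ?_
    by_cases h : C y s (Qf 𝔮 𝔪 1) (fun n => a n / j) = ⊤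
    · have h2 := C_pow y s (Qf 𝔮 𝔪 1) (fun n => a n / j) j
      rw [h, Ideal.top_pow, top_le_iff] at h2
      have h3 : C y s (Qf 𝔮 𝔪 j) a = ⊤ := by
        rw [eq_top_iff, ← h2]
        refine (C_mono y s (Qf_pow 𝔮 𝔪 j) _).trans (C_anti y s _ fun i => ?_)
        simp only [Pi.smul_apply, smul_eq_mul]
        exact Nat.mul_div_le _ _
      rw [h3, ind_top]
      exact zero_le
    · have : ind (C y s (Qf 𝔮 𝔪 1) (fun n => a n / j)) = 1 := by simp [ind, h]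
      rw [this]
      exact ind_le_one _
  refine h1.trans ?_
  rw [boxSum_div j M s (fun a => ind (C y s (Qf 𝔮 𝔪 1) a))]
  gcongr
  exact (boxSum_mono _ _ fun a => ind_le_cl _).trans (boxSum_le_cl y s _ M)

theorem count_step (k j M : ℕ) (hk : y k ∈ C y k (Qf 𝔮 𝔪 1) 0) :
    boxSum M (k + 1) (fun a => ind (C y (k + 1) (Qf 𝔮 𝔪 j) a)) ≤
      ∑ i ∈ range j, boxSum M k (fun a => ind (C y k (Qf 𝔮 𝔪 (j - i)) a)) := by
  rw [boxSum_succ, ← boxSum_sum]
  refine boxSum_mono _ _ fun a => ?_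
  have key : ∀ i, y k ^ i ∈ C y k (Qf 𝔮 𝔪 i) a := by
    intro i
    have h1 := C_pow y k (Qf 𝔮 𝔪 1) 0 i (Ideal.pow_mem_pow hk i)
    exact C_anti y k _ (fun n => by simp) (C_mono y k (Qf_pow 𝔮 𝔪 i) _ h1)
  have hC : ∀ i, C y (k + 1) (Qf 𝔮 𝔪 j) (Function.update a k i) =
      qt (C y k (Qf 𝔮 𝔪 j) a) (y k ^ i) ⊔ Ideal.span {y k} := by
    intro i
    have : C y k (Qf 𝔮 𝔪 j) a = C y k (Qf 𝔮 𝔪 j) (Function.update a k i) :=
      C_congr y k _ fun n hn => by simp [(ne_of_lt hn)]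
    rw [C_succ, ← this, Function.update_self]
  have hbig : ∀ i, j ≤ i → ind (C y (k + 1) (Qf 𝔮 𝔪 j) (Function.update a k i)) = 0 := by
    intro i hi
    rw [hC, qt_eq_top, top_sup_eq, ind_top]
    exact C_mono y k (Qf_anti 𝔮 𝔪 hi) _ (key i)
  have hsmall : ∀ i, i < j → ind (C y (k + 1) (Qf 𝔮 𝔪 j) (Function.update a k i)) ≤
      ind (C y k (Qf 𝔮 𝔪 (j - i)) a) := by
    intro i hi
    by_cases h : C y k (Qf 𝔮 𝔪 (j - i)) a = ⊤
    · rw [hC, qt_eq_top, top_sup_eq, ind_top]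
      · exact zero_le
      · have h1 : (1 : S) ∈ C y k (Qf 𝔮 𝔪 (j - i)) a := by rw [h]; trivial
        have h2 : y k ^ i ∈ C y k (Qf 𝔮 𝔪 i) 0 := by
          have h1 := C_pow y k (Qf 𝔮 𝔪 1) 0 i (Ideal.pow_mem_pow hk i)
          have h3 := C_mono y k (Qf_pow 𝔮 𝔪 i) _ h1
          simpa using h3
        have h3 := C_mul y k _ _ _ _ (Ideal.mul_mem_mul h1 h2)
        rw [one_mul, add_zero] at h3
        refine C_mono y k ?_ _ h3
        refine (Qf_mul 𝔮 𝔪 _ _).trans (Qf_anti 𝔮 𝔪 ?_)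
        omega
    · have : ind (C y k (Qf 𝔮 𝔪 (j - i)) a) = 1 := by simp [ind, h]
      rw [this]
      exact ind_le_one _
  calc ∑ i ∈ range M, ind (C y (k + 1) (Qf 𝔮 𝔪 j) (Function.update a k i))
      ≤ ∑ i ∈ range j, ind (C y (k + 1) (Qf 𝔮 𝔪 j) (Function.update a k i)) := by
        refine sum_le_sum_of_ne_zero fun i _ hne => ?_
        rw [mem_range]
        by_contra hlt
        exact hne (hbig i (not_lt.mp hlt))
    _ ≤ ∑ i ∈ range j, ind (C y k (Qf 𝔮 𝔪 (j - i)) a) :=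
        sum_le_sum fun i hi => hsmall i (mem_range.mp hi)

theorem count (s k j M : ℕ) (h : ∀ i, s ≤ i → i < s + k → y i ∈ C y i (Qf 𝔮 𝔪 1) 0) :
    boxSum M (s + k) (fun a => ind (C y (s + k) (Qf 𝔮 𝔪 (j + 1)) a)) ≤
      cl (Qf 𝔮 𝔪 1) * ((s.factorial * (j + (s + k)).choose (s + k) : ℕ) : ℕ∞) := by
  induction k generalizing j with
  | zero =>
    refine (count_base y 𝔮 𝔪 s (j + 1) M (Nat.succ_pos j)).trans ?_
    rw [mul_comm]
    gcongr
    have h1 : (j + 1) ^ s ≤ (j + 1).ascFactorial s := Nat.pow_succ_le_ascFactorial (j + 1) s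
    rw [Nat.ascFactorial_eq_factorial_mul_choose] at h1
    rw [add_zero]
    exact_mod_cast h1
  | succ k ih =>
    refine (count_step y 𝔮 𝔪 (s + k) (j + 1) M (h _ (by omega) (by omega))).trans ?_
    have h1 : ∀ i ∈ range (j + 1),
        boxSum M (s + k) (fun a => ind (C y (s + k) (Qf 𝔮 𝔪 (j + 1 - i)) a)) ≤
        cl (Qf 𝔮 𝔪 1) * ((s.factorial * ((j - i) + (s + k)).choose (s + k) : ℕ) : ℕ∞) := by
      intro i hi
      have : j + 1 - i = (j - i) + 1 := by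
        have := mem_range.mp hi
        omega
      rw [this]
      exact ih (j - i) fun i hi1 hi2 => h i hi1 (by omega)
    refine (sum_le_sum h1).trans (le_of_eq ?_)
    rw [← mul_sum, ← Nat.cast_sum, ← mul_sum]
    congr 3
    have h2 := sum_range_reflect (fun i => (i + (s + k)).choose (s + k)) (j + 1)
    simp only [Nat.add_sub_cancel] at h2
    rw [h2, Nat.sum_range_add_choose]
    rfl

end Count

end Vale.Agent.P202
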