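import Mathlib

namespace Vale.Agent.P202

open IsLocalRing

section Limit

variable {A : Type*} [CommRing A] (I : Ideal A)

theorem exists_lim [IsPrecomplete I A] (f : ℕ → A) (hf : ∀ n, f (n + 1) - f n ∈ I ^ n) :
    ∃ L, ∀ n, L - f n ∈ I ^ n := by
  have h1 : ∀ m n, m ≤ n → f n - f m ∈ I ^ m := by
    intro m n hmn
    induction n, hmn using Nat.le_induction with
    | base => simp
    | succ n hn ih =>
      have : f (n + 1) - f m = (f (n + 1) - f n) + (f n - f m) := by ring
      rw [this]
      exact (I ^ m).add_mem (Ideal.pow_le_pow_right hn (hf n)) ih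
  obtain ⟨L, hL⟩ := IsPrecomplete.prec' (I := I) (M := A) f (by
    intro m n hmn
    rw [SModEq.sub_mem, smul_eq_mul, Ideal.mul_top]
    have := h1 m n hmn
    rw [← neg_sub]
    exact (Ideal.neg_mem_iff _).mpr this)
  refine ⟨L, fun n => ?_⟩
  have := hL n
  rw [SModEq.sub_mem, smul_eq_mul, Ideal.mul_top] at this
  rw [← neg_sub]
  exact (Ideal.neg_mem_iff _).mpr this

theorem eq_zero_of_forall [IsHausdorff I A] {x : A} (h : ∀ n, x ∈ I ^ n) : x = 0 := by
  refine IsHausdorff.haus' (I := I) (M := A) x fun n => ?_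
  rw [SModEq.sub_mem, smul_eq_mul, Ideal.mul_top, sub_zero]
  exact h n

theorem exists_fg_sub {P N : Ideal A} (h : (P ⊔ N).FG) :
    ∃ s : Finset A, (∀ g ∈ s, g ∈ P) ∧ P ≤ Ideal.span (s : Set A) ⊔ N := by
  classical
  obtain ⟨t, ht⟩ := h
  have h1 : ∀ g : A, ∃ p, g ∈ t → p ∈ P ∧ g - p ∈ N := by
    intro g
    by_cases hg : g ∈ t
    · have h2 : g ∈ P ⊔ N := by
        rw [← ht]; exact Submodule.subset_span (by exact_mod_cast hg)
      obtain ⟨p, hp, q, hq, rfl⟩ := Submodule.mem_sup.mp h2
      exact ⟨p, fun _ => ⟨hp, by simpa using hq⟩⟩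
    · exact ⟨0, fun h => absurd h hg⟩
  choose p hp using h1
  refine ⟨t.image p, ?_, ?_⟩
  · intro g hg
    obtain ⟨g', hg', rfl⟩ := Finset.mem_image.mp hg
    exact (hp g' hg').1
  · refine (le_sup_left : P ≤ P ⊔ N).trans ?_
    rw [← ht, Submodule.span_le]
    intro g hg
    have hg' : g ∈ t := by exact_mod_cast hg
    have : g = p g + (g - p g) := by ring
    rw [this]
    refine Submodule.add_mem_sup (Ideal.subset_span ?_) (hp g hg').2
    exact_mod_cast Finset.mem_image_of_mem p hg'

theorem fg_of_quot {P K : Ideal A} (hK : K.FG) [IsNoetherianRing (A ⧸ K)] (h : K ≤ P) : P.FG := by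
  classical
  have h1 : (P.map (Ideal.Quotient.mk K)).FG := IsNoetherian.noetherian _
  obtain ⟨t, ht⟩ := h1
  have h2 : ∀ g : A ⧸ K, ∃ p, g ∈ t → p ∈ P ∧ Ideal.Quotient.mk K p = g := by
    intro g
    by_cases hg : g ∈ t
    · have h3 : g ∈ P.map (Ideal.Quotient.mk K) := by
        rw [← ht]; exact Submodule.subset_span (by exact_mod_cast hg)
      obtain ⟨p, hp, rfl⟩ := (Ideal.mem_map_iff_of_surjective _ Ideal.Quotient.mk_surjective).mp h3
      exact ⟨p, fun _ => ⟨hp, rfl⟩⟩
    · exact ⟨0, fun h => absurd h hg⟩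
  choose p hp using h2
  have h3 : P = Ideal.span ((t.image p : Finset A) : Set A) ⊔ K := by
    apply le_antisymm
    · intro x hx
      have h4 : Ideal.Quotient.mk K x ∈ (Ideal.span ((t.image p : Finset A) : Set A)).map
          (Ideal.Quotient.mk K) := by
        have h5 : P.map (Ideal.Quotient.mk K) ≤ (Ideal.span ((t.image p : Finset A) : Set A)).map
          (Ideal.Quotient.mk K) := by
          rw [← ht, Submodule.span_le]
          intro g hg
          have hg' : g ∈ t := by exact_mod_cast hg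
          rw [← (hp g hg').2]
          refine Ideal.mem_map_of_mem _ (Ideal.subset_span ?_)
          exact_mod_cast Finset.mem_image_of_mem p hg'
        exact h5 (Ideal.mem_map_of_mem _ hx)
      rw [← Ideal.mem_comap, Ideal.comap_map_of_surjective _ Ideal.Quotient.mk_surjective,
        ← RingHom.ker_eq_comap_bot, Ideal.mk_ker] at h4
      exact h4
    · refine sup_le (Ideal.span_le.mpr ?_) h
      intro g hg
      have hg2 : g ∈ t.image p := by exact_mod_cast hg
      obtain ⟨g', hg', rfl⟩ := Finset.mem_image.mp hg2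
      exact (hp g' hg').1
  rw [h3]
  exact Submodule.FG.sup ⟨_, rfl⟩ hK

theorem prime_eq_span [IsAdicComplete I A] {x : A} (hx : x ∈ I) {P : Ideal A}
    (s : Finset A) (hs : ∀ g ∈ s, g ∈ P) (h : ∀ p ∈ P, ∃ q ∈ P,
      p - x * q ∈ Ideal.span (s : Set A)) : P = Ideal.span (s : Set A) := by
  classical
  apply le_antisymm
  · intro p hp
    have h1 : ∀ p : P, ∃ q : P, ∃ c : A → A, (p : A) - x * q = ∑ g ∈ s, c g * g := by
      rintro ⟨p, hp⟩
      obtain ⟨q, hq, hpq⟩ := h p hp
      obtain ⟨c, hc⟩ := Submodule.mem_span_finset'.mp hpq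
      refine ⟨⟨q, hq⟩, fun g => if hg : g ∈ s then c ⟨g, hg⟩ else 0, ?_⟩
      rw [← hc, ← Finset.sum_coe_sort s]
      refine Finset.sum_congr rfl fun g _ => ?_
      show c g • (g : A) = (if hg : (g : A) ∈ s then c ⟨g, hg⟩ else 0) * (g : A)
      rw [dif_pos g.2, smul_eq_mul]
    choose q c hqc using h1
    let a : ℕ → P := fun n => Nat.rec (motive := fun _ => P) ⟨p, hp⟩ (fun _ z => q z) n
    have ha0 : (a 0 : A) = p := rfl
    have haS : ∀ n, a (n + 1) = q (a n) := fun n => rfl
    let F : A → ℕ → A := fun g n => ∑ j ∈ Finset.range n, x ^ j * c (a j) g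
    have hF : ∀ n, p = (∑ g ∈ s, F g n * g) + x ^ n * a n := by
      intro n
      induction n with
      | zero => simp [F, ha0]
      | succ n ih =>
        have h2 := hqc (a n)
        rw [← haS] at h2
        have h3 : ∑ g ∈ s, F g (n + 1) * g = ∑ g ∈ s, F g n * g + x ^ n * ∑ g ∈ s, c (a n) g * g := by
          rw [Finset.mul_sum, ← Finset.sum_add_distrib]
          refine Finset.sum_congr rfl fun g _ => ?_
          show (∑ j ∈ Finset.range (n + 1), x ^ j * c (a j) g) * g =
            (∑ j ∈ Finset.range n, x ^ j * c (a j) g) * g + _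
          rw [Finset.sum_range_succ]
          ring
        rw [h3, ← h2]
        nth_rw 1 [ih]
        ring
    have hlim : ∀ g, ∃ L, ∀ n, L - F g n ∈ I ^ n := by
      intro g
      refine exists_lim I (F g) fun n => ?_
      have : F g (n + 1) - F g n = x ^ n * c (a n) g := by
        show (∑ j ∈ Finset.range (n + 1), x ^ j * c (a j) g) -
          (∑ j ∈ Finset.range n, x ^ j * c (a j) g) = _
        rw [Finset.sum_range_succ]
        ring
      rw [this]
      exact Ideal.mul_mem_right _ _ (Ideal.pow_mem_pow hx n)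
    choose L hL using hlim
    have h2 : p = ∑ g ∈ s, L g * g := by
      rw [← sub_eq_zero]
      refine eq_zero_of_forall I fun n => ?_
      have h3 : p - ∑ g ∈ s, L g * g = x ^ n * a n - ∑ g ∈ s, (L g - F g n) * g := by
        simp only [sub_mul, Finset.sum_sub_distrib]
        nth_rw 1 [hF n]
        ring
      rw [h3]
      refine Ideal.sub_mem _ (Ideal.mul_mem_right _ _ (Ideal.pow_mem_pow hx n)) ?_
      exact Ideal.sum_mem _ fun g _ => Ideal.mul_mem_right _ _ (hL g n)
    rw [h2]
    exact Ideal.sum_mem _ fun g hg => Ideal.mul_mem_left _ _ (Ideal.subset_span (by exact_mod_cast hg))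
  · rw [Ideal.span_le]
    intro g hg
    exact hs g (by exact_mod_cast hg)

theorem noeth_step [IsAdicComplete I A] {x : A} (hx : x ∈ I) {K : Ideal A} (hK : K.FG)
    [IsNoetherianRing (A ⧸ (K ⊔ Ideal.span {x}))] : IsNoetherianRing (A ⧸ K) := by
  classical
  have hKx : (K ⊔ Ideal.span {x}).FG := Submodule.FG.sup hK ⟨{x}, by simp⟩
  refine IsNoetherianRing.of_prime fun P' hP' => ?_
  set P := P'.comap (Ideal.Quotient.mk K) with hP
  have hPprime : P.IsPrime := Ideal.comap_isPrime _ _
  have hKP : K ≤ P := by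
    intro k hk
    rw [hP, Ideal.mem_comap, Ideal.Quotient.eq_zero_iff_mem.mpr hk]
    exact P'.zero_mem
  have hPFG : P.FG := by
    by_cases hxP : x ∈ P
    · refine fg_of_quot hKx (sup_le hKP ?_)
      rw [Ideal.span_le]
      simpa using hxP
    · have h1 : (P ⊔ Ideal.span {x}).FG := fg_of_quot hKx (sup_le_sup_right hKP _)
      obtain ⟨s, hs, hs2⟩ := exists_fg_sub h1
      refine ⟨s, (prime_eq_span I hx s hs fun p hp => ?_).symm⟩
      obtain ⟨u, hu, v, hv, huv⟩ := Submodule.mem_sup.mp (hs2 hp)
      obtain ⟨q, rfl⟩ := Ideal.mem_span_singleton.mp hv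
      have hu' : u ∈ P := (Ideal.span_le.mpr fun g hg => hs g (by exact_mod_cast hg)) hu
      refine ⟨q, ?_, ?_⟩
      · have h2 : x * q ∈ P := by
          have : x * q = p - u := by rw [← huv]; ring
          rw [this]
          exact P.sub_mem hp hu'
        exact (hPprime.mem_or_mem h2).resolve_left hxP
      · have : p - x * q = u := by rw [← huv]; ring
        rw [this]
        exact hu
  have h2 : P' = P.map (Ideal.Quotient.mk K) := by
    rw [hP, Ideal.map_comap_of_surjective _ Ideal.Quotient.mk_surjective]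
  rw [h2]
  exact hPFG.map _

theorem noeth_of_adic [IsAdicComplete I A] (s : Finset A) (hs : ∀ x ∈ s, x ∈ I)
    (hN : IsNoetherianRing (A ⧸ Ideal.span (s : Set A))) : IsNoetherianRing A := by
  classical
  induction s using Finset.induction_on with
  | empty =>
    have h1 : Ideal.span ((∅ : Finset A) : Set A) = ⊥ := by simp
    have e : (A ⧸ Ideal.span ((∅ : Finset A) : Set A)) ≃+* A :=
      (Ideal.quotEquivOfEq h1).trans (RingEquiv.quotientBot A)
    exact isNoetherianRing_of_ringEquiv _ e
  | insert x t hxt ih =>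
    have h1 : Ideal.span ((insert x t : Finset A) : Set A) =
        Ideal.span (t : Set A) ⊔ Ideal.span {x} := by
      rw [Finset.coe_insert, Ideal.span_insert, sup_comm]
    have h2 : IsNoetherianRing (A ⧸ (Ideal.span (t : Set A) ⊔ Ideal.span {x})) :=
      isNoetherianRing_of_ringEquiv _ (Ideal.quotEquivOfEq h1)
    have h3 : IsNoetherianRing (A ⧸ Ideal.span (t : Set A)) :=
      noeth_step I (hs x (Finset.mem_insert_self x t)) ⟨t, rfl⟩
    exact ih (fun y hy => hs y (Finset.mem_insert_of_mem hy)) h3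

end Limit

theorem noeth_local {A : Type*} [CommRing A] [IsLocalRing A] [IsAdicComplete (maximalIdeal A) A]
    (h : (maximalIdeal A).FG) : IsNoetherianRing A := by
  obtain ⟨s, hs⟩ := h
  have h1 : IsNoetherianRing (A ⧸ Ideal.span (s : Set A)) := by
    have h2 : Ideal.span (s : Set A) = maximalIdeal A := hs
    rw [h2]
    have : IsNoetherianRing (ResidueField A) := inferInstance
    exact this
  refine noeth_of_adic (maximalIdeal A) s (fun x hx => ?_) h1
  rw [← hs]
  exact Submodule.subset_span (by exact_mod_cast hx)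

end Vale.Agent.P202
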