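import Vale.Agent.P202.Sup3

namespace Vale.Agent.P202

open Finset IsLocalRing

section GG

variable {S : Type*} [CommRing S]

noncomputable def GG (n 𝔭 : Ideal S) (X : ℕ → S) (i N : ℕ) : ℕ :=
  (cl (𝔭 ⊔ P X i ⊔ n ^ N)).toNat

variable [IsNoetherianRing S] {n 𝔭 : Ideal S} (hn : cl n ≠ ⊤) (X : ℕ → S)

include hn in
theorem coe_GG (i N : ℕ) : (GG n 𝔭 X i N : ℕ∞) = cl (𝔭 ⊔ P X i ⊔ n ^ N) :=
  ENat.natCast_toNat (ne_top_of_le_ne_top (cl_pow_ne_top n hn N) (cl_anti le_sup_right))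

include hn in
theorem GG_mono (i : ℕ) : Monotone (GG n 𝔭 X i) := by
  intro a b hab
  have h1 : cl (𝔭 ⊔ P X i ⊔ n ^ a) ≤ cl (𝔭 ⊔ P X i ⊔ n ^ b) :=
    cl_anti (sup_le_sup_left (Ideal.pow_le_pow_right hab) _)
  rw [← coe_GG hn, ← coe_GG hn] at h1
  exact_mod_cast h1

include hn in
theorem GG_rec (i : ℕ) (hs : Sup n (𝔭 ⊔ P X i) (X i)) :
    ∃ D : ℕ, ∀ N, GG n 𝔭 X (i + 1) (N + 1) + GG n 𝔭 X i N ≤ GG n 𝔭 X i (N + 1) + D := by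
  obtain ⟨c, hc⟩ := sup_ineq _ _ _ hs
  obtain ⟨D, hD⟩ := ENat.ne_top_iff_exists.mp (cl_pow_ne_top n hn c)
  refine ⟨D, fun N => ?_⟩
  have h := hc N
  rw [sup_assoc 𝔭, ← P_succ, ← coe_GG hn, ← coe_GG hn, ← coe_GG hn, ← hD] at h
  exact_mod_cast h

include hn in
theorem GG_upper (d : ℕ)
    (hs : ∀ i < d + 1, Sup n (𝔭 ⊔ P X i) (X i)) (A : ℕ)
    (hA : ∀ N, GG n 𝔭 X 0 N ≤ A * (N + 1) ^ (d + 1)) (i : ℕ) :
    ∀ k, i + k = d + 1 → ∃ A', ∀ N, GG n 𝔭 X i N ≤ A' * (N + 1) ^ k := by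
  induction i with
  | zero =>
    intro k hk
    rw [zero_add] at hk
    subst hk
    exact ⟨A, hA⟩
  | succ i ih =>
    intro k hk
    obtain ⟨A', hA'⟩ := ih (k + 1) (by omega)
    obtain ⟨D, hD⟩ := GG_rec hn X i (hs i (by omega))
    exact chain_upper _ _ D hD (GG_mono hn X (i + 1)) A' k hA'

include hn in
theorem GG_lower (d : ℕ)
    (hs : ∀ i < d + 1, Sup n (𝔭 ⊔ P X i) (X i)) (e D : ℕ)
    (hD : ∀ N, e * N.choose 1 ≤ GG n 𝔭 X d N + D * N ^ 0) (k : ℕ) :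
    ∀ i, i + k = d → ∃ D', ∀ N, e * N.choose (k + 1) ≤ GG n 𝔭 X i N + D' * N ^ k := by
  induction k with
  | zero =>
    intro i hi
    rw [add_zero] at hi
    subst hi
    exact ⟨D, hD⟩
  | succ k ih =>
    intro i hi
    obtain ⟨D', hD'⟩ := ih (i + 1) (by omega)
    obtain ⟨D1, hD1⟩ := GG_rec hn X i (hs i (by omega))
    exact chain_lower _ _ D1 hD1 e D' k hD'

theorem GG_cut [IsLocalRing S] (hnm : n ≤ maximalIdeal S) (hn : cl n ≠ ⊤) (X : ℕ → S) (d : ℕ)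
    (hs : ∀ i < d + 1, Sup n (𝔭 ⊔ P X i) (X i)) (A : ℕ)
    (hA : ∀ N, cl (𝔭 ⊔ n ^ N) ≤ ((A * (N + 1) ^ (d + 1) : ℕ) : ℕ∞)) (e : ℕ)
    (he : ∀ q : ℕ, 1 ≤ q → ((e * q : ℕ) : ℕ∞) ≤ cl (𝔭 ⊔ P X d ⊔ Ideal.span {X d ^ q})) :
    ∃ D : ℕ, ∀ N : ℕ, ((e * N.choose (d + 1) : ℕ) : ℕ∞) ≤
      cl (𝔭 ⊔ n ^ N) + ((D * N ^ d : ℕ) : ℕ∞) := by
  have h0 : ∀ N, (GG n 𝔭 X 0 N : ℕ∞) = cl (𝔭 ⊔ n ^ N) := by
    intro N
    rw [coe_GG hn, P_zero, sup_bot_eq]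
  have hA' : ∀ N, GG n 𝔭 X 0 N ≤ A * (N + 1) ^ (d + 1) := by
    intro N
    have := hA N
    rw [← h0] at this
    exact_mod_cast this
  obtain ⟨A', hA'⟩ := GG_upper hn X d hs A hA' (d + 1) 0 (by omega)
  have hex : ∃ c, maximalIdeal S ^ c ≤ 𝔭 ⊔ P X (d + 1) := by
    refine exists_pow_le_of_bounded (𝔭 ⊔ P X (d + 1)) A' fun N => ?_
    have h1 : cl (𝔭 ⊔ P X (d + 1) ⊔ maximalIdeal S ^ N) ≤ cl (𝔭 ⊔ P X (d + 1) ⊔ n ^ N) :=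
      cl_anti (sup_le_sup_left (Ideal.pow_right_mono hnm N) _)
    refine h1.trans ?_
    rw [← coe_GG hn]
    have := hA' N
    rw [pow_zero, mul_one] at this
    exact_mod_cast this
  have hred : ∃ c, n ^ c ≤ 𝔭 ⊔ P X d ⊔ Ideal.span {X d} := by
    obtain ⟨c, hc⟩ := hex
    rw [P_succ, ← sup_assoc] at hc
    exact ⟨c, (Ideal.pow_right_mono hnm c).trans hc⟩
  obtain ⟨c', hc'⟩ := reduction _ _ _ (hs d (by omega)) hred
  have hbase : ∀ N, e * N.choose 1 ≤ GG n 𝔭 X d N + (e * c') * N ^ 0 := by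
    intro N
    rw [Nat.choose_one_right, pow_zero, mul_one]
    by_cases hN : c' < N
    · obtain ⟨a, rfl⟩ := Nat.exists_eq_add_of_le hN.le
      have h1 := he a (by omega)
      have h2 : cl (𝔭 ⊔ P X d ⊔ Ideal.span {X d ^ a}) ≤ cl (𝔭 ⊔ P X d ⊔ n ^ (c' + a)) :=
        cl_anti (sup_le le_sup_left (hc' a))
      have h3 := h1.trans h2
      rw [← coe_GG hn] at h3
      have h4 : e * a ≤ GG n 𝔭 X d (c' + a) := by exact_mod_cast h3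
      rw [mul_add]
      omega
    · have : e * N ≤ e * c' := Nat.mul_le_mul_left _ (not_lt.mp hN)
      omega
  obtain ⟨D, hD⟩ := GG_lower hn X d hs e (e * c') hbase d 0 (by omega)
  refine ⟨D, fun N => ?_⟩
  rw [← h0]
  exact_mod_cast hD N

end GG

end Vale.Agent.P202
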