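import Mathlib

namespace Vale.Agent.P202

def HasMult (A : Type*) [CommRing A] [IsLocalRing A] (e : ℝ) : Prop :=
  ∃ d : ℕ, ringKrullDim A = d ∧
    Filter.Tendsto
      (fun N : ℕ => (d.factorial : ℝ) *
        ((Module.length A (A ⧸ IsLocalRing.maximalIdeal A ^ N)).toNat : ℝ) / (N : ℝ) ^ d)
      Filter.atTop (nhds e)

end Vale.Agent.P202
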