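import Vale.Agent.P202.Flag

namespace Vale.Agent.P202

open Finset IsLocalRing Matrix

section UI

variable {R : Type*} [CommRing R]

def UI (ι : Type*) (I : Ideal R) : Submodule R (ι → R) where
  carrier := {v | ∀ c, v c ∈ I}
  add_mem' := fun ha hb c => I.add_mem (ha c) (hb c)
  zero_mem' := fun _ => I.zero_mem
  smul_mem' := fun r _ ha c => I.mul_mem_left r (ha c)

theorem mem_UI {ι : Type*} {I : Ideal R} {v : ι → R} : v ∈ UI ι I ↔ ∀ c, v c ∈ I := Iff.rfl

theorem length_UI (ι : Type*) [Fintype ι] [DecidableEq ι] (I : Ideal R) :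
    Module.length R ((ι → R) ⧸ UI ι I) = Fintype.card ι * cl I := by
  have h1 : UI ι I = Submodule.pi Set.univ (fun _ : ι => (I : Submodule R R)) := by
    ext v
    simp [UI, Submodule.mem_pi]
  rw [h1, (Submodule.quotientPi (fun _ : ι => (I : Submodule R R))).length_eq, Module.length_pi]
  simp [cl]

theorem lin_mem {ι : Type*} [Fintype ι] [DecidableEq ι] (L : (ι → R) →ₗ[R] R) (I J : Ideal R)
    (hL : ∀ w, L w ∈ J) {v : ι → R} (hv : v ∈ UI ι I) : L v ∈ I * J := by
  rw [LinearMap.pi_apply_eq_sum_univ L v]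
  refine Ideal.sum_mem _ fun c _ => ?_
  rw [smul_eq_mul]
  exact Ideal.mul_mem_mul (hv c) (hL _)

end UI

section JI

variable {R : Type*} [CommRing R] {ι : Type*} [Fintype ι] [DecidableEq ι] {a : ℕ}

def JI (Φ : Matrix (Fin a) ι R) (i : ℕ) : Ideal R :=
  Ideal.span {d | ∃ (h : i ≤ a) (Q : Matrix ι (Fin i) R),
    d = ((Φ.submatrix (Fin.castLE h) id) * Q).det}

def KI (Ψ : Matrix ι (Fin a) R) (i : ℕ) : Ideal R :=
  Ideal.span {d | ∃ (k : ℕ) (h : i + k = a) (Q : Matrix (Fin k) ι R),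
    d = (Q * (Ψ.submatrix id (fun c : Fin k => ⟨i + c.1, by omega⟩))).det}

omit [DecidableEq ι] in
theorem JI_zero (Φ : Matrix (Fin a) ι R) : JI Φ 0 = ⊤ := by
  rw [Ideal.eq_top_iff_one]
  refine Ideal.subset_span ⟨Nat.zero_le _, 0, ?_⟩
  rw [det_isEmpty]

omit [DecidableEq ι] in
theorem KI_last (Ψ : Matrix ι (Fin a) R) : KI Ψ a = ⊤ := by
  rw [Ideal.eq_top_iff_one]
  refine Ideal.subset_span ⟨0, rfl, 0, ?_⟩
  rw [det_isEmpty]

theorem flagJ (Φ : Matrix (Fin a) ι R) (I : Ideal R) (i : ℕ) (hi : i < a) (r : R)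
    (hr : r ∈ fl ((UI ι I).map Φ.mulVecLin) ⟨i, hi⟩) (d : R) (hd : d ∈ JI Φ i) :
    r * d ∈ I * JI Φ (i + 1) := by
  obtain ⟨w, ⟨v, hv, rfl⟩, hzero, rfl⟩ := hr
  rw [Matrix.mulVecLin_apply] at hzero ⊢
  refine Submodule.span_induction
    (p := fun d _ => (Φ *ᵥ v) ⟨i, hi⟩ * d ∈ I * JI Φ (i + 1)) ?_ ?_ ?_ ?_ hd
  · rintro _ ⟨h, Q, rfl⟩
    set Φ' : Matrix (Fin (i + 1)) ι R := Φ.submatrix (Fin.castLE hi) id with hΦ'
    set A0 : Matrix ι (Fin (i + 1)) R := Matrix.of fun c j => Fin.snoc (α := fun _ => R) (Q c) 0 j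
      with hA0
    let L : (ι → R) →ₗ[R] R :=
      (LinearMap.proj (Fin.last i)).comp ((Matrix.cramer (Φ' * A0)).comp Φ'.mulVecLin)
    have hLv : ∀ v, L v = ((Φ' * A0).updateCol (Fin.last i) (Φ' *ᵥ v)).det := by
      intro v
      show (Matrix.cramer (Φ' * A0)) (Φ' *ᵥ v) (Fin.last i) = _
      rw [Matrix.cramer_apply]
    have hupd : ∀ v, (Φ' * A0).updateCol (Fin.last i) (Φ' *ᵥ v) =
        Φ' * A0.updateCol (Fin.last i) v := by
      intro v
      ext p q
      rw [Matrix.updateCol_apply, Matrix.mul_apply]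
      split_ifs with hq
      · subst hq
        rw [Matrix.mulVec, dotProduct]
        refine sum_congr rfl fun c _ => ?_
        show Φ' p c * v c = Φ' p c * (A0.updateCol (Fin.last i) v) c (Fin.last i)
        rw [Matrix.updateCol_self]
      · rw [Matrix.mul_apply]
        refine sum_congr rfl fun c _ => ?_
        rw [Matrix.updateCol_ne hq]
    have hL : ∀ v, L v ∈ JI Φ (i + 1) := by
      intro v
      rw [hLv, hupd]
      exact Ideal.subset_span ⟨hi, _, rfl⟩
    have hmain : L v = (Φ *ᵥ v) ⟨i, hi⟩ * ((Φ.submatrix (Fin.castLE h) id) * Q).det := by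
      rw [hLv, Matrix.det_succ_column _ (Fin.last i), Fin.sum_univ_castSucc]
      have h1 : ∀ r : Fin (i + 1), (Φ' *ᵥ v) r = (Φ *ᵥ v) (Fin.castLE hi r) := fun r => rfl
      have h2 : ∑ r : Fin i, (-1) ^ ((r.castSucc : ℕ) + ((Fin.last i : Fin (i + 1)) : ℕ)) *
          ((Φ' * A0).updateCol (Fin.last i) (Φ' *ᵥ v)) r.castSucc (Fin.last i) *
            (((Φ' * A0).updateCol (Fin.last i) (Φ' *ᵥ v)).submatrix r.castSucc.succAbove
              (Fin.last i).succAbove).det = 0 := by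
        refine sum_eq_zero fun r _ => ?_
        rw [Matrix.updateCol_self, h1, hzero _ (by
          rw [Fin.lt_def]
          exact r.2)]
        ring
      rw [h2, zero_add, Matrix.updateCol_self, h1]
      have h3 : ((Φ' * A0).updateCol (Fin.last i) (Φ' *ᵥ v)).submatrix (Fin.last i).succAbove
          (Fin.last i).succAbove = (Φ.submatrix (Fin.castLE h) id) * Q := by
        ext p q
        rw [Matrix.submatrix_apply, Fin.succAbove_last, Matrix.updateCol_ne
          (Fin.castSucc_lt_last q).ne, Matrix.mul_apply, Matrix.mul_apply]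
        refine sum_congr rfl fun c _ => ?_
        rw [hA0, Matrix.of_apply, Fin.snoc_castSucc]
        rfl
      rw [h3]
      have h4 : ((-1 : R)) ^ (((Fin.last i : Fin (i + 1)) : ℕ) + ((Fin.last i : Fin (i + 1)) : ℕ)) = 1 := by
        rw [← two_mul, pow_mul]
        simp
      rw [h4, one_mul]
      rfl
    rw [← hmain]
    exact lin_mem L I _ hL hv
  · rw [mul_zero]; exact Ideal.zero_mem _
  · intro x y _ _ hx hy
    rw [mul_add]
    exact Ideal.add_mem _ hx hy
  · intro c x _ hx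
    rw [smul_eq_mul, mul_left_comm]
    exact Ideal.mul_mem_left _ _ hx

omit [DecidableEq ι] in
theorem KI_expand (Ψ : Matrix ι (Fin a) R) (i k : ℕ) (h : i + (k + 1) = a)
    (N : Matrix (Fin (k + 1)) ι R) (u : Fin (k + 1) → R) (I : Ideal R) (hu : ∀ r, u r ∈ I) :
    ((N * (Ψ.submatrix id (fun c : Fin (k + 1) =>
      (⟨i + c.1, by omega⟩ : Fin a)))).updateCol 0 u).det ∈ I * KI Ψ (i + 1) := by
  rw [Matrix.det_succ_column_zero]
  refine Ideal.sum_mem _ fun r _ => ?_
  rw [Matrix.updateCol_self, mul_assoc]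
  refine Ideal.mul_mem_left _ _ (Ideal.mul_mem_mul (hu r) ?_)
  refine Ideal.subset_span ⟨k, by omega, N.submatrix r.succAbove id, ?_⟩
  congr 1
  ext p q
  rw [Matrix.submatrix_apply, Matrix.updateCol_ne (Fin.succ_ne_zero q), Matrix.mul_apply,
    Matrix.mul_apply]
  refine sum_congr rfl fun c _ => ?_
  simp only [Matrix.submatrix_apply, id, Fin.val_succ]
  congr 2
  apply Fin.ext
  show i + (q.1 + 1) = i + 1 + q.1
  omega

omit [DecidableEq ι] in
theorem KI_le_succ (Ψ : Matrix ι (Fin a) R) (i : ℕ) (hi : i < a) : KI Ψ i ≤ KI Ψ (i + 1) := by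
  unfold KI
  rw [Ideal.span_le]
  rintro _ ⟨k, h, Q, rfl⟩
  obtain ⟨k, rfl⟩ : ∃ k', k = k' + 1 := ⟨k - 1, by omega⟩
  have h1 := KI_expand Ψ i k h Q (fun r => (Q * (Ψ.submatrix id (fun c : Fin (k + 1) =>
      (⟨i + c.1, by omega⟩ : Fin a)))) r 0) ⊤ (fun _ => trivial)
  rw [Ideal.top_mul] at h1
  have h2 : (Q * (Ψ.submatrix id (fun c : Fin (k + 1) =>
      (⟨i + c.1, by omega⟩ : Fin a)))).updateCol 0 (fun r => (Q * (Ψ.submatrix id
        (fun c : Fin (k + 1) => (⟨i + c.1, by omega⟩ : Fin a)))) r 0) =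
      (Q * (Ψ.submatrix id (fun c : Fin (k + 1) => (⟨i + c.1, by omega⟩ : Fin a)))) :=
    Matrix.updateCol_eq_self _ _
  rw [h2] at h1
  exact h1

omit [DecidableEq ι] in
theorem flagK (Ψ : Matrix ι (Fin a) R) (I : Ideal R) (i : ℕ) (hi : i < a) (r : R)
    (hr : r ∈ fl ((UI ι I).comap Ψ.mulVecLin) ⟨i, hi⟩) (d : R) (hd : d ∈ KI Ψ i) :
    r * d ∈ I * KI Ψ (i + 1) := by
  obtain ⟨v, hv, hzero, rfl⟩ := hr
  refine Submodule.span_induction
    (p := fun d _ => v ⟨i, hi⟩ * d ∈ I * KI Ψ (i + 1)) ?_ ?_ ?_ ?_ hd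
  · rintro _ ⟨k, h, Q, rfl⟩
    obtain ⟨k, rfl⟩ : ∃ k', k = k' + 1 := ⟨k - 1, by omega⟩
    set M := Q * (Ψ.submatrix id (fun c : Fin (k + 1) => (⟨i + c.1, by omega⟩ : Fin a))) with hM
    have h1 := Matrix.det_updateCol_sum M 0 (fun c : Fin (k + 1) => v ⟨i + c.1, by omega⟩)
    have h2 : (fun r => ∑ c : Fin (k + 1), v ⟨i + c.1, by omega⟩ • M r c) =
        fun r => (Q *ᵥ (Ψ *ᵥ v)) r := by
      ext r
      rw [Matrix.mulVec_mulVec, Matrix.mulVec, dotProduct]
      have h3 : ∑ l : Fin a, (Q * Ψ) r l * v l =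
          ∑ c : Fin (k + 1), (Q * Ψ) r ⟨i + c.1, by omega⟩ * v ⟨i + c.1, by omega⟩ := by
        symm
        refine Finset.sum_of_injOn (fun c : Fin (k + 1) => (⟨i + c.1, by omega⟩ : Fin a))
          ?_ ?_ ?_ ?_
        · intro c _ c' _ hcc
          have := congrArg Fin.val hcc
          simp only at this
          exact Fin.ext (by omega)
        · intro _ _
          simp
        · intro l _ hl
          have : l < ⟨i, hi⟩ := by
            by_contra hcon
            apply hl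
            have h4 : i ≤ l.1 := by
              simpa [Fin.lt_def] using hcon
            refine ⟨⟨l.1 - i, by omega⟩, by simp, Fin.ext ?_⟩
            show i + (l.1 - i) = l.1
            omega
          rw [hzero l this, mul_zero]
        · intro _ _
          rfl
      rw [h3]
      refine sum_congr rfl fun c _ => ?_
      rw [smul_eq_mul, mul_comm]
      rfl
    rw [h2] at h1
    have h3 : v ⟨i, hi⟩ * M.det = (M.updateCol 0 (fun r => (Q *ᵥ (Ψ *ᵥ v)) r)).det := by
      rw [h1, smul_eq_mul]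
      rfl
    rw [h3]
    refine KI_expand Ψ i k h Q _ I fun r => ?_
    rw [Matrix.mulVec, dotProduct]
    exact Ideal.sum_mem _ fun c _ => Ideal.mul_mem_left _ _ (hv c)
  · rw [mul_zero]; exact Ideal.zero_mem _
  · intro x y _ _ hx hy
    rw [mul_add]
    exact Ideal.add_mem _ hx hy
  · intro c x _ hx
    rw [smul_eq_mul, mul_left_comm]
    exact Ideal.mul_mem_left _ _ hx

end JI

end Vale.Agent.P202
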