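import Vale.Agent.P202.Comm

namespace Vale.Agent.P202

open Finset Matrix

section DetC

variable {R : Type*} [CommRing R] {a : ℕ}

theorem exists_perm2 {α : Type*} [Fintype α] [DecidableEq α] (s : Finset α) (f : α → α)
    (hf : Set.InjOn f s) : ∃ σ : Equiv.Perm α, ∀ i ∈ s, σ i = f i := by
  obtain ⟨g, hg⟩ := Finset.exists_equiv_extend_of_card_eq (t := (Finset.univ : Finset α))
    (by simp) (s := s) (f := f) (Finset.subset_univ _) hf
  refine ⟨g.trans (Equiv.subtypeUnivEquiv (fun x => Finset.mem_univ x)), fun i hi => ?_⟩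
  exact hg i hi

theorem det_rows_mem (Φ : Matrix (Fin a) (Fin a ⊕ Fin a) R) (U : Matrix (Fin a) (Fin a ⊕ Fin a) R) :
    (fromRows Φ U).det ∈ JI Φ a := by
  classical
  let D := (Matrix.detRowAlternating (n := Fin a ⊕ Fin a) (R := R)).toMultilinearMap.currySum Φ
  have hD : ∀ U : Matrix (Fin a) (Fin a ⊕ Fin a) R, D U = (fromRows Φ U).det := by
    intro U
    show Matrix.det _ = Matrix.det _
    congr 1
  have h1 : U = fun j => ∑ c, U j c • (Pi.single c (1 : R) : Fin a ⊕ Fin a → R) := by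
    funext j
    ext c
    rw [Finset.sum_apply]
    simp [Pi.single_apply]
  have h2 := MultilinearMap.map_sum D
    (fun j c => U j c • (Pi.single c (1 : R) : Fin a ⊕ Fin a → R))
  rw [← hD, h1, h2]
  refine Ideal.sum_mem _ fun f _ => ?_
  rw [MultilinearMap.map_smul_univ, smul_eq_mul]
  refine Ideal.mul_mem_left _ _ ?_
  have h6 := hD (fun j => (Pi.single (f j) (1 : R) : Fin a ⊕ Fin a → R))
  refine h6.symm ▸ ?_
  by_cases hf : Function.Injective f
  · obtain ⟨σ, hσ⟩ := exists_perm2 (Finset.univ.filter fun c : Fin a ⊕ Fin a => c.isRight)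
      (fun c => Sum.elim (fun _ => c) f c) (by
        intro i hi j hj hij
        simp only [Finset.coe_filter, Finset.mem_univ, true_and, Set.mem_ofPred_eq] at hi hj
        obtain ⟨r, hr⟩ := Sum.isRight_iff.mp hi
        obtain ⟨r', hr'⟩ := Sum.isRight_iff.mp hj
        simp only [hr, hr', Sum.elim_inr] at hij
        rw [hr, hr', hf hij])
    have hσ' : ∀ j, σ (Sum.inr j) = f j := by
      intro j
      have := hσ (Sum.inr j) (by simp)
      simpa using this
    set M : Matrix (Fin a ⊕ Fin a) (Fin a ⊕ Fin a) R :=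
      fromRows Φ (fun j => (Pi.single (f j) (1 : R) : Fin a ⊕ Fin a → R)) with hM
    have h3 : M.submatrix id σ = fromBlocks (Φ.submatrix id (fun c => σ (Sum.inl c)))
        (Φ.submatrix id (fun c => σ (Sum.inr c))) 0 1 := by
      ext i c
      rcases i with i | i
      · rcases c with c | c <;> rfl
      · rcases c with c | c
        · show (Pi.single (f i) (1 : R) : Fin a ⊕ Fin a → R) (σ (Sum.inl c)) = 0
          rw [Pi.single_apply, if_neg]
          rw [← hσ' i]
          intro h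
          exact absurd (σ.injective h) (by simp)
        · show (Pi.single (f i) (1 : R) : Fin a ⊕ Fin a → R) (σ (Sum.inr c)) =
            (1 : Matrix (Fin a) (Fin a) R) i c
          rw [Pi.single_apply, ← hσ' i, Matrix.one_apply]
          by_cases h : i = c
          · subst h; simp
          · rw [if_neg h, if_neg]
            intro h'
            exact h (Sum.inr.inj (σ.injective h')).symm
    have h4 : M.det = ((Equiv.Perm.sign σ : ℤ) : R) * (M.submatrix id σ).det := by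
      rw [Matrix.det_permute', ← mul_assoc]
      have : ((Equiv.Perm.sign σ : ℤ) : R) * ((Equiv.Perm.sign σ : ℤ) : R) = 1 := by
        rw [← Int.cast_mul, ← Units.val_mul, Int.units_mul_self]
        simp
      rw [this, one_mul]
    rw [h4, h3, Matrix.det_fromBlocks_zero₂₁, Matrix.det_one, mul_one]
    refine Ideal.mul_mem_left _ _ ?_
    have h5 : Φ.submatrix id (fun c => σ (Sum.inl c)) = Φ *
        (1 : Matrix (Fin a ⊕ Fin a) (Fin a ⊕ Fin a) R).submatrix id (fun c => σ (Sum.inl c)) := by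
      ext i j
      rw [Matrix.mul_apply]
      simp [Matrix.one_apply]
    rw [h5]
    exact mem_JI_top _
  · rw [Function.not_injective_iff] at hf
    obtain ⟨i, j, hij, hne⟩ := hf
    rw [Matrix.det_zero_of_row_eq (i := Sum.inr i) (j := Sum.inr j) (by simpa using hne)]
    · exact Ideal.zero_mem _
    · show (Pi.single (f i) (1 : R) : Fin a ⊕ Fin a → R) = Pi.single (f j) (1 : R)
      rw [hij]

theorem det_cols_mem (Ψ : Matrix (Fin a ⊕ Fin a) (Fin a) R) (U : Matrix (Fin a ⊕ Fin a) (Fin a) R) :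
    (fromCols U Ψ).det ∈ JI Ψᵀ a := by
  rw [← Matrix.det_transpose, Matrix.transpose_fromCols]
  have h1 := Matrix.det_permute (Equiv.sumComm (Fin a) (Fin a)) (fromRows Uᵀ Ψᵀ)
  have h2 : (fromRows Uᵀ Ψᵀ).submatrix (Equiv.sumComm (Fin a) (Fin a)) id = fromRows Ψᵀ Uᵀ := by
    ext i c
    rcases i with i | i <;> rfl
  rw [h2] at h1
  have h3 : (fromRows Uᵀ Ψᵀ).det =
      ((Equiv.Perm.sign (Equiv.sumComm (Fin a) (Fin a)) : ℤ) : R) * (fromRows Ψᵀ Uᵀ).det := by
    rw [h1, ← mul_assoc]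
    have : ((Equiv.Perm.sign (Equiv.sumComm (Fin a) (Fin a)) : ℤ) : R) *
        ((Equiv.Perm.sign (Equiv.sumComm (Fin a) (Fin a)) : ℤ) : R) = 1 := by
      rw [← Int.cast_mul, ← Units.val_mul, Int.units_mul_self]
      simp
    rw [this, one_mul]
  rw [h3]
  exact Ideal.mul_mem_left _ _ (det_rows_mem _ _)

theorem det_cross (Φ U' : Matrix (Fin a) (Fin a ⊕ Fin a) R) (U Ψ : Matrix (Fin a ⊕ Fin a) (Fin a) R)
    (h : Φ * Ψ = 0) : (Φ * U).det * (U' * Ψ).det = (fromRows Φ U').det * (fromCols U Ψ).det := by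
  rw [← Matrix.det_mul (fromRows Φ U'), Matrix.fromRows_mul_fromCols, h,
    Matrix.det_fromBlocks_zero₁₂]

theorem ratio (Φ : Matrix (Fin a) (Fin a ⊕ Fin a) R) (Ψ : Matrix (Fin a ⊕ Fin a) (Fin a) R)
    (h : Φ * Ψ = 0) {z₀ w₀ : R} (hz : z₀ ∈ JI Φ a) (hw : w₀ ∈ JI Ψᵀ a)
    (hz0 : z₀ ∈ nonZeroDivisors R) (hw0 : w₀ ∈ nonZeroDivisors R) :
    ∃ φ ψ : R, φ ∈ nonZeroDivisors R ∧ ψ ∈ nonZeroDivisors R ∧
      Ideal.span {φ} * JI Ψᵀ a = Ideal.span {ψ} * JI Φ a := by
  let A : Submodule R (R × R) := Submodule.span R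
    (Set.range fun U : Matrix (Fin a ⊕ Fin a) (Fin a) R => ((Φ * U).det, (fromCols U Ψ).det))
  let B : Submodule R (R × R) := Submodule.span R
    (Set.range fun U : Matrix (Fin a) (Fin a ⊕ Fin a) R => ((fromRows Φ U).det, (U * Ψ).det))
  have hrel : ∀ p ∈ A, ∀ q ∈ B, p.1 * q.2 = q.1 * p.2 := by
    intro p hp q hq
    refine Submodule.span_induction (p := fun p _ => p.1 * q.2 = q.1 * p.2) ?_ ?_ ?_ ?_ hp
    · rintro _ ⟨U, rfl⟩
      refine Submodule.span_induction
        (p := fun q _ => (Φ * U).det * q.2 = q.1 * (fromCols U Ψ).det) ?_ ?_ ?_ ?_ hq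
      · rintro _ ⟨U', rfl⟩
        exact det_cross Φ U' U Ψ h
      · simp
      · intro x y _ _ hx hy
        rw [Prod.fst_add, Prod.snd_add]
        linear_combination hx + hy
      · intro c x _ hx
        rw [Prod.smul_fst, Prod.smul_snd, smul_eq_mul, smul_eq_mul]
        linear_combination c * hx
    · simp
    · intro x y _ _ hx hy
      rw [Prod.fst_add, Prod.snd_add]
      linear_combination hx + hy
    · intro c x _ hx
      rw [Prod.smul_fst, Prod.smul_snd, smul_eq_mul, smul_eq_mul]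
      linear_combination c * hx
  have hA2 : ∀ p ∈ A, p.2 ∈ JI Ψᵀ a := by
    intro p hp
    refine Submodule.span_induction (p := fun p _ => p.2 ∈ JI Ψᵀ a) ?_ ?_ ?_ ?_ hp
    · rintro _ ⟨U, rfl⟩
      exact det_cols_mem Ψ U
    · exact Ideal.zero_mem _
    · intro x y _ _ hx hy
      exact Ideal.add_mem _ hx hy
    · intro c x _ hx
      exact Ideal.mul_mem_left _ _ hx
  have hB1 : ∀ p ∈ B, p.1 ∈ JI Φ a := by
    intro p hp
    refine Submodule.span_induction (p := fun p _ => p.1 ∈ JI Φ a) ?_ ?_ ?_ ?_ hp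
    · rintro _ ⟨U, rfl⟩
      exact det_rows_mem Φ U
    · exact Ideal.zero_mem _
    · intro x y _ _ hx hy
      exact Ideal.add_mem _ hx hy
    · intro c x _ hx
      exact Ideal.mul_mem_left _ _ hx
  have hA1 : ∀ z ∈ JI Φ a, ∃ z', (z, z') ∈ A := by
    intro z hz
    have h1 : JI Φ a ≤ Submodule.map (LinearMap.fst R R R) A := by
      refine JI_top_le fun U => ?_
      exact ⟨((Φ * U).det, (fromCols U Ψ).det), Submodule.subset_span ⟨U, rfl⟩, rfl⟩
    obtain ⟨p, hp, rfl⟩ := h1 hz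
    exact ⟨p.2, hp⟩
  have hB2 : ∀ w ∈ JI Ψᵀ a, ∃ w', (w', w) ∈ B := by
    intro w hw
    have h1 : JI Ψᵀ a ≤ Submodule.map (LinearMap.snd R R R) B := by
      refine JI_top_le fun U => ?_
      refine ⟨((fromRows Φ Uᵀ).det, (Uᵀ * Ψ).det), Submodule.subset_span ⟨Uᵀ, rfl⟩, ?_⟩
      show (Uᵀ * Ψ).det = (Ψᵀ * U).det
      rw [← Matrix.det_transpose, Matrix.transpose_mul, Matrix.transpose_transpose]
    obtain ⟨p, hp, rfl⟩ := h1 hw
    exact ⟨p.1, hp⟩
  obtain ⟨z₀', hz'⟩ := hA1 z₀ hz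
  obtain ⟨w₀', hw'⟩ := hB2 w₀ hw
  have h0 : z₀ * w₀ = w₀' * z₀' := hrel _ hz' _ hw'
  have hprod : w₀' * z₀' ∈ nonZeroDivisors R := by
    rw [← h0]; exact mul_mem hz0 hw0
  obtain ⟨hw0', hz0'⟩ := mul_mem_nonZeroDivisors.mp hprod
  refine ⟨z₀, z₀', hz0, hz0', le_antisymm ?_ ?_⟩
  · intro v hv
    obtain ⟨w, hw, rfl⟩ := Ideal.mem_span_singleton_mul.mp hv
    obtain ⟨w', hww⟩ := hB2 w hw
    refine Ideal.mem_span_singleton_mul.mpr ⟨w', hB1 _ hww, ?_⟩
    have := hrel _ hz' _ hww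
    linear_combination -this
  · intro v hv
    obtain ⟨z, hz, rfl⟩ := Ideal.mem_span_singleton_mul.mp hv
    obtain ⟨z', hzz⟩ := hA1 z hz
    refine Ideal.mem_span_singleton_mul.mpr ⟨z', hA2 _ hzz, ?_⟩
    have h1 : z * w₀ = w₀' * z' := hrel _ hzz _ hw'
    have h2 : w₀' * (z₀ * z' - z₀' * z) = 0 := by
      linear_combination (-z₀) * h1 + z * h0
    have h3 := (mul_left_mem_nonZeroDivisors_eq_zero_iff hw0').mp h2
    linear_combination h3

end DetC

end Vale.Agent.P202
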