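import Vale.Agent.P202.InfRes

namespace Vale.Agent.P202

open IsLocalRing

variable {R S : Type*} [CommRing R] [IsLocalRing R] [IsNoetherianRing R]
    [CommRing S] [IsLocalRing S] [IsNoetherianRing S] [Algebra R S]
    [IsLocalHom (algebraMap R S)]

theorem cl_ne_top_of_artinian {T : Type*} [CommRing T] [IsNoetherianRing T] (I : Ideal T)
    [IsArtinianRing (T ⧸ I)] : cl I ≠ ⊤ := by
  unfold cl
  have h := Module.length_eq_of_surjective (R := T ⧸ I) (S := T) (M := T ⧸ I)
    Ideal.Quotient.mk_surjective
  rw [h]
  exact Module.length_ne_top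

theorem exists_pow_le_fibre (h : IsArtinianRing (S ⧸ (maximalIdeal R).map (algebraMap R S))) :
    ∃ K, maximalIdeal S ^ K ≤ (maximalIdeal R).map (algebraMap R S) := by
  have hfin := cl_ne_top_of_artinian ((maximalIdeal R).map (algebraMap R S))
  obtain ⟨A, hA⟩ := ENat.ne_top_iff_exists.mp hfin
  refine exists_pow_le_of_bounded _ A fun N => ?_
  rw [hA]
  exact cl_anti le_sup_left

theorem dim_eq [Module.Flat R S]
    (h : IsArtinianRing (S ⧸ (maximalIdeal R).map (algebraMap R S))) :
    ringKrullDim S = ringKrullDim R := by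
  have hover : (maximalIdeal S).LiesOver (maximalIdeal R) := by
    refine ⟨?_⟩
    ext a
    rw [Ideal.under_def, Ideal.mem_comap, mem_maximalIdeal, mem_maximalIdeal,
      mem_nonunits_iff, mem_nonunits_iff, isUnit_map_iff]
  have h1 := Ideal.height_eq_height_add_of_liesOver_of_hasGoingDown (maximalIdeal R)
    (maximalIdeal S)
  have h2 : ((maximalIdeal S).map
      (Ideal.Quotient.mk ((maximalIdeal R).map (algebraMap R S)))).height = 0 := by
    have hmax : ((maximalIdeal S).map
      (Ideal.Quotient.mk ((maximalIdeal R).map (algebraMap R S)))).IsMaximal := by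
      refine Ideal.IsMaximal.map_of_surjective_of_ker_le Ideal.Quotient.mk_surjective ?_
      rw [Ideal.mk_ker]
      exact map_maximalIdeal_le
    have h3 : (((maximalIdeal S).map
      (Ideal.Quotient.mk ((maximalIdeal R).map (algebraMap R S)))).height : WithBot ℕ∞) ≤ 0 := by
      refine (Ideal.height_le_ringKrullDim_of_ne_top hmax.ne_top).trans ?_
      have := Ring.krullDimLE_iff (n := 0) (R := S ⧸ (maximalIdeal R).map (algebraMap R S))
      exact this.mp inferInstance
    have h4 : ((maximalIdeal S).map
      (Ideal.Quotient.mk ((maximalIdeal R).map (algebraMap R S)))).height ≤ 0 := by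
      exact_mod_cast h3
    exact le_antisymm h4 zero_le
  rw [h2, add_zero] at h1
  rw [← IsLocalRing.maximalIdeal_height_eq_ringKrullDim (R := S),
    ← IsLocalRing.maximalIdeal_height_eq_ringKrullDim (R := R), h1]

end Vale.Agent.P202
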