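import Vale.Agent.P202.ArtMain

namespace Vale.Agent.P202

open IsLocalRing

universe u v

theorem liesOver_max {R S : Type*} [CommRing R] [IsLocalRing R] [CommRing S] [IsLocalRing S]
    [Algebra R S] [IsLocalHom (algebraMap R S)] :
    (maximalIdeal S).LiesOver (maximalIdeal R) := by
  refine ⟨?_⟩
  ext a
  rw [Ideal.under_def, Ideal.mem_comap, mem_maximalIdeal, mem_maximalIdeal,
    mem_nonunits_iff, mem_nonunits_iff, isUnit_map_iff]

theorem artin_of_dim_eq {R S : Type*} [CommRing R] [IsLocalRing R] [IsNoetherianRing R]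
    [CommRing S] [IsLocalRing S] [IsNoetherianRing S] [Algebra R S] [Module.Flat R S]
    [IsLocalHom (algebraMap R S)] (d : ℕ) (hd : ringKrullDim R = d)
    (hRS : ringKrullDim S = ringKrullDim R) :
    IsArtinianRing (S ⧸ (maximalIdeal R).map (algebraMap R S)) := by
  have hover : (maximalIdeal S).LiesOver (maximalIdeal R) := liesOver_max
  have h1 := Ideal.height_eq_height_add_of_liesOver_of_hasGoingDown (maximalIdeal R)
    (maximalIdeal S)
  have h2 := IsLocalRing.maximalIdeal_height_eq_ringKrullDim (R := R)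
  have h3 := IsLocalRing.maximalIdeal_height_eq_ringKrullDim (R := S)
  have h4 : (maximalIdeal S).height = (maximalIdeal R).height := by
    have h5 : ((maximalIdeal S).height : WithBot ℕ∞) = (maximalIdeal R).height := by
      rw [h3, h2, hRS]
    exact_mod_cast h5
  have h5 : (maximalIdeal R).height = (d : ℕ∞) := by
    rw [hd] at h2
    exact_mod_cast h2
  rw [h4, h5] at h1
  have h6 : ((maximalIdeal S).map
      (Ideal.Quotient.mk ((maximalIdeal R).map (algebraMap R S)))).height = 0 := by
    have h7 : (d : ℕ∞) + 0 = d + ((maximalIdeal S).map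
      (Ideal.Quotient.mk ((maximalIdeal R).map (algebraMap R S)))).height := by
      rw [add_zero]; exact h1
    exact (ENat.add_right_injective_of_ne_top (ENat.natCast_ne_top d) h7).symm
  have hne : (maximalIdeal R).map (algebraMap R S) ≠ ⊤ := fun h =>
    (maximalIdeal.isMaximal S).ne_top (top_le_iff.mp (h ▸ map_maximalIdeal_le))
  have hnt : Nontrivial (S ⧸ (maximalIdeal R).map (algebraMap R S)) :=
    Ideal.Quotient.nontrivial_iff.mpr hne
  have hlr : IsLocalRing (S ⧸ (maximalIdeal R).map (algebraMap R S)) :=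
    IsLocalRing.of_surjective' (Ideal.Quotient.mk _) Ideal.Quotient.mk_surjective
  have hmax : (maximalIdeal S).map (Ideal.Quotient.mk ((maximalIdeal R).map (algebraMap R S))) =
      maximalIdeal (S ⧸ (maximalIdeal R).map (algebraMap R S)) :=
    IsLocalRing.map_maximalIdeal_of_surjective (Ideal.Quotient.mk _) Ideal.Quotient.mk_surjective
  rw [hmax] at h6
  rw [isArtinianRing_iff_isNoetherianRing_krullDimLE_zero]
  refine ⟨inferInstance, ?_⟩
  rw [Ring.krullDimLE_iff, ← IsLocalRing.maximalIdeal_height_eq_ringKrullDim, h6]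
  exact le_rfl

theorem exists_dim_nat {R : Type*} [CommRing R] [IsLocalRing R] [IsNoetherianRing R] :
    ∃ d : ℕ, ringKrullDim R = d := by
  have h1 := IsLocalRing.maximalIdeal_height_eq_ringKrullDim (R := R)
  have h2 : (maximalIdeal R).height ≠ ⊤ := Ideal.height_ne_top
    (IsLocalRing.maximalIdeal.isMaximal R).ne_top
  obtain ⟨d, hd'⟩ := ENat.ne_top_iff_exists.mp h2
  refine ⟨d, ?_⟩
  rw [← h1, ← hd']
  rfl

theorem artin_dim_three {R : Type u} {S : Type v}
    [CommRing R] [IsLocalRing R] [IsNoetherianRing R]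
    [CommRing S] [IsLocalRing S] [IsNoetherianRing S]
    [Algebra R S] [Module.Flat R S] [IsLocalHom (algebraMap R S)]
    (hd : ringKrullDim R ≤ 3)
    (hart : IsArtinianRing (S ⧸ (maximalIdeal R).map (algebraMap R S))) :
    ∃ eR eS : ℝ, HasMult R eR ∧ HasMult S eS ∧ 0 ≤ eS ∧ eR ≤ eS := by
  obtain ⟨d, hd'⟩ := exists_dim_nat (R := R)
  have hd3 : d ≤ 3 := by
    rw [hd'] at hd
    exact_mod_cast hd
  obtain ⟨r, x, hx⟩ := Submodule.fg_iff_exists_fin_generating_family.mp
    (IsNoetherian.noetherian (maximalIdeal S))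
  obtain ⟨eR, eS, hR, hS, h0, h⟩ := main_inequality_artin (R := R) (S := S) hart d hd' r x (by
    have h1 : Ideal.span (Set.range x) = maximalIdeal S := hx
    rw [h1]
    exact (sup_eq_right.mpr map_maximalIdeal_le).symm)
  have h4 : (min r d - 2).factorial = 1 := by
    have h5 : min r d - 2 = 0 ∨ min r d - 2 = 1 := by omega
    rcases h5 with h5 | h5
    · rw [h5]; rfl
    · rw [h5]; rfl
  rw [h4, Nat.cast_one, one_mul] at h
  exact ⟨eR, eS, hR, hS, h0, h⟩

end Vale.Agent.P202
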