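import Vale.Agent.P202.Core
import Vale.Agent.P202.Def

namespace Vale.Agent.P202

open Finset IsLocalRing

section

variable {S : Type*} [CommRing S] [IsLocalRing S] [IsNoetherianRing S]

theorem exists_bound (d : ℕ) (hd : ringKrullDim S = d) :
    ∃ A : ℕ, ∀ N, cl (maximalIdeal S ^ N) ≤ ((A * N ^ d : ℕ) : ℕ∞) := by
  obtain ⟨s, hs, hcard⟩ :=
    Ideal.exists_finset_card_eq_height_of_isNoetherianRing (maximalIdeal S)
  have hcard' : s.card = d := by
    have h1 := IsLocalRing.maximalIdeal_height_eq_ringKrullDim (R := S)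
    rw [hd, ← hcard] at h1
    exact_mod_cast h1
  have hrad : maximalIdeal S ≤ (Ideal.span (s : Set S)).radical := by
    rw [Ideal.radical_eq_sInf]
    refine le_sInf fun J hJ => ?_
    have h1 : J ≤ maximalIdeal S := IsLocalRing.le_maximalIdeal hJ.2.ne_top
    exact hs.2 ⟨hJ.2, hJ.1⟩ h1
  obtain ⟨K, hK⟩ := Ideal.exists_pow_le_of_le_radical_of_fg hrad (IsNoetherian.noetherian _)
  have hfin : cl (Ideal.span (s : Set S)) ≠ ⊤ := by
    have := cl_sup_pow_ne_top (⊥ : Ideal S) K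
    rw [bot_sup_eq] at this
    exact ne_top_of_le_ne_top this (cl_anti hK)
  obtain ⟨A, hA⟩ := ENat.ne_top_iff_exists.mp hfin
  have hsub : ∀ z ∈ s, z ∈ maximalIdeal S := fun z hz => hs.1.2 (Ideal.subset_span hz)
  let e := s.equivFin
  let y : ℕ → S := fun i => if h : i < s.card then (e.symm ⟨i, h⟩ : S) else 0
  have hy : ∀ i < s.card, y i ∈ s := by
    intro i hi
    simp only [y, dif_pos hi]
    exact (e.symm ⟨i, hi⟩).2
  have hys : ∀ z ∈ s, ∃ i < s.card, y i = z := by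
    intro z hz
    refine ⟨(e ⟨z, hz⟩).1, (e ⟨z, hz⟩).2, ?_⟩
    simp only [y, dif_pos (e ⟨z, hz⟩).2]
    simp
  refine ⟨A, fun N => ?_⟩
  rw [cl_eq_boxSum y s.card (maximalIdeal S ^ N) N
    (fun i hi => Ideal.pow_mem_pow (hsub _ (hy i hi)) N)]
  refine (boxSum_mono (g := fun _ => (A : ℕ∞) * 1) _ _ fun a => ?_).trans ?_
  · rw [mul_one, hA]
    refine cl_anti ?_
    rw [Ideal.span_le]
    intro z hz
    obtain ⟨i, hi, rfl⟩ := hys z hz
    exact mem_C y s.card _ a i hi
  · rw [boxSum_mul, boxSum_one, hcard']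
    push_cast
    exact le_rfl

theorem LL_rec_upper (X : ℕ → S) (i : ℕ) (hX : X i ∈ maximalIdeal S) (N : ℕ) :
    LL X i (N + 1) ≤ LL X i N + LL X (i + 1) (N + 1) := by
  have h1 := cl_qt (P X i ⊔ maximalIdeal S ^ (N + 1)) (X i)
  have h2 : P X i ⊔ maximalIdeal S ^ (N + 1) ⊔ Ideal.span {X i} =
      P X (i + 1) ⊔ maximalIdeal S ^ (N + 1) := by
    rw [P_succ, sup_right_comm]
  have h3 : cl (qt (P X i ⊔ maximalIdeal S ^ (N + 1)) (X i)) ≤
      cl (P X i ⊔ maximalIdeal S ^ N) := by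
    refine cl_anti (sup_le ?_ ?_)
    · exact le_sup_left.trans (le_qt _ _)
    · intro w hw
      rw [mem_qt, pow_succ']
      exact Ideal.mem_sup_right (Ideal.mul_mem_mul hX hw)
  rw [h2, ← coe_LL, ← coe_LL] at h1
  rw [← coe_LL] at h3
  have h4 : (LL X i (N + 1) : ℕ∞) ≤ LL X i N + LL X (i + 1) (N + 1) := by
    rw [h1]
    gcongr
  exact_mod_cast h4

theorem chain_upper2 (f g : ℕ → ℕ) (h : ∀ N, f (N + 1) ≤ f N + g (N + 1)) (h0 : f 0 = 0)
    (e D t : ℕ) (hg : ∀ N, g N ≤ e * (N + t).choose (t + 1) + D * N ^ t) (N : ℕ) :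
    f N ≤ e * (N + (t + 1)).choose (t + 2) + D * N ^ (t + 1) := by
  induction N with
  | zero => simp [h0]
  | succ N ih =>
    have h1 := h N
    have h2 := hg (N + 1)
    have h3 : (N + 1 + (t + 1)).choose (t + 2) =
        (N + 1 + t).choose (t + 1) + (N + (t + 1)).choose (t + 2) := by
      have : N + 1 + (t + 1) = (N + 1 + t) + 1 := by ring
      rw [this, Nat.choose_succ_succ]
      congr 2
      ring
    have h4 : N ^ (t + 1) + (N + 1) ^ t ≤ (N + 1) ^ (t + 1) := by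
      have : N ^ t ≤ (N + 1) ^ t := Nat.pow_le_pow_left (Nat.le_succ N) t
      rw [pow_succ, pow_succ]
      nlinarith
    rw [h3, mul_add]
    have h5 := Nat.mul_le_mul_left D h4
    rw [mul_add] at h5
    omega

theorem LL_upper2 (X : ℕ → S) (hX : ∀ i, X i ∈ maximalIdeal S) (d e D : ℕ)
    (hD : ∀ N, LL X d N ≤ e * (N + 0).choose 1 + D * N ^ 0) (k : ℕ) :
    ∀ i, i + k = d → ∀ N, LL X i N ≤ e * (N + k).choose (k + 1) + D * N ^ k := by
  induction k with
  | zero =>
    intro i hi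
    rw [add_zero] at hi
    subst hi
    exact hD
  | succ k ih =>
    intro i hi
    refine chain_upper2 _ _ (LL_rec_upper X i (hX i)) ?_ e D k (ih (i + 1) (by omega))
    have : (LL X i 0 : ℕ∞) = 0 := by
      rw [coe_LL]
      simp [cl_top]
    exact_mod_cast this

theorem upper_of_stable (X : ℕ → S) (hX : ∀ i, X i ∈ maximalIdeal S) (d e c Λ : ℕ)
    (he : ∀ i, c ≤ i → cl (qt (P X d) (X d ^ i) ⊔ Ideal.span {X d}) ≤ e)
    (hΛ : ∀ i, cl (qt (P X d) (X d ^ i) ⊔ Ideal.span {X d}) ≤ Λ) (N : ℕ) :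
    cl (maximalIdeal S ^ N) ≤ ((e * (N + d).choose (d + 1) + (Λ * c) * N ^ d : ℕ) : ℕ∞) := by
  have hbase : ∀ N, LL X d N ≤ e * (N + 0).choose 1 + (Λ * c) * N ^ 0 := by
    intro N
    rw [Nat.choose_one_right, pow_zero, mul_one, add_zero]
    have h1 : (LL X d N : ℕ∞) ≤ ∑ i ∈ range N, ((e : ℕ∞) + if i < c then (Λ : ℕ∞) else 0) := by
      rw [coe_LL, cl_layer (P X d ⊔ maximalIdeal S ^ N) (X d) N,
        qt_eq_top (Ideal.mem_sup_right (Ideal.pow_mem_pow (hX d) N)), cl_top, add_zero]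
      refine sum_le_sum fun i _ => ?_
      have h2 : cl (qt (P X d ⊔ maximalIdeal S ^ N) (X d ^ i) ⊔ Ideal.span {X d}) ≤
          cl (qt (P X d) (X d ^ i) ⊔ Ideal.span {X d}) :=
        cl_anti (sup_le_sup_right (qt_mono le_sup_left _) _)
      by_cases hic : i < c
      · rw [if_pos hic]
        exact (h2.trans (hΛ i)).trans le_add_self
      · rw [if_neg hic, add_zero]
        exact h2.trans (he i (not_lt.mp hic))
    rw [sum_add_distrib, sum_const, card_range, nsmul_eq_mul, ← sum_filter, sum_const,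
      nsmul_eq_mul] at h1
    have h3 : #({i ∈ range N | i < c}) ≤ c := by
      calc #({i ∈ range N | i < c}) ≤ #(range c) := by
            apply card_le_card
            intro i hi
            rw [mem_filter] at hi
            exact mem_range.mpr hi.2
        _ = c := card_range c
    have h4 : LL X d N ≤ N * e + #({i ∈ range N | i < c}) * Λ := by exact_mod_cast h1
    refine h4.trans ?_
    have h5 := Nat.mul_le_mul_right Λ h3
    rw [mul_comm e N, mul_comm Λ c]
    omega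
  have h := LL_upper2 X hX d e (Λ * c) hbase d 0 (by omega) N
  have h0 : (LL X 0 N : ℕ∞) = cl (maximalIdeal S ^ N) := by
    rw [coe_LL, P_zero, bot_sup_eq]
  rw [← h0]
  exact_mod_cast h

theorem exists_two_sided_infinite [Infinite (ResidueField S)] (t : ℕ)
    (hd : ringKrullDim S = (t + 1 : ℕ)) :
    ∃ e D : ℕ, (∀ N, cl (maximalIdeal S ^ N) ≤
        ((e * (N + t).choose (t + 1) + D * N ^ t : ℕ) : ℕ∞)) ∧
      (∀ N : ℕ, ((e * N.choose (t + 1) : ℕ) : ℕ∞) ≤
        cl (maximalIdeal S ^ N) + ((D * N ^ t : ℕ) : ℕ∞)) := by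
  obtain ⟨A, hA⟩ := exists_bound (t + 1) hd
  obtain ⟨X, hX, hs, -⟩ := exists_seq (⊥ : Ideal S) (t + 1)
  obtain ⟨-, e, c, Λ, D, he, hΛ, hlow⟩ := sside X t hs A (fun N => (hA N).trans (by
    have : A * N ^ (t + 1) ≤ A * (N + 1) ^ (t + 1) := by gcongr; omega
    exact_mod_cast this))
  refine ⟨e, Λ * c + D, fun N => ?_, fun N => ?_⟩
  · refine (upper_of_stable X hX t e c Λ he hΛ N).trans ?_
    have : e * (N + t).choose (t + 1) + Λ * c * N ^ t ≤
        e * (N + t).choose (t + 1) + (Λ * c + D) * N ^ t := by gcongr; omega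
    exact_mod_cast this
  · refine (hlow N).trans ?_
    gcongr
    omega

theorem exists_two_sided (t : ℕ) (hd : ringKrullDim S = (t + 1 : ℕ)) :
    ∃ e D : ℕ, (∀ N, cl (maximalIdeal S ^ N) ≤
        ((e * (N + t).choose (t + 1) + D * N ^ t : ℕ) : ℕ∞)) ∧
      (∀ N : ℕ, ((e * N.choose (t + 1) : ℕ) : ℕ∞) ≤
        cl (maximalIdeal S ^ N) + ((D * N ^ t : ℕ) : ℕ∞)) := by
  obtain ⟨S', i1, i2, i3, i4, hflat, hloc, hmap, hinf⟩ := exists_infinite_residue S
  have hcl : ∀ N, cl (maximalIdeal S' ^ N) = cl (maximalIdeal S ^ N) := by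
    intro N
    rw [← hmap, ← Ideal.map_pow]
    exact cl_flat S S' hmap _
  have hart : IsArtinianRing (S' ⧸ (maximalIdeal S).map (algebraMap S S')) := by
    rw [hmap]
    have : IsArtinianRing (ResidueField S') := inferInstance
    exact this
  have hdim : ringKrullDim S' = (t + 1 : ℕ) := by
    rw [dim_eq (R := S) (S := S') hart, hd]
  obtain ⟨e, D, h1, h2⟩ := exists_two_sided_infinite (S := S') t hdim
  refine ⟨e, D, fun N => ?_, fun N => ?_⟩
  · rw [← hcl]; exact h1 N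
  · rw [← hcl]; exact h2 N

end

end Vale.Agent.P202
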