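import Vale.Agent.P202.Gens

namespace Vale.Agent.P202

open IsLocalRing

theorem cl_maximalIdeal {R : Type*} [CommRing R] [IsLocalRing R] :
    cl (maximalIdeal R) = 1 := by
  unfold cl
  have : IsSimpleModule R (R ⧸ maximalIdeal R) := by
    rw [isSimpleModule_iff_quot_maximal]
    exact ⟨maximalIdeal R, inferInstance, ⟨LinearEquiv.refl _ _⟩⟩
  exact Module.length_eq_one R _

theorem flat_ineq {R S : Type*} [CommRing R] [IsLocalRing R] [IsNoetherianRing R]
    [CommRing S] [Algebra R S] [Module.Flat R S]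
    (𝔞 : Ideal R) (𝔟 : Ideal S) (hb : (maximalIdeal R).map (algebraMap R S) ≤ 𝔟) :
    ∃ h : ℕ, cl (maximalIdeal R * 𝔞) ≤ h + cl 𝔞 ∧
      h * cl 𝔟 + cl (𝔞.map (algebraMap R S)) ≤ cl (𝔟 * 𝔞.map (algebraMap R S)) := by
  obtain ⟨h, g, hg, hmin⟩ := exists_min_gens 𝔞
  refine ⟨h, ?_, ?_⟩
  · have := cl_mul_le g (maximalIdeal R) 𝔞 hg
    rwa [cl_maximalIdeal, mul_one] at this
  · have hg' : Ideal.span (Set.range (fun i => algebraMap R S (g i))) =
        𝔞.map (algebraMap R S) := by
      rw [← hg, Ideal.map_span, ← Set.range_comp]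
      rfl
    refine le_cl_mul (fun i => algebraMap R S (g i)) 𝔟 _ hg' ?_
    intro c hc
    rw [← hg', ← smul_eq_mul, Submodule.mem_ideal_smul_span_iff_exists_sum] at hc
    obtain ⟨t, ht, hsum⟩ := hc
    rw [Finsupp.sum_fintype _ _ (by simp)] at hsum
    have h0 : ∑ i, g i • (c i - t i) = 0 := by
      have : ∀ i, g i • (c i - t i) = c i * algebraMap R S (g i) -
          t i • algebraMap R S (g i) := by
        intro i
        rw [Algebra.smul_def, smul_eq_mul]
        ring
      rw [Finset.sum_congr rfl (fun i _ => this i), Finset.sum_sub_distrib, hsum, sub_self]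
    obtain ⟨k, a, y, h1, h2⟩ :=
      Module.Flat.isTrivialRelation_of_sum_smul_eq_zero (R := R) (M := S) h0
    intro i
    have h3 : c i = t i + ∑ j, a i j • y j := by
      rw [← h1 i]; ring
    rw [h3]
    refine Ideal.add_mem _ (ht i) (Ideal.sum_mem _ fun j _ => ?_)
    rw [Algebra.smul_def]
    refine Ideal.mul_mem_right _ _ (hb (Ideal.mem_map_of_mem _ ?_))
    refine hmin (fun i => a i j) ?_ i
    rw [← h2 j]
    exact Finset.sum_congr rfl fun i _ => mul_comm _ _

theorem cl_mul_sup_le {S : Type*} [CommRing S] (x : S) (I J : Ideal S) :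
    cl (Ideal.span {x} * I ⊔ J) ≤ cl I + cl (Ideal.span {x} ⊔ J) := by
  rw [cl_qt _ x]
  gcongr
  · refine cl_anti fun w hw => ?_
    rw [mem_qt]
    exact Ideal.mem_sup_left (Ideal.mul_mem_mul (Ideal.mem_span_singleton_self x) hw)
  · refine cl_anti (sup_le le_sup_right (le_sup_right.trans le_sup_left))

theorem flat_ineq_pow {R S : Type*} [CommRing R] [IsLocalRing R] [IsNoetherianRing R]
    [CommRing S] [Algebra R S] [Module.Flat R S] (x : S) (j : ℕ)
    (hfin : cl (((maximalIdeal R) ^ j).map (algebraMap R S)) ≠ ⊤) :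
    ∃ h : ℕ, cl (maximalIdeal R ^ (j + 1)) ≤ h + cl (maximalIdeal R ^ j) ∧
      h * cl (Ideal.span {x} ⊔ (maximalIdeal R).map (algebraMap R S)) ≤
        cl (Ideal.span {x} ⊔ (maximalIdeal R ^ (j + 1)).map (algebraMap R S)) := by
  obtain ⟨h, h1, h2⟩ := flat_ineq (maximalIdeal R ^ j)
    (Ideal.span {x} ⊔ (maximalIdeal R).map (algebraMap R S)) le_sup_right
  refine ⟨h, by rwa [pow_succ'], ?_⟩
  have h3 : (Ideal.span {x} ⊔ (maximalIdeal R).map (algebraMap R S)) *
      (maximalIdeal R ^ j).map (algebraMap R S) =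
      Ideal.span {x} * (maximalIdeal R ^ j).map (algebraMap R S) ⊔
        (maximalIdeal R ^ (j + 1)).map (algebraMap R S) := by
    rw [Ideal.sup_mul, ← Ideal.map_mul, pow_succ']
  rw [h3] at h2
  have h4 := h2.trans (cl_mul_sup_le x ((maximalIdeal R ^ j).map (algebraMap R S))
    ((maximalIdeal R ^ (j + 1)).map (algebraMap R S)))
  rw [add_comm] at h4
  exact (ENat.add_le_add_iff_left hfin).mp h4

end Vale.Agent.P202
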