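import Vale.Agent.P202.WT2
import Vale.Agent.P202.BaseP
import Vale.Agent.P202.Chain
import Vale.Agent.P202.FlatIneq

namespace Vale.Agent.P202

open Finset Matrix IsLocalRing

universe u v

section Aux

variable {R : Type*} [CommRing R] [IsLocalRing R] [IsNoetherianRing R]

theorem cl_map_pow_le {P : Type*} [CommRing P] [IsLocalRing P] (φ : R →+* P)
    (hφ : (maximalIdeal R).map φ = maximalIdeal P) (j : ℕ) :
    cl (maximalIdeal P ^ j) ≤ cl (maximalIdeal R ^ j) := by
  induction j with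
  | zero => rw [pow_zero, Ideal.one_eq_top, cl_top]; exact zero_le
  | succ j ih =>
    obtain ⟨h, g, hg, hmin⟩ := exists_min_gens (maximalIdeal R ^ j)
    have h1 := le_cl_mul g (maximalIdeal R) (maximalIdeal R ^ j) hg (by
      intro c hc
      rw [← hg, ← smul_eq_mul, Submodule.mem_ideal_smul_span_iff_exists_sum] at hc
      obtain ⟨t, ht, hsum⟩ := hc
      rw [Finsupp.sum_fintype _ _ (by simp)] at hsum
      have h0 : ∑ i, (c i - t i) * g i = 0 := by
        simp only [smul_eq_mul] at hsum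
        rw [Finset.sum_congr rfl fun i _ => sub_mul (c i) (t i) (g i), Finset.sum_sub_distrib,
          hsum, sub_self]
      intro i
      have h3 : c i = (c i - t i) + t i := by ring
      rw [h3]
      exact Ideal.add_mem _ (hmin _ h0 i) (ht i))
    have hg' : Ideal.span (Set.range (fun i => φ (g i))) = maximalIdeal P ^ j := by
      rw [← hφ, ← Ideal.map_pow, ← hg, Ideal.map_span, ← Set.range_comp]
      rfl
    have h2 := cl_mul_le (fun i => φ (g i)) (maximalIdeal P) (maximalIdeal P ^ j) hg'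
    rw [cl_maximalIdeal, mul_one] at h1 h2
    rw [pow_succ', pow_succ']
    refine h2.trans (le_trans ?_ h1)
    gcongr

theorem flat_pow {S : Type*} [CommRing S] [Algebra R S] [Module.Flat R S] (j : ℕ) :
    cl ((maximalIdeal R).map (algebraMap R S)) * cl (maximalIdeal R ^ j) ≤
      cl ((maximalIdeal R ^ j).map (algebraMap R S)) := by
  induction j with
  | zero => rw [pow_zero, Ideal.one_eq_top, cl_top, mul_zero]; exact zero_le
  | succ j ih =>
    obtain ⟨h, h1, h2⟩ := flat_ineq (S := S) (maximalIdeal R ^ j)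
      ((maximalIdeal R).map (algebraMap R S)) le_rfl
    rw [← Ideal.map_mul, ← pow_succ'] at h2
    rw [← pow_succ'] at h1
    calc cl ((maximalIdeal R).map (algebraMap R S)) * cl (maximalIdeal R ^ (j + 1)) ≤
        cl ((maximalIdeal R).map (algebraMap R S)) * (h + cl (maximalIdeal R ^ j)) := by gcongr
      _ = h * cl ((maximalIdeal R).map (algebraMap R S)) +
          cl ((maximalIdeal R).map (algebraMap R S)) * cl (maximalIdeal R ^ j) := by ring
      _ ≤ _ := (by gcongr : _ ≤ h * cl ((maximalIdeal R).map (algebraMap R S)) +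
          cl ((maximalIdeal R ^ j).map (algebraMap R S))).trans h2

omit [IsNoetherianRing R] in
theorem exists_cover_Pm {J : Ideal R} (hPm : Pm J) (hJ : J ≠ ⊤) :
    ∃ z, z ∉ J ∧ ∀ r ∈ maximalIdeal R, r * z ∈ J := by
  classical
  have h1 := Nat.find_spec hPm
  have h0 : Nat.find hPm ≠ 0 := by
    intro h0
    rw [h0, pow_zero, Ideal.one_eq_top, top_le_iff] at h1
    exact hJ h1
  obtain ⟨k, hk⟩ := Nat.exists_eq_succ_of_ne_zero h0
  have h2 : ¬ maximalIdeal R ^ k ≤ J := Nat.find_min hPm (by omega)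
  obtain ⟨z, hz, hz'⟩ := Set.not_subset.mp h2
  refine ⟨z, hz', fun r hr => ?_⟩
  refine h1 ?_
  rw [hk, Nat.succ_eq_add_one, pow_succ']
  exact Ideal.mul_mem_mul hr hz

omit [IsNoetherianRing R] in
theorem cl_le_map {P : Type*} [CommRing P] (φ : R →+* P)
    (hsep : ∀ I : Ideal R, Pm I → ∀ r, φ r ∈ I.map φ → r ∈ I) (n : ℕ) :
    ∀ J : Ideal R, Pm J → cl J = n → cl J ≤ cl (J.map φ) := by
  induction n with
  | zero =>
    intro J _ hJ
    rw [hJ]
    exact_mod_cast zero_le
  | succ n ih =>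
    intro J hPm hJ
    have hne : J ≠ ⊤ := by
      intro h
      rw [h, cl_top] at hJ
      exact absurd hJ.symm (by exact_mod_cast Nat.succ_ne_zero n)
    obtain ⟨z, hz, hn⟩ := exists_cover_Pm hPm hne
    have h1 := cl_eq_rl_add (le_sup_left : J ≤ J ⊔ Ideal.span {z})
    rw [rl_cover J z hz hn] at h1
    have h2 : cl (J ⊔ Ideal.span {z}) = n := by
      rw [hJ] at h1
      have h4 : (1 : ℕ∞) + n = 1 + cl (J ⊔ Ideal.span {z}) := by
        rw [← h1]; push_cast; ring
      exact (ENat.add_right_injective_of_ne_top (by simp) h4).symm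
    have h3 := ih _ (hPm.mono le_sup_left) h2
    have h4 := cl_eq_rl_add (Ideal.map_mono (f := φ) (le_sup_left : J ≤ J ⊔ Ideal.span {z}))
    rw [h1, h4]
    refine add_le_add ?_ h3
    rw [Order.one_le_iff_ne_zero]
    intro h5
    unfold rl at h5
    rw [Module.length_eq_zero_iff] at h5
    have h6 : φ z ∈ (J ⊔ Ideal.span {z}).map φ :=
      Ideal.mem_map_of_mem _ (Ideal.mem_sup_right (Ideal.mem_span_singleton_self z))
    have h7 : (Submodule.Quotient.mk ⟨φ z, h6⟩ : ↥((J ⊔ Ideal.span {z}).map φ) ⧸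
      (J.map φ).submoduleOf ((J ⊔ Ideal.span {z}).map φ)) = 0 := Subsingleton.elim _ _
    rw [Submodule.Quotient.mk_eq_zero] at h7
    exact hz (hsep J hPm z h7)

theorem dim_two (𝔤 : Ideal R) (u v : R) (hu : u ∈ maximalIdeal R) (hv : v ∈ maximalIdeal R)
    (hPm : Pm (𝔤 ⊔ Ideal.span {u} ⊔ Ideal.span {v})) : ringKrullDim (R ⧸ 𝔤) ≤ 2 := by
  classical
  by_cases hne : 𝔤 = ⊤
  · have hs : Subsingleton (R ⧸ 𝔤) := Ideal.Quotient.subsingleton_iff.mpr hne
    rw [ringKrullDim_eq_bot_of_subsingleton]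
    exact bot_le
  have hnt : Nontrivial (R ⧸ 𝔤) := Ideal.Quotient.nontrivial_iff.mpr hne
  have hlr : IsLocalRing (R ⧸ 𝔤) :=
    IsLocalRing.of_surjective' (Ideal.Quotient.mk 𝔤) Ideal.Quotient.mk_surjective
  have hmax : (maximalIdeal R).map (Ideal.Quotient.mk 𝔤) = maximalIdeal (R ⧸ 𝔤) :=
    IsLocalRing.map_maximalIdeal_of_surjective (Ideal.Quotient.mk 𝔤) Ideal.Quotient.mk_surjective
  rw [← IsLocalRing.maximalIdeal_height_eq_ringKrullDim]
  let s : Finset (R ⧸ 𝔤) := {Ideal.Quotient.mk 𝔤 u, Ideal.Quotient.mk 𝔤 v}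
  obtain ⟨c, hc⟩ := hPm
  have hmem : maximalIdeal (R ⧸ 𝔤) ∈ (Ideal.span (s : Set (R ⧸ 𝔤))).minimalPrimes := by
    refine ⟨⟨inferInstance, ?_⟩, ?_⟩
    · rw [Ideal.span_le]
      intro z hz
      rw [← hmax]
      simp only [s, coe_insert, coe_singleton, Set.mem_insert_iff, Set.mem_singleton_iff] at hz
      rcases hz with rfl | rfl
      · exact Ideal.mem_map_of_mem _ hu
      · exact Ideal.mem_map_of_mem _ hv
    · rintro Q ⟨hQp, hQ⟩ -
      have h2 : maximalIdeal (R ⧸ 𝔤) ^ c ≤ Q := by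
        rw [← hmax, ← Ideal.map_pow, Ideal.map_le_iff_le_comap]
        refine hc.trans (sup_le (sup_le ?_ ?_) ?_)
        · intro x hx
          rw [Ideal.mem_comap, Ideal.Quotient.eq_zero_iff_mem.mpr hx]
          exact Q.zero_mem
        · rw [Ideal.span_singleton_le_iff_mem, Ideal.mem_comap]
          refine hQ (Ideal.subset_span ?_)
          simp [s]
        · rw [Ideal.span_singleton_le_iff_mem, Ideal.mem_comap]
          refine hQ (Ideal.subset_span ?_)
          simp [s]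
      exact hQp.le_of_pow_le h2
  have h1 := Ideal.height_le_card_of_mem_minimalPrimes_span_finset hmem
  have h2 : s.card ≤ 2 := card_le_two
  have h3 : (maximalIdeal (R ⧸ 𝔤)).height ≤ ((2 : ℕ) : ℕ∞) := h1.trans (by exact_mod_cast h2)
  exact WithBot.coe_le_coe.mpr h3

end Aux

theorem cl_mk {S : Type*} [CommRing S] (J I : Ideal S) :
    cl (I.map (Ideal.Quotient.mk J)) = cl (I ⊔ J) := by
  refine (cl_pull (R := S) (R' := S ⧸ J) Ideal.Quotient.mk_surjective _ _ fun x => ?_).symm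
  show x ∈ I ⊔ J ↔ Ideal.Quotient.mk J x ∈ I.map (Ideal.Quotient.mk J)
  rw [← Ideal.mem_comap, Ideal.comap_map_of_surjective _ Ideal.Quotient.mk_surjective,
    ← RingHom.ker_eq_comap_bot, Ideal.mk_ker]

theorem W_gen {R : Type u} {S : Type v} [CommRing R] [IsLocalRing R] [IsNoetherianRing R]
    [CommRing S] [IsLocalRing S] [IsNoetherianRing S] [Algebra R S]
    [IsLocalHom (algebraMap R S)] [Module.Flat R S] (hinf : Infinite (ResidueField R))
    (hK : ∃ K, maximalIdeal S ^ K ≤ (maximalIdeal R).map (algebraMap R S))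
    (𝔤 : Ideal R) (u v : R) (hu : u ∈ maximalIdeal R) (hv : v ∈ maximalIdeal R)
    (hPm : Pm (𝔤 ⊔ Ideal.span {u} ⊔ Ideal.span {v})) (x1 x2 : S) (E₀ K₀ : ℕ)
    (hE : ∀ k : ℕ, (E₀ : ℤ) * k ^ 2 ≤
      2 * (cl (𝔤 ⊔ maximalIdeal R ^ k)).toNat + K₀ * k + K₀) :
    cl (Ideal.span {x1} ⊔ Ideal.span {x2} ⊔ (maximalIdeal R).map (algebraMap R S)) * E₀ ≤
      cl (Ideal.span {x1} ⊔ Ideal.span {x2} ⊔ 𝔤.map (algebraMap R S)) := by
  classical
  by_cases htop : cl (Ideal.span {x1} ⊔ Ideal.span {x2} ⊔ 𝔤.map (algebraMap R S)) = ⊤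
  · rw [htop]; exact le_top
  obtain ⟨L, hL⟩ := ENat.ne_top_iff_exists.mp htop
  set mS := (maximalIdeal R).map (algebraMap R S) with hmS
  set JR := Ideal.span {x1} ⊔ Ideal.span {x2} ⊔ 𝔤.map (algebraMap R S) with hJR
  set JB := Ideal.span {x1} ⊔ Ideal.span {x2} ⊔ mS with hJB
  have hPmS : Pm mS := hK
  have hmSn : mS ≤ maximalIdeal S := by
    rw [hmS, Ideal.map_le_iff_le_comap]
    intro r hr
    rw [Ideal.mem_comap, mem_maximalIdeal, mem_nonunits_iff, isUnit_map_iff]
    exact hr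
  obtain ⟨l, hl⟩ := ENat.ne_top_iff_exists.mp hPmS.cl_ne_top
  obtain ⟨B, hB⟩ := ENat.ne_top_iff_exists.mp (hPmS.mono (le_sup_right : mS ≤ JB)).cl_ne_top
  obtain ⟨c, hc⟩ : ∃ c, maximalIdeal S ^ c ≤ JR := by
    obtain ⟨c, hc⟩ := exists_pow_smul_bot (R := S) (N := S ⧸ JR) (by
      intro h; exact htop h)
    refine ⟨c, fun z hz => ?_⟩
    have h1 := hc z hz (Ideal.Quotient.mk JR 1)
    have h2 : z • (Ideal.Quotient.mk JR 1) = Ideal.Quotient.mk JR (z * 1) := rfl
    rw [h2, mul_one, Ideal.Quotient.eq_zero_iff_mem] at h1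
    exact h1
  set J := (maximalIdeal R ^ (2 * c + 1)).map (algebraMap R S) with hJ
  have hJmS : J = mS ^ (2 * c + 1) := by rw [hJ, Ideal.map_pow]
  have hJle : J ≤ mS := by rw [hJmS]; exact Ideal.pow_le_self (by omega)
  have hJne : J ≠ ⊤ := fun h =>
    (maximalIdeal.isMaximal S).ne_top (top_le_iff.mp (h ▸ (hJle.trans hmSn)))
  have hPmJ : Pm J := by rw [hJmS]; exact hPmS.pow _
  have hnt : Nontrivial (S ⧸ J) := Ideal.Quotient.nontrivial_iff.mpr hJne
  have hlr : IsLocalRing (S ⧸ J) :=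
    IsLocalRing.of_surjective' (Ideal.Quotient.mk J) Ideal.Quotient.mk_surjective
  have hmaxT : (maximalIdeal S).map (Ideal.Quotient.mk J) = maximalIdeal (S ⧸ J) :=
    IsLocalRing.map_maximalIdeal_of_surjective (Ideal.Quotient.mk J) Ideal.Quotient.mk_surjective
  obtain ⟨P, _, _, φ, ψ, hPn, hPc, hφm, hψφ, hsep, hint⟩ := exists_base hK (2 * c + 1) J hJ
  have hcomp : ψ.comp φ = (Ideal.Quotient.mk J).comp (algebraMap R S) := by
    ext r
    exact hψφ r
  let _ : Algebra P (S ⧸ J) := ψ.toAlgebra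
  have halgP : algebraMap P (S ⧸ J) = ψ := rfl
  have hmap : ∀ I : Ideal R, (I.map φ).map ψ = (I.map (algebraMap R S)).map
      (Ideal.Quotient.mk J) := by
    intro I
    rw [Ideal.map_map, hcomp, Ideal.map_map]
  have hψloc : IsLocalHom (algebraMap P (S ⧸ J)) := by
    refine ((local_hom_TFAE (algebraMap P (S ⧸ J))).out 0 2).mpr ?_
    rw [halgP, ← hφm, hmap, ← hmaxT]
    exact Ideal.map_mono hmSn
  have hφloc : IsLocalHom φ := by
    refine ((local_hom_TFAE φ).out 0 2).mpr ?_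
    rw [hφm]
  have hinfP : Infinite (ResidueField P) :=
    Infinite.of_injective (ResidueField.map φ) (RingHom.injective _)
  have hpc : IsPrecomplete (maximalIdeal P) P := hPc.toIsPrecomplete
  have hpowP : ∀ k, maximalIdeal P ^ k = (maximalIdeal R ^ k).map φ := by
    intro k
    rw [Ideal.map_pow, hφm]
  have hmem : ∀ (k : ℕ) (I : Ideal S), (maximalIdeal R ^ k).map (algebraMap R S) ≤ I →
      ∀ y ∈ maximalIdeal P ^ k, ψ y ∈ I.map (Ideal.Quotient.mk J) := by
    intro k I hI y hy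
    rw [hpowP] at hy
    have h1 : ψ y ∈ ((maximalIdeal R ^ k).map φ).map ψ := Ideal.mem_map_of_mem _ hy
    rw [hmap] at h1
    exact Ideal.map_mono hI h1
  have hspan : ∀ I : Ideal R, (Ideal.span {x1} ⊔ Ideal.span {x2} ⊔
      I.map (algebraMap R S)).map (Ideal.Quotient.mk J) =
      Ideal.span {Ideal.Quotient.mk J x1} ⊔ Ideal.span {Ideal.Quotient.mk J x2} ⊔
        (I.map φ).map ψ := by
    intro I
    rw [Ideal.map_sup, Ideal.map_sup, Ideal.map_span, Ideal.map_span, Set.image_singleton,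
      Set.image_singleton, hmap]
  have hbot : cl (⊥ : Ideal (S ⧸ J)) = cl J := by
    have h1 := cl_mk J ⊥
    rwa [Ideal.map_bot, bot_sup_eq] at h1
  rw [← hB, ← hL]
  have key := W_T (P := P) (T := S ⧸ J) hinfP ⟨hint⟩ c
    (by
      intro r hr
      have h1 := hmem _ J (le_of_eq hJ.symm) r hr
      rw [Ideal.map_quotient_self] at h1
      exact h1)
    (by
      obtain ⟨K, hK⟩ := hPmJ
      refine ⟨K, ?_⟩
      rw [← hmaxT, ← Ideal.map_pow, eq_bot_iff, ← Ideal.map_quotient_self J]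
      exact Ideal.map_mono hK)
    l
    (by
      rw [halgP, ← hφm, hmap, cl_mk, sup_eq_left.mpr hJle, hl])
    (by rw [hbot]; exact hPmJ.cl_ne_top)
    (by
      rw [hbot, hl]
      refine le_trans ?_ (flat_pow (S := S) (2 * c + 1))
      gcongr
      exact cl_map_pow_le φ hφm _)
    (𝔤.map φ)
    (by
      refine dim_two (𝔤.map φ) (φ u) (φ v) ?_ ?_ ?_
      · rw [← hφm]; exact Ideal.mem_map_of_mem _ hu
      · rw [← hφm]; exact Ideal.mem_map_of_mem _ hv
      · obtain ⟨k, hk⟩ := hPm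
        refine ⟨k, ?_⟩
        rw [hpowP]
        have h1 := Ideal.map_mono (f := φ) hk
        rwa [Ideal.map_sup, Ideal.map_sup, Ideal.map_span, Ideal.map_span, Set.image_singleton,
          Set.image_singleton] at h1)
    (Ideal.Quotient.mk J x1) (Ideal.Quotient.mk J x2)
    (by
      intro y hy
      rw [halgP, ← hspan]
      refine hmem c _ ?_ y hy
      rw [Ideal.map_pow]
      exact (Ideal.pow_right_mono hmSn c).trans hc)
    L
    (by
      rw [halgP, ← hspan, cl_mk, hL]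
      exact cl_anti le_sup_left)
    B
    (by
      rw [halgP, ← hφm, ← hspan, cl_mk, hB]
      refine le_of_eq ?_
      rw [sup_eq_left.mpr (hJle.trans le_sup_right)])
    E₀ K₀
    (by
      intro k
      have hPmk : Pm (𝔤 ⊔ maximalIdeal R ^ k) := ⟨k, le_sup_right⟩
      obtain ⟨n, hn⟩ := ENat.ne_top_iff_exists.mp hPmk.cl_ne_top
      have h1 := cl_le_map φ hsep n _ hPmk hn.symm
      rw [Ideal.map_sup, ← hpowP] at h1
      have hPmk' : Pm (𝔤.map φ ⊔ maximalIdeal P ^ k) := ⟨k, le_sup_right⟩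
      have h2 := ENat.toNat_le_toNat h1 hPmk'.cl_ne_top
      have h3 := hE k
      have h4 : ((cl (𝔤 ⊔ maximalIdeal R ^ k)).toNat : ℤ) ≤
        (cl (𝔤.map φ ⊔ maximalIdeal P ^ k)).toNat := by exact_mod_cast h2
      linarith)
  exact_mod_cast key

end Vale.Agent.P202
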