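import Vale.Agent.P202.Fin
import Vale.Agent.P202.WGen

namespace Vale.Agent.P202

open Finset IsLocalRing Filter Topology

universe u v

theorem Pm_cut {R : Type*} [CommRing R] [IsLocalRing R] [IsNoetherianRing R] (g : ℕ → R)
    (δ q c : ℕ) (hc : maximalIdeal R ^ c ≤ P g (δ + 3)) :
    Pm (P g δ ⊔ Ideal.span {g δ ^ q} ⊔ Ideal.span {g (δ + 1)} ⊔ Ideal.span {g (δ + 2)}) := by
  by_contra hcon
  obtain ⟨Q, hQ, hle, hne⟩ := exists_prime_of_not_Pm hcon
  refine hne (le_antisymm (IsLocalRing.le_maximalIdeal hQ.ne_top) ?_)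
  have h1 : P g (δ + 3) ≤ Q := by
    rw [P_succ, P_succ, P_succ]
    refine sup_le (sup_le (sup_le ?_ ?_) ?_) ?_
    · exact (le_sup_left.trans (le_sup_left.trans le_sup_left)).trans hle
    · rw [Ideal.span_singleton_le_iff_mem]
      refine hQ.mem_of_pow_mem q (hle ?_)
      exact Ideal.mem_sup_left (Ideal.mem_sup_left (Ideal.mem_sup_right
        (Ideal.mem_span_singleton_self _)))
    · exact (le_sup_right.trans le_sup_left).trans hle
    · exact le_sup_right.trans hle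
  exact hQ.le_of_pow_le (hc.trans h1)

theorem Wd' {R : Type u} {S : Type v} [CommRing R] [IsLocalRing R] [IsNoetherianRing R]
    [CommRing S] [IsLocalRing S] [IsNoetherianRing S] [Algebra R S]
    [IsLocalHom (algebraMap R S)] [Module.Flat R S]
    (hfib : ∃ K, maximalIdeal S ^ K ≤ (maximalIdeal R).map (algebraMap R S))
    (hinf : Infinite (ResidueField R)) (δ AR : ℕ)
    (hAR : ∀ N, cl (maximalIdeal R ^ N) ≤ ((AR * (N + 1) ^ (δ + 3) : ℕ) : ℕ∞))
    (hfin : cl ((maximalIdeal R).map (algebraMap R S)) ≠ ⊤)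
    (x1 x2 : S) (B : ℕ) (hB : (B : ℕ∞) =
      cl (Ideal.span {x1} ⊔ Ideal.span {x2} ⊔ (maximalIdeal R).map (algebraMap R S))) (A : ℕ)
    (hA : ∀ N, cl (Ideal.span {x1} ⊔ Ideal.span {x2} ⊔
      (maximalIdeal R).map (algebraMap R S) ^ N) ≤ ((A * (N + 1) ^ (δ + 1) : ℕ) : ℕ∞)) :
    ∃ e D : ℕ, (∀ N, cl (maximalIdeal R ^ N) ≤
      ((e * (N + (δ + 2)).choose (δ + 3) + D * N ^ (δ + 2) : ℕ) : ℕ∞)) ∧
      ∀ N : ℕ, ((B * e * N.choose (δ + 1) : ℕ) : ℕ∞) ≤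
        cl (Ideal.span {x1} ⊔ Ideal.span {x2} ⊔ (maximalIdeal R).map (algebraMap R S) ^ N) +
          ((D * N ^ δ : ℕ) : ℕ∞) := by
  have := hinf
  obtain ⟨g, hg, h1, h2⟩ := exists_seqR (algebraMap R S) (Ideal.span {x1} ⊔ Ideal.span {x2})
    (δ + 3)
  obtain ⟨⟨c₀, hc₀⟩, -, e, c, Λ, he, hΛ, hlow⟩ := sside2 g (δ + 2) h1 AR hAR
  obtain ⟨D1, hD1⟩ := hlow (δ + 1) 1 (by omega)
  have hq : ∀ q : ℕ, 1 ≤ q → ((B * e * q : ℕ) : ℕ∞) ≤ cl (Ideal.span {x1} ⊔ Ideal.span {x2} ⊔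
      P (fun j => algebraMap R S (g j)) δ ⊔ Ideal.span {(algebraMap R S (g δ)) ^ q}) := by
    intro q hq
    obtain ⟨K₀, hK₀⟩ := cut_E g δ (hg δ) (h1 δ (by omega)) e D1 hD1 q
    have h3 := W_gen (S := S) hinf hfib (P g δ ⊔ Ideal.span {g δ ^ q}) (g (δ + 1)) (g (δ + 2))
      (hg _) (hg _) (Pm_cut g δ q c₀ hc₀) x1 x2 (q * e) K₀ hK₀
    rw [← hB, Ideal.map_sup, map_P, Ideal.map_span, Set.image_singleton, map_pow,
      ← sup_assoc] at h3
    refine le_trans (le_of_eq ?_) h3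
    push_cast
    ring
  obtain ⟨D2, hD2⟩ := GG_cut (n := (maximalIdeal R).map (algebraMap R S))
    (𝔭 := Ideal.span {x1} ⊔ Ideal.span {x2}) map_maximalIdeal_le hfin
    (fun j => algebraMap R S (g j)) δ (fun i hi => by
      have := h2 i (by omega)
      rwa [map_P] at this) A hA (B * e) hq
  refine ⟨e, Λ * c + D2, fun N => ?_, fun N => ?_⟩
  · refine (upper_of_stable g hg (δ + 2) e c Λ he hΛ N).trans ?_
    have : e * (N + (δ + 2)).choose (δ + 2 + 1) + Λ * c * N ^ (δ + 2) ≤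
        e * (N + (δ + 2)).choose (δ + 3) + (Λ * c + D2) * N ^ (δ + 2) := by gcongr; omega
    exact_mod_cast this
  · refine (hD2 N).trans ?_
    gcongr
    omega

theorem numeric2' {R : Type u} {S : Type v} [CommRing R] [IsLocalRing R] [IsNoetherianRing R]
    [CommRing S] [IsLocalRing S] [IsNoetherianRing S] [Algebra R S]
    [IsLocalHom (algebraMap R S)] [Module.Flat R S]
    (hinf : Infinite (ResidueField R))
    (hfib : ∃ K, maximalIdeal S ^ K ≤ (maximalIdeal R).map (algebraMap R S))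
    (δ AR : ℕ)
    (hAR : ∀ N, cl (maximalIdeal R ^ N) ≤ ((AR * (N + 1) ^ (δ + 3) : ℕ) : ℕ∞))
    (X : ℕ → S) (hX : ∀ i, X i ∈ maximalIdeal S)
    (hs : ∀ i < δ + 3, Sup (maximalIdeal S) (P X i) (X i)) (AS : ℕ)
    (hAS : ∀ N, cl (maximalIdeal S ^ N) ≤ ((AS * (N + 1) ^ (δ + 3) : ℕ) : ℕ∞))
    (r : ℕ) (hr : 2 ≤ r)
    (hgen : min r (δ + 3) = r →
      maximalIdeal S ≤ (maximalIdeal R).map (algebraMap R S) ⊔ P X r) :
    ∃ eR eS D : ℕ, eR ≤ (min r (δ + 3) - 2).factorial * eS ∧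
      (∀ N, cl (maximalIdeal R ^ N) ≤
        ((eR * (N + (δ + 2)).choose (δ + 3) + D * N ^ (δ + 2) : ℕ) : ℕ∞)) ∧
      (∀ N : ℕ, ((eS * N.choose (δ + 3) : ℕ) : ℕ∞) ≤
        cl (maximalIdeal S ^ N) + ((D * N ^ (δ + 2) : ℕ) : ℕ∞)) := by
  obtain ⟨-, hup, e, c, Λ, he, hΛ, hlow⟩ := sside2 X (δ + 2) hs AS hAS
  have hfib' := hfib
  obtain ⟨K, hK⟩ := hfib
  set 𝔪 := (maximalIdeal R).map (algebraMap R S) with h𝔪
  set 𝔮 := Ideal.span {X 0} ⊔ Ideal.span {X 1} with h𝔮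
  have hP2 : P X 2 = 𝔮 := by
    rw [P_succ, P_succ, P_zero, bot_sup_eq]
  have h𝔪n : 𝔪 ≤ maximalIdeal S := map_maximalIdeal_le
  have hfin : cl 𝔪 ≠ ⊤ := by
    have := cl_sup_pow_ne_top (⊥ : Ideal S) K
    rw [bot_sup_eq] at this
    exact ne_top_of_le_ne_top this (cl_anti hK)
  have hQn : Qf 𝔮 𝔪 1 ≤ maximalIdeal S := by
    unfold Qf
    rw [pow_one]
    exact sup_le (sup_le ((Ideal.span_singleton_le_iff_mem _).mpr (hX 0))
      ((Ideal.span_singleton_le_iff_mem _).mpr (hX 1))) h𝔪n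
  have hproper : cl (Qf 𝔮 𝔪 1) ≠ 0 := fun h =>
    (IsLocalRing.maximalIdeal.isMaximal S).ne_top (top_le_iff.mp (cl_eq_zero.mp h ▸ hQn))
  have hQfin : cl (Qf 𝔮 𝔪 1) ≠ ⊤ := by
    refine ne_top_of_le_ne_top hfin (cl_anti ?_)
    unfold Qf
    rw [pow_one]
    exact le_sup_right
  obtain ⟨B, hB⟩ := ENat.ne_top_iff_exists.mp hQfin
  have hB1 : 1 ≤ B := by
    rw [← hB] at hproper
    exact Nat.one_le_iff_ne_zero.mpr (by exact_mod_cast hproper)
  obtain ⟨A', hA'⟩ := hup 2 (δ + 1) (by omega)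
  have hA : ∀ N, cl (𝔮 ⊔ 𝔪 ^ N) ≤ ((A' * (K + 1) ^ (δ + 1) * (N + 1) ^ (δ + 1) : ℕ) : ℕ∞) := by
    intro N
    have h1 : cl (𝔮 ⊔ 𝔪 ^ N) ≤ cl (P X 2 ⊔ maximalIdeal S ^ (K * N)) := by
      rw [hP2, pow_mul]
      exact cl_anti (sup_le_sup_left (Ideal.pow_right_mono hK N) _)
    rw [← coe_LL] at h1
    refine h1.trans ?_
    have h2 := hA' (K * N)
    have h3 : K * N + 1 ≤ (K + 1) * (N + 1) := by nlinarith
    have h4 : A' * (K * N + 1) ^ (δ + 1) ≤ A' * (K + 1) ^ (δ + 1) * (N + 1) ^ (δ + 1) := by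
      rw [mul_assoc, ← mul_pow]
      gcongr
    exact_mod_cast h2.trans h4
  obtain ⟨eR, D1, hR, hW⟩ := Wd' hfib' hinf δ AR hAR hfin (X 0) (X 1) B (by
    rw [hB]
    unfold Qf
    rw [pow_one]) _ hA
  obtain ⟨k, hk⟩ : ∃ k, (min r (δ + 3) - 2) + k = δ + 1 :=
    ⟨δ + 1 - (min r (δ + 3) - 2), by omega⟩
  have hmemC : ∀ i, min r (δ + 3) - 2 ≤ i → i < (min r (δ + 3) - 2) + k →
      X (i + 2) ∈ C (fun i => X (i + 2)) i (Qf 𝔮 𝔪 1) 0 := by
    intro i hi1 hi2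
    have hrr : min r (δ + 3) = r := by omega
    have hle : maximalIdeal S ≤ C (fun i => X (i + 2)) i (Qf 𝔮 𝔪 1) 0 := by
      refine (hgen hrr).trans (sup_le ?_ ?_)
      · refine le_trans ?_ (le_C (fun i => X (i + 2)) i _ 0)
        unfold Qf
        rw [pow_one]
        exact le_sup_right
      · refine P_le X r _ fun j hj => ?_
        rcases j with _ | _ | j
        · refine le_C (fun i => X (i + 2)) i _ 0 ?_
          exact Ideal.mem_sup_left (Ideal.mem_sup_left (Ideal.mem_span_singleton_self _))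
        · refine le_C (fun i => X (i + 2)) i _ 0 ?_
          exact Ideal.mem_sup_left (Ideal.mem_sup_right (Ideal.mem_span_singleton_self _))
        · exact mem_C (fun i => X (i + 2)) i _ 0 j (by omega)
    exact hle (hX (i + 2))
  have h𝔭 : P X (δ + 2) ≤ 𝔮 ⊔ Ideal.span ((fun i => X (i + 2)) '' {i | i < δ}) := by
    refine P_le X _ _ fun j hj => ?_
    rcases j with _ | _ | j
    · exact Ideal.mem_sup_left (Ideal.mem_sup_left (Ideal.mem_span_singleton_self _))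
    · exact Ideal.mem_sup_left (Ideal.mem_sup_right (Ideal.mem_span_singleton_self _))
    · exact Ideal.mem_sup_right (Ideal.subset_span ⟨j, by
        show j < δ
        omega, rfl⟩)
  have hpowK : ∀ i, i < δ + 1 → X (i + 2) ^ K ∈ Qf 𝔮 𝔪 1 := by
    intro i _
    unfold Qf
    rw [pow_one]
    exact Ideal.mem_sup_right (hK (Ideal.pow_mem_pow (hX (i + 2)) K))
  have hupper : ∀ N, cl (𝔮 ⊔ 𝔪 ^ N) ≤
      ((B * ((min r (δ + 3) - 2).factorial * e) * (N + δ).choose (δ + 1) +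
        Λ * c * K ^ δ * N ^ δ : ℕ) : ℕ∞) := by
    intro N
    cases N with
    | zero => simp [cl_top]
    | succ j =>
      have h3 := cl_Qf_le (fun i => X (i + 2)) 𝔮 𝔪 (min r (δ + 3) - 2) k δ j K c e Λ hk hmemC
        hpowK (P X (δ + 2)) h𝔭 he hΛ
      rw [← hB] at h3
      refine h3.trans (le_of_eq ?_)
      have h4 : j + (δ + 1) = j + 1 + δ := by ring
      rw [h4, mul_pow]
      push_cast
      ring
  have hcmp : B * eR ≤ B * ((min r (δ + 3) - 2).factorial * e) := by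
    refine compare _ _ (Λ * c * K ^ δ + D1) δ fun N => ?_
    have h1 := (hW N).trans (add_le_add (hupper N) le_rfl)
    have h2 : B * eR * N.choose (δ + 1) ≤
        B * ((min r (δ + 3) - 2).factorial * e) * (N + δ).choose (δ + 1) +
        Λ * c * K ^ δ * N ^ δ + D1 * N ^ δ := by exact_mod_cast h1
    rw [add_mul]
    omega
  obtain ⟨D2, hD2⟩ := hlow 0 (δ + 2) (by omega)
  refine ⟨eR, e, D1 + D2, Nat.le_of_mul_le_mul_left hcmp hB1, fun N => ?_, fun N => ?_⟩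
  · refine (hR N).trans ?_
    have : eR * (N + (δ + 2)).choose (δ + 3) + D1 * N ^ (δ + 2) ≤
        eR * (N + (δ + 2)).choose (δ + 3) + (D1 + D2) * N ^ (δ + 2) := by gcongr; omega
    exact_mod_cast this
  · have h1 := hD2 N
    have h2 : (LL X 0 N : ℕ∞) = cl (maximalIdeal S ^ N) := by
      rw [coe_LL, P_zero, bot_sup_eq]
    rw [← h2]
    have h3 : e * N.choose (δ + 3) ≤ LL X 0 N + (D1 + D2) * N ^ (δ + 2) := by
      refine h1.trans ?_
      gcongr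
      omega
    exact_mod_cast h3

end Vale.Agent.P202
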