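import Vale.Agent.P202.InfFin

namespace Vale.Agent.P202

open IsLocalRing Polynomial Filter Topology

attribute [local instance] Polynomial.algebra

theorem core3 {R S : Type*} [CommRing R] [IsLocalRing R] [IsNoetherianRing R]
    [CommRing S] [IsLocalRing S] [IsNoetherianRing S] [Algebra R S]
    [IsLocalHom (algebraMap R S)] {a : ℕ} (b : Module.Basis (Fin a) R S)
    (hfib : ∃ K, maximalIdeal S ^ K ≤ (maximalIdeal R).map (algebraMap R S))
    (δ : ℕ) (hdR : ringKrullDim R = (δ + 3 : ℕ)) (hdS : ringKrullDim S = (δ + 3 : ℕ))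
    (r : ℕ) (hr : 2 ≤ r) (x : Fin r → S) (hxn : ∀ j, x j ∈ maximalIdeal S)
    (hx : maximalIdeal S ≤
      (maximalIdeal R).map (algebraMap R S) ⊔ Ideal.span (Set.range x)) :
    ∃ eR eS D : ℕ, eR ≤ (min r (δ + 3) - 2).factorial * eS ∧
      (∀ N, cl (maximalIdeal R ^ N) ≤
        ((eR * (N + (δ + 2)).choose (δ + 3) + D * N ^ (δ + 2) : ℕ) : ℕ∞)) ∧
      (∀ N : ℕ, ((eS * N.choose (δ + 3) : ℕ) : ℕ∞) ≤
        cl (maximalIdeal S ^ N) + ((D * N ^ (δ + 2) : ℕ) : ℕ∞)) := by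
  have i1 : IsNoetherianRing (RZ R) := RZ_noeth R
  have i2 : Module.Flat R (RZ R) := RZ_flat R
  have i3 : IsLocalHom (algebraMap R (RZ R)) := isLocalHom_of_map_le (RZ_map R).le
  have i4 : Infinite (ResidueField (RZ R)) := RZ_inf R
  have j1 : IsNoetherianRing (SZ R S) := SZ_noeth R S
  have j2 : Module.Flat S (SZ R S) := SZ_flat R S
  have j3 : IsLocalRing (SZ R S) := SZ_local R S b hfib
  have j4 : (maximalIdeal S).map (algebraMap S (SZ R S)) = maximalIdeal (SZ R S) :=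
    IsLocalRing.eq_maximalIdeal (SZ_max R S b)
  have j5 : IsLocalHom (algebraMap S (SZ R S)) := isLocalHom_of_map_le j4.le
  have j6 : (maximalIdeal (RZ R)).map (algebraMap (RZ R) (SZ R S)) =
      ((maximalIdeal R).map (algebraMap R S)).map (algebraMap S (SZ R S)) := SZ_map_le R S
  have j7 : IsLocalHom (algebraMap (RZ R) (SZ R S)) := by
    refine isLocalHom_of_map_le ?_
    rw [j6, ← j4]
    exact Ideal.map_mono map_maximalIdeal_le
  have j8 : Infinite (ResidueField (SZ R S)) :=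
    Infinite.of_injective (ResidueField.map (algebraMap (RZ R) (SZ R S))) (RingHom.injective _)
  have hclR : ∀ N, cl (maximalIdeal (RZ R) ^ N) = cl (maximalIdeal R ^ N) := by
    intro N
    rw [← RZ_map R, ← Ideal.map_pow]
    exact cl_flat R (RZ R) (RZ_map R) _
  have hclS : ∀ N, cl (maximalIdeal (SZ R S) ^ N) = cl (maximalIdeal S ^ N) := by
    intro N
    rw [← j4, ← Ideal.map_pow]
    exact cl_flat S (SZ R S) j4 _
  have hbd : ∀ {T : Type _} [CommRing T] [IsLocalRing T] [IsNoetherianRing T],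
      ringKrullDim T = (δ + 3 : ℕ) → ∃ A : ℕ, ∀ N, cl (maximalIdeal T ^ N) ≤
        ((A * (N + 1) ^ (δ + 3) : ℕ) : ℕ∞) := by
    intro T _ _ _ hT
    obtain ⟨A, hA⟩ := exists_bound (δ + 3) hT
    refine ⟨A, fun N => (hA N).trans ?_⟩
    have : A * N ^ (δ + 3) ≤ A * (N + 1) ^ (δ + 3) := by gcongr; omega
    exact_mod_cast this
  obtain ⟨AR, hAR⟩ := hbd hdR
  obtain ⟨AS, hAS⟩ : ∃ A : ℕ, ∀ N, cl (maximalIdeal S ^ N) ≤
        ((A * (N + 1) ^ (δ + 3) : ℕ) : ℕ∞) := by
    obtain ⟨A, hA⟩ := exists_bound (δ + 3) hdS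
    refine ⟨A, fun N => (hA N).trans ?_⟩
    have : A * N ^ (δ + 3) ≤ A * (N + 1) ^ (δ + 3) := by gcongr; omega
    exact_mod_cast this
  obtain ⟨X, hX, hs, hc⟩ := exists_seq ((maximalIdeal (RZ R)).map (algebraMap (RZ R) (SZ R S)))
    (δ + 3)
  obtain ⟨eR, eS, D, h1, h2, h3⟩ := numeric2 (R := RZ R) (S := SZ R S) (SZ_basis R S b) i4 (by
    obtain ⟨K, hK⟩ := hfib
    refine ⟨K, ?_⟩
    rw [← j4, ← Ideal.map_pow, j6]
    exact Ideal.map_mono hK) δ AR (fun N => by rw [hclR]; exact hAR N) X hX hs AS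
    (fun N => by rw [hclS]; exact hAS N) r hr (fun hrr => by
      refine gens_of_seq _ X (δ + 3) hX hc r (fun j => algebraMap S (SZ R S) (x j))
        (fun j => ?_) ?_ (by omega)
      · rw [← j4]
        exact Ideal.mem_map_of_mem _ (hxn j)
      · rw [← j4, j6]
        refine (Ideal.map_mono hx).trans ?_
        rw [Ideal.map_sup, Ideal.map_span, ← Set.range_comp]
        exact le_rfl)
  refine ⟨eR, eS, D, h1, fun N => ?_, fun N => ?_⟩
  · rw [← hclR]; exact h2 N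
  · rw [← hclS]; exact h3 N

end Vale.Agent.P202
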