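import Vale.Agent.P202.FinMain

namespace Vale.Agent.P202

open IsLocalRing Filter Topology

universe u v

theorem hasMult_unique {A : Type*} [CommRing A] [IsLocalRing A] {e e' : ℝ}
    (h : HasMult A e) (h' : HasMult A e') : e = e' := by
  obtain ⟨d, hd, ht⟩ := h
  obtain ⟨d', hd', ht'⟩ := h'
  have h1 : d = d' := by
    rw [hd] at hd'
    exact_mod_cast hd'
  subst h1
  exact tendsto_nhds_unique ht ht'

theorem main_inequality_finite {R : Type u} {S : Type v}
    [CommRing R] [IsLocalRing R] [IsNoetherianRing R]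
    [CommRing S] [IsLocalRing S] [Algebra R S] [Module.Flat R S] [Module.Finite R S]
    [IsLocalHom (algebraMap R S)]
    (d : ℕ) (hd : ringKrullDim R = d) (r : ℕ) (x : Fin r → S)
    (hx : maximalIdeal S = (maximalIdeal R).map (algebraMap R S) ⊔ Ideal.span (Set.range x)) :
    ∃ eR eS : ℝ, HasMult R eR ∧ HasMult S eS ∧ 0 ≤ eS ∧
      eR ≤ ((min r d - 2).factorial : ℝ) * eS := by
  have hN : IsNoetherianRing S := IsNoetherianRing.of_finite R S
  have hart : IsArtinianRing (S ⧸ (maximalIdeal R).map (algebraMap R S)) := by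
    have h1 : IsArtinianRing (R ⧸ maximalIdeal R) := by
      have : IsArtinianRing (ResidueField R) := inferInstance
      exact this
    exact IsArtinianRing.of_finite (R ⧸ maximalIdeal R) _
  rcases Nat.lt_or_ge (min r d) 3 with h3 | h3
  · obtain ⟨eR, eS, hR, hS, h0, h⟩ := main_inequality hart d hd r x hx
    refine ⟨eR, eS, hR, hS, h0, ?_⟩
    have h4 : (min r d - 1).factorial = (min r d - 2).factorial := by
      have h5 : min r d = 0 ∨ min r d = 1 ∨ min r d = 2 := by omega
      rcases h5 with h5 | h5 | h5 <;> simp [h5]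
    rw [← h4]
    exact h
  · obtain ⟨δ, rfl⟩ : ∃ δ, d = δ + 3 := ⟨d - 3, by omega⟩
    have hfib := exists_pow_le_fibre (R := R) (S := S) hart
    have hdS : ringKrullDim S = (δ + 3 : ℕ) := by rw [dim_eq (R := R) (S := S) hart, hd]
    have hfree : Module.Free R S := Module.free_of_flat_of_isLocalRing
    obtain ⟨eR, -, hmR, htR⟩ := hasMult_succ (A := R) (δ + 2) hd
    obtain ⟨eS, heS0, hmS, htS⟩ := hasMult_succ (A := S) (δ + 2) hdS
    refine ⟨eR, eS, hmR, hmS, heS0, ?_⟩
    let b := Module.finBasis R S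
    obtain ⟨a, c, D, h1, h2, h4⟩ := core3 b hfib δ hd hdS r (by omega) x (fun j => by
      rw [hx]
      exact Ideal.mem_sup_right (Ideal.subset_span ⟨j, rfl⟩)) (le_of_eq hx)
    have h5 := limit_le (len R) eR a D (δ + 2) htR (fun N => by
      have := h2 N
      rw [← coe_len] at this
      exact_mod_cast this)
    have h6 := le_limit (len S) eS c D (δ + 2) htS (fun N => by
      have := h4 N
      rw [← coe_len] at this
      exact_mod_cast this)
    have h7 : (a : ℝ) ≤ ((min r (δ + 3) - 2).factorial : ℝ) * c := by exact_mod_cast h1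
    refine h5.trans (h7.trans ?_)
    gcongr

end Vale.Agent.P202
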