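import Vale.Agent.P202.Abs2

namespace Vale.Agent.P202

open Finset IsLocalRing Matrix

section Lengths

variable {R : Type*} [CommRing R]

theorem length_add_le {A B C : Type*} [AddCommGroup A] [Module R A] [AddCommGroup B] [Module R B]
    [AddCommGroup C] [Module R C] (f : A →ₗ[R] B) (g : B →ₗ[R] C)
    (hf : Function.Injective f) (hg : Function.Surjective g) (h : ∀ a, g (f a) = 0) :
    Module.length R A + Module.length R C ≤ Module.length R B := by
  have h1 : Module.length R B = Module.length R (LinearMap.ker g) + Module.length R C := by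
    refine Module.length_eq_add_of_exact (LinearMap.ker g).subtype g
      (Submodule.injective_subtype _) hg ?_
    intro b
    constructor
    · intro hb
      exact ⟨⟨b, hb⟩, rfl⟩
    · rintro ⟨a, rfl⟩
      exact a.2
  rw [h1]
  gcongr
  refine Module.length_le_of_injective (f.codRestrict (LinearMap.ker g) h) ?_
  intro a b hab
  exact hf (congrArg Subtype.val hab)

theorem flag_step {M M' : Type*} [AddCommGroup M] [Module R M] [AddCommGroup M'] [Module R M']
    (W : Submodule R M) (f : M' →ₗ[R] M) (p0 : M →ₗ[R] R) (I : Submodule R R)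
    (hI : W ≤ Submodule.comap p0 I) (hp0 : Function.Surjective p0) (h : ∀ v, p0 (f v) = 0) :
    Module.length R (M' ⧸ Submodule.comap f W) + Module.length R (R ⧸ I) ≤
      Module.length R (M ⧸ W) := by
  refine length_add_le (Submodule.mapQ (Submodule.comap f W) W f le_rfl)
    (Submodule.mapQ W I p0 hI) ?_ ?_ ?_
  · rw [← LinearMap.ker_eq_bot, Submodule.ker_mapQ]
    exact Submodule.mkQ_map_self _
  · intro z
    obtain ⟨z, rfl⟩ := Submodule.Quotient.mk_surjective _ z
    obtain ⟨w, rfl⟩ := hp0 z
    exact ⟨Submodule.Quotient.mk w, rfl⟩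
  · intro z
    obtain ⟨z, rfl⟩ := Submodule.Quotient.mk_surjective _ z
    rw [Submodule.mapQ_apply, Submodule.mapQ_apply, h, Submodule.Quotient.mk_zero]

def fl {a : ℕ} (W : Submodule R (Fin a → R)) (i : Fin a) : Submodule R R where
  carrier := {r | ∃ w ∈ W, (∀ l < i, w l = 0) ∧ w i = r}
  add_mem' := by
    rintro _ _ ⟨w, hw, h1, rfl⟩ ⟨w', hw', h1', rfl⟩
    refine ⟨w + w', W.add_mem hw hw', fun l hl => ?_, rfl⟩
    rw [Pi.add_apply, h1 l hl, h1' l hl, add_zero]
  zero_mem' := ⟨0, W.zero_mem, fun _ _ => rfl, rfl⟩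
  smul_mem' := by
    rintro c _ ⟨w, hw, h1, rfl⟩
    refine ⟨c • w, W.smul_mem c hw, fun l hl => ?_, rfl⟩
    rw [Pi.smul_apply, h1 l hl, smul_zero]

def consMap (a : ℕ) : (Fin a → R) →ₗ[R] (Fin (a + 1) → R) where
  toFun w := Fin.cons 0 w
  map_add' := by
    intro w w'
    ext i
    refine Fin.cases ?_ (fun j => ?_) i <;> simp
  map_smul' := by
    intro c w
    ext i
    refine Fin.cases ?_ (fun j => ?_) i <;> simp

theorem consMap_zero {a : ℕ} (w : Fin a → R) : consMap a w 0 = 0 := rfl

theorem consMap_succ {a : ℕ} (w : Fin a → R) (i : Fin a) : consMap a w i.succ = w i := rfl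

theorem sum_fl_le {a : ℕ} (W : Submodule R (Fin a → R)) :
    ∑ i, Module.length R (R ⧸ fl W i) ≤ Module.length R ((Fin a → R) ⧸ W) := by
  induction a with
  | zero => simp
  | succ a ih =>
    rw [Fin.sum_univ_succ]
    have h1 := ih (W.comap (consMap a))
    have h2 : ∀ i : Fin a, fl (W.comap (consMap a)) i = fl W i.succ := by
      intro i
      ext r
      constructor
      · rintro ⟨w, hw, h3, rfl⟩
        refine ⟨consMap a w, hw, fun l hl => ?_, rfl⟩
        refine Fin.cases (fun _ => rfl) (fun j hj => ?_) l hl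
        exact h3 j (Fin.succ_lt_succ_iff.mp hj)
      · rintro ⟨w, hw, h3, rfl⟩
        have h4 : consMap a (fun j => w j.succ) = w := by
          ext l
          refine Fin.cases ?_ (fun j => ?_) l
          · rw [consMap_zero, h3 0 (Fin.succ_pos i)]
          · rfl
        refine ⟨fun j => w j.succ, ?_, fun l hl => h3 l.succ (Fin.succ_lt_succ_iff.mpr hl), rfl⟩
        show consMap a _ ∈ W
        rw [h4]
        exact hw
    rw [Finset.sum_congr rfl fun i _ =>
      congrArg (fun I : Submodule R R => Module.length R (R ⧸ I)) (h2 i)] at h1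
    rw [add_comm]
    refine (add_le_add_left h1 _).trans ?_
    let p0 : (Fin (a + 1) → R) →ₗ[R] R := LinearMap.proj 0
    have hp0 : ∀ w, p0 w = w 0 := fun _ => rfl
    have h3 : W ≤ Submodule.comap p0 (fl W 0) := by
      intro w hw
      exact ⟨w, hw, fun l hl => absurd hl (Fin.not_lt_zero l), rfl⟩
    refine flag_step W (consMap a) p0 (fl W 0) h3 ?_ ?_
    · intro z
      exact ⟨fun _ => z, rfl⟩
    · intro v
      rw [hp0, consMap_zero]

theorem koszul_length {F F' : Type*} [AddCommGroup F] [Module R F] [AddCommGroup F'] [Module R F']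
    (φ : F' →ₗ[R] F) (ψ : F →ₗ[R] F') (h : ∀ v, φ (ψ v) = 0) (U : Submodule R F') :
    Module.length R (F ⧸ U.map φ) + Module.length R (F ⧸ U.comap ψ) ≤
      Module.length R (F ⧸ LinearMap.range φ) + Module.length R (F' ⧸ U) := by
  have hle : U.map φ ≤ LinearMap.range φ := LinearMap.map_le_range
  have h1 : Module.length R (F ⧸ U.map φ) =
      Module.length R (LinearMap.range (Submodule.mapQ U (U.map φ) φ (Submodule.le_comap_map φ U))) +
        Module.length R (F ⧸ LinearMap.range φ) := by
    refine Module.length_eq_add_of_exact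
      (LinearMap.range (Submodule.mapQ U (U.map φ) φ (Submodule.le_comap_map φ U))).subtype
      (Submodule.factor hle) (Submodule.injective_subtype _) (Submodule.factor_surjective hle) ?_
    intro z
    obtain ⟨z, rfl⟩ := Submodule.Quotient.mk_surjective _ z
    have hfac : (Submodule.factor hle) (Submodule.Quotient.mk z) = 0 ↔ z ∈ LinearMap.range φ := by
      unfold Submodule.factor
      rw [Submodule.mapQ_apply]
      exact Submodule.Quotient.mk_eq_zero _
    rw [hfac]
    constructor
    · rintro ⟨v, rfl⟩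
      exact ⟨⟨Submodule.Quotient.mk (φ v), ⟨Submodule.Quotient.mk v, rfl⟩⟩, rfl⟩
    · rintro ⟨⟨w, ⟨v, hv⟩⟩, hw⟩
      obtain ⟨v, rfl⟩ := Submodule.Quotient.mk_surjective _ v
      rw [Submodule.mapQ_apply] at hv
      have hw' : w = Submodule.Quotient.mk z := hw
      rw [hw', Submodule.Quotient.eq] at hv
      have h5 : z = φ v - (φ v - z) := by abel
      rw [h5]
      exact Submodule.sub_mem _ ⟨v, rfl⟩ (hle hv)
  have h2 : Module.length R (F ⧸ U.comap ψ) +
      Module.length R (LinearMap.range (Submodule.mapQ U (U.map φ) φ (Submodule.le_comap_map φ U))) ≤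
        Module.length R (F' ⧸ U) := by
    refine length_add_le (Submodule.mapQ (U.comap ψ) U ψ le_rfl)
      (Submodule.mapQ U (U.map φ) φ (Submodule.le_comap_map φ U)).rangeRestrict ?_
      (LinearMap.surjective_rangeRestrict _) ?_
    · rw [← LinearMap.ker_eq_bot, Submodule.ker_mapQ]
      exact Submodule.mkQ_map_self _
    · intro z
      obtain ⟨z, rfl⟩ := Submodule.Quotient.mk_surjective _ z
      apply Subtype.ext
      show (Submodule.mapQ U (U.map φ) φ (Submodule.le_comap_map φ U))
        ((Submodule.mapQ (U.comap ψ) U ψ le_rfl) (Submodule.Quotient.mk z)) = 0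
      rw [Submodule.mapQ_apply, Submodule.mapQ_apply, h, Submodule.Quotient.mk_zero]
  rw [h1]
  calc _ = (Module.length R (F ⧸ U.comap ψ) +
      Module.length R (LinearMap.range (Submodule.mapQ U (U.map φ) φ (Submodule.le_comap_map φ U)))) +
        Module.length R (F ⧸ LinearMap.range φ) := by ring
    _ ≤ Module.length R (F' ⧸ U) + Module.length R (F ⧸ LinearMap.range φ) := by gcongr
    _ = _ := by ring

end Lengths

end Vale.Agent.P202
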