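import Vale.Agent.P202.Colon

namespace Vale.Agent.P202

open Finset IsLocalRing Filter

section Frac

variable {S : Type*} [CommRing S]

def MT (z : S) (A C n : Ideal S) (p N : ℕ) (w : S) (k : ℕ) : Prop :=
  Ideal.span {w} * (C ^ p * n ^ k) ≤ Ideal.span {z ^ p} * (A ^ p * n ^ (N + k))

variable {z : S} {A C n : Ideal S} {p N : ℕ}

theorem MT.mono {w : S} {k : ℕ} (h : MT z A C n p N w k) (j : ℕ) :
    MT z A C n p N w (k + j) := by
  unfold MT at *
  have h1 : Ideal.span {w} * (C ^ p * n ^ (k + j)) =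
      Ideal.span {w} * (C ^ p * n ^ k) * n ^ j := by rw [pow_add]; ring
  have h2 : Ideal.span {z ^ p} * (A ^ p * n ^ (N + (k + j))) =
      Ideal.span {z ^ p} * (A ^ p * n ^ (N + k)) * n ^ j := by
    rw [← add_assoc, pow_add n (N + k) j]; ring
  rw [h1, h2]
  exact Ideal.mul_mono_left h

theorem MT.add {a b : S} {k : ℕ} (ha : MT z A C n p N a k) (hb : MT z A C n p N b k) :
    MT z A C n p N (a + b) k := by
  unfold MT at *
  have h1 : Ideal.span {a + b} ≤ Ideal.span {a} ⊔ Ideal.span {b} := by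
    rw [Ideal.span_singleton_le_iff_mem]
    exact Submodule.add_mem_sup (Ideal.mem_span_singleton_self _) (Ideal.mem_span_singleton_self _)
  refine (Ideal.mul_mono_left h1).trans ?_
  rw [Ideal.sup_mul]
  exact sup_le ha hb

theorem MT.smul {a : S} {k : ℕ} (c : S) (ha : MT z A C n p N a k) :
    MT z A C n p N (c * a) k := by
  unfold MT at *
  rw [← Ideal.span_singleton_mul_span_singleton, mul_assoc]
  exact Ideal.mul_le_right.trans ha

variable (z A C n p N)

def MM : Ideal S where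
  carrier := {w | ∃ k, MT z A C n p N w k}
  add_mem' := by
    rintro a b ⟨k, hk⟩ ⟨k', hk'⟩
    refine ⟨k + k', (hk.mono k').add ?_⟩
    rw [add_comm]
    exact hk'.mono k
  zero_mem' := ⟨0, by
    unfold MT
    simp⟩
  smul_mem' := by
    rintro c a ⟨k, hk⟩
    exact ⟨k, hk.smul c⟩

variable {z A C n p N}

theorem mem_MM {w : S} : w ∈ MM z A C n p N ↔ ∃ k, MT z A C n p N w k := Iff.rfl

theorem MM_mul {a w : S} (ha : a ∈ n) (hw : w ∈ MM z A C n p N) :
    a * w ∈ MM z A C n p (N + 1) := by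
  obtain ⟨k, hk⟩ := hw
  refine ⟨k, ?_⟩
  unfold MT at *
  rw [← Ideal.span_singleton_mul_span_singleton, mul_assoc]
  have h1 : Ideal.span {z ^ p} * (A ^ p * n ^ (N + 1 + k)) =
      n * (Ideal.span {z ^ p} * (A ^ p * n ^ (N + k))) := by
    have : N + 1 + k = (N + k) + 1 := by ring
    rw [this, pow_succ]; ring
  rw [h1]
  exact Ideal.mul_mono ((Ideal.span_singleton_le_iff_mem _).mpr ha) hk

theorem MM_anti : MM z A C n p (N + 1) ≤ MM z A C n p N := by
  rintro w ⟨k, hk⟩
  refine ⟨k, ?_⟩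
  unfold MT at *
  refine hk.trans (Ideal.mul_mono_right (Ideal.mul_mono_right (Ideal.pow_le_pow_right (by omega))))

theorem MM_le {N' : ℕ} (h : N ≤ N') : MM z A C n p N' ≤ MM z A C n p N := by
  obtain ⟨k, rfl⟩ := Nat.exists_eq_add_of_le h
  induction k with
  | zero => exact le_rfl
  | succ k ih => exact MM_anti.trans (ih (by omega))

theorem MM_div {x y c : S} {r : ℕ}
    (hred : n ^ (r + 1) ≤ Ideal.span {x} * n ^ r ⊔ Ideal.span {y} * n ^ r)
    (hx : x * c ∈ MM z A C n p (N + 1)) (hy : y * c ∈ MM z A C n p (N + 1)) :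
    c ∈ MM z A C n p N := by
  obtain ⟨k, hk⟩ := hx
  obtain ⟨k', hk'⟩ := hy
  have h1 := hk.mono k'
  have h2 := hk'.mono k
  rw [add_comm k' k] at h2
  refine ⟨k + k' + (r + 1), ?_⟩
  unfold MT at *
  have h3 : Ideal.span {c} * (C ^ p * n ^ (k + k' + (r + 1))) =
      Ideal.span {c} * (C ^ p * n ^ (k + k')) * n ^ (r + 1) := by
    rw [pow_add n (k + k')]; ring
  rw [h3]
  refine (Ideal.mul_mono_right hred).trans ?_
  rw [Ideal.mul_sup]
  have h4 : Ideal.span {z ^ p} * (A ^ p * n ^ (N + (k + k' + (r + 1)))) =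
      Ideal.span {z ^ p} * (A ^ p * n ^ (N + 1 + (k + k'))) * n ^ r := by
    have : N + (k + k' + (r + 1)) = (N + 1 + (k + k')) + r := by ring
    rw [this, pow_add n (N + 1 + (k + k'))]; ring
  rw [h4]
  refine sup_le ?_ ?_
  · have h5 : Ideal.span {c} * (C ^ p * n ^ (k + k')) * (Ideal.span {x} * n ^ r) =
        Ideal.span {x * c} * (C ^ p * n ^ (k + k')) * n ^ r := by
      rw [← Ideal.span_singleton_mul_span_singleton]; ring
    rw [h5]
    exact Ideal.mul_mono_left h1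
  · have h5 : Ideal.span {c} * (C ^ p * n ^ (k + k')) * (Ideal.span {y} * n ^ r) =
        Ideal.span {y * c} * (C ^ p * n ^ (k + k')) * n ^ r := by
      rw [← Ideal.span_singleton_mul_span_singleton]; ring
    rw [h5]
    exact Ideal.mul_mono_left h2

theorem cancel_pow {z : S} (hz : z ∈ nonZeroDivisors S) (p : ℕ) {a b : S}
    (h : z ^ p * a = z ^ p * b) : a = b := by
  have h1 : z ^ p * (a - b) = 0 := by linear_combination h
  have h2 := (mul_left_mem_nonZeroDivisors_eq_zero_iff (pow_mem hz p)).mp h1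
  linear_combination h2

theorem MM_le_pow (hz : z ∈ nonZeroDivisors S) (hzC : z ∈ C)
    (hcol : ∀ k w, (∀ u ∈ n ^ k, w * u ∈ n ^ (N + k) * ⊤) → w ∈ n ^ N * ⊤) :
    MM z A C n p N ≤ n ^ N := by
  rintro w ⟨k, hk⟩
  have h1 := hcol k w fun u hu => ?_
  · rwa [Ideal.mul_top] at h1
  · unfold MT at hk
    have h2 : w * (z ^ p * u) ∈ Ideal.span {z ^ p} * (A ^ p * n ^ (N + k)) :=
      hk (Ideal.mul_mem_mul (Ideal.mem_span_singleton_self w)
        (Ideal.mul_mem_mul (Ideal.pow_mem_pow hzC p) hu))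
    obtain ⟨v, hv, hvw⟩ := Ideal.mem_span_singleton_mul.mp h2
    have h3 : w * u = v := by
      refine cancel_pow hz p ?_
      rw [hvw]; ring
    rw [h3, Ideal.mul_top]
    exact Ideal.mul_le_right hv

variable [IsLocalRing S]

theorem MM_le_sat (hn : Pm n) (hC : Pm C) : MM z A C n p N ≤ sat (Ideal.span {z ^ p}) := by
  rintro w ⟨k, hk⟩
  refine mem_sat_of_Pm ((hC.pow p).mul (hn.pow k)) fun u hu => ?_
  unfold MT at hk
  have h1 : w * u ∈ Ideal.span {w} * (C ^ p * n ^ k) :=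
    Ideal.mul_mem_mul (Ideal.mem_span_singleton_self w) hu
  rw [mul_comm u w]
  exact Ideal.mul_le_left (hk h1)

theorem MM_eq [IsNoetherianRing S] {F : Ideal S} {t : ℕ} (hCF : C * F = n)
    (hz : z ∈ nonZeroDivisors S) (hn : Pm n) (hC : Pm C)
    (hpow : MM z A C n p (p + t) ≤ n ^ (p + t))
    (hsat : n ^ (p + t) ⊓ sat (Ideal.span {z ^ p}) ≤ Ideal.span {z ^ p})
    (hcol : ∀ k w, (∀ u ∈ n ^ k, w * u ∈ n ^ (t + k) * (A ^ p * F ^ p)) →
      w ∈ n ^ t * (A ^ p * F ^ p)) :
    MM z A C n p (p + t) = Ideal.span {z ^ p} * (n ^ t * (A ^ p * F ^ p)) := by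
  have hCFp : C ^ p * F ^ p = n ^ p := by rw [← mul_pow, hCF]
  apply le_antisymm
  · intro w hw
    have h1 : w ∈ Ideal.span {z ^ p} := hsat ⟨hpow hw, MM_le_sat hn hC hw⟩
    obtain ⟨k, hk⟩ := hw
    obtain ⟨w', rfl⟩ := Ideal.mem_span_singleton'.mp h1
    refine Ideal.mem_span_singleton_mul.mpr ⟨w', ?_, mul_comm _ _⟩
    unfold MT at hk
    have h2 : Ideal.span {w'} * (C ^ p * n ^ k) ≤ A ^ p * n ^ (p + t + k) := by
      rw [Ideal.span_singleton_mul_le_iff]
      intro u hu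
      have h3 : w' * z ^ p * u ∈ Ideal.span {z ^ p} * (A ^ p * n ^ (p + t + k)) :=
        hk (Ideal.mul_mem_mul (Ideal.mem_span_singleton_self _) hu)
      obtain ⟨v, hv, hvw⟩ := Ideal.mem_span_singleton_mul.mp h3
      have h4 : w' * u = v := by
        refine cancel_pow hz p ?_
        rw [hvw]; ring
      rw [h4]
      exact hv
    have h5 : Ideal.span {w'} * n ^ (p + k) ≤ n ^ (t + (p + k)) * (A ^ p * F ^ p) := by
      have h6 : Ideal.span {w'} * n ^ (p + k) = Ideal.span {w'} * (C ^ p * n ^ k) * F ^ p := by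
        rw [pow_add, ← hCFp]; ring
      have h7 : n ^ (t + (p + k)) * (A ^ p * F ^ p) = A ^ p * n ^ (p + t + k) * F ^ p := by
        have : t + (p + k) = p + t + k := by ring
        rw [this]; ring
      rw [h6, h7]
      exact Ideal.mul_mono_left h2
    rw [Ideal.span_singleton_mul_le_iff] at h5
    exact hcol (p + k) w' h5
  · intro w hw
    obtain ⟨g, hg, rfl⟩ := Ideal.mem_span_singleton_mul.mp hw
    refine ⟨0, ?_⟩
    unfold MT
    rw [← Ideal.span_singleton_mul_span_singleton, mul_assoc]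
    refine Ideal.mul_mono_right ?_
    have h1 : A ^ p * n ^ (p + t + 0) = (n ^ t * (A ^ p * F ^ p)) * (C ^ p * n ^ 0) := by
      rw [add_zero, pow_add, ← hCFp, pow_zero, Ideal.one_eq_top, Ideal.mul_top]; ring
    rw [h1]
    exact Ideal.mul_mono_left ((Ideal.span_singleton_le_iff_mem _).mpr hg)

end Frac

end Vale.Agent.P202
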