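import Vale.Agent.P202.LocJ

namespace Vale.Agent.P202

open Filter Topology IsLocalRing

universe u v

theorem hasMult_UX {A : Type*} [CommRing A] [IsLocalRing A] [IsNoetherianRing A] (n : ℕ)
    (hd : ringKrullDim A = n) : ∃ e : ℕ, HasMult A e ∧ UX A n e := by
  cases n with
  | zero =>
    have hA : cl (⊥ : Ideal A) ≠ ⊤ := by
      obtain ⟨c, hc⟩ := pow_eq_bot_of_dim_zero hd
      have := cl_sup_pow_ne_top (⊥ : Ideal A) c
      rwa [bot_sup_eq, hc c le_rfl] at this
    obtain ⟨a, ha⟩ := ENat.ne_top_iff_exists.mp hA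
    refine ⟨a, hasMult_zero hd a ha, fun N => ?_⟩
    rw [ha]
    exact cl_anti bot_le
  | succ t =>
    obtain ⟨e, D, h1, h2⟩ := exists_two_sided (S := A) t hd
    have h := limit_exists (len A) e D t (fun N => by
      have := h1 N
      rw [← coe_len] at this
      exact_mod_cast this) (fun N => by
      have := h2 N
      rw [← coe_len] at this
      exact_mod_cast this)
    exact ⟨e, ⟨t + 1, hd, h⟩, ⟨D, h1⟩⟩

theorem hasMult_le {A : Type*} [CommRing A] [IsLocalRing A] [IsNoetherianRing A] (n : ℕ)
    (hd : ringKrullDim A = n) {x : ℝ} (hx : HasMult A x) {e : ℕ} (h : UX A n e) : x ≤ e := by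
  obtain ⟨d, hd', hlim⟩ := hx
  have hdn : d = n := by
    rw [hd] at hd'
    exact_mod_cast hd'.symm
  subst hdn
  cases d with
  | zero =>
    refine le_of_tendsto hlim (Eventually.of_forall fun N => ?_)
    have h1 := h N
    rw [← coe_len] at h1
    have h2 : len A N ≤ e := by exact_mod_cast h1
    have h3 : ((Module.length A (A ⧸ maximalIdeal A ^ N)).toNat : ℝ) ≤ e := by
      exact_mod_cast h2
    simpa using h3
  | succ t =>
    obtain ⟨D, hD⟩ := h
    exact limit_le (len A) x e D t hlim (fun N => by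
      have := hD N
      rw [← coe_len] at this
      exact_mod_cast this)

theorem full_ineq {R : Type u} {S : Type v}
    [CommRing R] [IsLocalRing R] [IsNoetherianRing R]
    [CommRing S] [IsLocalRing S] [IsNoetherianRing S]
    [Algebra R S] [Module.Flat R S] [IsLocalHom (algebraMap R S)]
    (d : ℕ) (hd : ringKrullDim R = d) :
    ∃ eR eS : ℝ, HasMult R eR ∧ HasMult S eS ∧ 0 ≤ eS ∧
      eR ≤ ((d - 2).factorial : ℝ) * eS := by
  have hover : (maximalIdeal S).LiesOver (maximalIdeal R) := liesOver_max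
  have h1 := Ideal.height_eq_height_add_of_liesOver_of_hasGoingDown (maximalIdeal R)
    (maximalIdeal S)
  obtain ⟨n, hn⟩ := exists_dim_nat (R := S)
  have h2 : (maximalIdeal R).height = (d : ℕ∞) := by
    have := IsLocalRing.maximalIdeal_height_eq_ringKrullDim (R := R)
    rw [hd] at this
    exact_mod_cast this
  have h3 : (maximalIdeal S).height = (n : ℕ∞) := by
    have := IsLocalRing.maximalIdeal_height_eq_ringKrullDim (R := S)
    rw [hn] at this
    exact_mod_cast this
  have hle : d ≤ n := by
    rw [h2, h3] at h1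
    have : (d : ℕ∞) ≤ n := by
      rw [h1]
      exact le_self_add
    exact_mod_cast this
  obtain ⟨f, rfl⟩ := Nat.exists_eq_add_of_le hle
  obtain ⟨e, heS, hUX⟩ := hasMult_UX (A := S) (d + f) hn
  obtain ⟨T, _, _, _, _, _, _, hT, hTX⟩ := exists_art d hd e f S hn hUX
  have hart : IsArtinianRing (T ⧸ (maximalIdeal R).map (algebraMap R T)) :=
    artin_of_dim_eq d hd (by rw [hT, hd])
  obtain ⟨r, x, hx⟩ := Submodule.fg_iff_exists_fin_generating_family.mp
    (IsNoetherian.noetherian (maximalIdeal T))
  obtain ⟨eR, eT, hR, hTm, h0, h⟩ := main_inequality_artin (R := R) (S := T) hart d hd r x (by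
    have h1 : Ideal.span (Set.range x) = maximalIdeal T := hx
    rw [h1]
    exact (sup_eq_right.mpr map_maximalIdeal_le).symm)
  refine ⟨eR, e, hR, heS, Nat.cast_nonneg _, h.trans ?_⟩
  have h4 : (min r d - 2).factorial ≤ (d - 2).factorial := Nat.factorial_le (by omega)
  have h5 : ((min r d - 2).factorial : ℝ) ≤ (d - 2).factorial := by exact_mod_cast h4
  have h6 := hasMult_le d hT hTm hTX
  exact mul_le_mul h5 h6 h0 (Nat.cast_nonneg _)

end Vale.Agent.P202
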