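import Vale.Agent.P202.Comm

namespace Vale.Agent.P202

open Finset Matrix IsLocalRing

theorem gauss_field {k : Type*} [Field k] {a : ℕ} (V : Submodule k (Fin a → k)) :
    ∃ (r : ℕ) (_ : r ≤ a) (b : Module.Basis (Fin a) k (Fin a → k)),
      (∀ j : Fin a, j.1 < r → b j ∈ V) ∧ (∀ v ∈ V, ∀ i : Fin a, r ≤ i.1 → b.equivFun v i = 0) := by
  obtain ⟨W, hW⟩ := Submodule.exists_isCompl V
  set r := Module.finrank k V with hr
  set s := Module.finrank k W with hs
  have hrs : r + s = a := by
    have h1 := Submodule.finrank_add_eq_of_isCompl hW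
    rw [Module.finrank_fin_fun] at h1
    exact h1
  let bV : Module.Basis (Fin r) k V := Module.finBasis k V
  let bW : Module.Basis (Fin s) k W := Module.finBasis k W
  let e := Submodule.prodEquivOfIsCompl V W hW
  let b0 : Module.Basis (Fin r ⊕ Fin s) k (Fin a → k) := (bV.prod bW).map e
  let eq : Fin r ⊕ Fin s ≃ Fin a := finSumFinEquiv.trans (finCongr hrs)
  refine ⟨r, by omega, b0.reindex eq, ?_, ?_⟩
  · intro j hj
    have h1 : eq.symm j = Sum.inl ⟨j.1, hj⟩ := by
      rw [Equiv.symm_apply_eq]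
      apply Fin.ext
      simp [eq]
    rw [Module.Basis.reindex_apply, h1]
    simp [b0, e]
  · intro v hv i hi
    have h1 : eq.symm i = Sum.inr ⟨i.1 - r, by omega⟩ := by
      rw [Equiv.symm_apply_eq]
      apply Fin.ext
      simp [eq]
      omega
    have h2 : (b0.reindex eq).equivFun v i = b0.repr v (eq.symm i) := by
      simp
    rw [h2, h1]
    have h3 : e.symm v = (⟨v, hv⟩, 0) := by
      rw [LinearEquiv.symm_apply_eq]
      simp [e]
    simp [b0, h3]

section Local

variable {R : Type*} [CommRing R] [IsLocalRing R]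

theorem exists_lift {m n : Type*} (M : Matrix m n (ResidueField R)) :
    ∃ N : Matrix m n R, ∀ i j, residue R (N i j) = M i j := by
  choose f hf using fun i j => residue_surjective (M i j)
  exact ⟨Matrix.of f, hf⟩

theorem gauss {ι : Type*} [Fintype ι] [DecidableEq ι] {a : ℕ} (Φ : Matrix (Fin a) ι R) :
    ∃ (r : ℕ) (_ : r ≤ a) (P P' : Matrix (Fin a) (Fin a) R) (Q : Matrix ι (Fin a) R),
      P * P' = 1 ∧ P' * P = 1 ∧
      (∀ i : Fin a, r ≤ i.1 → ∀ c, (P * Φ) i c ∈ maximalIdeal R) ∧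
      (∀ i j : Fin a, j.1 < r → (P * Φ * Q) i j - (if i = j then 1 else 0) ∈ maximalIdeal R) := by
  let ρ := residue R
  let Φ' : Matrix (Fin a) ι (ResidueField R) := Φ.map ρ
  obtain ⟨r, hr, b, hb1, hb2⟩ := gauss_field (LinearMap.range Φ'.mulVecLin)
  let Pb : Matrix (Fin a) (Fin a) (ResidueField R) :=
    LinearMap.toMatrix' (b.equivFun : (Fin a → ResidueField R) →ₗ[ResidueField R]
      (Fin a → ResidueField R))
  let Pc : Matrix (Fin a) (Fin a) (ResidueField R) :=
    LinearMap.toMatrix' (b.equivFun.symm : (Fin a → ResidueField R) →ₗ[ResidueField R]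
      (Fin a → ResidueField R))
  have hPb : ∀ v, Pb *ᵥ v = b.equivFun v := fun v => LinearMap.toMatrix'_mulVec _ v
  have hPP : Pb * Pc = 1 := by
    rw [← LinearMap.toMatrix'_comp]
    simp
  obtain ⟨P, hP⟩ := exists_lift Pb
  have hPmap : P.map ρ = Pb := by ext i j; exact hP i j
  have hdet : IsUnit P.det := by
    rw [← IsLocalRing.residue_ne_zero_iff_isUnit, RingHom.map_det, RingHom.mapMatrix_apply]
    have h1 : (P.map (residue R)).det = Pb.det := by rw [← hPmap]
    rw [h1]
    intro h0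
    have h2 := congrArg Matrix.det hPP
    rw [det_mul, h0, zero_mul, det_one] at h2
    exact zero_ne_one h2
  have hq : ∀ j : Fin a, ∃ q : ι → ResidueField R, j.1 < r → Φ' *ᵥ q = b j := by
    intro j
    by_cases hj : j.1 < r
    · obtain ⟨q, hq⟩ := hb1 j hj
      exact ⟨q, fun _ => hq⟩
    · exact ⟨0, fun h => absurd h hj⟩
  choose q hq using hq
  obtain ⟨Q, hQ⟩ := exists_lift (Matrix.of fun c j => q j c)
  have hmul : (P * Φ).map ρ = Pb * Φ' := by rw [Matrix.map_mul, hPmap]
  refine ⟨r, hr, P, P⁻¹, Q, mul_nonsing_inv P hdet, nonsing_inv_mul P hdet, ?_, ?_⟩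
  · intro i hi c
    rw [← residue_eq_zero_iff]
    have h1 : residue R ((P * Φ) i c) = (Pb * Φ') i c := by rw [← hmul]; rfl
    rw [h1]
    have h2 : (Pb * Φ') i c = (Pb *ᵥ (Φ' *ᵥ Pi.single c 1)) i := by
      rw [Matrix.mulVec_mulVec]
      simp
    rw [h2, hPb]
    exact hb2 _ ⟨_, rfl⟩ i hi
  · intro i j hj
    rw [← residue_eq_zero_iff, map_sub, sub_eq_zero]
    have h1 : residue R ((P * Φ * Q) i j) = (Pb *ᵥ (Φ' *ᵥ q j)) i := by
      have h2 : residue R ((P * Φ * Q) i j) = ((P * Φ * Q).map ρ) i j := rfl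
      rw [h2, Matrix.map_mul, hmul, Matrix.mulVec_mulVec, Matrix.mul_apply, Matrix.mulVec,
        dotProduct]
      refine sum_congr rfl fun c _ => ?_
      rw [Matrix.map_apply]
      have h3 : ρ (Q c j) = q j c := hQ c j
      rw [h3]
    rw [h1, hq j hj, hPb, Module.Basis.equivFun_self]
    split_ifs with h4 h5 h5
    · simp
    · exact absurd h4.symm h5
    · exact absurd h5.symm h4
    · simp

end Local

end Vale.Agent.P202
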