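import Vale.Agent.P202.Cpl
import Vale.Agent.P202.Conv

namespace Vale.Agent.P202

open IsLocalRing

section Pre

variable {R : Type*} [CommRing R]

theorem exists_prime_ann [IsNoetherianRing R] (J : Ideal R) (hJ : J ≠ ⊥) :
    ∃ w ∈ J, ∃ P : Ideal R, P.IsPrime ∧ ∀ z, z ∈ P ↔ z * w = 0 := by
  obtain ⟨u, hu, hu0⟩ := Submodule.exists_mem_ne_zero_of_ne_bot hJ
  obtain ⟨P, hP, -⟩ := exists_le_isAssociatedPrime_of_isNoetherianRing R (⟨u, hu⟩ : J) (by
    intro h
    exact hu0 (congrArg Subtype.val h))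
  obtain ⟨hP1, w, hw⟩ := isAssociatedPrime_iff.mp hP
  refine ⟨w.1, w.2, P, hP1, fun z => ?_⟩
  rw [hw, Submodule.mem_colon_singleton, Submodule.mem_bot]
  constructor
  · intro h
    exact congrArg Subtype.val h
  · intro h
    exact Subtype.ext h

variable [IsLocalRing R] [IsNoetherianRing R]

theorem exists_prime_of_not_Pm {J : Ideal R} (h : ¬ Pm J) :
    ∃ Q : Ideal R, Q.IsPrime ∧ J ≤ Q ∧ Q ≠ maximalIdeal R := by
  by_contra hcon
  push Not at hcon
  apply h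
  have h1 : maximalIdeal R ≤ J.radical := by
    rw [Ideal.radical_eq_sInf]
    refine le_sInf fun Q hQ => ?_
    exact le_of_eq (hcon Q hQ.2 hQ.1).symm
  obtain ⟨n, hn⟩ := Ideal.exists_radical_pow_le_of_fg J (IsNoetherian.noetherian _)
  exact ⟨n, (Ideal.pow_right_mono h1 n).trans hn⟩

theorem mem_of_forall_sup (J : Ideal R) {x : R} (h : ∀ n, x ∈ J ⊔ maximalIdeal R ^ n) :
    x ∈ J := by
  rw [← Ideal.Quotient.eq_zero_iff_mem]
  refine IsHausdorff.haus' (I := maximalIdeal R) (M := R ⧸ J) _ fun n => ?_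
  rw [SModEq.sub_mem, sub_zero]
  obtain ⟨u, hu, v, hv, huv⟩ := Submodule.mem_sup.mp (h n)
  have h2 : Ideal.Quotient.mk J x = v • (1 : R ⧸ J) := by
    rw [← huv, map_add, Ideal.Quotient.eq_zero_iff_mem.mpr hu, zero_add, Algebra.smul_def, mul_one]
    rfl
  rw [h2]
  exact Submodule.smul_mem_smul hv trivial

theorem chevalley [IsPrecomplete (maximalIdeal R) R] (U : ℕ → Ideal R) (hU : Antitone U)
    (h0 : ∀ x, (∀ i, x ∈ U i) → x = 0) (k : ℕ) : ∃ i, U i ≤ maximalIdeal R ^ k := by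
  classical
  by_contra hcon
  push Not at hcon
  have hst : ∀ n, ∃ i, ∀ j, i ≤ j → U i ⊔ maximalIdeal R ^ n ≤ U j ⊔ maximalIdeal R ^ n := by
    intro n
    have hart : IsArtinian R (R ⧸ maximalIdeal R ^ n) := by
      have h1 := Module.length_ne_top_iff.mp
        ((Pm_max (S := R)).pow n).cl_ne_top
      exact (isFiniteLength_iff_isNoetherian_isArtinian.mp h1).2
    let f : ℕ →o (Submodule R (R ⧸ maximalIdeal R ^ n))ᵒᵈ :=
      ⟨fun j => OrderDual.toDual (Submodule.map (maximalIdeal R ^ n).mkQ (U j)), by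
        intro j j' hjj
        exact Submodule.map_mono (hU hjj)⟩
    obtain ⟨i, hi⟩ := IsArtinian.monotone_stabilizes f
    refine ⟨i, fun j hj => ?_⟩
    have h1 : Submodule.map (maximalIdeal R ^ n).mkQ (U i) =
        Submodule.map (maximalIdeal R ^ n).mkQ (U j) := hi j hj
    refine sup_le ?_ le_sup_right
    intro x hx
    have h2 : (maximalIdeal R ^ n).mkQ x ∈ Submodule.map (maximalIdeal R ^ n).mkQ (U j) := by
      rw [← h1]; exact Submodule.mem_map_of_mem hx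
    obtain ⟨y, hy, hxy⟩ := h2
    have h3 : x - y ∈ maximalIdeal R ^ n := by
      have h4 : (maximalIdeal R ^ n).mkQ (x - y) = 0 := by rw [map_sub, hxy, sub_self]
      exact (Submodule.Quotient.mk_eq_zero _).mp h4
    have h4 : x = y + (x - y) := by ring
    rw [h4]
    exact Submodule.add_mem_sup hy h3
  choose ι hι using hst
  let W : ℕ → Ideal R := fun n => U (ι n) ⊔ maximalIdeal R ^ n
  have hW1 : ∀ n i, W n ≤ U i ⊔ maximalIdeal R ^ n := by
    intro n i
    rcases le_total (ι n) i with h | h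
    · exact hι n i h
    · exact sup_le_sup_right (hU h) _
  have hW2 : ∀ n, W n ≤ W (n + 1) ⊔ maximalIdeal R ^ n := by
    intro n
    refine (hW1 n (ι (n + 1))).trans (sup_le_sup_right le_sup_left _)
  obtain ⟨w₀, hw₀, hw₀'⟩ := Set.not_subset.mp (hcon (ι k))
  have hstep : ∀ n, ∀ w : R, ∃ w', w ∈ W n → w' ∈ W (n + 1) ∧ w' - w ∈ maximalIdeal R ^ n := by
    intro n w
    by_cases hw : w ∈ W n
    · obtain ⟨u, hu, v, hv, rfl⟩ := Submodule.mem_sup.mp (hW2 n hw)
      refine ⟨u, fun _ => ⟨hu, ?_⟩⟩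
      have : u - (u + v) = -v := by ring
      rw [this]
      exact (Ideal.neg_mem_iff _).mpr hv
    · exact ⟨0, fun h => absurd h hw⟩
  choose nx hnx using hstep
  let g : ℕ → R := fun n => Nat.rec (motive := fun _ => R) w₀
    (fun n z => if k ≤ n then nx n z else z) n
  have hg0 : g 0 = w₀ := rfl
  have hgS : ∀ n, g (n + 1) = if k ≤ n then nx n (g n) else g n := fun n => rfl
  have hgk : ∀ n, n ≤ k → g n = w₀ := by
    intro n
    induction n with
    | zero => intro _; rfl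
    | succ n ih =>
      intro hn
      rw [hgS, if_neg (by omega)]
      exact ih (by omega)
  have hgW : ∀ n, k ≤ n → g n ∈ W n := by
    intro n hn
    induction n, hn using Nat.le_induction with
    | base =>
      rw [hgk k le_rfl]
      exact Ideal.mem_sup_left hw₀
    | succ n hn ih =>
      rw [hgS, if_pos hn]
      exact (hnx n _ ih).1
  have hgc : ∀ n, g (n + 1) - g n ∈ maximalIdeal R ^ n := by
    intro n
    rw [hgS]
    split_ifs with h
    · exact (hnx n _ (hgW n h)).2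
    · rw [sub_self]; exact Ideal.zero_mem _
  obtain ⟨L, hL⟩ := exists_lim (maximalIdeal R) g hgc
  have hL0 : L = 0 := by
    refine h0 L fun i => mem_of_forall_sup (U i) fun n => ?_
    have h1 := hL (n + k)
    have h2 := hW1 (n + k) i (hgW (n + k) (by omega))
    have h3 : maximalIdeal R ^ (n + k) ≤ maximalIdeal R ^ n := Ideal.pow_le_pow_right (by omega)
    have h4 : L = (L - g (n + k)) + g (n + k) := by ring
    rw [h4]
    exact Ideal.add_mem _ (Ideal.mem_sup_right (h3 h1)) ((sup_le_sup_left h3 _) h2)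
  have h1 := hL k
  rw [hL0, hgk k le_rfl, zero_sub, Ideal.neg_mem_iff] at h1
  exact hw₀' h1

end Pre

section Unm

variable {R : Type*} [CommRing R] [IsLocalRing R] [IsNoetherianRing R]

def Unm (R : Type*) [CommRing R] [IsLocalRing R] : Prop :=
  ∀ P : Ideal R, P.IsPrime → ∀ w : R, (∀ z, z ∈ P ↔ z * w = 0) → ∀ x ∈ maximalIdeal R,
    ¬ Pm (P ⊔ Ideal.span {x})

omit [IsLocalRing R] [IsNoetherianRing R] in
theorem span_pow_le (x : R) {i j : ℕ} (h : i ≤ j) :
    Ideal.span {x ^ j} ≤ Ideal.span {x ^ i} := by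
  rw [Ideal.span_singleton_le_span_singleton]
  exact pow_dvd_pow x h

theorem sat_inter (hU : Unm R) {x : R} (hx : x ∈ maximalIdeal R) (u : R)
    (hu : ∀ i, u ∈ sat (Ideal.span {x ^ i})) : u = 0 := by
  let J : Ideal R := ⨅ i, sat (Ideal.span {x ^ i})
  have huJ : u ∈ J := (Submodule.mem_iInf _).mpr hu
  by_contra hu0
  obtain ⟨w, hw, P, hP, hPw⟩ := exists_prime_ann J (by
    intro h
    rw [h] at huJ
    exact hu0 huJ)
  obtain ⟨Q, hQ, hPQ, hQm⟩ := exists_prime_of_not_Pm (hU P hP w hPw x hx)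
  have hxQ : x ∈ Q := hPQ (Ideal.mem_sup_right (Ideal.mem_span_singleton_self x))
  have hQm' : ¬ maximalIdeal R ≤ Q := by
    intro h
    exact hQm (le_antisymm (IsLocalRing.le_maximalIdeal hQ.ne_top) h)
  obtain ⟨s, hs, hsQ⟩ := Set.not_subset.mp hQm'
  have h1 : ∀ i, algebraMap R (Localization.AtPrime Q) w ∈
      (maximalIdeal (Localization.AtPrime Q)) ^ i := by
    intro i
    obtain ⟨k, hk⟩ := (Submodule.mem_iInf _).mp hw i
    have h2 := hk (s ^ k) (Ideal.pow_mem_pow hs k)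
    obtain ⟨r, hr⟩ := Ideal.mem_span_singleton.mp h2
    have h3 : IsUnit (algebraMap R (Localization.AtPrime Q) (s ^ k)) := by
      refine IsLocalization.map_units (M := Q.primeCompl) (Localization.AtPrime Q) ⟨s ^ k, ?_⟩
      exact fun h => hsQ (hQ.mem_of_pow_mem k h)
    have h4 : algebraMap R (Localization.AtPrime Q) (s ^ k) *
        algebraMap R (Localization.AtPrime Q) w ∈ (maximalIdeal (Localization.AtPrime Q)) ^ i := by
      rw [← map_mul, hr, map_mul, map_pow]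
      refine Ideal.mul_mem_right _ _ (Ideal.pow_mem_pow ?_ i)
      rw [← Localization.AtPrime.map_eq_maximalIdeal]
      exact Ideal.mem_map_of_mem _ hxQ
    exact (Ideal.unit_mul_mem_iff_mem _ h3).mp h4
  have h2 : algebraMap R (Localization.AtPrime Q) w = 0 := by
    have h3 := Ideal.iInf_pow_eq_bot_of_isLocalRing (maximalIdeal (Localization.AtPrime Q))
      (Ideal.IsPrime.ne_top inferInstance)
    have h4 : algebraMap R (Localization.AtPrime Q) w ∈
        ⨅ i, (maximalIdeal (Localization.AtPrime Q)) ^ i := (Submodule.mem_iInf _).mpr h1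
    rw [h3] at h4
    exact h4
  rw [IsLocalization.map_eq_zero_iff Q.primeCompl] at h2
  obtain ⟨⟨t, ht⟩, htw⟩ := h2
  exact ht (hPQ (Ideal.mem_sup_left ((hPw t).mpr htw)))

theorem sat_stable [IsPrecomplete (maximalIdeal R) R] (hU : Unm R) {x : R}
    (hx : x ∈ maximalIdeal R) (hnz : x ∈ nonZeroDivisors R) :
    ∃ i₀, 1 ≤ i₀ ∧ ∀ j, ∀ v ∈ sat (Ideal.span {x ^ (i₀ + j)}),
      ∃ v' ∈ sat (Ideal.span {x ^ i₀}), v = x ^ j * v' := by
  obtain ⟨N, hN⟩ := exists_sat_inf (maximalIdeal R) le_rfl (Ideal.span {x})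
  obtain ⟨i, hi⟩ := chevalley (fun i => sat (Ideal.span {x ^ i}))
    (fun i j hij => sat_mono (span_pow_le x hij)) (sat_inter hU hx) N
  refine ⟨i + 1, by omega, fun j => ?_⟩
  induction j with
  | zero =>
    intro v hv
    exact ⟨v, hv, by simp⟩
  | succ j ih =>
    intro v hv
    have h1 : v ∈ Ideal.span {x} := by
      refine hN ⟨hi (sat_mono (span_pow_le x (by omega)) hv), ?_⟩
      have h2 := sat_mono (span_pow_le x (show 1 ≤ i + 1 + (j + 1) by omega)) hv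
      rwa [pow_one] at h2
    obtain ⟨t, rfl⟩ := Ideal.mem_span_singleton.mp h1
    have h2 : t ∈ sat (Ideal.span {x ^ (i + 1 + j)}) := by
      obtain ⟨k, hk⟩ := hv
      refine ⟨k, fun u hu => ?_⟩
      obtain ⟨r, hr⟩ := Ideal.mem_span_singleton.mp (hk u hu)
      refine Ideal.mem_span_singleton.mpr ⟨r, ?_⟩
      have h3 : x * (u * t - x ^ (i + 1 + j) * r) = 0 := by
        have h4 : x ^ (i + 1 + (j + 1)) = x * x ^ (i + 1 + j) := by ring
        rw [h4] at hr
        linear_combination hr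
      have h4 := (mul_left_mem_nonZeroDivisors_eq_zero_iff hnz).mp h3
      linear_combination h4
    obtain ⟨v', hv', rfl⟩ := ih t h2
    exact ⟨v', hv', by ring⟩

def CC (R : Type*) [CommRing R] [IsLocalRing R] : Ideal R where
  carrier := {z | ∀ y ∈ nonZeroDivisors R, ∀ u ∈ sat (Ideal.span {y}), z * u ∈ Ideal.span {y}}
  add_mem' := by
    intro a b ha hb y hy u hu
    rw [add_mul]
    exact Ideal.add_mem _ (ha y hy u hu) (hb y hy u hu)
  zero_mem' := by
    intro y _ u _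
    rw [zero_mul]
    exact Ideal.zero_mem _
  smul_mem' := by
    intro c a ha y hy u hu
    rw [smul_eq_mul, mul_assoc]
    exact Ideal.mul_mem_left _ _ (ha y hy u hu)

omit [IsNoetherianRing R] in
theorem mem_CC {z : R} : z ∈ CC R ↔ ∀ y ∈ nonZeroDivisors R, ∀ u ∈ sat (Ideal.span {y}),
    z * u ∈ Ideal.span {y} := Iff.rfl

theorem Pm_CC [IsPrecomplete (maximalIdeal R) R] (hU : Unm R) {x : R}
    (hx : x ∈ maximalIdeal R) (hnz : x ∈ nonZeroDivisors R) : Pm (CC R) := by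
  obtain ⟨i₀, hi₀, hst⟩ := sat_stable hU hx hnz
  obtain ⟨k, hk⟩ := exists_sat_pow (Ideal.span {x ^ i₀})
  refine ⟨k, fun z hz => ?_⟩
  rw [mem_CC]
  intro y hy u hu
  obtain ⟨s, hs⟩ := hu
  have h1 : x ^ (i₀ + s) * u ∈ Ideal.span {y} := by
    rw [pow_add, mul_assoc]
    exact Ideal.mul_mem_left _ _ (hs _ (Ideal.pow_mem_pow hx s))
  obtain ⟨v, hv⟩ := Ideal.mem_span_singleton.mp h1
  have h2 : v ∈ sat (Ideal.span {x ^ (i₀ + s)}) := by
    refine ⟨s, fun t ht => ?_⟩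
    obtain ⟨r, hr⟩ := Ideal.mem_span_singleton.mp (hs t ht)
    refine Ideal.mem_span_singleton.mpr ⟨r, ?_⟩
    have h3 : y * (t * v - x ^ (i₀ + s) * r) = 0 := by
      linear_combination x ^ (i₀ + s) * hr - t * hv
    have h4 := (mul_left_mem_nonZeroDivisors_eq_zero_iff hy).mp h3
    linear_combination h4
  obtain ⟨v', hv', rfl⟩ := hst s v h2
  obtain ⟨t, ht⟩ := Ideal.mem_span_singleton.mp (hk (Ideal.mul_mem_mul hz hv'))
  refine Ideal.mem_span_singleton.mpr ⟨t, ?_⟩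
  have h3 : x ^ (i₀ + s) * (z * u - y * t) = 0 := by
    have h4 : x ^ (i₀ + s) = x ^ i₀ * x ^ s := pow_add _ _ _
    rw [h4] at hv ⊢
    linear_combination z * hv + y * x ^ s * ht
  have h4 := (mul_left_mem_nonZeroDivisors_eq_zero_iff (pow_mem hnz _)).mp h3
  linear_combination h4

omit [IsNoetherianRing R] in
theorem CC_le {φ ψ : R} (hψ : ψ ∈ nonZeroDivisors R) {𝔞 𝔟 : Ideal R}
    (hb : Pm 𝔟) (h : Ideal.span {φ} * 𝔟 ≤ Ideal.span {ψ} * 𝔞) :
    Ideal.span {φ} * CC R ≤ Ideal.span {ψ} * CC R := by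
  have hφ : ∀ b ∈ 𝔟, ∃ a ∈ 𝔞, φ * b = ψ * a := by
    intro b hb
    obtain ⟨a, ha, hab⟩ := Ideal.mem_span_singleton_mul.mp
      (h (Ideal.mul_mem_mul (Ideal.mem_span_singleton_self φ) hb))
    exact ⟨a, ha, hab.symm⟩
  intro w hw
  obtain ⟨z, hz, rfl⟩ := Ideal.mem_span_singleton_mul.mp hw
  have h1 : φ ∈ sat (Ideal.span {ψ}) := by
    refine mem_sat_of_Pm hb fun b hb => ?_
    obtain ⟨a, -, hab⟩ := hφ b hb
    refine Ideal.mem_span_singleton.mpr ⟨a, ?_⟩
    rw [mul_comm, hab]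
  obtain ⟨z', hz'⟩ := Ideal.mem_span_singleton.mp (hz ψ hψ φ h1)
  have h2 : z' ∈ CC R := by
    rw [mem_CC]
    intro y hy u hu
    have h3 : φ * u ∈ sat (Ideal.span {ψ * y}) := by
      obtain ⟨k, hk⟩ := hu
      refine mem_sat_of_Pm (hb.mul ((Pm_max (S := R)).pow k)) fun t ht => ?_
      refine Submodule.mul_induction_on ht ?_ ?_
      · intro b hb v hv
        obtain ⟨a, -, hab⟩ := hφ b hb
        obtain ⟨r, hr⟩ := Ideal.mem_span_singleton.mp (hk v hv)
        refine Ideal.mem_span_singleton.mpr ⟨a * r, ?_⟩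
        linear_combination v * u * hab + ψ * a * hr
      · intro p q hp hq
        rw [add_mul]
        exact Ideal.add_mem _ hp hq
    obtain ⟨t, ht⟩ := Ideal.mem_span_singleton.mp (hz (ψ * y) (mul_mem hψ hy) _ h3)
    refine Ideal.mem_span_singleton.mpr ⟨t, ?_⟩
    have h4 : ψ * (z' * u - y * t) = 0 := by
      linear_combination (-u) * hz' + ht
    have h5 := (mul_left_mem_nonZeroDivisors_eq_zero_iff hψ).mp h4
    linear_combination h5
  refine Ideal.mem_span_singleton_mul.mpr ⟨z', h2, ?_⟩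
  linear_combination -hz'

omit [IsLocalRing R] [IsNoetherianRing R] in
theorem rl_scale {z : R} (hz : z ∈ nonZeroDivisors R) (V U : Ideal R) :
    rl (Ideal.span {z} * V) (Ideal.span {z} * U) = rl V U := by
  unfold rl
  have h1 : ∀ a ∈ U, z * a ∈ Ideal.span {z} * U := fun a ha =>
    Ideal.mul_mem_mul (Ideal.mem_span_singleton_self z) ha
  have h2 : ∀ a ∈ V, z * a ∈ Ideal.span {z} * V := fun a ha =>
    Ideal.mul_mem_mul (Ideal.mem_span_singleton_self z) ha
  refine (LinearEquiv.ofBijective (mulQ z h1 h2) ⟨?_, ?_⟩).symm.length_eq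
  · rw [← LinearMap.ker_eq_bot, LinearMap.ker_eq_bot']
    intro a ha
    obtain ⟨a, rfl⟩ := Submodule.Quotient.mk_surjective _ a
    rw [mulQ_mk] at ha
    have h4 : z * a.1 ∈ Ideal.span {z} * V := (mk_zero_iff _).mp ha
    obtain ⟨g, hg, hga⟩ := Ideal.mem_span_singleton_mul.mp h4
    have h5 : a.1 = g := by
      have h6 : z * (a.1 - g) = 0 := by linear_combination -hga
      have h7 := (mul_left_mem_nonZeroDivisors_eq_zero_iff hz).mp h6
      linear_combination h7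
    refine (mk_zero_iff _).mpr ?_
    rw [h5]; exact hg
  · intro b
    obtain ⟨⟨b, hb⟩, rfl⟩ := Submodule.Quotient.mk_surjective _ b
    obtain ⟨c, hc, rfl⟩ := Ideal.mem_span_singleton_mul.mp hb
    exact ⟨Submodule.Quotient.mk ⟨c, hc⟩, by rw [mulQ_mk]⟩

omit [IsLocalRing R] [IsNoetherianRing R] in
theorem span_mul_inf {z : R} (hz : z ∈ nonZeroDivisors R) (V U : Ideal R) :
    Ideal.span {z} * (V ⊓ U) = (Ideal.span {z} * V) ⊓ (Ideal.span {z} * U) := by
  apply le_antisymm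
  · exact le_inf (Ideal.mul_mono_right inf_le_left) (Ideal.mul_mono_right inf_le_right)
  · rintro w ⟨h1, h2⟩
    obtain ⟨a, ha, rfl⟩ := Ideal.mem_span_singleton_mul.mp h1
    obtain ⟨b, hb, hab⟩ := Ideal.mem_span_singleton_mul.mp h2
    have h3 : z * (b - a) = 0 := by linear_combination hab
    have h4 := (mul_left_mem_nonZeroDivisors_eq_zero_iff hz).mp h3
    have h5 : b = a := by linear_combination h4
    subst h5
    exact Ideal.mul_mem_mul (Ideal.mem_span_singleton_self z) ⟨ha, hb⟩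

theorem cl_eq_of_ratio [IsPrecomplete (maximalIdeal R) R] (hU : Unm R) {x : R}
    (hx : x ∈ maximalIdeal R) (hnz : x ∈ nonZeroDivisors R) {φ ψ : R}
    (hφ : φ ∈ nonZeroDivisors R) (hψ : ψ ∈ nonZeroDivisors R) {𝔞 𝔟 : Ideal R}
    (ha : Pm 𝔞) (hb : Pm 𝔟) (h : Ideal.span {φ} * 𝔟 = Ideal.span {ψ} * 𝔞) (I : Ideal R)
    (hI : Pm I) : cl (I * 𝔟) = cl (I * 𝔞) := by
  have hC : Ideal.span {φ} * CC R = Ideal.span {ψ} * CC R :=
    le_antisymm (CC_le hψ hb h.le) (CC_le hφ ha h.ge)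
  have hPC := Pm_CC hU hx hnz
  have h' : Ideal.span {φ} * (I * 𝔟) = Ideal.span {ψ} * (I * 𝔞) := by
    rw [mul_left_comm, h, mul_left_comm]
  have hinf : Ideal.span {φ} * (CC R ⊓ (I * 𝔟)) = Ideal.span {ψ} * (CC R ⊓ (I * 𝔞)) := by
    rw [span_mul_inf hφ, span_mul_inf hψ, hC, h']
  have e1 : rl (CC R ⊓ (I * 𝔟)) (CC R) = rl (CC R ⊓ (I * 𝔞)) (CC R) := by
    rw [← rl_scale hφ, ← rl_scale hψ (CC R ⊓ (I * 𝔞)), hC, hinf]
  have e2 : rl (CC R ⊓ (I * 𝔟)) (I * 𝔟) = rl (CC R ⊓ (I * 𝔞)) (I * 𝔞) := by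
    rw [← rl_scale hφ, ← rl_scale hψ (CC R ⊓ (I * 𝔞)), h', hinf]
  have e3 : cl (CC R ⊓ (I * 𝔟)) = rl (CC R ⊓ (I * 𝔟)) (I * 𝔟) + cl (I * 𝔟) :=
    cl_eq_rl_add inf_le_right
  have e4 : cl (CC R ⊓ (I * 𝔞)) = rl (CC R ⊓ (I * 𝔞)) (I * 𝔞) + cl (I * 𝔞) :=
    cl_eq_rl_add inf_le_right
  have e5 : cl (CC R ⊓ (I * 𝔟)) = rl (CC R ⊓ (I * 𝔟)) (CC R) + cl (CC R) :=
    cl_eq_rl_add inf_le_left
  have e6 : cl (CC R ⊓ (I * 𝔞)) = rl (CC R ⊓ (I * 𝔞)) (CC R) + cl (CC R) :=
    cl_eq_rl_add inf_le_left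
  have e7 : cl (CC R ⊓ (I * 𝔟)) = cl (CC R ⊓ (I * 𝔞)) := by rw [e5, e6, e1]
  have hfin : cl (CC R ⊓ (I * 𝔞)) ≠ ⊤ := by
    refine Pm.cl_ne_top ((hPC.mul (hI.mul ha)).mono ?_)
    exact le_inf Ideal.mul_le_left Ideal.mul_le_right
  rw [e4] at hfin
  have hr : rl (CC R ⊓ (I * 𝔞)) (I * 𝔞) ≠ ⊤ := fun h => hfin (by rw [h, top_add])
  rw [e3, e4, e2] at e7
  exact ENat.add_right_injective_of_ne_top hr e7

end Unm

end Vale.Agent.P202
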