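import Vale.Agent.P202.W2
import Vale.Agent.P202.S2
import Vale.Agent.P202.DetC
import Vale.Agent.P202.Abs3

namespace Vale.Agent.P202

open Finset Matrix IsLocalRing

section MainC

variable {R : Type*} [CommRing R] [IsLocalRing R] [IsNoetherianRing R] {a : ℕ}

theorem W_complex (hG : Good R) [IsPrecomplete (maximalIdeal R) R] (hU : Unm R)
    (Φ : Matrix (Fin a) (Fin a ⊕ Fin a) R) (Ψ : Matrix (Fin a ⊕ Fin a) (Fin a) R)
    (hΦΨ : Φ * Ψ = 0) (c : ℕ)
    (hc : UI (Fin a) (maximalIdeal R ^ c) ≤ LinearMap.range Φ.mulVecLin)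
    (hc' : UI (Fin a) (maximalIdeal R ^ c) ≤ LinearMap.range Ψᵀ.mulVecLin) (l₀ : ℕ)
    (hl₀ : Module.length R ((Fin a → R) ⧸ LinearMap.range Φ.mulVecLin) = l₀)
    (E₀ K₀ : ℕ) (hE : ∀ k : ℕ, (E₀ : ℤ) * k ^ 2 ≤ 2 * hh (maximalIdeal R ^ k) + K₀ * k + K₀) :
    ∃ β : ℕ, Module.length R ((Fin a → R) ⧸ (LinearMap.range Φ.mulVecLin ⊔
      UI (Fin a) (maximalIdeal R))) ≤ β ∧ β * E₀ ≤ l₀ := by
  obtain ⟨r, hr, P, P', Q, hPP', hP'P, hrow, hQ⟩ := gauss Φ
  obtain ⟨r2, hr2, P2, P2', Q2, hPP2, hP2P, hrow2, hQ2⟩ := gauss Ψᵀ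
  refine ⟨a - r, beta_bound Φ hP'P hQ, ?_⟩
  set Φ1 := P * Φ with hΦ1
  set Φ2 := P2 * Ψᵀ with hΦ2
  set Ψ1 := Φ2ᵀ.submatrix id Fin.rev with hΨ1
  have hd1 : JI Φ1 a = JI Φ a := JI_mul_left_eq hP'P
  have hd2 : JI Φ2 a = JI Ψᵀ a := by
    rw [hΦ2, JI_mul_left_eq hP2P]
  have hK0 : KI Ψ1 0 = JI Ψᵀ a := by rw [hΨ1, KI_zero_eq, hd2]
  have hPΦ : Pm (JI Φ a) := Pm_JI Φ hc a le_rfl
  have hPΨ : Pm (JI Ψᵀ a) := Pm_JI Ψᵀ hc' a le_rfl
  have hEqv : Eqv (JI Ψᵀ a) (JI Φ a) := by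
    obtain ⟨x, y, η, hGd⟩ := exists_Gd hG (maximalIdeal R) (maximalIdeal R) (maximalIdeal R)
      Pm_max le_rfl dvd_rfl dvd_rfl ∅
    obtain ⟨k1, hk1⟩ := hPΦ
    obtain ⟨k2, hk2⟩ := hPΨ
    obtain ⟨φ, ψ, hφ, hψ, hrat⟩ := ratio Φ Ψ hΦΨ (hk1 (Ideal.pow_mem_pow hGd.hxA k1))
      (hk2 (Ideal.pow_mem_pow hGd.hxA k2)) (pow_mem hGd.nz k1) (pow_mem hGd.nz k2)
    intro I hI
    exact cl_eq_of_ratio hU hGd.hxA hGd.nz hφ hψ ⟨k1, hk1⟩ ⟨k2, hk2⟩ hrat I hI
  have hc1 : UI (Fin a) (maximalIdeal R ^ c) ≤ LinearMap.range Φ1.mulVecLin := by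
    intro w hw
    obtain ⟨u, hu⟩ := hc (mulVec_mem_UI P' hw)
    refine ⟨u, ?_⟩
    rw [Matrix.mulVecLin_apply] at hu ⊢
    rw [hΦ1, ← Matrix.mulVec_mulVec, hu, Matrix.mulVec_mulVec, hPP', Matrix.one_mulVec]
  have hJPm : ∀ t, t ≤ a → Pm (JI Φ1 t) := fun t ht => Pm_JI Φ1 hc1 t ht
  have hKmono : ∀ i, i ≤ a → KI Ψ1 0 ≤ KI Ψ1 i := by
    intro i
    induction i with
    | zero => intro _; exact le_rfl
    | succ i ih =>
      intro hi
      exact (ih (by omega)).trans (KI_le_succ Ψ1 i (by omega))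
  let G : ℕ → Ideal R := fun t => if t < a then JI Φ1 t else if t ≤ 2 * a then KI Ψ1 (t - a) else ⊤
  let H : ℕ → Ideal R := fun t => if t ≤ a then JI Φ1 t else if t ≤ 2 * a then KI Ψ1 (t - a) else ⊤
  have hHle : ∀ t, t ≤ a → H t = JI Φ1 t := fun t ht => if_pos ht
  have hHgt : ∀ t, a < t → t ≤ 2 * a → H t = KI Ψ1 (t - a) := fun t h1 h2 => by
    show (if t ≤ a then JI Φ1 t else if t ≤ 2 * a then KI Ψ1 (t - a) else ⊤) = _
    rw [if_neg (by omega), if_pos h2]
  have hHbig : ∀ t, 2 * a < t → H t = ⊤ := fun t h1 => by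
    show (if t ≤ a then JI Φ1 t else if t ≤ 2 * a then KI Ψ1 (t - a) else ⊤) = _
    rw [if_neg (by omega), if_neg (by omega)]
  have hGlt : ∀ t, t < a → G t = JI Φ1 t := fun t ht => if_pos ht
  have hGge : ∀ t, a ≤ t → t ≤ 2 * a → G t = KI Ψ1 (t - a) := fun t h1 h2 => by
    show (if t < a then JI Φ1 t else if t ≤ 2 * a then KI Ψ1 (t - a) else ⊤) = _
    rw [if_neg (by omega), if_pos h2]
  have hGbig : ∀ t, 2 * a < t → G t = ⊤ := fun t h1 => by
    show (if t < a then JI Φ1 t else if t ≤ 2 * a then KI Ψ1 (t - a) else ⊤) = _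
    rw [if_neg (by omega), if_neg (by omega)]
  have hGH : ∀ t, Eqv (G t) (H t) := by
    intro t
    rcases Nat.lt_trichotomy t a with h | h | h
    · rw [hGlt t h, hHle t h.le]
      exact fun _ _ => rfl
    · subst h
      rw [hGge t le_rfl (by omega), hHle t le_rfl, Nat.sub_self, hK0, hd1]
      exact hEqv
    · rcases Nat.lt_or_ge (2 * a) t with h' | h'
      · rw [hGbig t h', hHbig t h']
        exact fun _ _ => rfl
      · rw [hGge t h.le h', hHgt t h h']
        exact fun _ _ => rfl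
  have hKPm : ∀ t, a ≤ t → t ≤ 2 * a → Pm (KI Ψ1 (t - a)) := by
    intro t h1 h2
    refine hPΨ.mono ?_
    rw [← hK0]
    exact hKmono _ (by omega)
  refine abs_main2 hG G H a (a - r) (a - r2) (by omega) (by omega) ?_ ?_ hGH ?_ ?_ ?_ ?_ l₀ ?_
    E₀ K₀ hE
  · intro t
    rcases Nat.lt_or_ge t a with h | h
    · rw [hGlt t h]; exact hJPm t h.le
    · rcases Nat.lt_or_ge (2 * a) t with h' | h'
      · rw [hGbig t h']; exact Pm_top
      · rw [hGge t h h']; exact hKPm t h h'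
  · intro t
    rcases Nat.lt_or_ge a t with h | h
    · rcases Nat.lt_or_ge (2 * a) t with h' | h'
      · rw [hHbig t h']; exact Pm_top
      · rw [hHgt t h h']; exact hKPm t h.le h'
    · rw [hHle t h]; exact hJPm t h
  · intro t ht
    rcases Nat.lt_or_ge t a with h | h
    · rw [hGlt t h]
      exact JI_eq_top hr hQ t (by omega)
    · obtain rfl : t = a := by omega
      have h5 : JI Φ1 t = ⊤ := JI_eq_top hr hQ t (by omega)
      have h6 := hGH t ⊤ Pm_top
      rw [hHle t le_rfl, h5, Ideal.top_mul, Ideal.top_mul, cl_top] at h6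
      exact cl_eq_zero.mp h6
  · intro t h1 h2
    rw [hGge t (by omega) h2]
    exact KI_eq_top hr2 hQ2 (t - a) (by omega) (by omega)
  · rw [hHle a le_rfl]
    exact JI_le_pow hrow
  · rw [hGge a le_rfl (by omega), Nat.sub_self, hK0, ← hd2]
    exact JI_le_pow hrow2
  · intro I hI
    set W := (UI (Fin a ⊕ Fin a) I).map Φ1.mulVecLin with hW
    set Z := (UI (Fin a ⊕ Fin a) I).comap Ψ1.mulVecLin with hZ
    let K : ℕ → Ideal R := fun t => if h : t < a then fl W ⟨t, h⟩ else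
      if h2 : t - a < a then fl Z ⟨t - a, h2⟩ else ⊤
    have hKlt : ∀ t (h : t < a), K t = fl W ⟨t, h⟩ := fun t h => dif_pos h
    have hKge : ∀ t (h : a ≤ t) (h2 : t - a < a), K t = fl Z ⟨t - a, h2⟩ := fun t h h2 => by
      show (if h : t < a then fl W ⟨t, h⟩ else
        if h2 : t - a < a then fl Z ⟨t - a, h2⟩ else ⊤) = _
      rw [dif_neg (by omega), dif_pos h2]
    refine ⟨K, ?_, ?_⟩
    · intro t ht
      rcases Nat.lt_or_ge t a with h | h
      · rw [hKlt t h, hGlt t h, hHle (t + 1) h, Ideal.mul_le]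
        intro x hx d hd
        exact flagJ Φ1 I t h x hx d hd
      · have h2 : t - a < a := by omega
        have h3 : t + 1 - a = t - a + 1 := by omega
        rw [hKge t h h2, hGge t h (by omega), hHgt (t + 1) (by omega) (by omega), h3,
          Ideal.mul_le]
        intro x hx d hd
        exact flagK Ψ1 I (t - a) h2 x hx d hd
    · have hsplit : ∑ t ∈ range (2 * a), cl (K t) =
          ∑ i : Fin a, cl (fl W i) + ∑ i : Fin a, cl (fl Z i) := by
        rw [two_mul, Finset.sum_range_add, Finset.sum_range, Finset.sum_range]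
        congr 1
        · refine sum_congr rfl fun i _ => ?_
          rw [hKlt i.1 i.2]
        · refine sum_congr rfl fun i _ => ?_
          have h2 : a + i.1 - a < a := by
            have := i.2
            omega
          rw [hKge (a + i.1) (by omega) h2]
          congr 2
          apply Fin.ext
          show a + i.1 - a = i.1
          omega
      rw [hsplit]
      have h1 : ∑ i : Fin a, cl (fl W i) ≤ Module.length R ((Fin a → R) ⧸ W) := sum_fl_le W
      have h2 : ∑ i : Fin a, cl (fl Z i) ≤ Module.length R ((Fin a → R) ⧸ Z) := sum_fl_le Z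
      have hzero : ∀ v, Φ1.mulVecLin (Ψ1.mulVecLin v) = 0 := by
        intro v
        rw [Matrix.mulVecLin_apply, Matrix.mulVecLin_apply, Matrix.mulVec_mulVec]
        have h3 : Φ1 * Ψ1 = (P * (Φ * Ψ) * P2ᵀ).submatrix id Fin.rev := by
          rw [hΨ1, hΦ2, hΦ1, transpose_mul, transpose_transpose]
          have : (Ψ * P2ᵀ).submatrix id Fin.rev = Ψ * P2ᵀ.submatrix id Fin.rev := rfl
          rw [this, Matrix.mul_assoc, ← Matrix.mul_assoc Φ]
          have h4 : (P * (Φ * Ψ) * P2ᵀ).submatrix id Fin.rev =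
            (P * (Φ * Ψ)) * P2ᵀ.submatrix id Fin.rev := rfl
          rw [h4]
          simp only [Matrix.mul_assoc]
        rw [h3, hΦΨ]
        simp
      have h3 := koszul_length Φ1.mulVecLin Ψ1.mulVecLin hzero (UI (Fin a ⊕ Fin a) I)
      have h4 : Module.length R ((Fin a → R) ⧸ LinearMap.range Φ1.mulVecLin) ≤ l₀ := by
        rw [← hl₀]
        have hle : LinearMap.range Φ.mulVecLin ≤
            (LinearMap.range Φ1.mulVecLin).comap P.mulVecLin := by
          rintro _ ⟨v, rfl⟩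
          refine ⟨v, ?_⟩
          rw [Matrix.mulVecLin_apply, Matrix.mulVecLin_apply, Matrix.mulVecLin_apply,
            Matrix.mulVec_mulVec]
        refine Module.length_le_of_surjective (Submodule.mapQ _ _ P.mulVecLin hle) ?_
        intro z
        obtain ⟨z, rfl⟩ := Submodule.Quotient.mk_surjective _ z
        refine ⟨Submodule.Quotient.mk (P' *ᵥ z), ?_⟩
        rw [Submodule.mapQ_apply, Matrix.mulVecLin_apply, Matrix.mulVec_mulVec, hPP',
          Matrix.one_mulVec]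
      rw [length_UI] at h3
      have h5 : Fintype.card (Fin a ⊕ Fin a) = 2 * a := by
        rw [Fintype.card_sum, Fintype.card_fin]; ring
      rw [h5] at h3
      refine (add_le_add h1 h2).trans (h3.trans ?_)
      gcongr

end MainC

end Vale.Agent.P202
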