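import Vale.Agent.P202.Unmix
import Vale.Agent.P202.WC

namespace Vale.Agent.P202

open Finset Matrix IsLocalRing

section Lift

variable {R : Type*} [CommRing R] {a : ℕ} {ι : Type*} [Fintype ι]

theorem UI_mul_le (I J : Ideal R) : UI (Fin a) (I * J) ≤ I • UI (Fin a) J := by
  intro v hv
  have h1 : v = ∑ i, v i • (Pi.single i (1 : R) : Fin a → R) := by
    ext j
    simp [Pi.single_apply]
  rw [h1]
  refine Submodule.sum_mem _ fun i _ => ?_
  have h2 : v i ∈ I * J := hv i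
  generalize v i = z at h2
  refine Submodule.mul_induction_on h2 ?_ ?_
  · intro p hp q hq
    rw [mul_smul]
    refine Submodule.smul_mem_smul hp fun j => ?_
    rw [Pi.smul_apply, Pi.single_apply, smul_eq_mul]
    split_ifs
    · rwa [mul_one]
    · rw [mul_zero]; exact J.zero_mem
  · intro p q hp hq
    rw [add_smul]
    exact Submodule.add_mem _ hp hq

theorem lift_range (Φ : Matrix (Fin a) ι R) (I J : Ideal R)
    (h : UI (Fin a) J ≤ LinearMap.range Φ.mulVecLin) (v : Fin a → R)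
    (hv : v ∈ UI (Fin a) (I * J)) : ∃ w ∈ UI ι I, Φ *ᵥ w = v := by
  have h1 := Submodule.smul_mono (le_refl I) h (UI_mul_le I J hv)
  rw [LinearMap.range_eq_map, ← Submodule.map_smul''] at h1
  obtain ⟨w, hw, hwv⟩ := h1
  refine ⟨w, ?_, hwv⟩
  refine Submodule.smul_induction_on hw ?_ ?_
  · intro r hr n _ c
    rw [Pi.smul_apply, smul_eq_mul]
    exact I.mul_mem_right _ hr
  · intro x y hx hy
    exact (UI ι I).add_mem hx hy

end Lift

section NAK

variable {R : Type*} [CommRing R] [IsLocalRing R] [IsNoetherianRing R] {a : ℕ}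

theorem UI_nak (c : ℕ) (N : Submodule R (Fin a → R))
    (h : UI (Fin a) (maximalIdeal R ^ c) ≤ N ⊔ UI (Fin a) (maximalIdeal R ^ (c + 1))) :
    UI (Fin a) (maximalIdeal R ^ c) ≤ N := by
  refine Submodule.le_of_le_smul_of_le_jacobson_bot (IsNoetherian.noetherian _)
    (IsLocalRing.maximalIdeal_le_jacobson ⊥) (h.trans (sup_le_sup_left ?_ _))
  rw [pow_succ']
  exact UI_mul_le _ _

omit [IsLocalRing R] [IsNoetherianRing R] in
theorem UI_mono {ι : Type*} {I J : Ideal R} (h : I ≤ J) : UI ι I ≤ UI ι J := fun _ hv i => h (hv i)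

end NAK

section WA

variable {R : Type*} [CommRing R] [IsLocalRing R] [IsNoetherianRing R] {a : ℕ}

omit [IsLocalRing R] [IsNoetherianRing R] in
theorem range_cols_neg (X Y : Matrix (Fin a) (Fin a) R) :
    LinearMap.range (fromCols X Y).mulVecLin ≤ LinearMap.range (fromCols (-Y) X).mulVecLin := by
  rintro _ ⟨v, rfl⟩
  refine ⟨Sum.elim (fun i => - v (Sum.inr i)) (fun i => v (Sum.inl i)), ?_⟩
  have hv : v = Sum.elim (fun i => v (Sum.inl i)) (fun i => v (Sum.inr i)) := by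
    funext i
    cases i <;> rfl
  rw [Matrix.mulVecLin_apply, Matrix.mulVecLin_apply, fromCols_mulVec_sumElim]
  nth_rw 3 [hv]
  rw [fromCols_mulVec_sumElim]
  have h1 : (fun i => - v (Sum.inr i)) = - (fun i => v (Sum.inr i)) := rfl
  rw [h1, Matrix.neg_mulVec_neg]
  abel

theorem W_good (hG : Good R) [IsPrecomplete (maximalIdeal R) R] (hU : Unm R)
    (X Y : Matrix (Fin a) (Fin a) R) (c : ℕ)
    (hXY : ∀ i j, (X * Y - Y * X) i j ∈ maximalIdeal R ^ (2 * c + 1))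
    (hc : UI (Fin a) (maximalIdeal R ^ c) ≤ LinearMap.range (fromCols X Y).mulVecLin)
    (hc' : UI (Fin a) (maximalIdeal R ^ c) ≤ LinearMap.range (fromCols Xᵀ Yᵀ).mulVecLin) (l₀ : ℕ)
    (hl₀ : Module.length R ((Fin a → R) ⧸ LinearMap.range (fromCols X Y).mulVecLin) = l₀)
    (E₀ K₀ : ℕ) (hE : ∀ k : ℕ, (E₀ : ℤ) * k ^ 2 ≤ 2 * hh (maximalIdeal R ^ k) + K₀ * k + K₀) :
    ∃ β : ℕ, Module.length R ((Fin a → R) ⧸ (LinearMap.range (fromCols X Y).mulVecLin ⊔
      UI (Fin a) (maximalIdeal R))) ≤ β ∧ β * E₀ ≤ l₀ := by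
  set Φ := fromCols X Y with hΦ
  set Ψ₀ := fromRows (-Y) X with hΨ
  have hΦΨ : Φ * Ψ₀ = -(X * Y - Y * X) := by
    rw [hΦ, hΨ, fromCols_mul_fromRows, Matrix.mul_neg]
    abel
  have h1 : ∀ j : Fin a, ∃ w ∈ UI (Fin a ⊕ Fin a) (maximalIdeal R ^ (c + 1)),
      Φ *ᵥ w = fun i => (Φ * Ψ₀) i j := by
    intro j
    refine lift_range Φ _ _ hc _ fun i => ?_
    show (Φ * Ψ₀) i j ∈ _
    rw [hΦΨ, Matrix.neg_apply, Ideal.neg_mem_iff, ← pow_add]
    have h2 : c + 1 + c = 2 * c + 1 := by ring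
    rw [h2]
    exact hXY i j
  choose w hw hw2 using h1
  set W : Matrix (Fin a ⊕ Fin a) (Fin a) R := Matrix.of fun i j => w j i with hW
  have hΦW : Φ * W = Φ * Ψ₀ := by
    ext i j
    have := congrFun (hw2 j) i
    rw [← this]
    rfl
  have hz : Φ * (Ψ₀ - W) = 0 := by rw [Matrix.mul_sub, hΦW, sub_self]
  refine W_complex hG hU Φ (Ψ₀ - W) hz c hc ?_ l₀ hl₀ E₀ K₀ hE
  refine UI_nak c _ ?_
  intro v hv
  obtain ⟨u, hu⟩ := range_cols_neg Xᵀ Yᵀ (hc' hv)
  have h2 : v = (Ψ₀ - W)ᵀ *ᵥ u + Wᵀ *ᵥ u := by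
    rw [← Matrix.add_mulVec, ← Matrix.transpose_add, sub_add_cancel, ← hu, hΨ,
      transpose_fromRows, transpose_neg]
    rfl
  rw [h2]
  refine Submodule.add_mem_sup ⟨u, rfl⟩ fun i => ?_
  rw [Matrix.mulVec, dotProduct]
  refine Ideal.sum_mem _ fun j _ => Ideal.mul_mem_right _ _ ?_
  exact hw i j

theorem W_approx (hinf : Infinite (ResidueField R)) [IsPrecomplete (maximalIdeal R) R]
    (𝔤 : Ideal R) (hdim : ringKrullDim (R ⧸ 𝔤) ≤ 2)
    (X Y : Matrix (Fin a) (Fin a) R) (c : ℕ)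
    (hXY : ∀ i j, (X * Y - Y * X) i j ∈ maximalIdeal R ^ (2 * c + 1))
    (hc : UI (Fin a) (maximalIdeal R ^ c) ≤ LinearMap.range (fromCols X Y).mulVecLin ⊔
      UI (Fin a) 𝔤)
    (hc' : UI (Fin a) (maximalIdeal R ^ c) ≤ LinearMap.range (fromCols Xᵀ Yᵀ).mulVecLin ⊔
      UI (Fin a) 𝔤) (l₀ : ℕ)
    (hl₀ : Module.length R ((Fin a → R) ⧸ (LinearMap.range (fromCols X Y).mulVecLin ⊔
      UI (Fin a) 𝔤)) ≤ l₀)
    (E₀ K₀ : ℕ) (hE : ∀ k : ℕ, (E₀ : ℤ) * k ^ 2 ≤
      2 * (cl (𝔤 ⊔ maximalIdeal R ^ k)).toNat + K₀ * k + K₀) :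
    ∃ β : ℕ, Module.length R ((Fin a → R) ⧸ (LinearMap.range (fromCols X Y).mulVecLin ⊔
      UI (Fin a) (maximalIdeal R))) ≤ β ∧ β * E₀ ≤ l₀ := by
  obtain ⟨𝔥, ⟨h𝔤𝔥, C, hC⟩, hunm⟩ := exists_unm 𝔤
  by_cases hH : 𝔥 = ⊤
  · have hE0 : E₀ = 0 := by
      refine e_zero E₀ (K₀ + 2 * C) 0 fun k => (hE k).trans ?_
      have h1 := hC k
      rw [hH, top_sup_eq, cl_top, zero_add] at h1
      have h2 := ENat.toNat_le_toNat h1 (ENat.natCast_ne_top _)
      rw [ENat.toNat_natCast] at h2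
      have h3 : ((cl (𝔤 ⊔ maximalIdeal R ^ k)).toNat : ℤ) ≤ (C * (k + 1) : ℕ) := by
        exact_mod_cast h2
      push_cast at h3 ⊢
      linarith
    refine ⟨a, ?_, by rw [hE0]; simp⟩
    have h1 : UI (Fin a) (maximalIdeal R) ≤ LinearMap.range (fromCols X Y).mulVecLin ⊔
      UI (Fin a) (maximalIdeal R) := le_sup_right
    refine (Module.length_le_of_surjective (Submodule.factor h1)
      (Submodule.factor_surjective h1)).trans ?_
    rw [length_UI, cl_maximalIdeal, mul_one, Fintype.card_fin]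
  · have hnt : Nontrivial (R ⧸ 𝔥) := Ideal.Quotient.nontrivial_iff.mpr hH
    have hlr : IsLocalRing (R ⧸ 𝔥) :=
      IsLocalRing.of_surjective' (Ideal.Quotient.mk 𝔥) Ideal.Quotient.mk_surjective
    have hmax : (maximalIdeal R).map (Ideal.Quotient.mk 𝔥) = maximalIdeal (R ⧸ 𝔥) :=
      IsLocalRing.map_maximalIdeal_of_surjective (Ideal.Quotient.mk 𝔥)
        Ideal.Quotient.mk_surjective
    have hloc : IsLocalHom (Ideal.Quotient.mk 𝔥) :=
      Function.Surjective.isLocalHom _ Ideal.Quotient.mk_surjective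
    have hU : Unm (R ⧸ 𝔥) := hunm hmax
    have hpc : IsPrecomplete (maximalIdeal (R ⧸ 𝔥)) (R ⧸ 𝔥) := precomplete_quot 𝔥 hmax
    have hG : Good (R ⧸ 𝔥) := by
      refine ⟨?_, ?_, ?_⟩
      · exact Infinite.of_injective (ResidueField.map (Ideal.Quotient.mk 𝔥))
          (RingHom.injective _)
      · intro w hw
        by_contra hw0
        refine hU (maximalIdeal (R ⧸ 𝔥)) inferInstance w (fun z => ⟨hw z, fun h => ?_⟩) 0
          (Ideal.zero_mem _) (Pm_max.mono le_sup_left)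
        by_contra hz
        have hzu : IsUnit z := by
          by_contra hzu
          exact hz ((mem_maximalIdeal z).mpr hzu)
        exact hw0 ((hzu.mul_right_eq_zero).mp h)
      · refine le_trans ?_ hdim
        exact ringKrullDim_le_of_surjective (Ideal.Quotient.factor h𝔤𝔥)
          (Ideal.Quotient.factor_surjective h𝔤𝔥)
    have hsurj : Function.Surjective (algebraMap R (R ⧸ 𝔥)) := Ideal.Quotient.mk_surjective
    let π : (Fin a → R) →ₗ[R] (Fin a → R ⧸ 𝔥) :=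
      (Algebra.linearMap R (R ⧸ 𝔥)).compLeft (Fin a)
    have hπ : Function.Surjective π := by
      intro v
      choose w hw using fun i => hsurj (v i)
      exact ⟨w, funext hw⟩
    set X' := X.map (Ideal.Quotient.mk 𝔥) with hX'
    set Y' := Y.map (Ideal.Quotient.mk 𝔥) with hY'
    set Φ := fromCols X Y with hΦ
    have hΦ' : fromCols X' Y' = Φ.map (Ideal.Quotient.mk 𝔥) := by
      rw [hΦ, fromCols_map]
    have hΦt : fromCols X'ᵀ Y'ᵀ = (fromCols Xᵀ Yᵀ).map (Ideal.Quotient.mk 𝔥) := by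
      rw [fromCols_map, hX', hY', Matrix.transpose_map, Matrix.transpose_map]
    have hsq : ∀ x, x ∈ 𝔥 ↔ Ideal.Quotient.mk 𝔥 x ∈ (⊥ : Ideal (R ⧸ 𝔥)) := by
      intro x
      rw [Ideal.mem_bot, Ideal.Quotient.eq_zero_iff_mem]
    have hmq : ∀ x, x ∈ maximalIdeal R ↔
        Ideal.Quotient.mk 𝔥 x ∈ maximalIdeal (R ⧸ 𝔥) := by
      intro x
      rw [mem_maximalIdeal, mem_maximalIdeal, mem_nonunits_iff, mem_nonunits_iff,
        isUnit_map_iff]
    have hpq : ∀ k x, x ∈ 𝔥 ⊔ maximalIdeal R ^ k ↔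
        Ideal.Quotient.mk 𝔥 x ∈ maximalIdeal (R ⧸ 𝔥) ^ k := by
      intro k x
      rw [← hmax, ← Ideal.map_pow, ← Ideal.mem_comap,
        Ideal.comap_map_of_surjective _ Ideal.Quotient.mk_surjective, sup_comm,
        ← RingHom.ker_eq_comap_bot, Ideal.mk_ker]
    have hbot : ∀ Φ' : Matrix (Fin a) (Fin a ⊕ Fin a) (R ⧸ 𝔥),
        LinearMap.range Φ'.mulVecLin ⊔ UI (Fin a) ⊥ = LinearMap.range Φ'.mulVecLin := by
      intro Φ'
      refine sup_eq_left.mpr ?_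
      intro w hw
      have : w = 0 := funext fun i => hw i
      rw [this]
      exact Submodule.zero_mem _
    have hlen1 : Module.length R ((Fin a → R) ⧸ (LinearMap.range Φ.mulVecLin ⊔
        UI (Fin a) 𝔥)) = Module.length (R ⧸ 𝔥) ((Fin a → R ⧸ 𝔥) ⧸
          LinearMap.range (fromCols X' Y').mulVecLin) := by
      refine length_pull hsurj π hπ _ _ fun v => ?_
      rw [mem_range_sup_UI (Ideal.Quotient.mk 𝔥) Ideal.Quotient.mk_surjective Φ 𝔥 ⊥
        hsq v, ← hΦ', hbot]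
      rfl
    have hlen2 : Module.length R ((Fin a → R) ⧸ (LinearMap.range Φ.mulVecLin ⊔
        UI (Fin a) (maximalIdeal R))) =
        Module.length (R ⧸ 𝔥) ((Fin a → R ⧸ 𝔥) ⧸
          (LinearMap.range (fromCols X' Y').mulVecLin ⊔
            UI (Fin a) (maximalIdeal (R ⧸ 𝔥)))) := by
      refine length_pull hsurj π hπ _ _ fun v => ?_
      rw [mem_range_sup_UI (Ideal.Quotient.mk 𝔥) Ideal.Quotient.mk_surjective Φ
        (maximalIdeal R) (maximalIdeal (R ⧸ 𝔥)) hmq v, ← hΦ']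
      rfl
    have hlen3 : ∀ k, cl (𝔥 ⊔ maximalIdeal R ^ k) = cl (maximalIdeal (R ⧸ 𝔥) ^ k) :=
      fun k => cl_pull hsurj _ _ (hpq k)
    have hUI : ∀ Θ : Matrix (Fin a) (Fin a ⊕ Fin a) R,
        UI (Fin a) (maximalIdeal R ^ c) ≤ LinearMap.range Θ.mulVecLin ⊔ UI (Fin a) 𝔤 →
        UI (Fin a) (maximalIdeal (R ⧸ 𝔥) ^ c) ≤
          LinearMap.range (Θ.map (Ideal.Quotient.mk 𝔥)).mulVecLin := by
      intro Θ hΘ v' hv'
      have h1 : ∀ i, ∃ r ∈ maximalIdeal R ^ c, Ideal.Quotient.mk 𝔥 r = v' i := by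
        intro i
        have h2 : v' i ∈ (maximalIdeal R ^ c).map (Ideal.Quotient.mk 𝔥) := by
          rw [Ideal.map_pow, hmax]
          exact hv' i
        obtain ⟨r, hr, hr2⟩ :=
          (Ideal.mem_map_iff_of_surjective _ Ideal.Quotient.mk_surjective).mp h2
        exact ⟨r, hr, hr2⟩
      choose v hv hv2 using h1
      have h2 : v ∈ LinearMap.range Θ.mulVecLin ⊔ UI (Fin a) 𝔥 :=
        (sup_le_sup_left (UI_mono h𝔤𝔥) _) (hΘ (show v ∈ UI (Fin a) _ from hv))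
      rw [mem_range_sup_UI (Ideal.Quotient.mk 𝔥) Ideal.Quotient.mk_surjective Θ 𝔥 ⊥ hsq v,
        hbot] at h2
      rwa [show (fun i => Ideal.Quotient.mk 𝔥 (v i)) = v' from funext hv2] at h2
    have hlen4 : Module.length (R ⧸ 𝔥) ((Fin a → R ⧸ 𝔥) ⧸
          LinearMap.range (fromCols X' Y').mulVecLin) ≤ l₀ := by
      rw [← hlen1]
      have h1 : LinearMap.range Φ.mulVecLin ⊔ UI (Fin a) 𝔤 ≤
          LinearMap.range Φ.mulVecLin ⊔ UI (Fin a) 𝔥 :=
        sup_le_sup_left (UI_mono h𝔤𝔥) _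
      exact (Module.length_le_of_surjective (Submodule.factor h1)
        (Submodule.factor_surjective h1)).trans hl₀
    obtain ⟨l', hl'⟩ := ENat.ne_top_iff_exists.mp
      (ne_top_of_le_ne_top (ENat.natCast_ne_top l₀) hlen4)
    have hE' : ∀ k : ℕ, (E₀ : ℤ) * k ^ 2 ≤ 2 * hh (maximalIdeal (R ⧸ 𝔥) ^ k) +
        ((K₀ + 2 * C : ℕ) : ℤ) * k + ((K₀ + 2 * C : ℕ) : ℤ) := by
      intro k
      obtain ⟨h, hh1, hh2⟩ := exists_hh (Pm_max.pow k : Pm (maximalIdeal (R ⧸ 𝔥) ^ k))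
      have h1 := hC k
      rw [hlen3 k, hh1] at h1
      have h2 : (cl (𝔤 ⊔ maximalIdeal R ^ k)).toNat ≤ h + C * (k + 1) := by
        have h3 := ENat.toNat_le_toNat h1 (by exact_mod_cast ENat.natCast_ne_top _)
        have h4 : ((h : ℕ∞) + (C * (k + 1) : ℕ)).toNat = h + C * (k + 1) := by
          have : ((h : ℕ∞) + (C * (k + 1) : ℕ)) = ((h + C * (k + 1) : ℕ) : ℕ∞) := by
            push_cast; rfl
          rw [this, ENat.toNat_natCast]
        rwa [h4] at h3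
      have h3 : ((cl (𝔤 ⊔ maximalIdeal R ^ k)).toNat : ℤ) ≤ (h + C * (k + 1) : ℕ) := by
        exact_mod_cast h2
      have h4 := hE k
      rw [hh2]
      push_cast at h3 ⊢
      linarith
    obtain ⟨β, h1, h2⟩ := W_good hG hU X' Y' c (by
      intro i j
      have h1 : (X' * Y' - Y' * X') i j = Ideal.Quotient.mk 𝔥 ((X * Y - Y * X) i j) := by
        rw [hX', hY', ← Matrix.map_mul, ← Matrix.map_mul, Matrix.sub_apply, Matrix.sub_apply,
          Matrix.map_apply, Matrix.map_apply, map_sub]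
      rw [h1, ← hmax, ← Ideal.map_pow]
      exact Ideal.mem_map_of_mem _ (hXY i j))
      (by rw [hΦ']; exact hUI _ hc) (by rw [hΦt]; exact hUI _ hc') l' hl'.symm E₀ (K₀ + 2 * C) hE'
    refine ⟨β, ?_, h2.trans ?_⟩
    · rw [hlen2]
      exact h1
    · rw [← hl'] at hlen4
      exact_mod_cast hlen4

end WA

end Vale.Agent.P202
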