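import Vale.Agent.P202.LemV4
import Vale.Agent.P202.WApprox

namespace Vale.Agent.P202

open Finset Matrix IsLocalRing

section Gen

variable {P W : Type*} [CommRing P] [IsLocalRing P] [AddCommGroup W] [Module P W]

theorem exists_min_gensM (hW : (⊤ : Submodule P W).FG) :
    ∃ (h : ℕ) (g : Fin h → W), Submodule.span P (Set.range g) = ⊤ ∧
      ∀ r : Fin h → P, ∑ i, r i • g i = 0 → ∀ i, r i ∈ maximalIdeal P := by
  classical
  have hex : ∃ h : ℕ, ∃ g : Fin h → W, Submodule.span P (Set.range g) = ⊤ := by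
    obtain ⟨n, s, hs⟩ := Submodule.fg_iff_exists_fin_generating_family.mp hW
    exact ⟨n, s, hs⟩
  obtain ⟨g, hg⟩ := Nat.find_spec hex
  have hmin := fun m hm => Nat.find_min hex (m := m) hm
  generalize Nat.find hex = n at g hg hmin
  refine ⟨n, g, hg, ?_⟩
  intro r hr i0
  by_contra hi
  have hu : IsUnit (r i0) := by
    by_contra h
    exact hi ((mem_maximalIdeal _).mpr h)
  obtain ⟨u, hu⟩ := hu
  cases n with
  | zero => exact i0.elim0
  | succ n =>
    refine hmin n (Nat.lt_succ_self n) ⟨g ∘ i0.succAbove, ?_⟩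
    rw [eq_top_iff, ← hg, Submodule.span_le]
    have hsub : ∀ k, g (i0.succAbove k) ∈ Submodule.span P (Set.range (g ∘ i0.succAbove)) :=
      fun k => Submodule.subset_span ⟨k, rfl⟩
    rintro _ ⟨i, rfl⟩
    rcases Fin.eq_self_or_eq_succAbove i0 i with h | ⟨k, rfl⟩
    · rw [h]
      rw [Fin.sum_univ_succAbove _ i0] at hr
      have h1 : g i0 = (↑u⁻¹ : P) • (-(∑ k, r (i0.succAbove k) • g (i0.succAbove k))) := by
        have h2 : -(∑ k, r (i0.succAbove k) • g (i0.succAbove k)) = r i0 • g i0 :=
          (eq_neg_of_add_eq_zero_left hr).symm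
        rw [h2, ← hu, smul_smul, Units.inv_mul, one_smul]
      show g i0 ∈ Submodule.span P (Set.range (g ∘ i0.succAbove))
      rw [h1]
      apply Submodule.smul_mem
      rw [neg_mem_iff]
      apply Submodule.sum_mem
      intro k _
      exact Submodule.smul_mem _ _ (hsub k)
    · exact hsub k

theorem exists_surj (hW : (⊤ : Submodule P W).FG) (a : ℕ)
    (ha : Module.length P (W ⧸ (maximalIdeal P • (⊤ : Submodule P W))) ≤ a) :
    ∃ p : (Fin a → P) →ₗ[P] W, Function.Surjective p := by
  classical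
  obtain ⟨n, g, hg, hmin⟩ := exists_min_gensM hW
  let q : (Fin n → P) →ₗ[P] W := Fintype.linearCombination P g
  have hq : Function.Surjective q := by
    rw [← LinearMap.range_eq_top, Fintype.range_linearCombination, hg]
  have hqa : ∀ r, q r = ∑ i, r i • g i := fun r => rfl
  have hker : ∀ r : Fin n → P, q r ∈ maximalIdeal P • (⊤ : Submodule P W) ↔
      r ∈ UI (Fin n) (maximalIdeal P) := by
    intro r
    constructor
    · intro hr
      have h1 : maximalIdeal P • (⊤ : Submodule P W) ≤ (UI (Fin n) (maximalIdeal P)).map q := by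
        rw [Submodule.smul_le]
        intro m hm w _
        obtain ⟨s, rfl⟩ := hq w
        refine ⟨m • s, fun i => ?_, by rw [map_smul]⟩
        rw [Pi.smul_apply, smul_eq_mul]
        exact Ideal.mul_mem_right _ _ hm
      obtain ⟨s, hs, hrs⟩ := h1 hr
      have h2 : ∑ i, (r - s) i • g i = 0 := by
        rw [← hqa, map_sub, hrs, sub_self]
      have h3 := hmin _ h2
      intro i
      have h4 : r i = (r - s) i + s i := by rw [Pi.sub_apply]; ring
      rw [h4]
      exact Ideal.add_mem _ (h3 i) (hs i)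
    · intro hr
      rw [hqa]
      exact Submodule.sum_mem _ fun i _ => Submodule.smul_mem_smul (hr i) trivial
  have hlen : Module.length P ((Fin n → P) ⧸ UI (Fin n) (maximalIdeal P)) =
      Module.length P (W ⧸ (maximalIdeal P • (⊤ : Submodule P W))) := by
    have hle : UI (Fin n) (maximalIdeal P) ≤
        (maximalIdeal P • (⊤ : Submodule P W)).comap q := fun r hr => (hker r).mpr hr
    refine (LinearEquiv.ofBijective (Submodule.mapQ _ _ q hle) ⟨?_, ?_⟩).length_eq
    · rw [← LinearMap.ker_eq_bot, LinearMap.ker_eq_bot']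
      intro z hz
      obtain ⟨z, rfl⟩ := Submodule.Quotient.mk_surjective _ z
      rw [Submodule.mapQ_apply, Submodule.Quotient.mk_eq_zero] at hz
      exact (Submodule.Quotient.mk_eq_zero _).mpr ((hker z).mp hz)
    · intro z
      obtain ⟨z, rfl⟩ := Submodule.Quotient.mk_surjective _ z
      obtain ⟨s, rfl⟩ := hq z
      exact ⟨Submodule.Quotient.mk s, rfl⟩
  rw [← hlen, length_UI, cl_maximalIdeal, mul_one, Fintype.card_fin] at ha
  have hna : n ≤ a := by exact_mod_cast ha
  refine ⟨Fintype.linearCombination P (fun i : Fin a => if h : i.1 < n then g ⟨i.1, h⟩ else 0), ?_⟩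
  rw [← LinearMap.range_eq_top, Fintype.range_linearCombination, eq_top_iff, ← hg,
    Submodule.span_le]
  rintro _ ⟨i, rfl⟩
  refine Submodule.subset_span ⟨⟨i.1, by omega⟩, ?_⟩
  show (if h : i.1 < n then g ⟨i.1, h⟩ else 0) = g i
  rw [dif_pos i.2]

omit [IsLocalRing P] in
theorem eq_of_length {W : Type*} [AddCommGroup W] [Module P W] {V U : Submodule P W} (h : V ≤ U)
    (hfin : Module.length P (W ⧸ V) ≠ ⊤)
    (hle : Module.length P (W ⧸ V) ≤ Module.length P (W ⧸ U)) : V = U := by
  have h1 := rl_add h (le_top : U ≤ ⊤)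
  rw [rl_top, rl_top] at h1
  rw [h1] at hle hfin
  have h2 : Module.length P (W ⧸ U) ≠ ⊤ := fun h => hfin (by rw [h, add_top])
  have h3 : rl V U = 0 := by
    obtain ⟨n, hn⟩ := ENat.ne_top_iff_exists.mp h2
    have h4 : rl V U ≠ ⊤ := fun h => hfin (by rw [h, top_add])
    obtain ⟨m, hm⟩ := ENat.ne_top_iff_exists.mp h4
    rw [← hn, ← hm] at hle
    rw [← hm]
    have : m + n ≤ n := by exact_mod_cast hle
    have : m = 0 := by omega
    subst this
    rfl
  apply le_antisymm h
  intro x hx
  unfold rl at h3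
  rw [Module.length_eq_zero_iff] at h3
  have h4 : (Submodule.Quotient.mk ⟨x, hx⟩ : U ⧸ V.submoduleOf U) = 0 := Subsingleton.elim _ _
  rw [Submodule.Quotient.mk_eq_zero] at h4
  exact h4

end Gen

end Vale.Agent.P202
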