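import Vale.Agent.P202.Len

namespace Vale.Agent.P202

open IsLocalRing

theorem exists_min_gens {R : Type*} [CommRing R] [IsLocalRing R] [IsNoetherianRing R]
    (𝔞 : Ideal R) :
    ∃ (h : ℕ) (g : Fin h → R), Ideal.span (Set.range g) = 𝔞 ∧
      ∀ r : Fin h → R, ∑ i, r i * g i = 0 → ∀ i, r i ∈ maximalIdeal R := by
  classical
  have hex : ∃ h : ℕ, ∃ g : Fin h → R, Ideal.span (Set.range g) = 𝔞 := by
    obtain ⟨n, s, hs⟩ := Submodule.fg_iff_exists_fin_generating_family.mp
      (IsNoetherian.noetherian 𝔞)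
    exact ⟨n, s, hs⟩
  obtain ⟨g, hg⟩ := Nat.find_spec hex
  have hmin := fun m hm => Nat.find_min hex (m := m) hm
  generalize Nat.find hex = n at g hg hmin
  refine ⟨n, g, hg, ?_⟩
  intro r hr i0
  by_contra hi
  have hu : IsUnit (r i0) := by
    by_contra h
    exact hi ((mem_maximalIdeal _).mpr h)
  obtain ⟨u, hu⟩ := hu
  cases n with
  | zero => exact i0.elim0
  | succ n =>
    refine hmin n (Nat.lt_succ_self n) ⟨g ∘ i0.succAbove, ?_⟩
    apply le_antisymm
    · rw [← hg]
      exact Ideal.span_mono (Set.range_comp_subset_range _ _)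
    · rw [← hg, Ideal.span_le]
      have hsub : ∀ k, g (i0.succAbove k) ∈ Ideal.span (Set.range (g ∘ i0.succAbove)) :=
        fun k => Ideal.subset_span ⟨k, rfl⟩
      rintro _ ⟨i, rfl⟩
      rcases Fin.eq_self_or_eq_succAbove i0 i with h | ⟨k, rfl⟩
      · rw [h]
        rw [Fin.sum_univ_succAbove _ i0] at hr
        have h1 : g i0 = (↑u⁻¹ : R) * (-(∑ k, r (i0.succAbove k) * g (i0.succAbove k))) := by
          have h2 : -(∑ k, r (i0.succAbove k) * g (i0.succAbove k)) = r i0 * g i0 := by
            linear_combination -hr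
          rw [h2, ← hu, ← mul_assoc, Units.inv_mul, one_mul]
        show g i0 ∈ Ideal.span (Set.range (g ∘ i0.succAbove))
        rw [h1]
        apply Ideal.mul_mem_left
        rw [neg_mem_iff]
        apply Ideal.sum_mem
        intro k _
        exact Ideal.mul_mem_left _ _ (hsub k)
      · exact hsub k

section

variable {T : Type*} [CommRing T] {h : ℕ}

theorem length_gens (g : Fin h → T) (𝔡 : Ideal T) (h𝔡 : 𝔡 ≤ Ideal.span (Set.range g)) :
    Module.length T (T ⧸ 𝔡) =
      Module.length T ((Fin h → T) ⧸ LinearMap.ker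
        ((Submodule.mkQ 𝔡) ∘ₗ (Fintype.linearCombination T g))) +
        Module.length T (T ⧸ Ideal.span (Set.range g)) := by
  refine Module.length_eq_add_of_exact
    ((LinearMap.ker ((Submodule.mkQ 𝔡) ∘ₗ (Fintype.linearCombination T g))).liftQ
      ((Submodule.mkQ 𝔡) ∘ₗ (Fintype.linearCombination T g)) le_rfl)
    (Submodule.factor h𝔡) ?_ (Submodule.factor_surjective h𝔡) ?_
  · rw [← LinearMap.ker_eq_bot]
    exact Submodule.ker_liftQ_eq_bot _ _ _ le_rfl
  · intro z
    obtain ⟨z, rfl⟩ := Submodule.Quotient.mk_surjective _ z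
    have hfac : (Submodule.factor h𝔡) (Submodule.Quotient.mk z) = 0 ↔
        z ∈ Ideal.span (Set.range g) := by
      unfold Submodule.factor
      rw [Submodule.mapQ_apply]
      exact Submodule.Quotient.mk_eq_zero _
    rw [hfac]
    have hspan : ∀ z, z ∈ Ideal.span (Set.range g) ↔ ∃ c : Fin h → T, ∑ i, c i • g i = z :=
      fun z => Submodule.mem_span_range_iff_exists_fun T
    constructor
    · intro hz
      obtain ⟨c, hc⟩ := (hspan z).mp hz
      refine ⟨Submodule.Quotient.mk c, ?_⟩
      rw [Submodule.liftQ_apply]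
      simp only [LinearMap.comp_apply, Fintype.linearCombination_apply, hc]
      rfl
    · rintro ⟨c, hc⟩
      obtain ⟨c, rfl⟩ := Submodule.Quotient.mk_surjective _ c
      rw [Submodule.liftQ_apply] at hc
      have h2 := (Submodule.Quotient.eq _).mp hc
      simp only [Fintype.linearCombination_apply] at h2
      have h3 : z = (∑ i, c i • g i) - ((∑ i, c i • g i) - z) := by ring
      rw [h3]
      exact Ideal.sub_mem _ ((hspan _).mpr ⟨c, rfl⟩) (h𝔡 h2)

theorem length_pi_quot (h : ℕ) (𝔟 : Ideal T) :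
    Module.length T (Fin h → T ⧸ 𝔟) = h * Module.length T (T ⧸ 𝔟) := by
  rw [Module.length_pi]
  simp

theorem cl_mul_le (g : Fin h → T) (𝔟 𝔠 : Ideal T) (hg : Ideal.span (Set.range g) = 𝔠) :
    cl (𝔟 * 𝔠) ≤ h * cl 𝔟 + cl 𝔠 := by
  subst hg
  unfold cl
  rw [length_gens g (𝔟 * Ideal.span (Set.range g)) Ideal.mul_le_right, ← length_pi_quot]
  gcongr
  set φ := (Submodule.mkQ (𝔟 * Ideal.span (Set.range g))) ∘ₗ (Fintype.linearCombination T g)
  have hker : LinearMap.ker (LinearMap.compLeft (Submodule.mkQ 𝔟) (Fin h)) ≤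
      LinearMap.ker φ := by
    intro c hc
    rw [LinearMap.mem_ker] at hc ⊢
    have hc' : ∀ i, c i ∈ 𝔟 := by
      intro i
      have := congrFun hc i
      simpa using (Submodule.Quotient.mk_eq_zero 𝔟).mp this
    refine (Submodule.Quotient.mk_eq_zero _).mpr ?_
    rw [Fintype.linearCombination_apply]
    apply Ideal.sum_mem
    intro i _
    exact Ideal.mul_mem_mul (hc' i) (Ideal.subset_span ⟨i, rfl⟩)
  have hsurj : Function.Surjective (LinearMap.compLeft (Submodule.mkQ 𝔟) (Fin h)) := by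
    intro c
    choose d hd using fun i => Submodule.mkQ_surjective 𝔟 (c i)
    exact ⟨d, funext hd⟩
  let e := (LinearMap.compLeft (Submodule.mkQ 𝔟) (Fin h)).quotKerEquivOfSurjective hsurj
  rw [← e.length_eq]
  exact Module.length_le_of_surjective (Submodule.factor hker) (Submodule.factor_surjective hker)

theorem le_cl_mul (g : Fin h → T) (𝔟 𝔠 : Ideal T) (hg : Ideal.span (Set.range g) = 𝔠)
    (hmin : ∀ c : Fin h → T, ∑ i, c i * g i ∈ 𝔟 * 𝔠 → ∀ i, c i ∈ 𝔟) :
    h * cl 𝔟 + cl 𝔠 ≤ cl (𝔟 * 𝔠) := by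
  subst hg
  unfold cl
  rw [length_gens g (𝔟 * Ideal.span (Set.range g)) Ideal.mul_le_right, ← length_pi_quot]
  gcongr
  set φ := (Submodule.mkQ (𝔟 * Ideal.span (Set.range g))) ∘ₗ (Fintype.linearCombination T g)
  have hker : LinearMap.ker φ ≤ LinearMap.ker (LinearMap.compLeft (Submodule.mkQ 𝔟) (Fin h)) := by
    intro c hc
    rw [LinearMap.mem_ker] at hc ⊢
    have h1 : ∑ i, c i * g i ∈ 𝔟 * Ideal.span (Set.range g) := by
      have := (Submodule.Quotient.mk_eq_zero _).mp hc
      rw [Fintype.linearCombination_apply] at this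
      simpa using this
    funext i
    exact (Submodule.Quotient.mk_eq_zero 𝔟).mpr (hmin c h1 i)
  have hsurj : Function.Surjective (LinearMap.compLeft (Submodule.mkQ 𝔟) (Fin h)) := by
    intro c
    choose d hd using fun i => Submodule.mkQ_surjective 𝔟 (c i)
    exact ⟨d, funext hd⟩
  let e := (LinearMap.compLeft (Submodule.mkQ 𝔟) (Fin h)).quotKerEquivOfSurjective hsurj
  rw [← e.length_eq]
  exact Module.length_le_of_surjective (Submodule.factor hker) (Submodule.factor_surjective hker)

end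

end Vale.Agent.P202
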