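import Vale.Agent.P202.Conv

namespace Vale.Agent.P202

open Finset IsLocalRing Filter

section Key

variable {S : Type*} [CommRing S] [IsLocalRing S] [IsNoetherianRing S]

theorem toNat_coe {a : ℕ∞} (h : a ≠ ⊤) : ((a.toNat : ℕ) : ℕ∞) = a := ENat.natCast_toNat h

theorem key_ineq (hG : Good S) (n A C F : Ideal S) (hn : Pm n) (hnm : n ≤ maximalIdeal S)
    (hCF : C * F = n) (hA : A ∣ n) :
    ∃ c₀ η : ℕ, ∀ p : ℕ, ∃ T₀, c₀ ≤ T₀ ∧ ∀ t, T₀ ≤ t → ∀ f : ℕ → ℤ,
      (∀ t, f t = hh (n ^ t * (A ^ p * F ^ p))) →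
      2 * ((p : ℤ) + t + 1 - c₀) * (f (t + 1) - f t) -
        ((f (t + 2) - f (t + 1)) - (f (t + 1) - f t)) * ((p : ℤ) + t + 1 - c₀) *
          (((p : ℤ) + t + 1 - c₀) - 1) ≤ 2 * (f (t + 1) + p * η) := by
  have := hG.inf
  have hC : Pm C := hn.mono (hCF ▸ Ideal.mul_le_left)
  have hF : Pm F := hn.mono (hCF ▸ Ideal.mul_le_right)
  have hPA : Pm A := hn.of_dvd hA
  obtain ⟨z, hzC, hz, -⟩ := exists_x hG.dep n C F hCF hC ∅
  obtain ⟨x, y, η₀, hgd⟩ := exists_Gd hG n n n hn hnm dvd_rfl dvd_rfl {⊤}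
  obtain ⟨r₀, hr₀⟩ := hgd.red hnm (mem_singleton_self _)
  obtain ⟨r₁, hr₁⟩ := hgd.syz
  obtain ⟨r₂, hr₂⟩ := colon_stable hG n hn ⊤
  have hηfin := rl_sat_ne_top (Ideal.span {z})
  obtain ⟨η, hη⟩ := ENat.ne_top_iff_exists.mp hηfin
  refine ⟨r₁ + r₂, η, fun p => ?_⟩
  obtain ⟨r₃, hr₃⟩ := exists_sat_inf n hnm (Ideal.span {z ^ p})
  obtain ⟨r₄, hr₄⟩ := colon_stable hG n hn (A ^ p * F ^ p)
  refine ⟨r₀ + r₁ + r₂ + r₃ + r₄, by omega, fun t ht f hf => ?_⟩
  have hred : ∀ N, r₀ ≤ N → n ^ (N + 1) ≤ Ideal.span {x} * n ^ N ⊔ Ideal.span {y} * n ^ N := by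
    intro N hN w hw
    obtain ⟨a, ha, b, hb, rfl⟩ := hr₀ N hN w hw
    exact Submodule.add_mem_sup
      (Ideal.mul_mem_mul (Ideal.mem_span_singleton_self x) ha)
      (Ideal.mul_mem_mul (Ideal.mem_span_singleton_self y) hb)
  have hMpow : ∀ N, r₂ ≤ N → MM z A C n p N ≤ n ^ N := fun N hN =>
    MM_le_pow hz hzC (hr₂ N hN)
  have hMeq : ∀ t', r₂ + r₃ + r₄ ≤ t' →
      MM z A C n p (p + t') = Ideal.span {z ^ p} * (n ^ t' * (A ^ p * F ^ p)) := by
    intro t' ht'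
    refine MM_eq hCF hz hn hC (hMpow _ (by omega)) ?_ (hr₄ t' (by omega))
    exact (inf_le_inf_right _ (Ideal.pow_le_pow_right (by omega))).trans hr₃
  have hzp : z ^ p ∈ nonZeroDivisors S := pow_mem hz p
  have hGfin : ∀ t', cl (n ^ t' * (A ^ p * F ^ p)) ≠ ⊤ := fun t' =>
    ((hn.pow t').mul ((hPA.pow p).mul (hF.pow p))).cl_ne_top
  have hrlz : ∀ t', r₂ + r₃ + r₄ ≤ t' →
      rl (MM z A C n p (p + t')) (Ideal.span {z ^ p}) = cl (n ^ t' * (A ^ p * F ^ p)) := by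
    intro t' ht'
    rw [hMeq t' ht']
    exact rl_span_mul hzp _
  have hMz : ∀ t', r₂ + r₃ + r₄ ≤ t' → MM z A C n p (p + t') ≤ Ideal.span {z ^ p} := by
    intro t' ht'
    rw [hMeq t' ht']
    exact Ideal.mul_le_left
  have hdiff : ∀ t', r₂ + r₃ + r₄ ≤ t' → cl (n ^ (t' + 1) * (A ^ p * F ^ p)) =
      rl (MM z A C n p (p + (t' + 1))) (MM z A C n p (p + t')) +
        cl (n ^ t' * (A ^ p * F ^ p)) := by
    intro t' ht'
    rw [← hrlz t' ht', ← hrlz (t' + 1) (by omega)]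
    exact rl_add (MM_le (by omega)) (hMz t' ht')
  have hsmall : rl (MM z A C n p (p + (t + 1))) (MM z A C n p (r₁ + r₂)) ≤
      cl (n ^ (t + 1) * (A ^ p * F ^ p)) + p * η := by
    have h1 : MM z A C n p (p + (t + 1)) ≤ MM z A C n p (r₁ + r₂) := MM_le (by omega)
    refine (rl_mono h1 (MM_le_sat hn hC)).trans ?_
    rw [rl_add (hMz (t + 1) (by omega)) (le_sat _), hrlz (t + 1) (by omega)]
    gcongr
    refine (rl_sat_pow hz p).trans ?_
    rw [← hη]
  have hbig : cl (n ^ (t + 1) * (A ^ p * F ^ p)) + p * η ≠ ⊤ := by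
    obtain ⟨a, ha⟩ := ENat.ne_top_iff_exists.mp (hGfin (t + 1))
    rw [← ha]
    exact_mod_cast ENat.natCast_ne_top (a + p * η)
  have hfin : ∀ N, r₁ + r₂ ≤ N → N ≤ p + (t + 1) →
      rl (MM z A C n p (p + (t + 1))) (MM z A C n p N) ≠ ⊤ := by
    intro N hN1 hN2
    refine ne_top_of_le_ne_top hbig (le_trans ?_ hsmall)
    exact rl_mono (MM_le hN2) (MM_le hN1)
  obtain ⟨a0, e0, f0⟩ := exists_hh ((hn.pow t).mul ((hPA.pow p).mul (hF.pow p)))
  obtain ⟨a1, e1, f1⟩ := exists_hh ((hn.pow (t + 1)).mul ((hPA.pow p).mul (hF.pow p)))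
  obtain ⟨a2, e2, f2⟩ := exists_hh ((hn.pow (t + 2)).mul ((hPA.pow p).mul (hF.pow p)))
  have d1 := hdiff t (by omega)
  have d2 := hdiff (t + 1) (by omega)
  have hfin1 : rl (MM z A C n p (p + (t + 1))) (MM z A C n p (p + t)) ≠ ⊤ :=
    hfin (p + t) (by omega) (by omega)
  have hfin2 : rl (MM z A C n p (p + (t + 1 + 1))) (MM z A C n p (p + (t + 1))) ≠ ⊤ := by
    intro h
    rw [h] at d2
    exact hGfin (t + 1 + 1) (by rw [d2]; simp)
  obtain ⟨S1, hS1⟩ := ENat.ne_top_iff_exists.mp hfin1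
  obtain ⟨S2, hS2⟩ := ENat.ne_top_iff_exists.mp hfin2
  rw [← hS1, e0, e1] at d1
  rw [← hS2, e1] at d2
  rw [show t + 1 + 1 = t + 2 from rfl, e2] at d2
  have d1' : a1 = S1 + a0 := by exact_mod_cast d1
  have d2' : a2 = S2 + a1 := by exact_mod_cast d2
  have hstep : ∀ N, r₁ + r₂ + 1 ≤ N → N + 1 ≤ p + (t + 1) →
      rl (MM z A C n p (p + (t + 1))) (MM z A C n p N) +
      rl (MM z A C n p (p + (t + 1))) (MM z A C n p N) + S1 ≤
      rl (MM z A C n p (p + (t + 1))) (MM z A C n p (N - 1)) + S2 +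
        rl (MM z A C n p (p + (t + 1))) (MM z A C n p (N + 1)) := by
    intro N hN1 hN2
    obtain ⟨N', rfl⟩ : ∃ N', N = N' + 1 := ⟨N - 1, by omega⟩
    rw [Nat.add_sub_cancel]
    have k1 := rl_koszul x y (P := MM z A C n p N') (P' := MM z A C n p (p + t))
      (Q := MM z A C n p (N' + 1)) (Q' := MM z A C n p (p + (t + 1)))
      (R := MM z A C n p (N' + 1 + 1)) (R' := MM z A C n p (p + (t + 1 + 1)))
      (fun c hc => MM_mul hgd.hxA hc) (fun c hc => MM_mul hgd.hyC hc)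
      (fun c hc => MM_mul hgd.hxA hc) (fun c hc => MM_mul hgd.hyC hc)
      (fun c hc => MM_mul hgd.hxA hc) (fun c hc => MM_mul hgd.hyC hc)
      (fun c hc => MM_mul hgd.hxA hc) (fun c hc => MM_mul hgd.hyC hc) (by
        intro a ha b hb hab
        have g1 : MM z A C n p (p + (t + 1 + 1)) ≤
            Ideal.span {x} * MM z A C n p (p + (t + 1)) ⊔
              Ideal.span {y} * MM z A C n p (p + (t + 1)) := by
          rw [hMeq (t + 1 + 1) (by omega), hMeq (t + 1) (by omega)]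
          have g2 := Ideal.mul_mono_right (I := Ideal.span {z ^ p} * (A ^ p * F ^ p))
            (hred (t + 1) (by omega))
          have g3 : Ideal.span {z ^ p} * (n ^ (t + 1 + 1) * (A ^ p * F ^ p)) =
              Ideal.span {z ^ p} * (A ^ p * F ^ p) * n ^ (t + 1 + 1) := by ring
          rw [g3]
          refine g2.trans (le_of_eq ?_)
          rw [Ideal.mul_sup]
          congr 1 <;> ring
        obtain ⟨u, hu, v, hv, huv⟩ := Submodule.mem_sup.mp (g1 hab)
        obtain ⟨a', ha', rfl⟩ := Ideal.mem_span_singleton_mul.mp hu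
        obtain ⟨b', hb', rfl⟩ := Ideal.mem_span_singleton_mul.mp hv
        have hle : MM z A C n p (p + (t + 1)) ≤ MM z A C n p (N' + 1) := MM_le (by omega)
        have hbb : b + b' ∈ MM z A C n p (N' + 1) := Ideal.add_mem _ hb (hle hb')
        have haa : a - a' ∈ MM z A C n p (N' + 1) := Ideal.sub_mem _ ha (hle ha')
        have hdeep : b + b' ∈ n ^ r₁ :=
          Ideal.pow_le_pow_right (by omega) (hMpow (N' + 1) (by omega) hbb)
        obtain ⟨c, hc1, hc2⟩ := hr₁ (a - a') (b + b') hdeep (by linear_combination -huv)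
        refine ⟨c, ?_, ?_, ?_⟩
        · refine MM_div (hred r₀ le_rfl) ?_ ?_
          · rw [← hc2]; exact hbb
          · rw [← hc1]; exact haa
        · have : a - y * c = a' := by linear_combination hc1
          rw [this]; exact ha'
        · have : b - x * c = -b' := by linear_combination hc2
          rw [this]; exact Ideal.neg_mem_iff _ |>.mpr hb')
    have k2 : rl (MM z A C n p (p + (t + 1))) (MM z A C n p N') =
        S1 + rl (MM z A C n p (p + t)) (MM z A C n p N') := by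
      rw [hS1]
      exact rl_add (MM_le (by omega)) (MM_le (by omega))
    have k3 : rl (MM z A C n p (p + (t + 1 + 1))) (MM z A C n p (N' + 1 + 1)) =
        S2 + rl (MM z A C n p (p + (t + 1))) (MM z A C n p (N' + 1 + 1)) := by
      rw [hS2]
      exact rl_add (MM_le (by omega)) (MM_le (by omega))
    rw [k3] at k1
    rw [k2]
    calc _ ≤ (rl (MM z A C n p (p + t)) (MM z A C n p N') +
        (S2 + rl (MM z A C n p (p + (t + 1))) (MM z A C n p (N' + 1 + 1)))) + S1 := by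
          gcongr
      _ = _ := by ring
  let r : ℕ → ℤ := fun N =>
    ((rl (MM z A C n p (p + (t + 1))) (MM z A C n p N)).toNat : ℤ)
  have hcoe : ∀ N, r₁ + r₂ ≤ N → N ≤ p + (t + 1) →
      ∃ a : ℕ, rl (MM z A C n p (p + (t + 1))) (MM z A C n p N) = a ∧ r N = a := by
    intro N h1 h2
    obtain ⟨a, ha⟩ := ENat.ne_top_iff_exists.mp (hfin N h1 h2)
    refine ⟨a, ha.symm, ?_⟩
    simp only [r]
    rw [← ha]
    simp
  have hfinal := num_conv r S1 S2 (r₁ + r₂) (p + t + 1 - (r₁ + r₂)) (by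
      have : r₁ + r₂ + (p + t + 1 - (r₁ + r₂)) = p + (t + 1) := by omega
      rw [this]
      simp only [r]
      rw [rl_self]
      simp) (by
      intro i hi
      have : r₁ + r₂ + i = p + t := by omega
      rw [this]
      simp only [r]
      rw [← hS1]
      simp) (by
      intro N hN1 hN2
      obtain ⟨b0, g0, g0'⟩ := hcoe (N - 1) (by omega) (by omega)
      obtain ⟨b1, g1, g1'⟩ := hcoe N (by omega) (by omega)
      obtain ⟨b2, g2, g2'⟩ := hcoe (N + 1) (by omega) (by omega)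
      have h1 := hstep N hN1 (by omega)
      rw [g0, g1, g2] at h1
      rw [g0', g1', g2']
      have h2 : b1 + b1 + S1 ≤ b0 + S2 + b2 := by exact_mod_cast h1
      omega)
  obtain ⟨b, g, g'⟩ := hcoe (r₁ + r₂) le_rfl (by omega)
  rw [g, e1] at hsmall
  have hsmall' : b ≤ a1 + p * η := by exact_mod_cast hsmall
  rw [g'] at hfinal
  have hj : ((p + t + 1 - (r₁ + r₂) : ℕ) : ℤ) = (p : ℤ) + t + 1 - (r₁ + r₂ : ℕ) := by
    rw [Nat.cast_sub (by omega)]
    push_cast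
    ring
  rw [hj] at hfinal
  rw [hf t, hf (t + 1), hf (t + 2), f0, f1, f2]
  have hs1 : (a1 : ℤ) - a0 = S1 := by omega
  have hs2 : (a2 : ℤ) - a1 = S2 := by omega
  rw [hs1, hs2]
  refine hfinal.trans ?_
  have : (b : ℤ) ≤ a1 + p * η := by exact_mod_cast hsmall'
  linarith

end Key

end Vale.Agent.P202
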