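import Vale.Agent.P202.Hodge

namespace Vale.Agent.P202

open Finset IsLocalRing Filter

section Expand

variable {S : Type*} [CommRing S] [IsLocalRing S]

theorem expand_diff {n A : Ideal S} {a : ℤ} (hA : Pm A) (h : IsB n A A a) (E : Ideal S)
    (hE : Pm E) (i : ℕ) :
    ∀ᶠ t in atTop, hh (n ^ t * (E * A ^ (i + 1))) - hh (n ^ t * (E * A ^ i)) =
      hh (n ^ t * (E * A)) - hh (n ^ t * E) + i * a := by
  induction i with
  | zero =>
    filter_upwards with t
    simp
  | succ i ih =>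
    filter_upwards [ih, h (E * A ^ i) (hE.mul (hA.pow i))] with t h1 h2
    have e1 : E * A ^ i * (A * A) = E * A ^ (i + 1 + 1) := by ring
    have e2 : E * A ^ i * A = E * A ^ (i + 1) := by ring
    rw [e1, e2] at h2
    push_cast
    linarith

theorem expand_one {n A : Ideal S} {a : ℤ} (hA : Pm A) (h : IsB n A A a) (E : Ideal S)
    (hE : Pm E) (i : ℕ) :
    ∀ᶠ t in atTop, 2 * (hh (n ^ t * (E * A ^ i)) - hh (n ^ t * E)) =
      2 * i * (hh (n ^ t * (E * A)) - hh (n ^ t * E)) + i * (i - 1) * a := by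
  induction i with
  | zero =>
    filter_upwards with t
    simp
  | succ i ih =>
    filter_upwards [ih, expand_diff hA h E hE i] with t h1 h2
    push_cast
    linarith

theorem expand_cross {n A F : Ideal S} {c : ℤ} (hF : Pm F) (h : IsB n A F c) (j : ℕ) :
    ∀ᶠ t in atTop, hh (n ^ t * (F ^ j * A)) - hh (n ^ t * F ^ j) =
      hh (n ^ t * A) - hh (n ^ t) + j * c := by
  induction j with
  | zero =>
    filter_upwards with t
    simp [Ideal.one_eq_top]
  | succ j ih =>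
    filter_upwards [ih, h (F ^ j) (hF.pow j)] with t h1 h2
    have e1 : F ^ j * (A * F) = F ^ (j + 1) * A := by ring
    rw [e1, ← pow_succ] at h2
    push_cast
    linarith

theorem expand {n A F : Ideal S} {a b c : ℤ} (hA : Pm A) (hF : Pm F) (hAA : IsB n A A a)
    (hFF : IsB n F F b) (hAF : IsB n A F c) (p : ℕ) :
    ∀ᶠ t in atTop, 2 * hh (n ^ t * (A ^ p * F ^ p)) = 2 * hh (n ^ t) +
      2 * p * (hh (n ^ t * A) - hh (n ^ t)) + 2 * p * (hh (n ^ t * F) - hh (n ^ t)) +
        p * (p - 1) * (a + b) + 2 * p * p * c := by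
  filter_upwards [expand_one hA hAA (F ^ p) (hF.pow p) p, expand_one hF hFF ⊤ Pm_top p,
    expand_cross hF hAF p] with t h1 h2 h3
  rw [Ideal.top_mul, Ideal.top_mul, Ideal.mul_top] at h2
  rw [mul_comm (A ^ p) (F ^ p)]
  rw [h3] at h1
  linarith

end Expand

section HodgeIndex

variable {S : Type*} [CommRing S] [IsLocalRing S] [IsNoetherianRing S]

theorem nonneg_of_quad (Q K K' : ℤ) (h : ∀ p : ℕ, 0 ≤ (p : ℤ) * p * Q + p * K + K') : 0 ≤ Q := by
  by_contra hQ
  push Not at hQ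
  have h1 := h (K.natAbs + K'.natAbs + 1)
  set p : ℤ := ((K.natAbs + K'.natAbs + 1 : ℕ) : ℤ) with hp
  have h2 : p = |K| + |K'| + 1 := by
    rw [hp]; push_cast; simp
  have h3 : K ≤ |K| := le_abs_self K
  have h4 : K' ≤ |K'| := le_abs_self K'
  have h5 : 0 ≤ |K| := abs_nonneg K
  have h6 : 0 ≤ |K'| := abs_nonneg K'
  have hp1 : 1 ≤ p := by rw [h2]; linarith
  have h7 : p * p * Q ≤ -(p * p) := by nlinarith
  have h8 : p * K ≤ p * |K| := by nlinarith
  nlinarith

theorem hodge (hG : Good S) (n A C F : Ideal S) (hn : Pm n) (hnm : n ≤ maximalIdeal S)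
    (hCF : C * F = n) (hA : A ∣ n) {a c d : ℤ} (hAA : IsB n A A a) (hCC : IsB n C C c)
    (hAC : IsB n A C d) : 0 ≤ a + c - 2 * d := by
  have hCn : C ∣ n := ⟨F, hCF.symm⟩
  have hFn : F ∣ n := ⟨C, by rw [mul_comm]; exact hCF.symm⟩
  have hPC : Pm C := hn.of_dvd hCn
  have hPF : Pm F := hn.of_dvd hFn
  have hPA : Pm A := hn.of_dvd hA
  obtain ⟨ε, hε⟩ := exists_B hG n n n hn hnm dvd_rfl dvd_rfl
  obtain ⟨α, hα⟩ := exists_B hG n A n hn hnm hA dvd_rfl
  obtain ⟨φ, hφ⟩ := exists_B hG n F n hn hnm hFn dvd_rfl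
  obtain ⟨γ, hγ⟩ := exists_B hG n C n hn hnm hCn dvd_rfl
  obtain ⟨b, hFF⟩ := exists_B hG n F F hn hnm hFn hFn
  obtain ⟨e, hAF⟩ := exists_B hG n A F hn hnm hA hFn
  obtain ⟨g, hCFb⟩ := exists_B hG n C F hn hnm hCn hFn
  have r1 : ε = γ + φ := by
    have := hγ.mul hPC hφ
    rw [hCF] at this
    exact hε.unique this
  have r2 : φ = g + b := by
    have := hCFb.mul hPC hFF
    rw [hCF] at this
    exact hφ.symm.unique this
  have r3 : γ = c + g := by
    have := hCC.mul hPC hCFb.symm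
    rw [hCF] at this
    exact hγ.symm.unique this
  have r4 : α = d + e := by
    have := hAC.symm.mul hPC hAF.symm
    rw [hCF] at this
    exact hα.symm.unique this
  obtain ⟨c₀, η, hkey⟩ := key_ineq hG n A C F hn hnm hCF hA
  obtain ⟨T, hT⟩ := (((hε ⊤ Pm_top).and (hα ⊤ Pm_top)).and (hφ ⊤ Pm_top)).exists_forall_of_atTop
  have hH : ∀ t, T ≤ t → hh (n ^ (t + 2)) - 2 * hh (n ^ (t + 1)) + hh (n ^ t) = ε := by
    intro t ht
    have h1 := (hT t ht).1.1
    rw [Ideal.top_mul, Ideal.mul_top, Ideal.top_mul, ← pow_succ, ← mul_assoc, ← pow_succ,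
      ← pow_succ] at h1
    rw [show t + 2 = t + 1 + 1 from rfl]
    linarith
  have hDA : ∀ t, T ≤ t → hh (n ^ (t + 1) * A) - hh (n ^ (t + 1)) =
      hh (n ^ t * A) - hh (n ^ t) + α := by
    intro t ht
    have h1 := (hT t ht).1.2
    have e1 : n ^ t * (⊤ * (A * n)) = n ^ (t + 1) * A := by
      rw [Ideal.top_mul, pow_succ]; ring
    rw [e1, Ideal.mul_top, Ideal.top_mul, Ideal.top_mul, ← pow_succ] at h1
    linarith
  have hDF : ∀ t, T ≤ t → hh (n ^ (t + 1) * F) - hh (n ^ (t + 1)) =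
      hh (n ^ t * F) - hh (n ^ t) + φ := by
    intro t ht
    have h1 := (hT t ht).2
    have e1 : n ^ t * (⊤ * (F * n)) = n ^ (t + 1) * F := by
      rw [Ideal.top_mul, pow_succ]; ring
    rw [e1, Ideal.mul_top, Ideal.top_mul, Ideal.top_mul, ← pow_succ] at h1
    linarith
  set Δ := hh (n ^ (T + 1)) - hh (n ^ T) with hΔ
  have hD : ∀ u : ℕ, hh (n ^ (T + u + 1)) - hh (n ^ (T + u)) = Δ + u * ε := by
    intro u
    induction u with
    | zero => simp [hΔ]
    | succ u ih =>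
      have := hH (T + u) (by omega)
      rw [show T + u + 2 = T + (u + 1) + 1 from rfl, show T + u + 1 = T + (u + 1) from rfl]
        at this
      rw [show T + u + 1 = T + (u + 1) from rfl] at ih
      push_cast
      linarith
  have hHu : ∀ u : ℕ, 2 * hh (n ^ (T + u)) = 2 * hh (n ^ T) + 2 * u * Δ + u * (u - 1) * ε := by
    intro u
    induction u with
    | zero => simp
    | succ u ih =>
      have := hD u
      rw [show T + (u + 1) = T + u + 1 from rfl]
      push_cast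
      linarith
  have hAu : ∀ u : ℕ, hh (n ^ (T + u) * A) - hh (n ^ (T + u)) =
      (hh (n ^ T * A) - hh (n ^ T)) + u * α := by
    intro u
    induction u with
    | zero => simp
    | succ u ih =>
      have := hDA (T + u) (by omega)
      rw [show T + (u + 1) = T + u + 1 from rfl]
      push_cast
      linarith
  have hFu : ∀ u : ℕ, hh (n ^ (T + u) * F) - hh (n ^ (T + u)) =
      (hh (n ^ T * F) - hh (n ^ T)) + u * φ := by
    intro u
    induction u with
    | zero => simp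
    | succ u ih =>
      have := hDF (T + u) (by omega)
      rw [show T + (u + 1) = T + u + 1 from rfl]
      push_cast
      linarith
  set κ : ℤ := (T : ℤ) - c₀ with hκ
  set H0 := hh (n ^ T) with hH0
  set A0 := hh (n ^ T * A) - H0 with hA0
  set F0 := hh (n ^ T * F) - H0 with hF0
  have hquad : ∀ p : ℕ, 0 ≤ (p : ℤ) * p * (a + c - 2 * d) +
      p * (2 * A0 + 2 * F0 - (a + b) + 2 * η - 2 * Δ - 2 * κ * (α + φ) + ε * (2 * κ + 1)) +
        (2 * H0 - 2 * κ * Δ + ε * κ * (κ + 1)) := by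
    intro p
    obtain ⟨T₀, hT₀, hk⟩ := hkey p
    obtain ⟨T₁, hT₁⟩ := (expand hPA hPF hAA hFF hAF p).exists_forall_of_atTop
    have hk1 := hk (T + (T₀ + T₁)) (by omega)
      (fun t => hh (n ^ t * (A ^ p * F ^ p))) (fun t => rfl)
    have x0 := hT₁ (T + (T₀ + T₁)) (by omega)
    have x1 := hT₁ (T + (T₀ + T₁ + 1)) (by omega)
    have x2 := hT₁ (T + (T₀ + T₁ + 2)) (by omega)
    rw [hHu, hAu, hFu] at x0 x1 x2
    rw [show T + (T₀ + T₁) + 1 = T + (T₀ + T₁ + 1) from rfl,
      show T + (T₀ + T₁) + 2 = T + (T₀ + T₁ + 2) from rfl] at hk1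
    set v0 := hh (n ^ (T + (T₀ + T₁)) * (A ^ p * F ^ p)) with hv0
    set v1 := hh (n ^ (T + (T₀ + T₁ + 1)) * (A ^ p * F ^ p)) with hv1
    set v2 := hh (n ^ (T + (T₀ + T₁ + 2)) * (A ^ p * F ^ p)) with hv2
    push_cast at x0 x1 x2 hk1
    set P : ℤ := (p : ℤ) with hP
    set u : ℤ := (T₀ : ℤ) + T₁ with hu
    have hs1 : 2 * (v1 - v0) = 2 * Δ + 2 * u * ε + 2 * P * (α + φ) := by
      linear_combination x1 - x0
    have hs2 : (v2 - v1) - (v1 - v0) = ε := by
      have : 2 * ((v2 - v1) - (v1 - v0)) = 2 * ε := by linear_combination x2 - 2 * x1 + x0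
      linarith
    rw [hs2] at hk1
    have hk2 : (P + ((T : ℤ) + u) + 1 - c₀) * (2 * Δ + 2 * u * ε + 2 * P * (α + φ)) -
        ε * (P + ((T : ℤ) + u) + 1 - c₀) * ((P + ((T : ℤ) + u) + 1 - c₀) - 1) ≤
          2 * (v1 + P * η) := by
      have : 2 * (P + ((T : ℤ) + u) + 1 - c₀) * (v1 - v0) =
        (P + ((T : ℤ) + u) + 1 - c₀) * (2 * Δ + 2 * u * ε + 2 * P * (α + φ)) := by
        rw [← hs1]; ring
      rw [← this]
      exact hk1
    have hT' : (T : ℤ) = κ + c₀ := by rw [hκ]; ring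
    rw [hT'] at hk2
    have e4 : 2 * (v1 + P * η) = 2 * H0 + 2 * (u + 1) * Δ + (u + 1) * (u + 1 - 1) * ε +
        2 * P * (A0 + (u + 1) * α) + 2 * P * (F0 + (u + 1) * φ) + P * (P - 1) * (a + b) +
          2 * P * P * e + 2 * P * η := by
      linear_combination x1
    rw [e4] at hk2
    have hb : b = φ - γ + c := by linarith
    have he : e = α - d := by linarith
    rw [hb, he] at hk2
    rw [hb]
    rw [r1] at hk2 ⊢
    linarith [hk2]
  exact nonneg_of_quad _ _ _ hquad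

end HodgeIndex

end Vale.Agent.P202
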