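import Vale.Agent.P202.Fin

namespace Vale.Agent.P202

open IsLocalRing Polynomial

attribute [local instance] Polynomial.algebra

section

variable (R : Type*) [CommRing R] [IsLocalRing R]

noncomputable abbrev pZ : Ideal R[X] := (maximalIdeal R).map (Polynomial.C : R →+* R[X])

instance pZ_prime : (pZ R).IsPrime := Ideal.isPrime_map_C_of_isPrime

abbrev RZ : Type _ := Localization.AtPrime (pZ R)

theorem RZ_map : (maximalIdeal R).map (algebraMap R (RZ R)) = maximalIdeal (RZ R) := by
  rw [← IsLocalization.AtPrime.map_eq_maximalIdeal (pZ R) (RZ R),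
    IsScalarTower.algebraMap_eq R R[X] (RZ R), ← Ideal.map_map]
  rfl

theorem RZ_flat : Module.Flat R (RZ R) := by
  have : Module.Flat R[X] (RZ R) := IsLocalization.flat (RZ R) (pZ R).primeCompl
  exact Module.Flat.trans R R[X] (RZ R)

theorem RZ_noeth [IsNoetherianRing R] : IsNoetherianRing (RZ R) :=
  IsLocalization.isNoetherianRing (pZ R).primeCompl (RZ R) inferInstance

theorem isLocalHom_of_map_le {A B : Type*} [CommRing A] [IsLocalRing A] [CommRing B]
    [IsLocalRing B] [Algebra A B]
    (h : (maximalIdeal A).map (algebraMap A B) ≤ maximalIdeal B) :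
    IsLocalHom (algebraMap A B) := by
  constructor
  intro a ha
  by_contra hn
  have h1 : a ∈ maximalIdeal A := (mem_maximalIdeal _).mpr hn
  have h2 : algebraMap A B a ∈ maximalIdeal B := h (Ideal.mem_map_of_mem _ h1)
  exact ((mem_maximalIdeal _).mp h2) ha

theorem RZ_inf : Infinite (ResidueField (RZ R)) := by
  by_contra hcon
  rw [not_infinite_iff_finite] at hcon
  have := Fintype.ofFinite (ResidueField (RZ R))
  set q := Fintype.card (ResidueField (RZ R)) with hq
  have hq1 : 1 < q := Fintype.one_lt_card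
  have h1 : residue (RZ R) (algebraMap R[X] (RZ R) (X ^ q - X)) = 0 := by
    rw [map_sub, map_sub, map_pow, map_pow, FiniteField.pow_card, sub_self]
  rw [residue_eq_zero_iff] at h1
  have h2 : (X ^ q - X : R[X]) ∈ pZ R :=
    (IsLocalization.AtPrime.to_map_mem_maximal_iff (RZ R) (pZ R) (X ^ q - X : R[X])).mp h1
  have h3 := (Ideal.mem_map_C_iff.mp h2) q
  rw [coeff_sub, coeff_X_pow_self, coeff_X_of_ne_one (by omega), sub_zero] at h3
  exact (Ideal.ne_top_iff_one _).mp (maximalIdeal.isMaximal R).ne_top h3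

variable (S : Type*) [CommRing S] [IsLocalRing S] [Algebra R S]

noncomputable abbrev MZ : Submonoid S[X] := Algebra.algebraMapSubmonoid S[X] (pZ R).primeCompl

abbrev SZ : Type _ := Localization (MZ R S)

noncomputable def SZ_basis {a : ℕ} (b : Module.Basis (Fin a) R S) :
    Module.Basis (Fin a) (RZ R) (SZ R S) :=
  ((Algebra.IsPushout.out (R := R) (S := R[X]) (R' := S) (S' := S[X])).basis
    b).localizationLocalization (RZ R) (pZ R).primeCompl (SZ R S)

theorem SZ_flat : Module.Flat S (SZ R S) := by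
  have : Module.Flat S[X] (SZ R S) := IsLocalization.flat (SZ R S) (MZ R S)
  exact Module.Flat.trans S S[X] (SZ R S)

omit [IsLocalRing S] in
theorem SZ_noeth [IsNoetherianRing S] : IsNoetherianRing (SZ R S) :=
  IsLocalization.isNoetherianRing (MZ R S) (SZ R S) inferInstance

theorem mem_comap_iff [IsLocalHom (algebraMap R S)] (x : R) :
    algebraMap R S x ∈ maximalIdeal S ↔ x ∈ maximalIdeal R := by
  rw [mem_maximalIdeal, mem_maximalIdeal, mem_nonunits_iff, mem_nonunits_iff, isUnit_map_iff]

theorem SZ_prime [IsLocalHom (algebraMap R S)] :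
    ((maximalIdeal S).map (algebraMap S (SZ R S))).IsPrime := by
  have h1 : (maximalIdeal S).map (algebraMap S (SZ R S)) =
      ((maximalIdeal S).map (Polynomial.C : S →+* S[X])).map (algebraMap S[X] (SZ R S)) := by
    rw [IsScalarTower.algebraMap_eq S S[X] (SZ R S), ← Ideal.map_map]
    rfl
  rw [h1]
  refine IsLocalization.isPrime_of_isPrime_disjoint (MZ R S) (SZ R S) _
    Ideal.isPrime_map_C_of_isPrime ?_
  rw [Set.disjoint_left]
  rintro _ ⟨f, hf, rfl⟩ hmem
  apply hf
  have h2 := Ideal.mem_map_C_iff.mp hmem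
  rw [SetLike.mem_coe, Ideal.mem_map_C_iff]
  intro i
  have h3 := h2 i
  have h4 : (algebraMap R[X] S[X] f).coeff i = algebraMap R S (f.coeff i) := by
    rw [Polynomial.algebraMap_def, coe_mapRingHom, coeff_map]
  exact (mem_comap_iff R S _).mp (by rw [← h4]; exact h3)

omit [IsLocalRing S] in
theorem SZ_map_le : (maximalIdeal (RZ R)).map (algebraMap (RZ R) (SZ R S)) =
    ((maximalIdeal R).map (algebraMap R S)).map (algebraMap S (SZ R S)) := by
  rw [← RZ_map R, Ideal.map_map, Ideal.map_map]
  have h : (algebraMap (RZ R) (SZ R S)).comp (algebraMap R (RZ R)) =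
      (algebraMap S (SZ R S)).comp (algebraMap R S) := by
    ext x
    rw [RingHom.comp_apply, RingHom.comp_apply]
    have h1 : algebraMap R (RZ R) x = algebraMap R[X] (RZ R) (Polynomial.C x) :=
      IsScalarTower.algebraMap_apply R R[X] (RZ R) x
    have h2 : algebraMap S (SZ R S) (algebraMap R S x) =
        algebraMap S[X] (SZ R S) (Polynomial.C (algebraMap R S x)) :=
      IsScalarTower.algebraMap_apply S S[X] (SZ R S) _
    rw [h1, h2, ← IsScalarTower.algebraMap_apply R[X] (RZ R) (SZ R S),
      IsScalarTower.algebraMap_apply R[X] S[X] (SZ R S), Polynomial.algebraMap_def,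
      coe_mapRingHom, map_C]
  rw [h]

omit [IsLocalRing S] in
theorem SZ_comap [IsLocalHom (algebraMap R S)] (Q : Ideal (SZ R S)) [Q.IsPrime]
    (hQ : (maximalIdeal (RZ R)).map (algebraMap (RZ R) (SZ R S)) ≤ Q) :
    Q.comap (algebraMap (RZ R) (SZ R S)) = maximalIdeal (RZ R) := by
  have h1 : maximalIdeal (RZ R) ≤ Q.comap (algebraMap (RZ R) (SZ R S)) :=
    Ideal.map_le_iff_le_comap.mp hQ
  exact ((maximalIdeal.isMaximal (RZ R)).eq_of_le
    (Ideal.IsPrime.ne_top (Ideal.comap_isPrime _ _)) h1).symm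

theorem SZ_max [IsLocalHom (algebraMap R S)] {a : ℕ} (b : Module.Basis (Fin a) R S) :
    ((maximalIdeal S).map (algebraMap S (SZ R S))).IsMaximal := by
  have hfin : Module.Finite (RZ R) (SZ R S) := Module.Finite.of_basis (SZ_basis R S b)
  have hint : Algebra.IsIntegral (RZ R) (SZ R S) := Algebra.IsIntegral.of_finite _ _
  have := SZ_prime R S
  refine Ideal.isMaximal_of_isIntegral_of_isMaximal_comap (R := RZ R) _ ?_
  rw [SZ_comap R S _ (by
    rw [SZ_map_le]
    exact Ideal.map_mono map_maximalIdeal_le)]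
  infer_instance

theorem SZ_local [IsLocalHom (algebraMap R S)] {a : ℕ} (b : Module.Basis (Fin a) R S)
    (hfib : ∃ K, maximalIdeal S ^ K ≤ (maximalIdeal R).map (algebraMap R S)) :
    IsLocalRing (SZ R S) := by
  have hfin : Module.Finite (RZ R) (SZ R S) := Module.Finite.of_basis (SZ_basis R S b)
  have hint : Algebra.IsIntegral (RZ R) (SZ R S) := Algebra.IsIntegral.of_finite _ _
  have hmax := SZ_max R S b
  refine IsLocalRing.of_unique_max_ideal ⟨_, hmax, fun Q hQ => ?_⟩
  have h1 : (Q.comap (algebraMap (RZ R) (SZ R S))).IsMaximal :=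
    Ideal.isMaximal_comap_of_isIntegral_of_isMaximal Q
  have h2 := IsLocalRing.eq_maximalIdeal h1
  have h3 : (maximalIdeal (RZ R)).map (algebraMap (RZ R) (SZ R S)) ≤ Q := by
    rw [Ideal.map_le_iff_le_comap, h2]
  obtain ⟨K, hK⟩ := hfib
  have h4 : (maximalIdeal S).map (algebraMap S (SZ R S)) ^ K ≤ Q := by
    rw [← Ideal.map_pow]
    refine (Ideal.map_mono hK).trans ?_
    rw [← SZ_map_le]
    exact h3
  have h5 := hQ.isPrime.le_of_pow_le h4
  exact (hmax.eq_of_le hQ.ne_top h5).symm


end

end Vale.Agent.P202
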