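import Vale.Agent.P202.FinG
import Vale.Agent.P202.InfFin

namespace Vale.Agent.P202

open IsLocalRing Polynomial

universe u v

attribute [local instance] Polynomial.algebra

theorem inf_pair (R : Type u) (S : Type v) [CommRing R] [IsLocalRing R] [IsNoetherianRing R]
    [CommRing S] [IsLocalRing S] [IsNoetherianRing S] [Algebra R S] [Module.Flat R S]
    [IsLocalHom (algebraMap R S)] :
    ∃ (R' : Type u) (S' : Type v) (_ : CommRing R') (_ : IsLocalRing R')
      (_ : IsNoetherianRing R') (_ : CommRing S') (_ : IsLocalRing S')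
      (_ : IsNoetherianRing S') (_ : Algebra R' S') (_ : Module.Flat R' S')
      (_ : IsLocalHom (algebraMap R' S')) (θ : S →+* S'), Infinite (ResidueField R') ∧
      (∀ N, cl (maximalIdeal R' ^ N) = cl (maximalIdeal R ^ N)) ∧
      (∀ N, cl (maximalIdeal S' ^ N) = cl (maximalIdeal S ^ N)) ∧
      (maximalIdeal S).map θ = maximalIdeal S' ∧
      ((maximalIdeal R).map (algebraMap R S)).map θ =
        (maximalIdeal R').map (algebraMap R' S') := by
  let f : R[X] →+* S[X] := Polynomial.mapRingHom (algebraMap R S)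
  have hf : f.Flat := by
    have h1 : Module.Flat R[X] S[X] :=
      Module.Flat.isBaseChange R R[X] S S[X]
        (Algebra.IsPushout.out (R := R) (S := R[X]) (R' := S) (S' := S[X]))
    have h2 : f = algebraMap R[X] S[X] := (Polynomial.algebraMap_def R S).symm
    rw [h2]
    exact RingHom.flat_algebraMap_iff.mpr h1
  have hcomap : pZ R = (pZ S).comap f := by
    ext g
    rw [Ideal.mem_comap, Ideal.mem_map_C_iff, Ideal.mem_map_C_iff]
    refine forall_congr' fun i => ?_
    rw [coe_mapRingHom, coeff_map, mem_comap_iff]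
  let φ : RZ R →+* RZ S := Localization.localRingHom (pZ R) (pZ S) f hcomap
  have hφ : φ.Flat := RingHom.Flat.localRingHom hf _ _ hcomap
  let _ : Algebra (RZ R) (RZ S) := φ.toAlgebra
  have hflat : Module.Flat (RZ R) (RZ S) := hφ
  have hloc : IsLocalHom (algebraMap (RZ R) (RZ S)) :=
    Localization.isLocalHom_localRingHom (pZ R) (pZ S) f hcomap
  have i1 : IsNoetherianRing (RZ R) := RZ_noeth R
  have i2 : Module.Flat R (RZ R) := RZ_flat R
  have i3 : IsLocalHom (algebraMap R (RZ R)) := isLocalHom_of_map_le (RZ_map R).le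
  have i4 : Infinite (ResidueField (RZ R)) := RZ_inf R
  have j1 : IsNoetherianRing (RZ S) := RZ_noeth S
  have j2 : Module.Flat S (RZ S) := RZ_flat S
  have j3 : IsLocalHom (algebraMap S (RZ S)) := isLocalHom_of_map_le (RZ_map S).le
  refine ⟨RZ R, RZ S, inferInstance, inferInstance, i1, inferInstance, inferInstance, j1,
    inferInstance, hflat, hloc, algebraMap S (RZ S), i4, ?_, ?_, RZ_map S, ?_⟩
  · intro N
    rw [← RZ_map R, ← Ideal.map_pow]
    exact cl_flat R (RZ R) (RZ_map R) _
  · intro N
    rw [← RZ_map S, ← Ideal.map_pow]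
    exact cl_flat S (RZ S) (RZ_map S) _
  · rw [← RZ_map R, Ideal.map_map, Ideal.map_map]
    congr 1
    ext x
    rw [RingHom.comp_apply, RingHom.comp_apply]
    have h1 : algebraMap R (RZ R) x = algebraMap R[X] (RZ R) (Polynomial.C x) :=
      IsScalarTower.algebraMap_apply R R[X] (RZ R) x
    have h2 : algebraMap S (RZ S) (algebraMap R S x) =
        algebraMap S[X] (RZ S) (Polynomial.C (algebraMap R S x)) :=
      IsScalarTower.algebraMap_apply S S[X] (RZ S) _
    rw [h1, h2]
    have h3 : algebraMap (RZ R) (RZ S) (algebraMap R[X] (RZ R) (Polynomial.C x)) =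
        algebraMap S[X] (RZ S) (f (Polynomial.C x)) :=
      Localization.localRingHom_to_map (pZ R) (pZ S) f hcomap (Polynomial.C x)
    rw [h3, coe_mapRingHom, map_C]

end Vale.Agent.P202
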