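import Vale.Agent.P202.Seq

namespace Vale.Agent.P202

open IsLocalRing Polynomial TensorProduct

universe u

theorem exists_infinite_residue (S : Type u) [CommRing S] [IsLocalRing S] [IsNoetherianRing S] :
    ∃ (S' : Type u) (_ : CommRing S') (_ : IsLocalRing S') (_ : IsNoetherianRing S')
      (_ : Algebra S S'), Module.Flat S S' ∧ IsLocalHom (algebraMap S S') ∧
      (maximalIdeal S).map (algebraMap S S') = maximalIdeal S' ∧ Infinite (ResidueField S') := by
  let p : Ideal S[X] := (maximalIdeal S).map (Polynomial.C : S →+* S[X])
  have hp : p.IsPrime := Ideal.isPrime_map_C_of_isPrime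
  let S' := Localization.AtPrime p
  have hmap : (maximalIdeal S).map (algebraMap S S') = maximalIdeal S' := by
    rw [← IsLocalization.AtPrime.map_eq_maximalIdeal p S', IsScalarTower.algebraMap_eq S S[X] S',
      ← Ideal.map_map]
    rfl
  refine ⟨S', inferInstance, inferInstance, ?_, inferInstance, ?_, ?_, hmap, ?_⟩
  · exact IsLocalization.isNoetherianRing p.primeCompl S' inferInstance
  · have : Module.Flat S[X] S' := IsLocalization.flat S' p.primeCompl
    exact Module.Flat.trans S S[X] S'
  · constructor
    intro a ha
    by_contra h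
    have h1 : a ∈ maximalIdeal S := (mem_maximalIdeal _).mpr h
    have h2 : algebraMap S S' a ∈ maximalIdeal S' := by
      rw [← hmap]
      exact Ideal.mem_map_of_mem _ h1
    exact ((mem_maximalIdeal _).mp h2) ha
  · by_contra hcon
    rw [not_infinite_iff_finite] at hcon
    have := Fintype.ofFinite (ResidueField S')
    set q := Fintype.card (ResidueField S') with hq
    have hq1 : 1 < q := Fintype.one_lt_card
    have h1 : residue S' (algebraMap S[X] S' (X ^ q - X)) = 0 := by
      rw [map_sub, map_sub, map_pow, map_pow, FiniteField.pow_card, sub_self]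
    rw [residue_eq_zero_iff] at h1
    have h2 : (X ^ q - X : S[X]) ∈ p := by
      have h3 := (IsLocalization.AtPrime.to_map_mem_maximal_iff S' p (X ^ q - X : S[X])).mp h1
      exact h3
    have h3 := (Ideal.mem_map_C_iff.mp h2) q
    rw [coeff_sub, coeff_X_pow_self, coeff_X_of_ne_one (by omega), sub_zero] at h3
    exact (Ideal.ne_top_iff_one _).mp (maximalIdeal.isMaximal S).ne_top h3

theorem cl_flat (S S' : Type*) [CommRing S] [IsLocalRing S]
    [CommRing S'] [IsLocalRing S'] [Algebra S S'] [Module.Flat S S']
    [IsLocalHom (algebraMap S S')]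
    (hmap : (maximalIdeal S).map (algebraMap S S') = maximalIdeal S') (I : Ideal S) :
    cl (I.map (algebraMap S S')) = cl I := by
  unfold cl
  have h1 := IsLocalRing.length_baseChange S S' (S ⧸ I)
  rw [hmap] at h1
  have h2 := cl_maximalIdeal (R := S')
  unfold cl at h2
  rw [h2, mul_one] at h1
  rw [← h1]
  exact (Algebra.TensorProduct.quotIdealMapEquivTensorQuot S' I).toLinearEquiv.length_eq

end Vale.Agent.P202
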