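import Vale.Agent.P202.W2
import Vale.Agent.P202.Dim

namespace Vale.Agent.P202

open Finset Matrix IsLocalRing

section Pull

variable {R R' M M' : Type*} [CommRing R] [CommRing R'] [Algebra R R'] [AddCommGroup M]
  [Module R M] [AddCommGroup M'] [Module R M'] [Module R' M'] [IsScalarTower R R' M']

theorem length_pull (hR : Function.Surjective (algebraMap R R')) (π : M →ₗ[R] M')
    (hπ : Function.Surjective π) (V : Submodule R M) (V' : Submodule R' M')
    (h : ∀ v, v ∈ V ↔ π v ∈ V') :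
    Module.length R (M ⧸ V) = Module.length R' (M' ⧸ V') := by
  let q : M' →ₗ[R] (M' ⧸ V') := (Submodule.mkQ V').restrictScalars R
  let f : M →ₗ[R] (M' ⧸ V') := q ∘ₗ π
  have hf : Function.Surjective f := by
    intro z
    obtain ⟨z, rfl⟩ := Submodule.Quotient.mk_surjective _ z
    obtain ⟨w, rfl⟩ := hπ z
    exact ⟨w, rfl⟩
  have hker : LinearMap.ker f = V := by
    ext v
    rw [LinearMap.mem_ker, h v]
    exact Submodule.Quotient.mk_eq_zero V'
  have h1 : Module.length R (M ⧸ LinearMap.ker f) = Module.length R (M' ⧸ V') :=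
    (f.quotKerEquivOfSurjective hf).length_eq
  rw [hker] at h1
  rw [h1]
  exact Module.length_eq_of_surjective (R := R') (S := R) (M := M' ⧸ V') hR

theorem cl_pull (hR : Function.Surjective (algebraMap R R')) (I : Ideal R) (I' : Ideal R')
    (h : ∀ v, v ∈ I ↔ algebraMap R R' v ∈ I') : cl I = cl I' := by
  exact length_pull hR (Algebra.linearMap R R') hR I I' h

end Pull

section Mem

variable {R R' : Type*} [CommRing R] [CommRing R'] (φ : R →+* R')
  (hφ : Function.Surjective φ) {a : ℕ} {ι : Type*} [Fintype ι]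

include hφ in
theorem mem_range_sup_UI (Φ : Matrix (Fin a) ι R) (J : Ideal R) (J' : Ideal R')
    (hJ : ∀ x, x ∈ J ↔ φ x ∈ J') (v : Fin a → R) :
    v ∈ LinearMap.range Φ.mulVecLin ⊔ UI (Fin a) J ↔
      (fun i => φ (v i)) ∈ LinearMap.range (Φ.map φ).mulVecLin ⊔ UI (Fin a) J' := by
  constructor
  · intro hv
    obtain ⟨_, ⟨u, rfl⟩, w, hw, rfl⟩ := Submodule.mem_sup.mp hv
    have h1 : (fun i => φ ((Φ.mulVecLin u + w) i)) =
        (Φ.map φ).mulVecLin (φ ∘ u) + (fun i => φ (w i)) := by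
      funext i
      rw [Pi.add_apply, Pi.add_apply, map_add, Matrix.mulVecLin_apply, Matrix.mulVecLin_apply,
        RingHom.map_mulVec]
    rw [h1]
    exact Submodule.add_mem_sup ⟨_, rfl⟩ fun i => (hJ _).mp (hw i)
  · intro hv
    obtain ⟨_, ⟨u', rfl⟩, w', hw', h1⟩ := Submodule.mem_sup.mp hv
    choose u hu using fun c => hφ (u' c)
    have h2 : v = Φ.mulVecLin u + (v - Φ.mulVecLin u) := by abel
    rw [h2]
    refine Submodule.add_mem_sup ⟨_, rfl⟩ fun i => ?_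
    rw [hJ]
    have h3 : φ ((v - Φ.mulVecLin u) i) = w' i := by
      have h4 := congrFun h1 i
      rw [Pi.add_apply, Matrix.mulVecLin_apply] at h4
      have h5 : φ ∘ u = u' := funext hu
      rw [Pi.sub_apply, map_sub, ← h4, Matrix.mulVecLin_apply, RingHom.map_mulVec, h5]
      ring
    rw [h3]
    exact hw' i

end Mem

section Quot

variable {R : Type*} [CommRing R] [IsLocalRing R] [IsNoetherianRing R]

omit [IsNoetherianRing R] in
theorem cl_sup_sat (𝔤 K : Ideal R) : cl (𝔤 ⊔ K) ≤ cl (sat 𝔤 ⊔ K) + rl 𝔤 (sat 𝔤) := by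
  have h1 : 𝔤 ⊔ K ≤ sat 𝔤 ⊔ (𝔤 ⊔ K) := le_sup_right
  have h2 : sat 𝔤 ⊔ (𝔤 ⊔ K) = sat 𝔤 ⊔ K := by
    rw [← sup_assoc, sup_eq_left.mpr (le_sat 𝔤)]
  have h3 := cl_eq_rl_add h1
  rw [rl_sup, h2] at h3
  rw [h3, add_comm]
  gcongr
  exact rl_anti (le_inf (le_sat 𝔤) le_sup_left)

theorem good_quot (hinf : Infinite (ResidueField R)) (𝔤 : Ideal R)
    (hdim : ringKrullDim (R ⧸ 𝔤) ≤ 2) [IsLocalRing (R ⧸ sat 𝔤)]
    (hmax : (maximalIdeal R).map (Ideal.Quotient.mk (sat 𝔤)) = maximalIdeal (R ⧸ sat 𝔤)) :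
    Good (R ⧸ sat 𝔤) := by
  have hloc : IsLocalHom (Ideal.Quotient.mk (sat 𝔤)) :=
    Function.Surjective.isLocalHom _ Ideal.Quotient.mk_surjective
  refine ⟨?_, ?_, ?_⟩
  · exact Infinite.of_injective (ResidueField.map (Ideal.Quotient.mk (sat 𝔤)))
      (RingHom.injective _)
  · intro w hw
    obtain ⟨w, rfl⟩ := Ideal.Quotient.mk_surjective w
    rw [Ideal.Quotient.eq_zero_iff_mem]
    obtain ⟨s, hs⟩ := exists_sat_pow 𝔤
    refine ⟨s + 1, fun u hu => ?_⟩
    rw [pow_succ] at hu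
    refine Submodule.mul_induction_on hu ?_ ?_
    · intro p hp q hq
      have h1 : q * w ∈ sat 𝔤 := by
        rw [← Ideal.Quotient.eq_zero_iff_mem, map_mul]
        refine hw _ ?_
        rw [← hmax]
        exact Ideal.mem_map_of_mem _ hq
      rw [mul_assoc]
      exact hs (Ideal.mul_mem_mul hp h1)
    · intro p q hp hq
      rw [add_mul]
      exact 𝔤.add_mem hp hq
  · refine le_trans ?_ hdim
    exact ringKrullDim_le_of_surjective (Ideal.Quotient.factor (le_sat 𝔤))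
      (Ideal.Quotient.factor_surjective (le_sat 𝔤))

omit [IsNoetherianRing R] in
theorem e_zero (E₀ K₀ C : ℕ) (h : ∀ k : ℕ, (E₀ : ℤ) * k ^ 2 ≤ C + K₀ * k + K₀) : E₀ = 0 := by
  by_contra hne
  have h1 : 1 ≤ E₀ := Nat.one_le_iff_ne_zero.mpr hne
  have h2 := h (C + 2 * K₀ + 1)
  push_cast at h2
  have h3 : (1 : ℤ) ≤ E₀ := by exact_mod_cast h1
  have h4 : (0 : ℤ) ≤ C := by positivity
  have h5 : (0 : ℤ) ≤ K₀ := by positivity
  nlinarith [mul_nonneg h4 h5, mul_nonneg h5 h5, mul_nonneg h4 h4,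
    mul_nonneg (sub_nonneg.mpr h3) (sq_nonneg ((C : ℤ) + 2 * K₀ + 1))]

theorem W_quot (hinf : Infinite (ResidueField R)) (𝔤 : Ideal R)
    (hdim : ringKrullDim (R ⧸ 𝔤) ≤ 2) {a : ℕ}
    (X Y : Matrix (Fin a) (Fin a) R) (hXY : X * Y = Y * X) (l₀ : ℕ)
    (hl₀ : Module.length R ((Fin a → R) ⧸ (LinearMap.range (fromCols X Y).mulVecLin ⊔
      UI (Fin a) 𝔤)) ≤ l₀)
    (E₀ K₀ : ℕ) (hE : ∀ k : ℕ, (E₀ : ℤ) * k ^ 2 ≤
      2 * (cl (𝔤 ⊔ maximalIdeal R ^ k)).toNat + K₀ * k + K₀) :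
    ∃ β : ℕ, Module.length R ((Fin a → R) ⧸ (LinearMap.range (fromCols X Y).mulVecLin ⊔
      UI (Fin a) (maximalIdeal R))) ≤ β ∧ β * E₀ ≤ l₀ := by
  by_cases hH : sat 𝔤 = ⊤
  · obtain ⟨s, hs⟩ := exists_sat_pow 𝔤
    rw [hH, Ideal.mul_top] at hs
    have hft : cl 𝔤 ≠ ⊤ := Pm.cl_ne_top ⟨s, hs⟩
    obtain ⟨C, hC⟩ := ENat.ne_top_iff_exists.mp hft
    have hE0 : E₀ = 0 := by
      refine e_zero E₀ K₀ (2 * C) fun k => (hE k).trans ?_
      have h1 : cl (𝔤 ⊔ maximalIdeal R ^ k) ≤ cl 𝔤 := cl_anti le_sup_left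
      have h2 : (cl (𝔤 ⊔ maximalIdeal R ^ k)).toNat ≤ C := by
        have h3 := ENat.toNat_le_toNat h1 hft
        rw [← hC] at h3
        simpa using h3
      have h3 : ((cl (𝔤 ⊔ maximalIdeal R ^ k)).toNat : ℤ) ≤ C := by exact_mod_cast h2
      push_cast
      linarith
    refine ⟨a, ?_, by rw [hE0]; simp⟩
    have h1 : UI (Fin a) (maximalIdeal R) ≤ LinearMap.range (fromCols X Y).mulVecLin ⊔
      UI (Fin a) (maximalIdeal R) := le_sup_right
    refine (Module.length_le_of_surjective (Submodule.factor h1)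
      (Submodule.factor_surjective h1)).trans ?_
    rw [length_UI, cl_maximalIdeal, mul_one, Fintype.card_fin]
  · have hnt : Nontrivial (R ⧸ sat 𝔤) := Ideal.Quotient.nontrivial_iff.mpr hH
    have hlr : IsLocalRing (R ⧸ sat 𝔤) :=
      IsLocalRing.of_surjective' (Ideal.Quotient.mk (sat 𝔤)) Ideal.Quotient.mk_surjective
    have hmax : (maximalIdeal R).map (Ideal.Quotient.mk (sat 𝔤)) =
        maximalIdeal (R ⧸ sat 𝔤) :=
      IsLocalRing.map_maximalIdeal_of_surjective (Ideal.Quotient.mk (sat 𝔤))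
        Ideal.Quotient.mk_surjective
    have hG := good_quot hinf 𝔤 hdim hmax
    have hsurj : Function.Surjective (algebraMap R (R ⧸ sat 𝔤)) := Ideal.Quotient.mk_surjective
    let π : (Fin a → R) →ₗ[R] (Fin a → R ⧸ sat 𝔤) :=
      (Algebra.linearMap R (R ⧸ sat 𝔤)).compLeft (Fin a)
    have hπ : Function.Surjective π := by
      intro v
      choose w hw using fun i => hsurj (v i)
      exact ⟨w, funext hw⟩
    have hπa : ∀ v i, π v i = Ideal.Quotient.mk (sat 𝔤) (v i) := fun v i => rfl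
    set X' := X.map (Ideal.Quotient.mk (sat 𝔤)) with hX'
    set Y' := Y.map (Ideal.Quotient.mk (sat 𝔤)) with hY'
    have hXY' : X' * Y' = Y' * X' := by
      rw [hX', hY', ← Matrix.map_mul, hXY, Matrix.map_mul]
    set Φ := fromCols X Y with hΦ
    have hΦ' : fromCols X' Y' = Φ.map (Ideal.Quotient.mk (sat 𝔤)) := by
      rw [hΦ, fromCols_map]
    have hsq : ∀ x, x ∈ sat 𝔤 ↔ Ideal.Quotient.mk (sat 𝔤) x ∈ (⊥ : Ideal (R ⧸ sat 𝔤)) := by
      intro x
      rw [Ideal.mem_bot, Ideal.Quotient.eq_zero_iff_mem]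
    have hmq : ∀ x, x ∈ maximalIdeal R ↔
        Ideal.Quotient.mk (sat 𝔤) x ∈ maximalIdeal (R ⧸ sat 𝔤) := by
      intro x
      have hloc : IsLocalHom (Ideal.Quotient.mk (sat 𝔤)) :=
        Function.Surjective.isLocalHom _ Ideal.Quotient.mk_surjective
      rw [mem_maximalIdeal, mem_maximalIdeal, mem_nonunits_iff, mem_nonunits_iff,
        isUnit_map_iff]
    have hpq : ∀ k x, x ∈ sat 𝔤 ⊔ maximalIdeal R ^ k ↔
        Ideal.Quotient.mk (sat 𝔤) x ∈ maximalIdeal (R ⧸ sat 𝔤) ^ k := by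
      intro k x
      rw [← hmax, ← Ideal.map_pow, ← Ideal.mem_comap,
        Ideal.comap_map_of_surjective _ Ideal.Quotient.mk_surjective, sup_comm,
        ← RingHom.ker_eq_comap_bot, Ideal.mk_ker]
    have hbot : LinearMap.range (fromCols X' Y').mulVecLin ⊔ UI (Fin a) ⊥ =
        LinearMap.range (fromCols X' Y').mulVecLin := by
      refine sup_eq_left.mpr ?_
      intro w hw
      have : w = 0 := funext fun i => hw i
      rw [this]
      exact Submodule.zero_mem _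
    have hlen1 : Module.length R ((Fin a → R) ⧸ (LinearMap.range Φ.mulVecLin ⊔
        UI (Fin a) (sat 𝔤))) = Module.length (R ⧸ sat 𝔤) ((Fin a → R ⧸ sat 𝔤) ⧸
          LinearMap.range (fromCols X' Y').mulVecLin) := by
      refine length_pull hsurj π hπ _ _ fun v => ?_
      rw [mem_range_sup_UI (Ideal.Quotient.mk (sat 𝔤)) Ideal.Quotient.mk_surjective Φ (sat 𝔤) ⊥
        hsq v, ← hΦ', hbot]
      rfl
    have hlen2 : Module.length R ((Fin a → R) ⧸ (LinearMap.range Φ.mulVecLin ⊔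
        UI (Fin a) (maximalIdeal R))) =
        Module.length (R ⧸ sat 𝔤) ((Fin a → R ⧸ sat 𝔤) ⧸
          (LinearMap.range (fromCols X' Y').mulVecLin ⊔
            UI (Fin a) (maximalIdeal (R ⧸ sat 𝔤)))) := by
      refine length_pull hsurj π hπ _ _ fun v => ?_
      rw [mem_range_sup_UI (Ideal.Quotient.mk (sat 𝔤)) Ideal.Quotient.mk_surjective Φ
        (maximalIdeal R) (maximalIdeal (R ⧸ sat 𝔤)) hmq v, ← hΦ']
      rfl
    have hlen3 : ∀ k, cl (sat 𝔤 ⊔ maximalIdeal R ^ k) = cl (maximalIdeal (R ⧸ sat 𝔤) ^ k) :=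
      fun k => cl_pull hsurj _ _ (hpq k)
    have hlen4 : Module.length (R ⧸ sat 𝔤) ((Fin a → R ⧸ sat 𝔤) ⧸
          LinearMap.range (fromCols X' Y').mulVecLin) ≤ l₀ := by
      rw [← hlen1]
      have h1 : LinearMap.range Φ.mulVecLin ⊔ UI (Fin a) 𝔤 ≤
          LinearMap.range Φ.mulVecLin ⊔ UI (Fin a) (sat 𝔤) :=
        sup_le_sup_left (fun w hw i => le_sat 𝔤 (hw i)) _
      exact (Module.length_le_of_surjective (Submodule.factor h1)
        (Submodule.factor_surjective h1)).trans hl₀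
    obtain ⟨l', hl'⟩ := ENat.ne_top_iff_exists.mp
      (ne_top_of_le_ne_top (ENat.natCast_ne_top l₀) hlen4)
    obtain ⟨c, hc⟩ := ENat.ne_top_iff_exists.mp (rl_sat_ne_top 𝔤)
    have hE' : ∀ k : ℕ, (E₀ : ℤ) * k ^ 2 ≤ 2 * hh (maximalIdeal (R ⧸ sat 𝔤) ^ k) +
        ((K₀ + 2 * c : ℕ) : ℤ) * k + ((K₀ + 2 * c : ℕ) : ℤ) := by
      intro k
      obtain ⟨h, hh1, hh2⟩ := exists_hh (Pm_max.pow k : Pm (maximalIdeal (R ⧸ sat 𝔤) ^ k))
      have h1 := cl_sup_sat 𝔤 (maximalIdeal R ^ k)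
      rw [hlen3 k, hh1, ← hc] at h1
      have h2 : (cl (𝔤 ⊔ maximalIdeal R ^ k)).toNat ≤ h + c := by
        have h3 := ENat.toNat_le_toNat h1 (by exact_mod_cast ENat.natCast_ne_top (h + c))
        have h4 : ((h : ℕ∞) + c).toNat = h + c := by
          have : ((h : ℕ∞) + c) = ((h + c : ℕ) : ℕ∞) := by push_cast; rfl
          rw [this, ENat.toNat_natCast]
        rwa [h4] at h3
      have h3 : ((cl (𝔤 ⊔ maximalIdeal R ^ k)).toNat : ℤ) ≤ h + c := by exact_mod_cast h2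
      have h4 := hE k
      rw [hh2]
      push_cast
      have h5 : (0 : ℤ) ≤ 2 * c * k := by positivity
      linarith
    obtain ⟨β, h1, h2⟩ := W_matrix hG X' Y' hXY' l' hl'.symm E₀ (K₀ + 2 * c) hE'
    refine ⟨β, ?_, h2.trans ?_⟩
    · rw [hlen2]
      exact h1
    · rw [← hl'] at hlen4
      exact_mod_cast hlen4

end Quot

end Vale.Agent.P202
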