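import Vale.Agent.P202.S2
import Vale.Agent.P202.W3

namespace Vale.Agent.P202

open IsLocalRing

section Unmix

variable {R : Type*} [CommRing R] [IsLocalRing R]

omit [IsLocalRing R] in
theorem cl_span_pow (P : Ideal R) (x : R) (k : ℕ) :
    cl (P ⊔ Ideal.span {x ^ k}) ≤ k * cl (P ⊔ Ideal.span {x}) := by
  induction k with
  | zero =>
    have h1 : P ⊔ Ideal.span {x ^ 0} = ⊤ := by
      rw [pow_zero, Ideal.span_singleton_one]
      exact sup_top_eq _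
    rw [h1, cl_top]
    exact zero_le
  | succ k ih =>
    have h1 := cl_qt (P ⊔ Ideal.span {x ^ (k + 1)}) x
    have h2 : cl (qt (P ⊔ Ideal.span {x ^ (k + 1)}) x) ≤ cl (P ⊔ Ideal.span {x ^ k}) := by
      refine cl_anti (sup_le ?_ ?_)
      · exact le_sup_left.trans (le_qt _ _)
      · rw [Ideal.span_singleton_le_iff_mem, mem_qt, ← pow_succ']
        exact Ideal.mem_sup_right (Ideal.mem_span_singleton_self _)
    have h3 : cl (P ⊔ Ideal.span {x ^ (k + 1)} ⊔ Ideal.span {x}) ≤ cl (P ⊔ Ideal.span {x}) := by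
      exact cl_anti (sup_le_sup_right le_sup_left _)
    rw [h1]
    push_cast
    rw [add_mul, one_mul]
    exact add_le_add (h2.trans ih) h3

def HSet (𝔤 : Ideal R) : Set (Ideal R) :=
  {𝔥 | 𝔤 ≤ 𝔥 ∧ ∃ C : ℕ, ∀ k : ℕ, cl (𝔤 ⊔ maximalIdeal R ^ k) ≤
    cl (𝔥 ⊔ maximalIdeal R ^ k) + (C * (k + 1) : ℕ)}

theorem HSet_enlarge [IsNoetherianRing R] {𝔤 𝔥 : Ideal R} (h : 𝔥 ∈ HSet 𝔤) {z x : R}
    (hx : x ∈ maximalIdeal R) (hP : Pm (qt 𝔥 z ⊔ Ideal.span {x})) :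
    𝔥 ⊔ Ideal.span {z} ∈ HSet 𝔤 := by
  obtain ⟨h1, C, hC⟩ := h
  obtain ⟨D, hD⟩ := ENat.ne_top_iff_exists.mp hP.cl_ne_top
  refine ⟨h1.trans le_sup_left, C + D, fun k => ?_⟩
  have h2 := cl_qt (𝔥 ⊔ maximalIdeal R ^ k) z
  have h3 : cl (qt (𝔥 ⊔ maximalIdeal R ^ k) z) ≤ cl (qt 𝔥 z ⊔ Ideal.span {x ^ k}) := by
    refine cl_anti (sup_le ?_ ?_)
    · intro w hw
      exact Ideal.mem_sup_left hw
    · rw [Ideal.span_singleton_le_iff_mem, mem_qt]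
      exact Ideal.mem_sup_right (Ideal.mul_mem_left _ _ (Ideal.pow_mem_pow hx k))
  have h4 := cl_span_pow (qt 𝔥 z) x k
  have h5 : 𝔥 ⊔ maximalIdeal R ^ k ⊔ Ideal.span {z} = 𝔥 ⊔ Ideal.span {z} ⊔ maximalIdeal R ^ k := by
    rw [sup_right_comm]
  rw [h5] at h2
  rw [← hD] at h4
  calc cl (𝔤 ⊔ maximalIdeal R ^ k) ≤ cl (𝔥 ⊔ maximalIdeal R ^ k) + (C * (k + 1) : ℕ) := hC k
    _ ≤ (k * (D : ℕ∞) + cl (𝔥 ⊔ Ideal.span {z} ⊔ maximalIdeal R ^ k)) + (C * (k + 1) : ℕ) := by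
        rw [h2]
        gcongr
        exact h3.trans h4
    _ = cl (𝔥 ⊔ Ideal.span {z} ⊔ maximalIdeal R ^ k) + ((k * D + C * (k + 1) : ℕ) : ℕ∞) := by
        push_cast
        ring
    _ ≤ _ := by
        gcongr
        have : k * D + C * (k + 1) ≤ (C + D) * (k + 1) := by nlinarith
        exact_mod_cast this

theorem precomplete_quot [IsPrecomplete (maximalIdeal R) R] (𝔥 : Ideal R)
    [IsLocalRing (R ⧸ 𝔥)] (hmax : (maximalIdeal R).map (Ideal.Quotient.mk 𝔥) =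
      maximalIdeal (R ⧸ 𝔥)) : IsPrecomplete (maximalIdeal (R ⧸ 𝔥)) (R ⧸ 𝔥) := by
  classical
  refine ⟨fun f hf => ?_⟩
  have hf' : ∀ n, f (n + 1) - f n ∈ (maximalIdeal (R ⧸ 𝔥)) ^ n := by
    intro n
    have h1 := hf (Nat.le_succ n)
    rw [SModEq.sub_mem, smul_eq_mul, Ideal.mul_top] at h1
    rw [← neg_sub]
    exact (Ideal.neg_mem_iff _).mpr h1
  have h1 : ∀ n, ∃ d ∈ maximalIdeal R ^ n, Ideal.Quotient.mk 𝔥 d = f (n + 1) - f n := by
    intro n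
    have h2 := hf' n
    rw [← hmax, ← Ideal.map_pow] at h2
    obtain ⟨d, hd, hd2⟩ := (Ideal.mem_map_iff_of_surjective _ Ideal.Quotient.mk_surjective).mp h2
    exact ⟨d, hd, hd2⟩
  choose d hd hd2 using h1
  obtain ⟨g0, hg0⟩ := Ideal.Quotient.mk_surjective (f 0)
  let g : ℕ → R := fun n => g0 + ∑ j ∈ Finset.range n, d j
  have hg : ∀ n, Ideal.Quotient.mk 𝔥 (g n) = f n := by
    intro n
    show Ideal.Quotient.mk 𝔥 (g0 + ∑ j ∈ Finset.range n, d j) = f n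
    rw [map_add, map_sum, hg0, Finset.sum_congr rfl fun j _ => hd2 j, Finset.sum_range_sub]
    ring
  obtain ⟨L, hL⟩ := exists_lim (maximalIdeal R) g (by
    intro n
    have : g (n + 1) - g n = d n := by
      show (g0 + ∑ j ∈ Finset.range (n + 1), d j) - (g0 + ∑ j ∈ Finset.range n, d j) = d n
      rw [Finset.sum_range_succ]
      ring
    rw [this]
    exact hd n)
  refine ⟨Ideal.Quotient.mk 𝔥 L, fun n => ?_⟩
  rw [SModEq.sub_mem, smul_eq_mul, Ideal.mul_top, ← neg_sub, Ideal.neg_mem_iff, ← hg n,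
    ← map_sub, ← hmax, ← Ideal.map_pow]
  exact Ideal.mem_map_of_mem _ (hL n)

theorem exists_unm [IsNoetherianRing R] (𝔤 : Ideal R) :
    ∃ 𝔥 ∈ HSet 𝔤, ∀ [IsLocalRing (R ⧸ 𝔥)], (maximalIdeal R).map (Ideal.Quotient.mk 𝔥) =
      maximalIdeal (R ⧸ 𝔥) → Unm (R ⧸ 𝔥) := by
  obtain ⟨𝔥, hH, hmax⟩ := set_has_maximal_iff_noetherian.mpr
    (inferInstance : IsNoetherian R R) (HSet 𝔤)
    ⟨𝔤, le_rfl, 0, fun k => by simp⟩
  refine ⟨𝔥, hH, ?_⟩
  intro _ hmx P' hP' w' hPw x' hx' hPm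
  obtain ⟨w, rfl⟩ := Ideal.Quotient.mk_surjective w'
  have hx2 : x' ∈ (maximalIdeal R).map (Ideal.Quotient.mk 𝔥) := by rw [hmx]; exact hx'
  obtain ⟨x, hx, rfl⟩ := (Ideal.mem_map_iff_of_surjective _ Ideal.Quotient.mk_surjective).mp hx2
  have hw : w ∉ 𝔥 := by
    intro hw
    apply hP'.ne_top
    rw [Ideal.eq_top_iff_one, hPw 1, Ideal.Quotient.eq_zero_iff_mem.mpr hw, mul_zero]
  have hPm2 : Pm (qt 𝔥 w ⊔ Ideal.span {x}) := by
    obtain ⟨c, hc⟩ := hPm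
    refine ⟨c, fun u hu => ?_⟩
    have h1 : Ideal.Quotient.mk 𝔥 u ∈ P' ⊔ Ideal.span {Ideal.Quotient.mk 𝔥 x} := by
      refine hc ?_
      rw [← hmx, ← Ideal.map_pow]
      exact Ideal.mem_map_of_mem _ hu
    obtain ⟨p', hp', q', hq', hpq⟩ := Submodule.mem_sup.mp h1
    obtain ⟨r', rfl⟩ := Ideal.mem_span_singleton.mp hq'
    obtain ⟨r, rfl⟩ := Ideal.Quotient.mk_surjective r'
    have h2 : u - x * r ∈ qt 𝔥 w := by
      rw [mem_qt, ← Ideal.Quotient.eq_zero_iff_mem, map_mul, map_sub, map_mul, ← hpq, mul_comm]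
      have h3 : p' + (Ideal.Quotient.mk 𝔥) x * (Ideal.Quotient.mk 𝔥) r -
        (Ideal.Quotient.mk 𝔥) x * (Ideal.Quotient.mk 𝔥) r = p' := by ring
      rw [h3]
      exact (hPw p').mp hp'
    have h3 : u = (u - x * r) + x * r := by ring
    rw [h3]
    exact Submodule.add_mem_sup h2 (Ideal.mul_mem_right _ _ (Ideal.mem_span_singleton_self x))
  refine hmax _ (HSet_enlarge hH hx hPm2) ?_
  refine lt_of_le_of_ne le_sup_left fun h => hw ?_
  rw [h]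
  exact Ideal.mem_sup_right (Ideal.mem_span_singleton_self w)

end Unmix

end Vale.Agent.P202
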