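import Vale.Agent.P202.LocH
import Vale.Agent.P202.Unmix

namespace Vale.Agent.P202

open Finset IsLocalRing

section Ide

variable {D : Type*} [CommRing D]

theorem one_le_rl {M : Type*} [AddCommGroup M] [Module D M] {V U : Submodule D M} {z : M}
    (hz : z ∈ U) (hz' : z ∉ V) : 1 ≤ rl V U := by
  rw [Order.one_le_iff_ne_zero]
  intro h5
  unfold rl at h5
  rw [Module.length_eq_zero_iff] at h5
  have h7 : (Submodule.Quotient.mk ⟨z, hz⟩ : ↥U ⧸ V.submoduleOf U) = 0 := Subsingleton.elim _ _
  rw [Submodule.Quotient.mk_eq_zero] at h7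
  exact hz' h7

theorem rl_mul_self {t : D} (ht : t ∈ nonZeroDivisors D) {I : Ideal D} (hI : cl I ≠ ⊤) :
    rl (Ideal.span {t} * I) I = cl (Ideal.span {t}) := by
  have h1 := cl_eq_rl_add (Ideal.mul_le_right : Ideal.span {t} * I ≤ I)
  have h2 := cl_eq_rl_add (Ideal.mul_le_left : Ideal.span {t} * I ≤ Ideal.span {t})
  have h3 := rl_scale ht I ⊤
  rw [Ideal.mul_top] at h3
  have h4 := cl_eq_rl_add (le_top : I ≤ ⊤)
  rw [cl_top, add_zero] at h4
  rw [h3, ← h4] at h2
  have h5 : cl I + rl (Ideal.span {t} * I) I = cl I + cl (Ideal.span {t}) := by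
    rw [add_comm, ← h1, h2]
  exact ENat.add_right_injective_of_ne_top hI h5

theorem chain_rl (a : ℕ → D) (J : Ideal D) (r : ℕ) (h : ∀ i < r, a i ∉ J ⊔ P a i) :
    (r : ℕ∞) ≤ rl J (J ⊔ P a r) := by
  induction r with
  | zero => exact_mod_cast zero_le
  | succ r ih =>
    have h1 := ih fun i hi => h i (by omega)
    have h2 : J ⊔ P a r ≤ J ⊔ P a (r + 1) := sup_le_sup_left (P_mono a (Nat.le_succ r)) _
    rw [rl_add (le_sup_left : J ≤ J ⊔ P a r) h2]
    push_cast
    refine add_le_add h1 (one_le_rl (z := a r) ?_ (h r (Nat.lt_succ_self r)))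
    rw [P_succ]
    exact Ideal.mem_sup_right (Ideal.mem_sup_right (Ideal.mem_span_singleton_self _))

end Ide

section Frac

variable {D : Type*} [CommRing D] [IsDomain D] {K : Type*} [Field K] [Algebra D K]
  [IsFractionRing D K]

def NS (f : ℕ → K) (i : ℕ) : Submodule D K := Submodule.span D (f '' {j | j < i})

omit [IsDomain D] [IsFractionRing D K] in
theorem NS_mono (f : ℕ → K) {i j : ℕ} (h : i ≤ j) : NS (D := D) f i ≤ NS f j :=
  Submodule.span_mono (Set.image_mono fun _ hk => lt_of_lt_of_le hk h)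

theorem bound_chain (V : Submodule D K) (t : D) (ht : t ≠ 0)
    (hfin : ∀ I : Ideal D, I ≠ ⊥ → cl I ≠ ⊤) (f : ℕ → K) (r : ℕ) (hf : ∀ i < r, f i ∈ V)
    (h : ∀ i < r, f i ∉ NS (D := D) f i ⊔ V.map (LinearMap.mulLeft D (algebraMap D K t))) :
    (r : ℕ∞) ≤ cl (Ideal.span {t}) := by
  classical
  obtain ⟨⟨b, hb⟩, hbf⟩ := IsLocalization.exist_integer_multiples (nonZeroDivisors D)
    (Finset.range r) f
  have hb0 : b ≠ 0 := nonZeroDivisors.ne_zero hb
  have hbK : algebraMap D K b ≠ 0 := by
    rw [Ne, IsFractionRing.to_map_eq_zero_iff]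
    exact hb0
  have ha : ∀ i : ℕ, ∃ a : D, i < r → algebraMap D K a = algebraMap D K b * f i := by
    intro i
    by_cases hi : i < r
    · obtain ⟨a, ha⟩ := hbf i (Finset.mem_range.mpr hi)
      refine ⟨a, fun _ => ?_⟩
      rw [ha, Algebra.smul_def]
    · exact ⟨0, fun h => absurd h hi⟩
  choose a ha using ha
  let g : D →ₗ[D] K := (LinearMap.mulRight D (algebraMap D K b)⁻¹) ∘ₗ (Algebra.linearMap D K)
  have hg : ∀ x, g x = algebraMap D K x * (algebraMap D K b)⁻¹ := fun x => rfl
  have hga : ∀ i < r, g (a i) = f i := by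
    intro i hi
    rw [hg, ha i hi, mul_comm (algebraMap D K b), mul_assoc, mul_inv_cancel₀ hbK, mul_one]
  have hgP : ∀ i ≤ r, ∀ x ∈ P a i, g x ∈ NS (D := D) f i := by
    intro i hi x hx
    have h1 : Submodule.map g (P a i) ≤ NS (D := D) f i := by
      unfold P
      rw [Ideal.span, Submodule.map_span, Submodule.span_le]
      rintro _ ⟨_, ⟨j, hj, rfl⟩, rfl⟩
      rw [hga j (lt_of_lt_of_le hj hi)]
      exact Submodule.subset_span ⟨j, hj, rfl⟩
    exact h1 (Submodule.mem_map_of_mem hx)
  have hNV : NS (D := D) f r ≤ V := by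
    unfold NS
    rw [Submodule.span_le]
    rintro _ ⟨j, hj, rfl⟩
    exact hf j hj
  by_cases hI : P a r = ⊥
  · have hr0 : r = 0 := by
      by_contra hr
      have h1 : a 0 ∈ P a r := Ideal.subset_span ⟨0, Nat.pos_of_ne_zero hr, rfl⟩
      rw [hI, Ideal.mem_bot] at h1
      have h2 := hga 0 (Nat.pos_of_ne_zero hr)
      rw [h1, map_zero] at h2
      refine h 0 (Nat.pos_of_ne_zero hr) ?_
      rw [← h2]
      exact Submodule.zero_mem _
    rw [hr0]
    exact_mod_cast zero_le
  · rw [← rl_mul_self (mem_nonZeroDivisors_of_ne_zero ht) (hfin _ hI)]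
    refine (chain_rl a (Ideal.span {t} * P a r) r ?_).trans ?_
    · intro i hi hmem
      obtain ⟨y, hy, z, hz, hyz⟩ := Submodule.mem_sup.mp hmem
      obtain ⟨w, hw, rfl⟩ := Ideal.mem_span_singleton_mul.mp hy
      apply h i hi
      rw [← hga i hi, ← hyz, map_add, add_comm]
      refine Submodule.add_mem_sup (hgP i hi.le z hz) ⟨g w, hNV (hgP r le_rfl w hw), ?_⟩
      rw [LinearMap.mulLeft_apply, hg, hg, map_mul, mul_assoc]
    · rw [sup_eq_right.mpr Ideal.mul_le_right]

theorem exists_gen (V : Submodule D K) (t : D) (ht : t ≠ 0)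
    (hfin : ∀ I : Ideal D, I ≠ ⊥ → cl I ≠ ⊤) :
    ∃ (f : ℕ → K) (r : ℕ), (∀ i, f i ∈ V) ∧
      V ≤ NS (D := D) f r ⊔ V.map (LinearMap.mulLeft D (algebraMap D K t)) := by
  classical
  obtain ⟨L, hL⟩ := ENat.ne_top_iff_exists.mp (hfin (Ideal.span {t}) (by
    rw [Ne, Ideal.span_singleton_eq_bot]; exact ht))
  by_contra hcon
  push Not at hcon
  have key : ∀ r : ℕ, ∃ f : ℕ → K, (∀ i, f i ∈ V) ∧
      ∀ i < r, f i ∉ NS (D := D) f i ⊔ V.map (LinearMap.mulLeft D (algebraMap D K t)) := by
    intro r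
    induction r with
    | zero => exact ⟨fun _ => 0, fun _ => V.zero_mem, fun i hi => by omega⟩
    | succ r ih =>
      obtain ⟨f, hf, hfr⟩ := ih
      obtain ⟨v, hv, hv'⟩ := Set.not_subset.mp (hcon f r hf)
      have hNS : ∀ i ≤ r, NS (D := D) (Function.update f r v) i = NS f i := by
        intro i hi
        unfold NS
        congr 1
        refine Set.image_congr fun j hj => ?_
        exact Function.update_of_ne (ne_of_lt (lt_of_lt_of_le hj hi)) _ _
      refine ⟨Function.update f r v, fun i => ?_, fun i hi => ?_⟩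
      · by_cases h : i = r
        · subst h; rw [Function.update_self]; exact hv
        · rw [Function.update_of_ne h]; exact hf i
      · rw [hNS i (by omega)]
        by_cases h : i = r
        · subst h; rw [Function.update_self]; exact hv'
        · rw [Function.update_of_ne h]; exact hfr i (by omega)
  obtain ⟨f, hf, hfr⟩ := key (L + 1)
  have h1 := bound_chain V t ht hfin f (L + 1) (fun i _ => hf i) hfr
  rw [← hL] at h1
  have h2 : L + 1 ≤ L := by exact_mod_cast h1
  omega

omit [IsDomain D] [IsFractionRing D K] in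
theorem mem_NS (f : ℕ → K) (r : ℕ) {x : K} (hx : x ∈ NS (D := D) f r) :
    ∃ d : ℕ → D, x = ∑ j ∈ Finset.range r, d j • f j := by
  classical
  unfold NS at hx
  induction hx using Submodule.span_induction with
  | mem x hx =>
    obtain ⟨j, hj, rfl⟩ := hx
    refine ⟨Pi.single j 1, ?_⟩
    rw [Finset.sum_eq_single j]
    · rw [Pi.single_eq_same, one_smul]
    · intro i _ hij
      rw [Pi.single_eq_of_ne hij, zero_smul]
    · intro h
      exact absurd (Finset.mem_range.mpr hj) h
  | zero => exact ⟨fun _ => 0, by simp⟩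
  | add x y _ _ hx hy =>
    obtain ⟨d1, rfl⟩ := hx
    obtain ⟨d2, rfl⟩ := hy
    refine ⟨fun j => d1 j + d2 j, ?_⟩
    rw [← Finset.sum_add_distrib]
    exact Finset.sum_congr rfl fun j _ => (add_smul _ _ _).symm
  | smul a x _ hx =>
    obtain ⟨d, rfl⟩ := hx
    refine ⟨fun j => a * d j, ?_⟩
    rw [Finset.smul_sum]
    exact Finset.sum_congr rfl fun j _ => (mul_smul _ _ _).symm

omit [IsDomain D] [IsFractionRing D K] in
theorem complete_gen [IsLocalRing D] [IsPrecomplete (maximalIdeal D) D]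
    (V : Submodule D K) (t : D) (ht : t ∈ maximalIdeal D) (c : ℕ)
    (hc : maximalIdeal D ^ c ≤ Ideal.span {t}) (f : ℕ → K) (r : ℕ) (hf : ∀ i, f i ∈ V)
    (hV : V ≤ NS (D := D) f r ⊔ V.map (LinearMap.mulLeft D (algebraMap D K t)))
    (hsep : ∀ u ∈ V, (∀ k : ℕ, ∃ w ∈ V, u = algebraMap D K t ^ k * w) → u = 0) :
    V ≤ NS (D := D) f r := by
  classical
  have hstep : ∀ w : V, ∃ (w' : V) (d : ℕ → D),
      (w : K) = ∑ j ∈ Finset.range r, d j • f j + algebraMap D K t * w' := by
    intro w
    obtain ⟨x, hx, y, hy, hxy⟩ := Submodule.mem_sup.mp (hV w.2)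
    obtain ⟨w', hw', rfl⟩ := hy
    obtain ⟨d, rfl⟩ := mem_NS f r hx
    exact ⟨⟨w', hw'⟩, d, hxy.symm⟩
  choose nx d hd using hstep
  intro v hv
  let wk : ℕ → V := fun k => nx^[k] ⟨v, hv⟩
  have hwk : ∀ k, wk (k + 1) = nx (wk k) := fun k => Function.iterate_succ_apply' nx k _
  let cc : ℕ → ℕ → D := fun k j => ∑ i ∈ Finset.range k, t ^ i * d (wk i) j
  have hcc : ∀ k j, cc (k + 1) j = cc k j + t ^ k * d (wk k) j := fun k j =>
    Finset.sum_range_succ _ _
  have hexp : ∀ k, v = ∑ j ∈ Finset.range r, cc k j • f j + algebraMap D K t ^ k * wk k := by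
    intro k
    induction k with
    | zero => simp [cc, wk]
    | succ k ih =>
      have h1 := hd (wk k)
      have h2 : ∑ j ∈ Finset.range r, cc (k + 1) j • f j =
          ∑ j ∈ Finset.range r, cc k j • f j +
            algebraMap D K t ^ k * ∑ j ∈ Finset.range r, d (wk k) j • f j := by
        rw [Finset.mul_sum, ← Finset.sum_add_distrib]
        refine Finset.sum_congr rfl fun j _ => ?_
        rw [hcc, Algebra.smul_def, Algebra.smul_def, Algebra.smul_def, map_add, map_mul, map_pow]
        ring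
      rw [h2, hwk, pow_succ, add_assoc, mul_assoc, ← mul_add, ← h1]
      exact ih
  have hlim : ∀ j, ∃ L, ∀ k, L - cc k j ∈ maximalIdeal D ^ k := by
    intro j
    refine exists_lim (maximalIdeal D) (fun k => cc k j) fun k => ?_
    rw [hcc, add_sub_cancel_left]
    exact Ideal.mul_mem_right _ _ (Ideal.pow_mem_pow ht k)
  choose L hL using hlim
  have hu : v - ∑ j ∈ Finset.range r, L j • f j = 0 := by
    refine hsep _ ?_ ?_
    · exact V.sub_mem hv (V.sum_mem fun j _ => V.smul_mem _ (hf j))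
    · intro k
      set m := c * k + k with hm
      have h1 : ∀ j, ∃ e, L j - cc m j = t ^ k * e := by
        intro j
        have h2 : L j - cc m j ∈ Ideal.span {t ^ k} := by
          rw [← Ideal.span_singleton_pow]
          refine Ideal.pow_right_mono hc k ?_
          rw [← pow_mul]
          exact Ideal.pow_le_pow_right (by omega) (hL j m)
        obtain ⟨e, he⟩ := Ideal.mem_span_singleton'.mp h2
        exact ⟨e, by rw [← he, mul_comm]⟩
      choose e he using h1
      refine ⟨algebraMap D K t ^ (c * k) * wk m - ∑ j ∈ Finset.range r, e j • f j, ?_, ?_⟩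
      · refine V.sub_mem ?_ (V.sum_mem fun j _ => V.smul_mem _ (hf j))
        rw [← map_pow, ← Algebra.smul_def]
        exact V.smul_mem _ (wk m).2
      · have h3 : ∑ j ∈ Finset.range r, L j • f j = ∑ j ∈ Finset.range r, cc m j • f j +
            algebraMap D K t ^ k * ∑ j ∈ Finset.range r, e j • f j := by
          rw [Finset.mul_sum, ← Finset.sum_add_distrib]
          refine Finset.sum_congr rfl fun j _ => ?_
          have h4 : L j = cc m j + t ^ k * e j := by rw [← he j]; ring
          rw [h4, Algebra.smul_def, Algebra.smul_def, Algebra.smul_def, map_add, map_mul, map_pow]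
          ring
        have h5 := hexp m
        have h6 : algebraMap D K t ^ m = algebraMap D K t ^ k * algebraMap D K t ^ (c * k) := by
          rw [← pow_add, hm, add_comm]
        rw [h6] at h5
        rw [h3]
        linear_combination h5
  have h7 : v = ∑ j ∈ Finset.range r, L j • f j := sub_eq_zero.mp hu
  rw [h7]
  refine Submodule.sum_mem _ fun j hj => Submodule.smul_mem _ _ ?_
  exact Submodule.subset_span ⟨j, Finset.mem_range.mp hj, rfl⟩

end Frac

end Vale.Agent.P202
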