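import Vale.Agent.P202.IntC

namespace Vale.Agent.P202

open Finset IsLocalRing

universe v

section Dvr

variable {D : Type v} [CommRing D] [IsDomain D] [IsLocalRing D] [IsNoetherianRing D]

omit [IsDomain D] in
theorem pow_le_of_dim (hdim : ∀ p : Ideal D, p.IsPrime → p = ⊥ ∨ p = maximalIdeal D)
    (I : Ideal D) (hI : I ≠ ⊥) : ∃ k, maximalIdeal D ^ k ≤ I := by
  refine Ideal.exists_pow_le_of_le_radical_of_fg ?_ (IsNoetherian.noetherian _)
  rw [Ideal.radical_eq_sInf]
  refine le_sInf fun J hJ => ?_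
  rcases hdim J hJ.2 with h | h
  · rw [h] at hJ
    exact absurd (le_bot_iff.mp hJ.1) hI
  · rw [h]

theorem intC_sep (hdim : ∀ p : Ideal D, p.IsPrime → p = ⊥ ∨ p = maximalIdeal D) (t : D)
    (ht : t ∈ maximalIdeal D) (ht0 : t ≠ 0)
    (u : FractionRing D)
    (hw : ∀ k : ℕ, ∃ w ∈ Subalgebra.toSubmodule (integralClosure D (FractionRing D)),
      u = algebraMap D (FractionRing D) t ^ k * w) : u = 0 := by
  by_contra hu
  obtain ⟨x, y, hy, hxy⟩ := IsFractionRing.div_surjective (A := D) u
  have hy0 : algebraMap D (FractionRing D) y ≠ 0 := by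
    rw [Ne, IsFractionRing.to_map_eq_zero_iff]
    exact nonZeroDivisors.ne_zero hy
  have hx0 : x ≠ 0 := by
    rintro rfl
    rw [map_zero, zero_div] at hxy
    exact hu hxy.symm
  have htK : algebraMap D (FractionRing D) t ≠ 0 := by
    rw [Ne, IsFractionRing.to_map_eq_zero_iff]
    exact ht0
  obtain ⟨k, hk⟩ := pow_le_of_dim hdim (Ideal.span {x}) (by
    rw [Ne, Ideal.span_singleton_eq_bot]; exact hx0)
  obtain ⟨z, hz⟩ := Ideal.mem_span_singleton'.mp (hk (Ideal.pow_mem_pow ht k))
  obtain ⟨w, hwV, huw⟩ := hw (k + 1)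
  have hxu : algebraMap D (FractionRing D) x = u * algebraMap D (FractionRing D) y := by
    rw [← hxy, div_mul_cancel₀ _ hy0]
  have h1 : algebraMap D (FractionRing D) t ^ k * 1 = algebraMap D (FractionRing D) t ^ k *
      (algebraMap D (FractionRing D) t * (algebraMap D (FractionRing D) (z * y) * w)) := by
    have h2 := congrArg (algebraMap D (FractionRing D)) hz
    rw [map_mul, map_pow, hxu, huw] at h2
    rw [map_mul]
    linear_combination -h2
  have h3 := mul_left_cancel₀ (pow_ne_zero k htK) h1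
  have h4 : algebraMap D (FractionRing D) (z * y) * w ∈ integralClosure D (FractionRing D) := by
    refine Subalgebra.mul_mem _ (Subalgebra.algebraMap_mem _ _) hwV
  have h5 : algebraMap D (integralClosure D (FractionRing D)) t * ⟨_, h4⟩ = 1 := by
    apply Subtype.ext
    exact h3.symm
  have h6 : IsUnit (algebraMap D (integralClosure D (FractionRing D)) t) :=
    IsUnit.of_mul_eq_one _ h5
  have h7 : IsUnit t := (isUnit_map_iff _ t).mp h6
  exact ((mem_maximalIdeal _).mp ht) h7

theorem intC_gen [IsPrecomplete (maximalIdeal D) D]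
    (hdim : ∀ p : Ideal D, p.IsPrime → p = ⊥ ∨ p = maximalIdeal D)
    (hne : maximalIdeal D ≠ ⊥) : ∃ (f : ℕ → FractionRing D) (r : ℕ),
      (∀ i, f i ∈ integralClosure D (FractionRing D)) ∧
      ∀ v ∈ integralClosure D (FractionRing D), v ∈ NS (D := D) f r := by
  obtain ⟨t, ht, ht0⟩ := Submodule.exists_mem_ne_zero_of_ne_bot hne
  have hfin : ∀ I : Ideal D, I ≠ ⊥ → cl I ≠ ⊤ := by
    intro I hI
    obtain ⟨k, hk⟩ := pow_le_of_dim hdim I hI
    have := cl_sup_pow_ne_top (⊥ : Ideal D) k
    rw [bot_sup_eq] at this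
    exact ne_top_of_le_ne_top this (cl_anti hk)
  obtain ⟨f, r, hf, hV⟩ := exists_gen
    (Subalgebra.toSubmodule (integralClosure D (FractionRing D))) t ht0 hfin
  obtain ⟨c, hc⟩ := pow_le_of_dim hdim (Ideal.span {t}) (by
    rw [Ne, Ideal.span_singleton_eq_bot]; exact ht0)
  exact ⟨f, r, hf, complete_gen _ t ht c hc f r hf hV fun u _ hw =>
    intC_sep hdim t ht ht0 u hw⟩

theorem exists_dvr [IsPrecomplete (maximalIdeal D) D]
    (hdim : ∀ p : Ideal D, p.IsPrime → p = ⊥ ∨ p = maximalIdeal D)
    (hne : maximalIdeal D ≠ ⊥) :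
    ∃ (W : Type v) (_ : CommRing W) (_ : IsDomain W) (_ : IsLocalRing W) (φ : D →+* W) (ϖ : W)
      (l : List W), Function.Injective φ ∧ IsLocalHom φ ∧ maximalIdeal W = Ideal.span {ϖ} ∧
      ϖ ≠ 0 ∧ (∀ c ∈ l, ∃ a b, φ b ≠ 0 ∧ c * φ b = φ a) ∧
      (∀ w : W, ∃ x y : W, x ∈ Subring.closure (Set.range φ ∪ {c | c ∈ l}) ∧
        y ∈ Subring.closure (Set.range φ ∪ {c | c ∈ l}) ∧ y ∉ maximalIdeal W ∧ w * y = x) := by
  classical
  obtain ⟨f, r, hf, hV⟩ := intC_gen hdim hne
  let K := FractionRing D
  let V := integralClosure D (FractionRing D)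
  have hfinV : Module.Finite D V := by
    have h1 : (Subalgebra.toSubmodule V).FG := by
      have h2 : Subalgebra.toSubmodule V = NS (D := D) f r := by
        refine le_antisymm (fun v hv => hV v hv) ?_
        unfold NS
        rw [Submodule.span_le]
        rintro _ ⟨j, _, rfl⟩
        exact hf j
      rw [h2]
      have h3 : (f '' {j | j < r}) = ((Finset.range r).image f : Finset K) := by
        rw [Finset.coe_image]
        congr 1
        ext j
        simp
      unfold NS
      rw [h3]
      exact ⟨_, rfl⟩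
    exact Module.Finite.iff_fg.mpr h1
  have hNV : IsNoetherianRing V := IsNoetherianRing.of_finite D V
  have hD1 : Ring.DimensionLEOne D := ⟨fun {p} hp hpp => by
    rcases hdim p hpp with h | h
    · exact absurd h hp
    · rw [h]; exact maximalIdeal.isMaximal D⟩
  have hV1 : Ring.DimensionLEOne V := inferInstance
  have hVic : IsIntegrallyClosed V :=
    integralClosure.isIntegrallyClosedOfFiniteExtension (R := D) (L := K) K
  have hVd : IsDedekindDomain V := { hNV, hV1, hVic with }
  obtain ⟨𝔳, h𝔳⟩ := Ideal.exists_maximal V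
  have hcomap : (𝔳.comap (algebraMap D V)) = maximalIdeal D := by
    have : (𝔳.comap (algebraMap D V)).IsMaximal :=
      Ideal.isMaximal_comap_of_isIntegral_of_isMaximal 𝔳
    exact IsLocalRing.eq_maximalIdeal this
  have hinjV : Function.Injective (algebraMap D V) := FaithfulSMul.algebraMap_injective D V
  have h𝔳0 : 𝔳 ≠ ⊥ := by
    intro h
    rw [h] at hcomap
    apply hne
    rw [← hcomap]
    ext x
    rw [Ideal.mem_comap, Ideal.mem_bot, Ideal.mem_bot]
    exact map_eq_zero_iff _ hinjV
  let W := Localization.AtPrime 𝔳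
  have hWd : IsDomain W := IsLocalization.isDomain_localization 𝔳.primeCompl_le_nonZeroDivisors
  have hWdvr : IsDiscreteValuationRing W :=
    IsLocalization.AtPrime.isDiscreteValuationRing_of_dedekind_domain V h𝔳0 W
  obtain ⟨ϖ, hϖ⟩ := IsDiscreteValuationRing.exists_irreducible W
  have hinjW : Function.Injective (algebraMap V W) :=
    IsLocalization.injective W 𝔳.primeCompl_le_nonZeroDivisors
  let φ : D →+* W := (algebraMap V W).comp (algebraMap D V)
  have hinj : Function.Injective φ := hinjW.comp hinjV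
  let l : List W := (List.range r).map fun j => algebraMap V W ⟨f j, hf j⟩
  refine ⟨W, inferInstance, hWd, inferInstance, φ, ϖ, l, hinj, ?_, hϖ.maximalIdeal_eq, hϖ.ne_zero,
    ?_, ?_⟩
  · constructor
    intro a ha
    by_contra hn
    have h1 : a ∈ maximalIdeal D := (mem_maximalIdeal _).mpr hn
    rw [← hcomap, Ideal.mem_comap] at h1
    have h2 : algebraMap V W (algebraMap D V a) ∈ maximalIdeal W := by
      rw [← IsLocalization.AtPrime.map_eq_maximalIdeal 𝔳 W]
      exact Ideal.mem_map_of_mem _ h1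
    exact ((mem_maximalIdeal _).mp h2) ha
  · intro c hc
    obtain ⟨j, _, rfl⟩ := List.mem_map.mp hc
    obtain ⟨x, y, hy, hxy⟩ := IsFractionRing.div_surjective (A := D) (f j)
    have hy0' : y ≠ 0 := nonZeroDivisors.ne_zero hy
    have hy0 : algebraMap D K y ≠ 0 := by
      rw [Ne, IsFractionRing.to_map_eq_zero_iff]
      exact hy0'
    refine ⟨x, y, ?_, ?_⟩
    · intro h
      exact hy0' (hinj (by rw [h, map_zero]))
    · show algebraMap V W ⟨f j, hf j⟩ * algebraMap V W (algebraMap D V y) =
        algebraMap V W (algebraMap D V x)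
      rw [← map_mul]
      congr 1
      apply Subtype.ext
      show f j * algebraMap D K y = algebraMap D K x
      rw [← hxy, div_mul_cancel₀ _ hy0]
  · have hcl : ∀ v : V, algebraMap V W v ∈ Subring.closure (Set.range φ ∪ {c | c ∈ l}) := by
      intro v
      obtain ⟨d, hd⟩ := mem_NS f r (hV v.1 v.2)
      have h1 : v = ∑ j ∈ Finset.range r, algebraMap D V (d j) * ⟨f j, hf j⟩ := by
        apply Subtype.ext
        rw [hd, AddSubmonoidClass.coe_finsetSum]
        refine Finset.sum_congr rfl fun j _ => ?_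
        rw [Algebra.smul_def]
        rfl
      rw [h1, map_sum]
      refine Subring.sum_mem _ fun j hj => ?_
      rw [map_mul]
      refine Subring.mul_mem _ (Subring.subset_closure (Or.inl ⟨d j, rfl⟩))
        (Subring.subset_closure (Or.inr ?_))
      exact List.mem_map.mpr ⟨j, List.mem_range.mpr (Finset.mem_range.mp hj), rfl⟩
    intro w
    obtain ⟨⟨x, y⟩, hxy⟩ := IsLocalization.surj 𝔳.primeCompl w
    refine ⟨algebraMap V W x, algebraMap V W y, hcl x, hcl y, ?_, hxy⟩
    intro h
    exact ((mem_maximalIdeal _).mp h) (IsLocalization.map_units W y)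

end Dvr

end Vale.Agent.P202
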