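import Vale.Agent.P202.Len

namespace Vale.Agent.P202

open Finset

section Layer

variable {S : Type*} [CommRing S]

def C (y : ℕ → S) : ℕ → Ideal S → (ℕ → ℕ) → Ideal S
  | 0, Q, _ => Q
  | (k + 1), Q, a => qt (C y k Q a) (y k ^ a k) ⊔ Ideal.span {y k}

variable (y : ℕ → S)

theorem qt_mono {I J : Ideal S} (h : I ≤ J) (w : S) : qt I w ≤ qt J w := fun _ hz => h hz

theorem qt_le_mul (I : Ideal S) (w v : S) : qt I w ≤ qt I (w * v) := by
  intro z hz
  rw [mem_qt] at hz ⊢
  rw [mul_right_comm]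
  exact I.mul_mem_right _ hz

theorem qt_qt (I : Ideal S) (w v : S) : qt (qt I w) v = qt I (w * v) := by
  ext z
  rw [mem_qt, mem_qt, mem_qt, mul_assoc]

theorem qt_one (I : Ideal S) : qt I 1 = I := by
  ext z
  rw [mem_qt, one_mul]

theorem qt_eq_top {I : Ideal S} {w : S} (h : w ∈ I) : qt I w = ⊤ := by
  rw [Ideal.eq_top_iff_one, mem_qt, mul_one]
  exact h

theorem C_mono (k : ℕ) {Q Q' : Ideal S} (h : Q ≤ Q') (a : ℕ → ℕ) : C y k Q a ≤ C y k Q' a := by
  induction k with
  | zero => exact h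
  | succ k ih => exact sup_le_sup_right (qt_mono ih _) _

theorem C_anti (k : ℕ) (Q : Ideal S) {a a' : ℕ → ℕ} (h : ∀ i, a i ≤ a' i) :
    C y k Q a ≤ C y k Q a' := by
  induction k with
  | zero => exact le_rfl
  | succ k ih =>
    refine sup_le_sup_right ((qt_mono ih _).trans ?_) _
    obtain ⟨c, hc⟩ := Nat.exists_eq_add_of_le (h k)
    rw [hc, pow_add]
    exact qt_le_mul _ _ _

theorem C_congr (k : ℕ) (Q : Ideal S) {a a' : ℕ → ℕ} (h : ∀ i < k, a i = a' i) :
    C y k Q a = C y k Q a' := by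
  induction k with
  | zero => rfl
  | succ k ih =>
    unfold C
    rw [ih (fun i hi => h i (Nat.lt_succ_of_lt hi)), h k (Nat.lt_succ_self k)]

theorem C_mul (k : ℕ) (Q Q' : Ideal S) (a a' : ℕ → ℕ) :
    C y k Q a * C y k Q' a' ≤ C y k (Q * Q') (a + a') := by
  induction k with
  | zero => exact le_rfl
  | succ k ih =>
    rw [Ideal.mul_le]
    intro u hu v hv
    unfold C at hu hv ⊢
    obtain ⟨u1, hu1, u2, hu2, rfl⟩ := Submodule.mem_sup.mp hu
    obtain ⟨v1, hv1, v2, hv2, rfl⟩ := Submodule.mem_sup.mp hv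
    have h1 : (u1 + u2) * (v1 + v2) = u1 * v1 + (u1 * v2 + u2 * (v1 + v2)) := by ring
    rw [h1]
    refine Submodule.add_mem_sup ?_ (Ideal.add_mem _ (Ideal.mul_mem_left _ _ hv2)
      (Ideal.mul_mem_right _ _ hu2))
    rw [mem_qt] at hu1 hv1 ⊢
    have h2 : y k ^ (a + a') k * (u1 * v1) = (y k ^ a k * u1) * (y k ^ a' k * v1) := by
      rw [Pi.add_apply, pow_add]; ring
    rw [h2]
    exact ih (Ideal.mul_mem_mul hu1 hv1)

theorem C_top (k : ℕ) (a : ℕ → ℕ) : C y k ⊤ a = ⊤ := by
  induction k with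
  | zero => rfl
  | succ k ih =>
    unfold C
    rw [ih, eq_top_iff]
    exact le_sup_of_le_left (le_qt _ _)

theorem C_pow (k : ℕ) (Q : Ideal S) (a : ℕ → ℕ) (j : ℕ) :
    (C y k Q a) ^ j ≤ C y k (Q ^ j) (j • a) := by
  induction j with
  | zero => simp [C_top]
  | succ j ih =>
    rw [pow_succ, pow_succ, succ_nsmul]
    exact (Ideal.mul_mono_left ih).trans (C_mul y k _ _ _ _)

theorem le_C (k : ℕ) (Q : Ideal S) (a : ℕ → ℕ) : Q ≤ C y k Q a := by
  induction k with
  | zero => exact le_rfl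
  | succ k ih => exact (ih.trans (le_qt _ _)).trans le_sup_left

theorem mem_C (k : ℕ) (Q : Ideal S) (a : ℕ → ℕ) (i : ℕ) (hi : i < k) : y i ∈ C y k Q a := by
  induction k with
  | zero => omega
  | succ k ih =>
    rcases Nat.lt_succ_iff_lt_or_eq.mp hi with h | h
    · exact Ideal.mem_sup_left (le_qt _ _ (ih h))
    · subst h
      exact Ideal.mem_sup_right (Ideal.mem_span_singleton_self _)

theorem cl_layer (Q : Ideal S) (w : S) (M : ℕ) :
    cl Q = ∑ i ∈ range M, cl (qt Q (w ^ i) ⊔ Ideal.span {w}) + cl (qt Q (w ^ M)) := by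
  induction M with
  | zero => simp [qt_one]
  | succ M ih =>
    rw [ih, sum_range_succ, cl_qt (qt Q (w ^ M)) w, qt_qt, ← pow_succ, add_assoc,
      add_comm (cl (qt Q (w ^ (M + 1))))]

def boxSum (M : ℕ) : ℕ → ((ℕ → ℕ) → ℕ∞) → ℕ∞
  | 0, f => f 0
  | (k + 1), f => boxSum M k (fun a => ∑ i ∈ range M, f (Function.update a k i))

theorem boxSum_succ (M k : ℕ) (f : (ℕ → ℕ) → ℕ∞) :
    boxSum M (k + 1) f = boxSum M k (fun a => ∑ i ∈ range M, f (Function.update a k i)) := rfl

theorem C_succ (k : ℕ) (Q : Ideal S) (a : ℕ → ℕ) :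
    C y (k + 1) Q a = qt (C y k Q a) (y k ^ a k) ⊔ Ideal.span {y k} := rfl

theorem boxSum_mono (M k : ℕ) {f g : (ℕ → ℕ) → ℕ∞} (h : ∀ a, f a ≤ g a) :
    boxSum M k f ≤ boxSum M k g := by
  induction k generalizing f g with
  | zero => exact h 0
  | succ k ih => exact ih fun a => sum_le_sum fun i _ => h _

theorem boxSum_mono_size {M M' : ℕ} (hM : M ≤ M') (k : ℕ) (f : (ℕ → ℕ) → ℕ∞) :
    boxSum M k f ≤ boxSum M' k f := by
  induction k generalizing f with
  | zero => exact le_rfl
  | succ k ih =>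
    refine (ih _).trans (boxSum_mono _ _ fun a => ?_)
    exact sum_le_sum_of_subset (range_subset_range.mpr hM)

theorem boxSum_add (M k : ℕ) (f g : (ℕ → ℕ) → ℕ∞) :
    boxSum M k (fun a => f a + g a) = boxSum M k f + boxSum M k g := by
  induction k generalizing f g with
  | zero => rfl
  | succ k ih =>
    unfold boxSum
    rw [← ih]
    simp only [sum_add_distrib]

theorem boxSum_mul (M k : ℕ) (c : ℕ∞) (f : (ℕ → ℕ) → ℕ∞) :
    boxSum M k (fun a => c * f a) = c * boxSum M k f := by
  induction k generalizing f with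
  | zero => rfl
  | succ k ih =>
    unfold boxSum
    rw [← ih]
    simp only [mul_sum]

theorem boxSum_sum (M k j : ℕ) (f : ℕ → (ℕ → ℕ) → ℕ∞) :
    boxSum M k (fun a => ∑ i ∈ range j, f i a) = ∑ i ∈ range j, boxSum M k (f i) := by
  induction j with
  | zero =>
    simp only [range_zero, sum_empty]
    have := boxSum_mul M k 0 (fun _ => 0)
    simpa using this
  | succ j ih =>
    simp only [sum_range_succ]
    rw [boxSum_add, ih]

theorem boxSum_one (M k : ℕ) : boxSum M k (fun _ => 1) = (M : ℕ∞) ^ k := by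
  induction k with
  | zero => simp [boxSum]
  | succ k ih =>
    unfold boxSum
    have h := boxSum_mul M k (M : ℕ∞) (fun _ => 1)
    simp only [mul_one] at h
    simp only [sum_const, card_range, nsmul_eq_mul, mul_one]
    rw [h, ih, pow_succ']

theorem sum_range_div (j M : ℕ) (F : ℕ → ℕ∞) :
    ∑ i ∈ range (j * M), F (i / j) = j * ∑ q ∈ range M, F q := by
  rcases Nat.eq_zero_or_pos j with h | h
  · simp [h]
  induction M with
  | zero => simp
  | succ M ih =>
    rw [Nat.mul_succ, sum_range_add, ih, sum_range_succ, mul_add]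
    congr 1
    have : ∀ i ∈ range j, F ((j * M + i) / j) = F M := by
      intro i hi
      rw [Nat.mul_add_div h, Nat.div_eq_of_lt (mem_range.mp hi), add_zero]
    rw [sum_congr rfl this]
    simp

theorem boxSum_div (j M k : ℕ) (g : (ℕ → ℕ) → ℕ∞) :
    boxSum (j * M) k (fun a => g (fun n => a n / j)) = (j : ℕ∞) ^ k * boxSum M k g := by
  induction k generalizing g with
  | zero =>
    simp only [boxSum, Pi.zero_apply, Nat.zero_div, pow_zero, one_mul]
    rfl
  | succ k ih =>
    rw [boxSum_succ, boxSum_succ, pow_succ, mul_assoc, ← boxSum_mul, ← ih]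
    congr 1
    funext a
    rw [← sum_range_div]
    refine sum_congr rfl fun i _ => ?_
    show g _ = g _
    congr 1
    funext n
    by_cases hn : n = k
    · subst hn; simp
    · simp [hn]

theorem cl_eq_boxSum (k : ℕ) (Q : Ideal S) (M : ℕ) (h : ∀ i < k, y i ^ M ∈ Q) :
    cl Q = boxSum M k (fun a => cl (C y k Q a)) := by
  induction k with
  | zero => rfl
  | succ k ih =>
    rw [ih fun i hi => h i (Nat.lt_succ_of_lt hi), boxSum_succ]
    congr 1
    funext a
    rw [cl_layer _ (y k) M, qt_eq_top (le_C y k Q a (h k (Nat.lt_succ_self k))), cl_top, add_zero]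
    refine sum_congr rfl fun i _ => ?_
    have : C y k Q a = C y k Q (Function.update a k i) :=
      C_congr y k Q fun n hn => by simp [(ne_of_lt hn)]
    rw [C_succ, ← this, Function.update_self]

theorem boxSum_le_cl (k : ℕ) (Q : Ideal S) (M : ℕ) :
    boxSum M k (fun a => cl (C y k Q a)) ≤ cl Q := by
  induction k with
  | zero => exact le_rfl
  | succ k ih =>
    refine le_trans ?_ ih
    rw [boxSum_succ]
    refine boxSum_mono _ _ fun a => ?_
    rw [cl_layer (C y k Q a) (y k) M]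
    refine le_trans (le_of_eq ?_) le_self_add
    refine sum_congr rfl fun i _ => ?_
    have : C y k Q a = C y k Q (Function.update a k i) :=
      C_congr y k Q fun n hn => by simp [(ne_of_lt hn)]
    rw [C_succ, ← this, Function.update_self]

end Layer

end Vale.Agent.P202
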