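import Vale.Agent.P202.LemV1

namespace Vale.Agent.P202

open IsLocalRing

section LV

variable {A T : Type*} [CommRing A] [IsLocalRing A] [CommRing T] [IsLocalRing T] [Algebra A T]
  [IsLocalHom (algebraMap A T)]

noncomputable def KA (K : IntermediateField (ResidueField A) (ResidueField T)) :
    Submodule A (ResidueField T) :=
  (Subalgebra.toSubmodule K.toSubalgebra).restrictScalars A

theorem mem_KA {K : IntermediateField (ResidueField A) (ResidueField T)} {x : ResidueField T} :
    x ∈ KA K ↔ x ∈ K := Iff.rfl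

theorem length_KA (K : IntermediateField (ResidueField A) (ResidueField T))
    [FiniteDimensional (ResidueField A) K] :
    Module.length A (KA K) = Module.finrank (ResidueField A) K := by
  have h1 : Module.length A (Subalgebra.toSubmodule K.toSubalgebra) =
      Module.length (ResidueField A) (Subalgebra.toSubmodule K.toSubalgebra) :=
    Module.length_eq_of_surjective (R := ResidueField A) (S := A) residue_surjective
  have hfin : Module.Finite (ResidueField A) (Subalgebra.toSubmodule K.toSubalgebra) :=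
    (inferInstance : FiniteDimensional (ResidueField A) K)
  have h2 : Module.length (ResidueField A) (Subalgebra.toSubmodule K.toSubalgebra) =
      Module.finrank (ResidueField A) K :=
    Module.length_eq_finrank (ResidueField A) (Subalgebra.toSubmodule K.toSubalgebra)
  rw [← h2, ← h1]
  exact rfl

noncomputable def piA (I : Ideal T) (π : I →ₗ[T] ResidueField T) (U : Submodule A T)
    (hU : ∀ u ∈ U, u ∈ I) : U →ₗ[A] ResidueField T where
  toFun v := π ⟨v.1, hU v.1 v.2⟩
  map_add' u v := by
    rw [← map_add]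
    rfl
  map_smul' r v := by
    have h1 : (⟨((r • v : U) : T), hU _ (r • v).2⟩ : I) =
        (algebraMap A T r) • (⟨v.1, hU v.1 v.2⟩ : I) := by
      apply Subtype.ext
      show r • (v : T) = (algebraMap A T r) * (v : T)
      rw [Algebra.smul_def]
    rw [h1, map_smul, RingHom.id_apply, algebraMap_smul]

theorem LB (hnil : ∃ K, maximalIdeal T ^ K = ⊥) (J : Ideal T) (n : ℕ) :
    ∀ J' : Ideal T, J' ≤ J → rl J' J = n → ∃ Y : Finset T, (∀ y ∈ Y, y ∈ J) ∧
      ∀ (U : Submodule A T) (K : IntermediateField (ResidueField A) (ResidueField T))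
        [FiniteDimensional (ResidueField A) K],
        (∀ x ∈ K, ∃ t, residue T t = x ∧ ∀ y ∈ Y, t * y ∈ U) →
        (Module.finrank (ResidueField A) K : ℕ∞) * n ≤
          rl (U ⊓ J'.restrictScalars A) (U ⊓ J.restrictScalars A) := by
  classical
  induction n with
  | zero =>
    intro J' _ _
    refine ⟨∅, by simp, fun U K _ _ => ?_⟩
    simp
  | succ n ih =>
    intro J' hJ hrl
    have hlt : J' < J := by
      refine lt_of_le_of_ne hJ fun h => ?_
      rw [h, rl_eq_zero] at hrl
      exact absurd hrl.symm (by exact_mod_cast Nat.succ_ne_zero n)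
    obtain ⟨z, hzJ, hzJ', hn⟩ := exists_cover hnil J' J hlt
    have hJ'' : J' ⊔ Ideal.span {z} ≤ J :=
      sup_le hJ ((Ideal.span_singleton_le_iff_mem _).mpr hzJ)
    have h1 := rl_add (le_sup_left : J' ≤ J' ⊔ Ideal.span {z}) hJ''
    have h2 := rl_cover J' z hzJ' hn
    have h3 : rl (J' ⊔ Ideal.span {z}) J = n := by
      rw [hrl, h2] at h1
      have h4 : (1 : ℕ∞) + n = 1 + rl (J' ⊔ Ideal.span {z}) J := by
        rw [← h1]; push_cast; ring
      exact (ENat.add_right_injective_of_ne_top (by simp) h4).symm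
    obtain ⟨Y, hY, hY2⟩ := ih _ hJ'' h3
    refine ⟨insert z Y, ?_, ?_⟩
    · intro y hy
      rcases Finset.mem_insert.mp hy with rfl | hy
      · exact hzJ
      · exact hY y hy
    · intro U K _ hUK
      have h4 := hY2 U K (fun x hx => by
        obtain ⟨t, ht, ht2⟩ := hUK x hx
        exact ⟨t, ht, fun y hy => ht2 y (Finset.mem_insert_of_mem hy)⟩)
      obtain ⟨π, hπ1, hπ2⟩ := exists_pi J' z hzJ' hn
      have h5 : Module.length A (KA K) ≤ rl (U ⊓ J'.restrictScalars A)
          (U ⊓ (J' ⊔ Ideal.span {z}).restrictScalars A) := by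
        refine le_rl_of_map (piA _ π _ (fun u (hu : u ∈ U ⊓
          (J' ⊔ Ideal.span {z}).restrictScalars A) => hu.2)) (KA K) ?_ ?_
        · intro p hp
          obtain ⟨t, ht, ht2⟩ := hUK p hp
          refine ⟨⟨t * z, ht2 z (Finset.mem_insert_self _ _), Ideal.mem_sup_right
            (Ideal.mul_mem_left _ _ (Ideal.mem_span_singleton_self z))⟩, ?_⟩
          rw [← ht]
          exact hπ2 t 0 J'.zero_mem _ (by simp)
        · intro v hv
          exact (hπ1 _).mpr hv.2
      rw [length_KA] at h5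
      have h6 := rl_add (V := U ⊓ J'.restrictScalars A)
        (U := U ⊓ (J' ⊔ Ideal.span {z}).restrictScalars A) (W := U ⊓ J.restrictScalars A)
        (inf_le_inf_left _ fun x hx => Ideal.mem_sup_left hx)
        (inf_le_inf_left _ fun x hx => hJ'' hx)
      rw [h6]
      push_cast
      rw [mul_add, mul_one, add_comm]
      exact add_le_add h5 h4

def PI (I : Ideal T) (V : Submodule A T)
    (K : IntermediateField (ResidueField A) (ResidueField T)) : Prop :=
  ∀ (ι : Type) [Fintype ι] (w : ι → ResidueField T), Ind (K : Set (ResidueField T)) w →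
    ∀ wt v : ι → T, (∀ s, residue T (wt s) = w s) → (∀ s, v s ∈ V) →
      ∑ s, wt s * v s ∈ I → ∀ s, v s ∈ I

def sumV {n : ℕ} (wt : Fin n → T) (V : Submodule A T) : Submodule A T :=
  (Submodule.pi Set.univ fun _ : Fin n => V).map
    (∑ t, (LinearMap.mulLeft A (wt t)) ∘ₗ (LinearMap.proj t : (Fin n → T) →ₗ[A] T))

omit [IsLocalRing A] [IsLocalRing T] [IsLocalHom (algebraMap A T)] in
theorem mem_sumV {n : ℕ} {wt : Fin n → T} {V : Submodule A T} {x : T} :
    x ∈ sumV wt V ↔ ∃ v : Fin n → T, (∀ t, v t ∈ V) ∧ x = ∑ t, wt t * v t := by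
  unfold sumV
  rw [Submodule.mem_map]
  constructor
  · rintro ⟨v, hv, rfl⟩
    refine ⟨v, fun t => hv t trivial, ?_⟩
    simp
  · rintro ⟨v, hv, rfl⟩
    exact ⟨v, fun t _ => hv t, by simp⟩

omit [IsLocalRing A] [IsLocalRing T] [IsLocalHom (algebraMap A T)] in
theorem sumV_fg {n : ℕ} (wt : Fin n → T) {V : Submodule A T} (h : V.FG) : (sumV wt V).FG := by
  unfold sumV
  exact Submodule.FG.map _ (Submodule.fg_pi fun _ => h)

omit [IsLocalRing A] [IsLocalRing T] [IsLocalHom (algebraMap A T)] in
theorem rl_sumV {n : ℕ} (wt : Fin n → T) (V : Submodule A T) (I : Ideal T) :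
    rl (sumV wt V ⊓ I.restrictScalars A) (sumV wt V) ≤ n * rl (V ⊓ I.restrictScalars A) V := by
  have hmem : ∀ t : Fin n, ∀ v ∈ V, wt t * v ∈ sumV wt V := by
    intro t v hv
    rw [mem_sumV]
    refine ⟨Pi.single t v, ?_, ?_⟩
    · intro s
      by_cases h : s = t
      · subst h; rw [Pi.single_eq_same]; exact hv
      · rw [Pi.single_eq_of_ne h]; exact V.zero_mem
    · rw [Finset.sum_eq_single t]
      · rw [Pi.single_eq_same]
      · intro s _ h
        rw [Pi.single_eq_of_ne h, mul_zero]
      · intro h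
        exact absurd (Finset.mem_univ t) h
  let mV : ∀ t : Fin n, V →ₗ[A] sumV wt V := fun t =>
    ((LinearMap.mulLeft A (wt t)).comp V.subtype).codRestrict _ fun v => hmem t v.1 v.2
  have hmV : ∀ t (v : V), ((mV t v : sumV wt V) : T) = wt t * v.1 := fun t v => rfl
  have hle : ∀ t, (V ⊓ I.restrictScalars A).submoduleOf V ≤
      ((sumV wt V ⊓ I.restrictScalars A).submoduleOf (sumV wt V)).comap (mV t) := by
    intro t v hv
    have h1 : (v : T) ∈ I := hv.2
    exact ⟨(mV t v).2, Ideal.mul_mem_left _ _ h1⟩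
  let μ := fun t => Submodule.mapQ _ _ (mV t) (hle t)
  let Φ : (Fin n → (V ⧸ (V ⊓ I.restrictScalars A).submoduleOf V)) →ₗ[A]
      (sumV wt V ⧸ (sumV wt V ⊓ I.restrictScalars A).submoduleOf (sumV wt V)) :=
    ∑ t, (μ t) ∘ₗ (LinearMap.proj t)
  have hsurj : Function.Surjective Φ := by
    intro x
    obtain ⟨⟨x, hx⟩, rfl⟩ := Submodule.Quotient.mk_surjective _ x
    obtain ⟨v, hv, rfl⟩ := mem_sumV.mp hx
    refine ⟨fun t => Submodule.Quotient.mk ⟨v t, hv t⟩, ?_⟩
    show (∑ t, (μ t) ∘ₗ (LinearMap.proj t)) _ = _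
    rw [LinearMap.sum_apply]
    have h1 : ∀ t : Fin n, ((μ t) ∘ₗ (LinearMap.proj t)) (fun t => Submodule.Quotient.mk
        (p := (V ⊓ I.restrictScalars A).submoduleOf V) (⟨v t, hv t⟩ : V)) =
        Submodule.mkQ _ (mV t ⟨v t, hv t⟩) := fun t => rfl
    rw [Finset.sum_congr rfl fun t _ => h1 t, ← map_sum]
    show Submodule.mkQ _ _ = Submodule.mkQ _ _
    congr 1
    apply Subtype.ext
    rw [AddSubmonoidClass.coe_finsetSum]
    exact Finset.sum_congr rfl fun t _ => hmV t _
  have h1 := Module.length_le_of_surjective Φ hsurj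
  rw [Module.length_pi_of_fintype] at h1
  simpa [rl] using h1

end LV

end Vale.Agent.P202
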