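import Vale.Agent.P202.LemV2

namespace Vale.Agent.P202

open IsLocalRing

section UB

variable {A T : Type*} [CommRing A] [IsLocalRing A] [CommRing T] [IsLocalRing T] [Algebra A T]
  [IsLocalHom (algebraMap A T)]

structure DD (V₀ : Subalgebra A T) (I : Ideal T) (V : Submodule A T)
    (K : IntermediateField (ResidueField A) (ResidueField T)) : Prop where
  fg : V.FG
  fd : FiniteDimensional (ResidueField A) K
  st : ∀ u ∈ V₀, ∀ v ∈ V, u * v ∈ V
  li : ∀ x ∈ K, ∃ t, residue T t = x ∧ ∀ u ∈ V₀, t * u ∈ V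
  pi : PI I V K
  le : rl (V ⊓ I.restrictScalars A) V ≤ Module.finrank (ResidueField A) K * cl I

theorem exists_K (halg : Algebra.IsAlgebraic (ResidueField A) (ResidueField T))
    (K : IntermediateField (ResidueField A) (ResidueField T))
    [FiniteDimensional (ResidueField A) K] (W : Submodule A (ResidueField T)) (hW : W.FG) :
    ∃ K' : IntermediateField (ResidueField A) (ResidueField T), K ≤ K' ∧
      FiniteDimensional (ResidueField A) K' ∧ ∀ x ∈ W, x ∈ K' := by
  obtain ⟨G, hG⟩ := hW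
  have hfd : FiniteDimensional (ResidueField A)
      (IntermediateField.adjoin (ResidueField A) (G : Set (ResidueField T))) :=
    IntermediateField.finiteDimensional_adjoin fun x _ => (halg.isAlgebraic x).isIntegral
  refine ⟨K ⊔ IntermediateField.adjoin (ResidueField A) (G : Set (ResidueField T)), le_sup_left,
    inferInstance, ?_⟩
  have h1 : W ≤ KA (K ⊔ IntermediateField.adjoin (ResidueField A) (G : Set (ResidueField T))) := by
    rw [← hG, Submodule.span_le]
    intro x hx
    have h2 : x ∈ IntermediateField.adjoin (ResidueField A) (G : Set (ResidueField T)) :=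
      IntermediateField.subset_adjoin _ _ hx
    exact (le_sup_right : IntermediateField.adjoin (ResidueField A) (G : Set (ResidueField T)) ≤
      K ⊔ _) h2
  exact fun x hx => h1 hx

theorem UB_step (halg : Algebra.IsAlgebraic (ResidueField A) (ResidueField T))
    (hfl : ∀ V : Submodule A T, V.FG → Module.length A V ≠ ⊤)
    (V₀ : Subalgebra A T) (I : Ideal T) (z : T) (hz : z ∉ I)
    (hn : ∀ r ∈ maximalIdeal T, r * z ∈ I) (V : Submodule A T)
    (K : IntermediateField (ResidueField A) (ResidueField T))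
    (h : DD V₀ (I ⊔ Ideal.span {z}) V K) : ∃ V' K', DD V₀ I V' K' := by
  classical
  obtain ⟨π, hπ1, hπ2⟩ := exists_pi I z hz hn
  have hfd := h.fd
  let Ip := I ⊔ Ideal.span {z}
  let U : Submodule A T := V ⊓ Ip.restrictScalars A
  let f : U →ₗ[A] ResidueField T := piA Ip π U fun u (hu : u ∈ V ⊓ Ip.restrictScalars A) => hu.2
  have hUfg : (LinearMap.range f).FG := by
    have h1 := hfl V h.fg
    have h2 : Module.length A U ≠ ⊤ := by
      refine ne_top_of_le_ne_top h1 ?_
      exact Module.length_le_of_injective (Submodule.inclusion (inf_le_left : U ≤ V))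
        (Submodule.inclusion_injective _)
    have h3 := Module.length_ne_top_iff.mp h2
    have h4 := (isFiniteLength_iff_isNoetherian_isArtinian.mp h3).1
    rw [LinearMap.range_eq_map]
    exact Submodule.FG.map _ (IsNoetherian.noetherian _)
  obtain ⟨K', hKK', hfd', hfK'⟩ := exists_K halg K (LinearMap.range f) hUfg
  obtain ⟨n, w, hwK', hwI, hwspan, hfin⟩ := tower_basis K K' hKK'
  choose wt hwt using fun t => residue_surjective (R := T) (w t)
  have hπK' : ∀ (v : T) (hv : v ∈ V) (hvI : v ∈ Ip), π ⟨v, hvI⟩ ∈ K' := fun v hv hvI =>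
    hfK' _ ⟨⟨v, hv, hvI⟩, rfl⟩
  have hπsum : ∀ (v : Fin n → T) (hv : ∀ t, v t ∈ Ip) (hs : ∑ t, wt t * v t ∈ Ip),
      π ⟨∑ t, wt t * v t, hs⟩ = ∑ t, w t * π ⟨v t, hv t⟩ := by
    intro v hv hs
    have h1 : (⟨∑ t, wt t * v t, hs⟩ : Ip) = ∑ t, wt t • (⟨v t, hv t⟩ : Ip) := by
      apply Subtype.ext
      rw [AddSubmonoidClass.coe_finsetSum]
      rfl
    rw [h1, map_sum]
    refine Finset.sum_congr rfl fun t _ => ?_
    rw [map_smul, Algebra.smul_def, ← hwt t]
    rfl
  refine ⟨sumV wt V, K', ⟨sumV_fg wt h.fg, hfd', ?_, ?_, ?_, ?_⟩⟩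
  · intro u hu v hv
    obtain ⟨v', hv', rfl⟩ := mem_sumV.mp hv
    rw [mem_sumV]
    refine ⟨fun t => u * v' t, fun t => h.st u hu _ (hv' t), ?_⟩
    rw [Finset.mul_sum]
    exact Finset.sum_congr rfl fun t _ => by ring
  · intro x hx
    obtain ⟨c, hc, rfl⟩ := hwspan x hx
    choose ct hct hct2 using fun t => h.li (c t) (hc t)
    refine ⟨∑ t, wt t * ct t, ?_, ?_⟩
    · rw [map_sum]
      refine Finset.sum_congr rfl fun t _ => ?_
      rw [map_mul, hwt, hct, mul_comm]
    · intro u hu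
      rw [mem_sumV]
      refine ⟨fun t => ct t * u, fun t => hct2 t u hu, ?_⟩
      rw [Finset.sum_mul]
      exact Finset.sum_congr rfl fun t _ => by ring
  · intro ι _ zz hzz zt v hzt hv hsum
    choose v' hv' hvv' using fun s => mem_sumV.mp (hv s)
    have hcomb : ∑ p : ι × Fin n, (zt p.1 * wt p.2) * v' p.1 p.2 = ∑ s, zt s * v s := by
      rw [Fintype.sum_prod_type]
      refine Finset.sum_congr rfl fun s _ => ?_
      rw [hvv' s, Finset.mul_sum]
      exact Finset.sum_congr rfl fun t _ => by ring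
    have hind := Ind.mul hzz hwI (fun c hc => by
      refine K'.sum_mem fun t _ => K'.mul_mem (hKK' (hc t)) (hwK' t))
    have h1 := h.pi (ι × Fin n) _ hind (fun p => zt p.1 * wt p.2) (fun p => v' p.1 p.2)
      (fun p => by rw [map_mul, hzt, hwt]) (fun p => hv' p.1 p.2) (by
        rw [hcomb]
        exact Ideal.mem_sup_left hsum)
    have hvIp : ∀ s, v s ∈ Ip := by
      intro s
      rw [hvv' s]
      exact Ideal.sum_mem _ fun t _ => Ideal.mul_mem_left _ _ (h1 (s, t))
    have h2 : ∑ s, π ⟨v s, hvIp s⟩ * zz s = 0 := by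
      have h3 : (⟨∑ s, zt s * v s, Ideal.mem_sup_left hsum⟩ : Ip) =
          ∑ s, zt s • (⟨v s, hvIp s⟩ : Ip) := by
        apply Subtype.ext
        rw [AddSubmonoidClass.coe_finsetSum]
        rfl
      have h4 := (hπ1 ⟨∑ s, zt s * v s, Ideal.mem_sup_left hsum⟩).mpr hsum
      rw [h3, map_sum] at h4
      rw [← h4]
      refine Finset.sum_congr rfl fun s _ => ?_
      rw [map_smul, Algebra.smul_def, ← hzt s, mul_comm]
      rfl
    have h5 := hzz (fun s => π ⟨v s, hvIp s⟩) (by
      intro s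
      have h6 : π ⟨v s, hvIp s⟩ = ∑ t, w t * π ⟨v' s t, h1 (s, t)⟩ := by
        have h7 : ∑ t, wt t * v' s t ∈ Ip := by rw [← hvv' s]; exact hvIp s
        rw [← hπsum (v' s) (fun t => h1 (s, t)) h7]
        congr 1
        exact Subtype.ext (hvv' s)
      show π ⟨v s, hvIp s⟩ ∈ K'
      rw [h6]
      exact K'.sum_mem fun t _ => K'.mul_mem (hwK' t) (hπK' _ (hv' s t) (h1 (s, t)))) h2
    exact fun s => (hπ1 _).mp (h5 s)
  · have h1 : rl I (I ⊔ Ideal.span {z}) = 1 := rl_cover I z hz hn
    have h2 : cl I = 1 + cl Ip := by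
      rw [cl_eq_rl_add (le_sup_left : I ≤ Ip), h1]
    have h3 := rl_sumV wt V Ip
    have h4 : rl (sumV wt V ⊓ I.restrictScalars A) (sumV wt V ⊓ Ip.restrictScalars A) ≤
        Module.finrank (ResidueField A) K' := by
      rw [← length_KA K']
      refine rl_le_of_map (piA Ip π (sumV wt V ⊓ Ip.restrictScalars A)
        (fun u (hu : u ∈ sumV wt V ⊓ Ip.restrictScalars A) => hu.2)) (KA K') ?_ ?_
      · rintro ⟨v, hv, hvI⟩
        obtain ⟨v', hv', rfl⟩ := mem_sumV.mp hv
        have h5 := h.pi (Fin n) w hwI wt v' hwt hv' hvI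
        show π ⟨∑ t, wt t * v' t, hvI⟩ ∈ K'
        rw [hπsum v' h5 hvI]
        exact K'.sum_mem fun t _ => K'.mul_mem (hwK' t) (hπK' _ (hv' t) (h5 t))
      · rintro ⟨v, hv, hvI⟩ h0
        exact ⟨hv, (hπ1 _).mp h0⟩
    have h5 := rl_add (V := sumV wt V ⊓ I.restrictScalars A)
      (U := sumV wt V ⊓ Ip.restrictScalars A) (W := sumV wt V)
      (inf_le_inf_left _ fun x hx => Ideal.mem_sup_left hx) inf_le_left
    rw [h5, h2, mul_add, mul_one]
    refine add_le_add h4 (h3.trans ?_)
    rw [hfin]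
    push_cast
    rw [mul_assoc]
    gcongr
    exact h.le

theorem UB (halg : Algebra.IsAlgebraic (ResidueField A) (ResidueField T))
    (hfl : ∀ V : Submodule A T, V.FG → Module.length A V ≠ ⊤)
    (hnil : ∃ K, maximalIdeal T ^ K = ⊥)
    (V₀ : Subalgebra A T) (hV₀ : (Subalgebra.toSubmodule V₀).FG) (n : ℕ) :
    ∀ I : Ideal T, cl I = n → ∃ V K, DD V₀ I V K := by
  induction n with
  | zero =>
    intro I hI
    have hI' : I = ⊤ := cl_eq_zero.mp (by exact_mod_cast hI)
    subst hI'
    refine ⟨Subalgebra.toSubmodule V₀, ⊥, ⟨hV₀, inferInstance, ?_, ?_, ?_, ?_⟩⟩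
    · intro u hu v hv
      exact V₀.mul_mem hu hv
    · intro x hx
      obtain ⟨y, rfl⟩ := IntermediateField.mem_bot.mp hx
      obtain ⟨a, rfl⟩ := residue_surjective y
      refine ⟨algebraMap A T a, rfl, fun u hu => ?_⟩
      exact V₀.mul_mem (V₀.algebraMap_mem a) hu
    · intro ι _ w _ wt v _ _ _ s
      trivial
    · have h1 : Subalgebra.toSubmodule V₀ ⊓ (⊤ : Ideal T).restrictScalars A =
          Subalgebra.toSubmodule V₀ := inf_eq_left.mpr fun _ _ => trivial
      rw [h1, rl_eq_zero]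
      exact zero_le
  | succ n ih =>
    intro I hI
    have hlt : I < ⊤ := by
      refine lt_of_le_of_ne le_top fun h => ?_
      rw [h, cl_top] at hI
      exact absurd hI.symm (by exact_mod_cast Nat.succ_ne_zero n)
    obtain ⟨z, -, hz, hn⟩ := exists_cover hnil I ⊤ hlt
    have h1 := cl_eq_rl_add (le_sup_left : I ≤ I ⊔ Ideal.span {z})
    rw [rl_cover I z hz hn, hI] at h1
    have h2 : cl (I ⊔ Ideal.span {z}) = n := by
      have h4 : (1 : ℕ∞) + n = 1 + cl (I ⊔ Ideal.span {z}) := by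
        rw [← h1]; push_cast; ring
      exact (ENat.add_right_injective_of_ne_top (by simp) h4).symm
    obtain ⟨V, K, h⟩ := ih _ h2
    exact UB_step halg hfl V₀ I z hz hn V K h

end UB

end Vale.Agent.P202
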