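import Vale.Agent.P202.LemV3

namespace Vale.Agent.P202

open IsLocalRing

section LemV

variable {A T : Type*} [CommRing A] [CommRing T] [Algebra A T]

def actV (t : Set T) (V : Submodule A T) : Submodule A T :=
  Submodule.span A {x | ∃ u ∈ t, ∃ v ∈ V, x = u * v}

theorem mem_actV {t : Set T} {V : Submodule A T} {u v : T} (hu : u ∈ t) (hv : v ∈ V) :
    u * v ∈ actV t V := Submodule.subset_span ⟨u, hu, v, hv, rfl⟩

theorem actV_le {t : Set T} {V W : Submodule A T} (h : ∀ u ∈ t, ∀ v ∈ V, u * v ∈ W) :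
    actV t V ≤ W := by
  unfold actV
  rw [Submodule.span_le]
  rintro _ ⟨u, hu, v, hv, rfl⟩
  exact h u hu v hv

variable [IsLocalRing A] [IsLocalRing T] [IsLocalHom (algebraMap A T)]

theorem lemV (halg : Algebra.IsAlgebraic (ResidueField A) (ResidueField T))
    (hint : Algebra.IsIntegral A T)
    (hfl : ∀ V : Submodule A T, V.FG → Module.length A V ≠ ⊤)
    (hnil : ∃ K, maximalIdeal T ^ K = ⊥) (hfin : cl (⊥ : Ideal T) ≠ ⊤)
    (E : Finset T) (𝒯 : Finset (Finset T)) :
    ∃ (V : Submodule A T) (N : ℕ), V.FG ∧ 0 < N ∧ (∀ e ∈ E, ∀ v ∈ V, e * v ∈ V) ∧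
      Module.length A V = N * cl (⊥ : Ideal T) ∧
      ∀ t ∈ 𝒯, N * rl ⊥ (Ideal.span (t : Set T)) ≤ Module.length A (actV (t : Set T) V) ∧
        N * cl (Ideal.span (t : Set T)) ≤
          rl (V ⊓ (Ideal.span (t : Set T)).restrictScalars A) V := by
  classical
  have hclfin : ∀ I : Ideal T, cl I ≠ ⊤ := fun I => ne_top_of_le_ne_top hfin (cl_anti bot_le)
  have hrlfin : ∀ J : Ideal T, rl ⊥ J ≠ ⊤ := by
    intro J h
    have h1 := cl_eq_rl_add (bot_le : ⊥ ≤ J)
    rw [h, top_add] at h1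
    exact hfin h1
  have hY1 : ∀ t : Finset T, ∃ Y : Finset T, (∀ y ∈ Y, y ∈ Ideal.span (t : Set T)) ∧
      ∀ (U : Submodule A T) (K : IntermediateField (ResidueField A) (ResidueField T))
        [FiniteDimensional (ResidueField A) K],
        (∀ x ∈ K, ∃ t, residue T t = x ∧ ∀ y ∈ Y, t * y ∈ U) →
        (Module.finrank (ResidueField A) K : ℕ∞) * rl ⊥ (Ideal.span (t : Set T)) ≤
          rl (U ⊓ (⊥ : Ideal T).restrictScalars A)
            (U ⊓ (Ideal.span (t : Set T)).restrictScalars A) := by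
    intro t
    obtain ⟨n, hn⟩ := ENat.ne_top_iff_exists.mp (hrlfin (Ideal.span (t : Set T)))
    obtain ⟨Y, h1, h2⟩ := LB (A := A) hnil (Ideal.span (t : Set T)) n ⊥ bot_le hn.symm
    refine ⟨Y, h1, ?_⟩
    rw [← hn]
    exact h2
  have hY2 : ∀ t : Finset T, ∃ Y : Finset T,
      ∀ (U : Submodule A T) (K : IntermediateField (ResidueField A) (ResidueField T))
        [FiniteDimensional (ResidueField A) K],
        (∀ x ∈ K, ∃ t, residue T t = x ∧ ∀ y ∈ Y, t * y ∈ U) →
        (Module.finrank (ResidueField A) K : ℕ∞) * cl (Ideal.span (t : Set T)) ≤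
          rl (U ⊓ (Ideal.span (t : Set T)).restrictScalars A) U := by
    intro t
    obtain ⟨n, hn⟩ := ENat.ne_top_iff_exists.mp (hclfin (Ideal.span (t : Set T)))
    have h0 : rl (Ideal.span (t : Set T)) ⊤ = n := by rw [rl_top]; exact hn.symm
    obtain ⟨Y, h1, h2⟩ := LB (A := A) hnil ⊤ n (Ideal.span (t : Set T)) le_top h0
    refine ⟨Y, ?_⟩
    intro U K _ hUK
    have h3 := h2 U K hUK
    have h4 : U ⊓ (⊤ : Ideal T).restrictScalars A = U := inf_eq_left.mpr fun _ _ => trivial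
    rw [h4] at h3
    rw [← hn]
    exact h3
  have hC : ∀ (t : Finset T) (y : T), ∃ c : T → T, y ∈ Ideal.span (t : Set T) →
      y = ∑ x ∈ t, c x * x := by
    intro t y
    by_cases hy : y ∈ Ideal.span (t : Set T)
    · obtain ⟨c, -, hc⟩ := Submodule.mem_span_finset.mp hy
      exact ⟨c, fun _ => hc.symm⟩
    · exact ⟨0, fun h => absurd h hy⟩
  choose Y1 hY11 hY12 using hY1
  choose Y2 hY22 using hY2
  choose c hc using hC
  let G : Finset T := E ∪ 𝒯.biUnion (fun t => (Y1 t).biUnion (fun y => t.image (c t y)) ∪ Y2 t) ∪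
    Y2 ∅
  have hGE : ∀ e ∈ E, e ∈ G := fun e he =>
    Finset.mem_union_left _ (Finset.mem_union_left _ he)
  have hG1 : ∀ t ∈ 𝒯, ∀ y ∈ Y1 t, ∀ x ∈ t, c t y x ∈ G := fun t ht y hy x hx =>
    Finset.mem_union_left _ (Finset.mem_union_right _ (Finset.mem_biUnion.mpr ⟨t, ht,
      Finset.mem_union_left _ (Finset.mem_biUnion.mpr ⟨y, hy, Finset.mem_image_of_mem _ hx⟩)⟩))
  have hG2 : ∀ t ∈ 𝒯, ∀ y ∈ Y2 t, y ∈ G := fun t ht y hy =>
    Finset.mem_union_left _ (Finset.mem_union_right _ (Finset.mem_biUnion.mpr ⟨t, ht,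
      Finset.mem_union_right _ hy⟩))
  have hG3 : ∀ y ∈ Y2 ∅, y ∈ G := fun y hy => Finset.mem_union_right _ hy
  let V₀ : Subalgebra A T := Algebra.adjoin A (G : Set T)
  have hGV : ∀ g ∈ G, g ∈ V₀ := fun g hg => Algebra.subset_adjoin (by exact_mod_cast hg)
  have hV₀ : (Subalgebra.toSubmodule V₀).FG :=
    fg_adjoin_of_finite (Finset.finite_toSet G) fun x _ => Algebra.IsIntegral.isIntegral x
  obtain ⟨n, hn⟩ := ENat.ne_top_iff_exists.mp hfin
  obtain ⟨V, K, h⟩ := UB halg hfl hnil V₀ hV₀ n ⊥ hn.symm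
  have hfd := h.fd
  have hbotA : V ⊓ (⊥ : Ideal T).restrictScalars A = ⊥ := by
    ext x
    constructor
    · rintro ⟨_, h⟩
      exact h
    · intro h
      rw [(Submodule.mem_bot A).mp h]
      exact Submodule.zero_mem _
  have hliY : ∀ Y : Finset T, (∀ y ∈ Y, y ∈ G) → ∀ x ∈ K, ∃ t, residue T t = x ∧
      ∀ y ∈ Y, t * y ∈ V := by
    intro Y hY x hx
    obtain ⟨t, ht, ht2⟩ := h.li x hx
    exact ⟨t, ht, fun y hy => ht2 y (hGV y (hY y hy))⟩
  refine ⟨V, Module.finrank (ResidueField A) K, h.fg, Module.finrank_pos, ?_, ?_, ?_⟩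
  · intro e he v hv
    exact h.st e (hGV e (hGE e he)) v hv
  · apply le_antisymm
    · have h1 := h.le
      rwa [hbotA, rl_bot] at h1
    · have h1 := hY22 ∅ V K (hliY _ hG3)
      have h2 : Ideal.span ((∅ : Finset T) : Set T) = ⊥ := by simp
      rwa [h2, hbotA, rl_bot] at h1
  · intro t ht
    refine ⟨?_, hY22 t V K (hliY _ (hG2 t ht))⟩
    refine (hY12 t (actV (t : Set T) V) K ?_).trans ?_
    · intro x hx
      obtain ⟨l, hl, hl2⟩ := h.li x hx
      refine ⟨l, hl, fun y hy => ?_⟩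
      rw [hc t y (hY11 t y hy), Finset.mul_sum]
      refine Submodule.sum_mem _ fun x' hx' => ?_
      have h1 : l * (c t y x' * x') = x' * (l * c t y x') := by ring
      rw [h1]
      exact mem_actV (by exact_mod_cast hx') (hl2 _ (hGV _ (hG1 t ht y hy x' hx')))
    · have h1 : actV (t : Set T) V ⊓ (⊥ : Ideal T).restrictScalars A = ⊥ := by
        ext x
        constructor
        · rintro ⟨_, h⟩
          exact h
        · intro h
          rw [(Submodule.mem_bot A).mp h]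
          exact Submodule.zero_mem _
      rw [h1, rl_bot]
      exact Module.length_le_of_injective (Submodule.inclusion inf_le_left)
        (Submodule.inclusion_injective _)

end LemV

end Vale.Agent.P202
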