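import Mathlib

namespace Vale.Agent.P202

open IsLocalRing

section Basic

variable {S : Type*} [CommRing S]

noncomputable def cl (I : Ideal S) : ℕ∞ := Module.length S (S ⧸ I)

def qt (I : Ideal S) (y : S) : Ideal S := Submodule.comap (LinearMap.mulLeft S y) I

theorem mem_qt {I : Ideal S} {y w : S} : w ∈ qt I y ↔ y * w ∈ I := Iff.rfl

theorem cl_anti {I J : Ideal S} (h : I ≤ J) : cl J ≤ cl I :=
  Module.length_le_of_surjective (Submodule.factor h) (Submodule.factor_surjective h)

theorem cl_top : cl (⊤ : Ideal S) = 0 := by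
  unfold cl
  have : Subsingleton (S ⧸ (⊤ : Ideal S)) := Ideal.Quotient.subsingleton_iff.mpr rfl
  exact Module.length_eq_zero

theorem cl_eq_zero {I : Ideal S} : cl I = 0 ↔ I = ⊤ := by
  unfold cl
  rw [Module.length_eq_zero_iff, Ideal.Quotient.subsingleton_iff]

theorem le_qt (I : Ideal S) (y : S) : I ≤ qt I y := fun _ hw => I.mul_mem_left y hw

theorem cl_comap (I : Ideal S) (y : S) :
    Module.length S (S ⧸ I) =
      Module.length S (S ⧸ (Submodule.comap (LinearMap.mulLeft S y) I)) +
        Module.length S (S ⧸ (I ⊔ Ideal.span {y})) := by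
  have h1 : I ≤ I ⊔ Ideal.span {y} := le_sup_left
  refine Module.length_eq_add_of_exact
    (Submodule.mapQ (Submodule.comap (LinearMap.mulLeft S y) I) I (LinearMap.mulLeft S y) le_rfl)
    (Submodule.factor h1) ?_ (Submodule.factor_surjective h1) ?_
  · rw [← LinearMap.ker_eq_bot, Submodule.ker_mapQ]
    exact Submodule.mkQ_map_self _
  · intro z
    obtain ⟨z, rfl⟩ := Submodule.Quotient.mk_surjective _ z
    have hfac : (Submodule.factor h1) (Submodule.Quotient.mk z) = 0 ↔ z ∈ I ⊔ Ideal.span {y} := by
      unfold Submodule.factor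
      rw [Submodule.mapQ_apply]
      exact Submodule.Quotient.mk_eq_zero _
    rw [hfac]
    constructor
    · intro hz'
      obtain ⟨a, ha, b, hb, rfl⟩ := Submodule.mem_sup.mp hz'
      obtain ⟨c, rfl⟩ := Ideal.mem_span_singleton'.mp hb
      refine ⟨Submodule.Quotient.mk c, ?_⟩
      rw [Submodule.mapQ_apply]
      refine (Submodule.Quotient.eq _).mpr ?_
      simp only [LinearMap.mulLeft_apply]
      have : y * c - (a + c * y) = -a := by ring
      rw [this]
      exact I.neg_mem ha
    · rintro ⟨c, hc⟩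
      obtain ⟨c, rfl⟩ := Submodule.Quotient.mk_surjective _ c
      rw [Submodule.mapQ_apply] at hc
      have h2 := (Submodule.Quotient.eq _).mp hc
      simp only [LinearMap.mulLeft_apply] at h2
      have h3 : z = y * c - (y * c - z) := by ring
      rw [h3]
      refine Ideal.sub_mem _ ?_ (h1 h2)
      exact Ideal.mem_sup_right (Ideal.mem_span_singleton'.mpr ⟨c, mul_comm _ _⟩)

theorem cl_qt (I : Ideal S) (y : S) : cl I = cl (qt I y) + cl (I ⊔ Ideal.span {y}) :=
  cl_comap I y

end Basic

end Vale.Agent.P202
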