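import Vale.Agent.P202.UU
import Vale.Agent.P202.Fin

namespace Vale.Agent.P202

open Finset IsLocalRing

section Rel

variable {A B : Type*} [CommRing A] [IsLocalRing A] [CommRing B] [Algebra A B] [Module.Flat A B]

theorem flat_rel {h : ℕ} (g : Fin h → A)
    (hmin : ∀ r : Fin h → A, ∑ i, r i * g i = 0 → ∀ i, r i ∈ maximalIdeal A)
    (c : Fin h → B) (hc : ∑ i, c i * algebraMap A B (g i) = 0) (i : Fin h) :
    c i ∈ (maximalIdeal A).map (algebraMap A B) := by
  have h0 : ∑ i, g i • c i = 0 := by
    rw [← hc]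
    refine Finset.sum_congr rfl fun i _ => ?_
    rw [Algebra.smul_def, mul_comm]
  obtain ⟨k, a, y, h1, h2⟩ :=
    Module.Flat.isTrivialRelation_of_sum_smul_eq_zero (R := A) (M := B) h0
  rw [h1 i]
  refine Ideal.sum_mem _ fun j _ => ?_
  rw [Algebra.smul_def]
  refine Ideal.mul_mem_right _ _ (Ideal.mem_map_of_mem _ ?_)
  refine hmin (fun i => a i j) ?_ i
  rw [← h2 j]
  exact Finset.sum_congr rfl fun i _ => mul_comm _ _

omit [IsLocalRing A] [Module.Flat A B] in
theorem mem_mul_gens {h : ℕ} (g : Fin h → A) (I : Ideal B) (w : B)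
    (hw : w ∈ I * (Ideal.span (Set.range g)).map (algebraMap A B)) :
    ∃ t : Fin h → B, (∀ i, t i ∈ I) ∧ ∑ i, t i * algebraMap A B (g i) = w := by
  have hg' : Ideal.span (Set.range (fun i => algebraMap A B (g i))) =
      (Ideal.span (Set.range g)).map (algebraMap A B) := by
    rw [Ideal.map_span, ← Set.range_comp]
    rfl
  rw [← hg', ← smul_eq_mul, Submodule.mem_ideal_smul_span_iff_exists_sum] at hw
  obtain ⟨t, ht, hsum⟩ := hw
  rw [Finsupp.sum_fintype _ _ (by simp)] at hsum
  exact ⟨t, ht, hsum⟩

omit [IsLocalRing A] [Module.Flat A B] in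
theorem mem_gens {h : ℕ} (g : Fin h → A) (w : B)
    (hw : w ∈ (Ideal.span (Set.range g)).map (algebraMap A B)) :
    ∃ t : Fin h → B, ∑ i, t i * algebraMap A B (g i) = w := by
  obtain ⟨t, -, ht⟩ := mem_mul_gens g ⊤ w (by rwa [Ideal.top_mul])
  exact ⟨t, ht⟩

theorem nzd_pow [IsNoetherianRing A] (y : B)
    (hy : ∀ w, y * w ∈ (maximalIdeal A).map (algebraMap A B) →
      w ∈ (maximalIdeal A).map (algebraMap A B)) (N : ℕ) :
    ∀ w, y * w ∈ (maximalIdeal A ^ N).map (algebraMap A B) →
      w ∈ (maximalIdeal A ^ N).map (algebraMap A B) := by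
  induction N with
  | zero =>
    intro w _
    rw [pow_zero, Ideal.one_eq_top, Ideal.map_top]
    trivial
  | succ N ih =>
    intro w hw
    obtain ⟨h, g, hg, hmin⟩ := exists_min_gens (maximalIdeal A ^ N)
    have hw1 := ih w (Ideal.map_mono (Ideal.pow_le_pow_right (Nat.le_succ N)) hw)
    rw [← hg] at hw1
    obtain ⟨c, hc⟩ := mem_gens g w hw1
    rw [pow_succ', Ideal.map_mul, ← hg] at hw
    obtain ⟨t, ht, hsum⟩ := mem_mul_gens g _ _ hw
    have h0 : ∑ i, (y * c i - t i) * algebraMap A B (g i) = 0 := by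
      have h1 : ∀ i, (y * c i - t i) * algebraMap A B (g i) =
          y * (c i * algebraMap A B (g i)) - t i * algebraMap A B (g i) := fun i => by ring
      rw [Finset.sum_congr rfl fun i _ => h1 i, Finset.sum_sub_distrib, ← Finset.mul_sum, hc,
        hsum, sub_self]
    have h2 : ∀ i, c i ∈ (maximalIdeal A).map (algebraMap A B) := by
      intro i
      have h3 := flat_rel g hmin (fun i => y * c i - t i) h0 i
      have h4 : y * c i = (y * c i - t i) + t i := by ring
      refine hy _ ?_
      rw [h4]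
      exact Ideal.add_mem _ h3 (ht i)
    rw [pow_succ', Ideal.map_mul, ← hc]
    refine Ideal.sum_mem _ fun i _ => Ideal.mul_mem_mul (h2 i) ?_
    rw [← hg]
    exact Ideal.mem_map_of_mem _ (Ideal.subset_span ⟨i, rfl⟩)

end Rel

section LB

variable {A B : Type*} [CommRing A] [IsLocalRing A] [IsNoetherianRing A] [CommRing B]
  [IsLocalRing B] [Algebra A B] [Module.Flat A B]

omit [IsLocalRing B] in
theorem cl_A_le_P {P : Type*} [CommRing P] [IsLocalRing P] (π : B →+* P)
    (hπ : Function.Surjective π) (y : B) (hker : RingHom.ker π = Ideal.span {y})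
    (hy : ∀ w, y * w ∈ (maximalIdeal A).map (algebraMap A B) →
      w ∈ (maximalIdeal A).map (algebraMap A B))
    (hP : (maximalIdeal A).map (π.comp (algebraMap A B)) = maximalIdeal P) (N : ℕ) :
    cl (maximalIdeal A ^ N) ≤ cl (maximalIdeal P ^ N) := by
  induction N with
  | zero => rw [pow_zero, Ideal.one_eq_top, cl_top]; exact zero_le
  | succ N ih =>
    obtain ⟨h, g, hg, hmin⟩ := exists_min_gens (maximalIdeal A ^ N)
    have h1 := cl_mul_le g (maximalIdeal A) (maximalIdeal A ^ N) hg
    have hg' : Ideal.span (Set.range (fun i => π (algebraMap A B (g i)))) =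
        maximalIdeal P ^ N := by
      rw [← hP, ← Ideal.map_pow, ← hg, Ideal.map_span, ← Set.range_comp]
      rfl
    have h2 := le_cl_mul (fun i => π (algebraMap A B (g i))) (maximalIdeal P)
      (maximalIdeal P ^ N) hg' (by
        intro c hc
        rw [← hg', ← smul_eq_mul, Submodule.mem_ideal_smul_span_iff_exists_sum] at hc
        obtain ⟨t, ht, hsum⟩ := hc
        rw [Finsupp.sum_fintype _ _ (by simp)] at hsum
        have h0 : ∑ i, (c i - t i) * π (algebraMap A B (g i)) = 0 := by
          simp only [smul_eq_mul] at hsum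
          rw [Finset.sum_congr rfl fun i _ => sub_mul (c i) (t i) (π (algebraMap A B (g i))),
            Finset.sum_sub_distrib, hsum, sub_self]
        choose b hb using fun i => hπ (c i - t i)
        have h3 : ∑ i, b i * algebraMap A B (g i) ∈ RingHom.ker π := by
          rw [RingHom.mem_ker, map_sum, ← h0]
          refine Finset.sum_congr rfl fun i _ => ?_
          rw [map_mul, hb i]
        rw [hker] at h3
        obtain ⟨w, hw⟩ := Ideal.mem_span_singleton'.mp h3
        have h4 : y * w ∈ (maximalIdeal A ^ N).map (algebraMap A B) := by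
          rw [mul_comm, hw]
          refine Ideal.sum_mem _ fun i _ => Ideal.mul_mem_left _ _ (Ideal.mem_map_of_mem _ ?_)
          rw [← hg]
          exact Ideal.subset_span ⟨i, rfl⟩
        have h5 := nzd_pow y hy N w h4
        rw [← hg] at h5
        obtain ⟨v, hv⟩ := mem_gens g w h5
        have h6 : ∑ i, (b i - y * v i) * algebraMap A B (g i) = 0 := by
          have h7 : ∀ i, (b i - y * v i) * algebraMap A B (g i) =
              b i * algebraMap A B (g i) - y * (v i * algebraMap A B (g i)) := fun i => by ring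
          rw [Finset.sum_congr rfl fun i _ => h7 i, Finset.sum_sub_distrib, ← Finset.mul_sum, hv,
            ← hw, mul_comm, sub_self]
        intro i
        have h8 := flat_rel g hmin (fun i => b i - y * v i) h6 i
        have h9 : π (b i - y * v i) ∈ maximalIdeal P := by
          rw [← hP, ← Ideal.map_map]
          exact Ideal.mem_map_of_mem _ h8
        have h10 : π y = 0 := by
          have : y ∈ RingHom.ker π := by rw [hker]; exact Ideal.mem_span_singleton_self y
          exact this
        rw [map_sub, map_mul, h10, zero_mul, sub_zero, hb i] at h9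
        have h11 : c i = (c i - t i) + t i := by ring
        rw [h11]
        exact Ideal.add_mem _ h9 (ht i))
    rw [cl_maximalIdeal, mul_one] at h1 h2
    rw [pow_succ', pow_succ']
    refine h1.trans (le_trans ?_ h2)
    gcongr

omit [IsNoetherianRing A] [Module.Flat A B] in
theorem pow_le_B (y : B)
    (hB : maximalIdeal B = (maximalIdeal A).map (algebraMap A B) ⊔ Ideal.span {y}) (N : ℕ) :
    maximalIdeal B ^ (N + 1) ≤ Ideal.span {y} * maximalIdeal B ^ N ⊔
      (maximalIdeal A ^ (N + 1)).map (algebraMap A B) := by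
  induction N with
  | zero =>
    rw [zero_add, pow_one, pow_one, pow_zero, mul_one, hB, sup_comm]
  | succ N ih =>
    have h1 : (maximalIdeal A ^ (N + 1)).map (algebraMap A B) ≤ maximalIdeal B ^ (N + 1) := by
      rw [Ideal.map_pow]
      refine Ideal.pow_right_mono ?_ _
      rw [hB]
      exact le_sup_left
    rw [pow_succ (maximalIdeal B) (N + 1)]
    refine (Ideal.mul_mono ih le_rfl).trans ?_
    rw [Ideal.sup_mul]
    refine sup_le ?_ ?_
    · rw [mul_assoc, ← pow_succ]
      exact le_sup_left
    · conv_lhs => rw [hB]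
      rw [Ideal.mul_sup]
      refine sup_le ?_ ?_
      · rw [← Ideal.map_mul, ← pow_succ]
        exact le_sup_right
      · rw [mul_comm]
        exact (Ideal.mul_mono le_rfl h1).trans le_sup_left

theorem cl_step_B (y : B)
    (hB : maximalIdeal B = (maximalIdeal A).map (algebraMap A B) ⊔ Ideal.span {y})
    (hy : ∀ w, y * w ∈ (maximalIdeal A).map (algebraMap A B) →
      w ∈ (maximalIdeal A).map (algebraMap A B)) (N : ℕ) :
    cl (maximalIdeal B ^ N) + cl (maximalIdeal A ^ (N + 1)) ≤ cl (maximalIdeal B ^ (N + 1)) := by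
  have h1 := cl_qt (maximalIdeal B ^ (N + 1)) y
  have hyB : y ∈ maximalIdeal B := by
    rw [hB]
    exact Ideal.mem_sup_right (Ideal.mem_span_singleton_self y)
  have h2 : cl (maximalIdeal B ^ N) ≤ cl (qt (maximalIdeal B ^ (N + 1)) y) := by
    refine cl_anti fun w hw => ?_
    rw [mem_qt] at hw
    obtain ⟨a, ha, b, hb, hab⟩ := Submodule.mem_sup.mp (pow_le_B y hB N hw)
    obtain ⟨z, hz, rfl⟩ := Ideal.mem_span_singleton_mul.mp ha
    have h3 : y * (w - z) ∈ (maximalIdeal A ^ (N + 1)).map (algebraMap A B) := by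
      have : y * (w - z) = b := by rw [mul_sub, ← hab]; ring
      rwa [this]
    have h4 := nzd_pow y hy _ _ h3
    have h5 : w = (w - z) + z := by ring
    rw [h5]
    refine Ideal.add_mem _ ?_ hz
    rw [Ideal.map_pow] at h4
    have h6 : (maximalIdeal A).map (algebraMap A B) ^ (N + 1) ≤ maximalIdeal B ^ N :=
      (Ideal.pow_right_mono (by rw [hB]; exact le_sup_left) _).trans
        (Ideal.pow_le_pow_right (Nat.le_succ N))
    exact h6 h4
  have hne : Ideal.span {y} ≠ ⊤ := fun h =>
    (maximalIdeal.isMaximal B).ne_top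
      (top_le_iff.mp (h ▸ (Ideal.span_singleton_le_iff_mem _).mpr hyB))
  have hnt : Nontrivial (B ⧸ Ideal.span {y}) := Ideal.Quotient.nontrivial_iff.mpr hne
  have hlr : IsLocalRing (B ⧸ Ideal.span {y}) :=
    IsLocalRing.of_surjective' (Ideal.Quotient.mk _) Ideal.Quotient.mk_surjective
  have hmax : (maximalIdeal B).map (Ideal.Quotient.mk (Ideal.span {y})) =
      maximalIdeal (B ⧸ Ideal.span {y}) :=
    IsLocalRing.map_maximalIdeal_of_surjective (Ideal.Quotient.mk _) Ideal.Quotient.mk_surjective
  have hAP : (maximalIdeal A).map ((Ideal.Quotient.mk (Ideal.span {y})).comp (algebraMap A B)) =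
      maximalIdeal (B ⧸ Ideal.span {y}) := by
    rw [← hmax, hB, Ideal.map_sup, ← Ideal.map_map, Ideal.map_span, Set.image_singleton,
      Ideal.Quotient.eq_zero_iff_mem.mpr (Ideal.mem_span_singleton_self y)]
    rw [Ideal.span_singleton_zero, sup_bot_eq]
  have h3 := cl_A_le_P (Ideal.Quotient.mk (Ideal.span {y})) Ideal.Quotient.mk_surjective y
    Ideal.mk_ker hy hAP (N + 1)
  have h4 : cl (maximalIdeal B ^ (N + 1) ⊔ Ideal.span {y}) =
      cl (maximalIdeal (B ⧸ Ideal.span {y}) ^ (N + 1)) := by
    refine cl_pull (R := B) (R' := B ⧸ Ideal.span {y}) Ideal.Quotient.mk_surjective _ _ ?_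
    intro v
    rw [← hmax, ← Ideal.map_pow]
    rw [Ideal.Quotient.algebraMap_eq, Ideal.mem_quotient_iff_mem_sup]
  rw [h1, h4]
  exact add_le_add h2 h3

theorem UU.lemB [IsNoetherianRing B] (y : B)
    (hB : maximalIdeal B = (maximalIdeal A).map (algebraMap A B) ⊔ Ideal.span {y})
    (hy : ∀ w, y * w ∈ (maximalIdeal A).map (algebraMap A B) →
      w ∈ (maximalIdeal A).map (algebraMap A B)) {s e : ℕ} (h : UU B (s + 1) e) : UU A s e := by
  have hrec : ∀ N, len A (N + 1) + len B N ≤ len B (N + 1) + 0 := by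
    intro N
    have := cl_step_B y hB hy N
    rw [← coe_len, ← coe_len, ← coe_len] at this
    have h1 : len B N + len A (N + 1) ≤ len B (N + 1) := by exact_mod_cast this
    omega
  have hmono : Monotone (len A) := by
    intro i j hij
    have h1 := cl_anti (Ideal.pow_le_pow_right (I := maximalIdeal A) hij)
    rw [← coe_len, ← coe_len] at h1
    exact_mod_cast h1
  obtain ⟨K, hK⟩ := h.bound
  obtain ⟨K', hK'⟩ := chain_upper (len B) (len A) 0 hrec hmono K (s + 1) (fun N => by
    have := hK N
    rw [← coe_len] at this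
    exact_mod_cast this)
  obtain ⟨e', D', h1, h2⟩ := two_sided (S := A) s K' (fun N => by
    rw [← coe_len]
    exact_mod_cast hK' N)
  obtain ⟨D'', hD''⟩ := chain_lower (len B) (len A) 0 hrec e' D' s (fun N => by
    have := h2 N
    rw [← coe_len] at this
    exact_mod_cast this)
  obtain ⟨D, hD⟩ := h
  have h3 : e' ≤ e := by
    refine Vale.Agent.P202.compare e' e (D + D'') (s + 1) fun N => ?_
    have h4 := hD N
    rw [← coe_len] at h4
    have h5 : len B N ≤ e * (N + (s + 1)).choose (s + 1 + 1) + D * N ^ (s + 1) := by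
      exact_mod_cast h4
    have h6 := hD'' N
    rw [add_mul]
    have h7 : (s + 1 + 1) = s + 2 := rfl
    rw [h7] at h5 ⊢
    omega
  refine ⟨D', fun N => (h1 N).trans ?_⟩
  have h8 : e' * (N + s).choose (s + 1) + D' * N ^ s ≤
      e * (N + s).choose (s + 1) + D' * N ^ s := by gcongr
  exact_mod_cast h8

theorem UU.lemB0 [IsNoetherianRing B] (y : B)
    (hB : maximalIdeal B = (maximalIdeal A).map (algebraMap A B) ⊔ Ideal.span {y})
    (hy : ∀ w, y * w ∈ (maximalIdeal A).map (algebraMap A B) →
      w ∈ (maximalIdeal A).map (algebraMap A B)) {e : ℕ} (h : UU B 0 e) (N : ℕ) :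
    cl (maximalIdeal A ^ N) ≤ e := by
  by_contra hcon
  push Not at hcon
  rw [← coe_len] at hcon
  have h1 : e + 1 ≤ len A N := by exact_mod_cast hcon
  have hrec : ∀ N, len B N + len A (N + 1) ≤ len B (N + 1) := by
    intro N
    have := cl_step_B y hB hy N
    rw [← coe_len, ← coe_len, ← coe_len] at this
    exact_mod_cast this
  have hmono : ∀ i j, i ≤ j → len A i ≤ len A j := by
    intro i j hij
    have h1 := cl_anti (Ideal.pow_le_pow_right (I := maximalIdeal A) hij)
    rw [← coe_len, ← coe_len] at h1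
    exact_mod_cast h1
  have h2 : ∀ K, (e + 1) * K ≤ len B (N + K) := by
    intro K
    induction K with
    | zero => omega
    | succ K ih =>
      have h3 := hrec (N + K)
      have h4 := hmono N (N + K + 1) (by omega)
      have h5 : N + (K + 1) = N + K + 1 := by ring
      rw [h5, mul_add, mul_one]
      omega
  obtain ⟨D, hD⟩ := h
  have h6 := hD (N + (e * N + D + 1))
  rw [← coe_len] at h6
  have h7 : len B (N + (e * N + D + 1)) ≤
      e * (N + (e * N + D + 1) + 0).choose (0 + 1) + D * (N + (e * N + D + 1)) ^ 0 := by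
    exact_mod_cast h6
  rw [add_zero, zero_add, Nat.choose_one_right, pow_zero, mul_one] at h7
  have h8 := h2 (e * N + D + 1)
  nlinarith

end LB

end Vale.Agent.P202
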