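import Vale.Agent.P202.Cut

namespace Vale.Agent.P202

open Finset IsLocalRing

section

variable {S : Type*} [CommRing S] [IsLocalRing S] [IsNoetherianRing S]

theorem sside2 (X : ℕ → S) (d : ℕ)
    (hs : ∀ i < d + 1, Sup (maximalIdeal S) (P X i) (X i)) (A : ℕ)
    (hA : ∀ N, cl (maximalIdeal S ^ N) ≤ ((A * (N + 1) ^ (d + 1) : ℕ) : ℕ∞)) :
    (∃ c, maximalIdeal S ^ c ≤ P X (d + 1)) ∧
    (∀ i k, i + k = d + 1 → ∃ A', ∀ N, LL X i N ≤ A' * (N + 1) ^ k) ∧
    ∃ e c Λ : ℕ, (∀ i, c ≤ i → cl (qt (P X d) (X d ^ i) ⊔ Ideal.span {X d}) ≤ e) ∧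
      (∀ i, cl (qt (P X d) (X d ^ i) ⊔ Ideal.span {X d}) ≤ Λ) ∧
      ∀ i k, i + k = d → ∃ D : ℕ, ∀ N : ℕ, e * N.choose (k + 1) ≤ LL X i N + D * N ^ k := by
  have h0 : ∀ N, (LL X 0 N : ℕ∞) = cl (maximalIdeal S ^ N) := by
    intro N
    rw [coe_LL, P_zero, bot_sup_eq]
  have hA' : ∀ N, LL X 0 N ≤ A * (N + 1) ^ (d + 1) := by
    intro N
    have := hA N
    rw [← h0] at this
    exact_mod_cast this
  have hup : ∀ i k, i + k = d + 1 → ∃ A', ∀ N, LL X i N ≤ A' * (N + 1) ^ k :=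
    fun i k => LL_upper X d hs A hA' i k
  obtain ⟨A', hA'⟩ := hup (d + 1) 0 (by omega)
  have hex : ∃ c, maximalIdeal S ^ c ≤ P X (d + 1) := by
    refine exists_pow_le_of_bounded (P X (d + 1)) A' fun N => ?_
    rw [← coe_LL]
    have := hA' N
    rw [pow_zero, mul_one] at this
    exact_mod_cast this
  refine ⟨hex, hup, ?_⟩
  have hfin : cl (P X d ⊔ Ideal.span {X d}) ≠ ⊤ := by
    obtain ⟨c, hc⟩ := hex
    rw [P_succ] at hc
    have := cl_sup_pow_ne_top (⊥ : Ideal S) c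
    rw [bot_sup_eq] at this
    exact ne_top_of_le_ne_top this (cl_anti hc)
  obtain ⟨e, c, Λ, he, hΛ, hle⟩ := exists_stable (P X d) (X d) hfin
  have hred : ∃ c, maximalIdeal S ^ c ≤ P X d ⊔ Ideal.span {X d} := by
    rw [← P_succ]; exact hex
  obtain ⟨c', hc'⟩ := reduction _ _ _ (hs d (by omega)) hred
  have hbase : ∀ N, e * N.choose 1 ≤ LL X d N + (e * c') * N ^ 0 := by
    intro N
    rw [Nat.choose_one_right, pow_zero, mul_one]
    by_cases hN : c' ≤ N
    · obtain ⟨a, rfl⟩ := Nat.exists_eq_add_of_le hN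
      have h1 := le_cl_span_pow (P X d) (X d) e hle a
      have h2 : cl (P X d ⊔ Ideal.span {X d ^ a}) ≤ cl (P X d ⊔ maximalIdeal S ^ (c' + a)) :=
        cl_anti (sup_le le_sup_left (hc' a))
      have h3 := h1.trans h2
      rw [← coe_LL] at h3
      have h4 : e * a ≤ LL X d (c' + a) := by exact_mod_cast h3
      rw [mul_add]
      omega
    · have : e * N ≤ e * c' := Nat.mul_le_mul_left _ (le_of_lt (not_le.mp hN))
      omega
  exact ⟨e, c, Λ, he, hΛ, fun i k h => LL_lower X d hs e (e * c') hbase k i h⟩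

theorem cut_E (g : ℕ → S) (δ : ℕ) (hg : g δ ∈ maximalIdeal S)
    (hs : Sup (maximalIdeal S) (P g δ) (g δ)) (e D' : ℕ)
    (hlow : ∀ N : ℕ, e * N.choose 2 ≤ LL g (δ + 1) N + D' * N ^ 1) (q : ℕ) :
    ∃ K₀ : ℕ, ∀ k : ℕ, ((q * e : ℕ) : ℤ) * k ^ 2 ≤
      2 * (cl (P g δ ⊔ Ideal.span {g δ ^ q} ⊔ maximalIdeal S ^ k)).toNat + K₀ * k + K₀ := by
  obtain ⟨D, hD⟩ := LL_rec g δ hs
  have h1 : ∀ N q, q * LL g (δ + 1) (N + 1) + LL g δ N ≤ LL g δ (N + q) + q * D := by
    intro N q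
    induction q with
    | zero => simp
    | succ q ih =>
      have h2 := hD (N + q)
      have h3 : LL g (δ + 1) (N + 1) ≤ LL g (δ + 1) (N + q + 1) := LL_mono g (δ + 1) (by omega)
      have h4 : N + (q + 1) = N + q + 1 := by ring
      rw [h4]
      nlinarith
  have h2 : ∀ N, LL g δ (N + q) ≤ LL g δ N +
      (cl (P g δ ⊔ Ideal.span {g δ ^ q} ⊔ maximalIdeal S ^ (N + q))).toNat := by
    intro N
    have h3 := cl_qt (P g δ ⊔ maximalIdeal S ^ (N + q)) (g δ ^ q)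
    have h4 : cl (qt (P g δ ⊔ maximalIdeal S ^ (N + q)) (g δ ^ q)) ≤
        cl (P g δ ⊔ maximalIdeal S ^ N) := by
      refine cl_anti (sup_le ?_ ?_)
      · exact le_sup_left.trans (le_qt _ _)
      · intro w hw
        rw [mem_qt, add_comm N q, pow_add]
        exact Ideal.mem_sup_right (Ideal.mul_mem_mul (Ideal.pow_mem_pow hg q) hw)
    have h5 : cl (P g δ ⊔ Ideal.span {g δ ^ q} ⊔ maximalIdeal S ^ (N + q)) ≠ ⊤ :=
      cl_sup_pow_ne_top _ _
    obtain ⟨M, hM⟩ := ENat.ne_top_iff_exists.mp h5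
    rw [sup_right_comm, ← coe_LL, ← hM] at h3
    rw [← coe_LL] at h4
    rw [← hM, ENat.toNat_natCast]
    have h6 : (LL g δ (N + q) : ℕ∞) ≤ LL g δ N + M := by
      rw [h3]
      gcongr
    exact_mod_cast h6
  refine ⟨2 * q * D + 2 * q * D' + 2 * q * q * e, fun k => ?_⟩
  by_cases hk : q ≤ k
  · obtain ⟨N, rfl⟩ := Nat.exists_eq_add_of_le' hk
    have h3 := h1 N q
    have h4 := h2 N
    have h5 := hlow (N + 1)
    rw [pow_one] at h5
    set M := (cl (P g δ ⊔ Ideal.span {g δ ^ q} ⊔ maximalIdeal S ^ (N + q))).toNat with hM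
    have h6 : 2 * (N + 1).choose 2 = (N + 1) * N := by
      have := Nat.triangle_succ N
      rw [Nat.choose_two_right]
      have h7 : (N + 1) * (N + 1 - 1) = N * (N + 1) := by
        rw [Nat.add_sub_cancel, mul_comm]
      rw [h7]
      have h8 : 2 ∣ N * (N + 1) := (Nat.even_mul_succ_self N).two_dvd
      rw [Nat.mul_div_cancel' h8, mul_comm]
    have h7 : q * LL g (δ + 1) (N + 1) ≤ M + q * D := by omega
    have h8 : q * (e * ((N + 1) * N)) ≤ 2 * M + 2 * q * D + 2 * q * D' * (N + 1) := by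
      rw [← h6]
      have h9 := Nat.mul_le_mul_left q h5
      nlinarith
    have h9 : ((q * (e * ((N + 1) * N)) : ℕ) : ℤ) ≤
        ((2 * M + 2 * q * D + 2 * q * D' * (N + 1) : ℕ) : ℤ) := by exact_mod_cast h8
    push_cast at h9 ⊢
    have hq0 : (0 : ℤ) ≤ q := by positivity
    have he0 : (0 : ℤ) ≤ e := by positivity
    have hN0 : (0 : ℤ) ≤ N := by positivity
    have hD0 : (0 : ℤ) ≤ D := by positivity
    have hD'0 : (0 : ℤ) ≤ D' := by positivity
    have t1 : (0 : ℤ) ≤ q * D * N := by positivity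
    have t2 : (0 : ℤ) ≤ q * D * q := by positivity
    have t3 : (0 : ℤ) ≤ q * D' * q := by positivity
    have t4 : (0 : ℤ) ≤ q * e * N := by positivity
    have t5 : (0 : ℤ) ≤ q * q * e * q := by positivity
    have t6 : (0 : ℤ) ≤ q * q * e := by positivity
    have t7 : (0 : ℤ) ≤ q * D' := by positivity
    nlinarith
  · have hkq : k ≤ q := by omega
    have h3 : ((q * e : ℕ) : ℤ) * k ^ 2 ≤ ((2 * q * q * e : ℕ) : ℤ) * k := by
      have : q * e * k ^ 2 ≤ 2 * q * q * e * k := by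
        have : q * e * k * k ≤ q * e * k * q := Nat.mul_le_mul_left _ hkq
        nlinarith
      exact_mod_cast this
    have h4 : (0 : ℤ) ≤ (2 * q * D + 2 * q * D' : ℕ) := by positivity
    have h5 : (0 : ℤ) ≤ (k : ℤ) := by positivity
    have h6 : (0 : ℤ) ≤ (2 * q * q * e : ℕ) := by positivity
    have h7 : (0 : ℤ) ≤
      (cl (P g δ ⊔ Ideal.span {g δ ^ q} ⊔ maximalIdeal S ^ k)).toNat := by positivity
    push_cast at *
    nlinarith [mul_nonneg h4 h5]

theorem dim_cut (g : ℕ → S) (δ q c : ℕ) (hg : ∀ i, g i ∈ maximalIdeal S) (hq : 1 ≤ q)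
    (hc : maximalIdeal S ^ c ≤ P g (δ + 3)) :
    ringKrullDim (S ⧸ (P g δ ⊔ Ideal.span {g δ ^ q})) ≤ 2 := by
  classical
  set 𝔤 := P g δ ⊔ Ideal.span {g δ ^ q} with h𝔤
  have h𝔤m : 𝔤 ≤ maximalIdeal S := by
    refine sup_le (P_le g δ _ fun j _ => hg j) ?_
    rw [Ideal.span_singleton_le_iff_mem]
    exact Ideal.pow_mem_of_mem _ (hg δ) q (by omega)
  have hne : 𝔤 ≠ ⊤ := fun h => (maximalIdeal.isMaximal S).ne_top (top_le_iff.mp (h ▸ h𝔤m))
  have hnt : Nontrivial (S ⧸ 𝔤) := Ideal.Quotient.nontrivial_iff.mpr hne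
  have hlr : IsLocalRing (S ⧸ 𝔤) :=
    IsLocalRing.of_surjective' (Ideal.Quotient.mk 𝔤) Ideal.Quotient.mk_surjective
  have hmax : (maximalIdeal S).map (Ideal.Quotient.mk 𝔤) = maximalIdeal (S ⧸ 𝔤) :=
    IsLocalRing.map_maximalIdeal_of_surjective (Ideal.Quotient.mk 𝔤) Ideal.Quotient.mk_surjective
  rw [← IsLocalRing.maximalIdeal_height_eq_ringKrullDim]
  let s : Finset (S ⧸ 𝔤) :=
    {Ideal.Quotient.mk 𝔤 (g (δ + 1)), Ideal.Quotient.mk 𝔤 (g (δ + 2))}
  have hmem : maximalIdeal (S ⧸ 𝔤) ∈ (Ideal.span (s : Set (S ⧸ 𝔤))).minimalPrimes := by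
    refine ⟨⟨inferInstance, ?_⟩, ?_⟩
    · rw [Ideal.span_le]
      intro z hz
      rw [← hmax]
      simp only [s, coe_insert, coe_singleton, Set.mem_insert_iff, Set.mem_singleton_iff] at hz
      rcases hz with rfl | rfl
      · exact Ideal.mem_map_of_mem _ (hg _)
      · exact Ideal.mem_map_of_mem _ (hg _)
    · rintro Q ⟨hQp, hQ⟩ -
      have h1 : (P g (δ + 3)).map (Ideal.Quotient.mk 𝔤) ≤ Q := by
        rw [Ideal.map_le_iff_le_comap]
        refine P_le g (δ + 3) _ fun j hj => ?_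
        rw [Ideal.mem_comap]
        rcases Nat.lt_or_ge j δ with h | h
        · have h2 : g j ∈ 𝔤 := Ideal.mem_sup_left (Ideal.subset_span ⟨j, h, rfl⟩)
          rw [Ideal.Quotient.eq_zero_iff_mem.mpr h2]
          exact Q.zero_mem
        · rcases Nat.lt_or_ge δ j with h3 | h3
          · refine hQ (Ideal.subset_span ?_)
            simp only [s, coe_insert, coe_singleton, Set.mem_insert_iff, Set.mem_singleton_iff]
            rcases Nat.lt_or_ge (δ + 1) j with h4 | h4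
            · right; congr 2; omega
            · left; congr 2; omega
          · have h4 : j = δ := by omega
            subst h4
            refine hQp.mem_of_pow_mem q ?_
            rw [← map_pow]
            have h2 : g j ^ q ∈ 𝔤 := Ideal.mem_sup_right (Ideal.mem_span_singleton_self _)
            rw [Ideal.Quotient.eq_zero_iff_mem.mpr h2]
            exact Q.zero_mem
      have h2 : maximalIdeal (S ⧸ 𝔤) ^ c ≤ Q := by
        rw [← hmax, ← Ideal.map_pow]
        exact (Ideal.map_mono hc).trans h1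
      exact hQp.le_of_pow_le h2
  have h1 := Ideal.height_le_card_of_mem_minimalPrimes_span_finset hmem
  have h2 : s.card ≤ 2 := card_le_two
  have h3 : (maximalIdeal (S ⧸ 𝔤)).height ≤ ((2 : ℕ) : ℕ∞) := h1.trans (by exact_mod_cast h2)
  exact WithBot.coe_le_coe.mpr h3

end

end Vale.Agent.P202
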