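import Vale.Agent.P202.LocB
import Vale.Agent.P202.RCut

namespace Vale.Agent.P202

open Finset IsLocalRing

section LE

variable {S : Type*} [CommRing S] [IsLocalRing S] [IsNoetherianRing S]

theorem loc_ineq (Q : Ideal S) [Q.IsPrime] (T : Type*) [CommRing T] [Algebra S T]
    [IsLocalization.AtPrime T Q] (t : S) (ht : t ∉ Q) (htn : t ∈ maximalIdeal S) (𝔞 : Ideal T) :
    cl 𝔞 ≤ cl (𝔞.comap (algebraMap S T) ⊔ Ideal.span {t}) := by
  unfold cl
  rw [Module.length_quotient, Module.length_quotient]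
  refine Order.coheight_le_coheight_apply_of_strictMono
    (fun 𝔟 : Ideal T => 𝔟.comap (algebraMap S T) ⊔ Ideal.span {t}) ?_ 𝔞
  intro 𝔟₁ 𝔟₂ hlt
  have hunit : IsUnit (algebraMap S T t) := IsLocalization.map_units T (⟨t, ht⟩ : Q.primeCompl)
  have hle : 𝔟₁.comap (algebraMap S T) ≤ 𝔟₂.comap (algebraMap S T) := Ideal.comap_mono hlt.le
  refine lt_of_le_of_ne (sup_le_sup_right hle _) fun heq => ?_
  have h1 : 𝔟₂.comap (algebraMap S T) ≤ 𝔟₁.comap (algebraMap S T) := by
    refine Submodule.le_of_le_smul_of_le_jacobson_bot (I := maximalIdeal S)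
      (IsNoetherian.noetherian _) (IsLocalRing.maximalIdeal_le_jacobson _) ?_
    intro w hw
    have h2 : w ∈ 𝔟₁.comap (algebraMap S T) ⊔ Ideal.span {t} := by
      have h3 : w ∈ 𝔟₂.comap (algebraMap S T) ⊔ Ideal.span {t} := Ideal.mem_sup_left hw
      have h4 : 𝔟₁.comap (algebraMap S T) ⊔ Ideal.span {t} =
        𝔟₂.comap (algebraMap S T) ⊔ Ideal.span {t} := heq
      rwa [h4]
    obtain ⟨a, ha, b, hb, hab⟩ := Submodule.mem_sup.mp h2
    obtain ⟨z, hz⟩ := Ideal.mem_span_singleton'.mp hb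
    rw [← hab]
    refine Submodule.add_mem_sup ha ?_
    have h5 : t * z ∈ 𝔟₂.comap (algebraMap S T) := by
      have h6 : t * z = w - a := by rw [← hab, ← hz]; ring
      rw [h6]
      exact Ideal.sub_mem _ hw (hle ha)
    have h7 : z ∈ 𝔟₂.comap (algebraMap S T) := by
      rw [Ideal.mem_comap, map_mul] at h5
      rw [Ideal.mem_comap]
      exact (Ideal.unit_mul_mem_iff_mem _ hunit).mp h5
    rw [← hz, mul_comm, smul_eq_mul]
    exact Ideal.mul_mem_mul htn h7
  have h2 : 𝔟₂ ≤ 𝔟₁ := by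
    rw [← IsLocalization.map_under Q.primeCompl T 𝔟₂, ← IsLocalization.map_under Q.primeCompl T 𝔟₁]
    exact Ideal.map_mono h1
  exact absurd (hlt.trans_le h2) (lt_irrefl _)

theorem UU.lemE [Infinite (ResidueField S)] (Q : Ideal S) [Q.IsPrime] (u : S)
    (hQ : maximalIdeal S = Q ⊔ Ideal.span {u}) (hne : Q ≠ maximalIdeal S) {s e : ℕ}
    (h : UU S (s + 1) e) (T : Type*) [CommRing T] [IsLocalRing T] [Algebra S T]
    [IsLocalization.AtPrime T Q] : UU T s e := by
  have hQn : Q ≤ maximalIdeal S := by rw [hQ]; exact le_sup_left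
  have hun : u ∈ maximalIdeal S := by
    rw [hQ]; exact Ideal.mem_sup_right (Ideal.mem_span_singleton_self u)
  obtain ⟨X, hX, hs, hc⟩ := exists_seq Q (s + 2)
  have ht : X 0 ∉ Q ⊔ P X 0 ⊔ maximalIdeal S ^ 2 := by
    rcases hc 0 (by omega) with h1 | h1
    · exfalso
      apply hne
      refine le_antisymm hQn ?_
      refine Submodule.le_of_le_smul_of_le_jacobson_bot (I := maximalIdeal S)
        (IsNoetherian.noetherian _) (IsLocalRing.maximalIdeal_le_jacobson _) ?_
      rw [P_zero, sup_bot_eq] at h1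
      rw [smul_eq_mul, ← sq]
      exact h1
    · exact h1
  rw [P_zero, sup_bot_eq] at ht
  have htQ : X 0 ∉ Q := fun h => ht (Ideal.mem_sup_left h)
  have hnt : maximalIdeal S ≤ Q ⊔ Ideal.span {X 0} := by
    have h1 : X 0 ∈ Q ⊔ Ideal.span {u} := by rw [← hQ]; exact hX 0
    obtain ⟨q, hq, b, hb, hqb⟩ := Submodule.mem_sup.mp h1
    obtain ⟨c, hc'⟩ := Ideal.mem_span_singleton'.mp hb
    have hcu : c ∉ maximalIdeal S := by
      intro hcn
      apply ht
      rw [← hqb]
      refine Submodule.add_mem_sup hq ?_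
      rw [← hc', sq]
      exact Ideal.mul_mem_mul hcn hun
    have hcu' : IsUnit c := by
      by_contra h2
      exact hcu ((mem_maximalIdeal _).mpr h2)
    obtain ⟨v, hv⟩ := hcu'
    rw [hQ]
    refine sup_le le_sup_left ?_
    rw [Ideal.span_singleton_le_iff_mem]
    have h2 : u = (↑v⁻¹ : S) * (X 0 - q) := by
      have h3 : X 0 - q = v * u := by rw [← hqb, ← hc', hv]; ring
      rw [h3, ← mul_assoc, Units.inv_mul, one_mul]
    rw [h2]
    refine Ideal.mul_mem_left _ _ (Ideal.sub_mem _ ?_ ?_)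
    · exact Ideal.mem_sup_right (Ideal.mem_span_singleton_self _)
    · exact Ideal.mem_sup_left hq
  have hpow : ∀ N, maximalIdeal S ^ N ≤ Ideal.span {X 0} ⊔ Q ^ N := by
    intro N
    have h1 := Qf_pow (Ideal.span {X 0}) Q N
    unfold Qf at h1
    rw [pow_one] at h1
    refine (Ideal.pow_right_mono ?_ N).trans h1
    rw [sup_comm]
    exact hnt
  have hkey : ∀ N, cl (maximalIdeal T ^ N) ≤ (LL X 1 N : ℕ∞) := by
    intro N
    rw [coe_LL, P_succ, P_zero, bot_sup_eq]
    refine (loc_ineq Q T (X 0) htQ (hX 0) _).trans (cl_anti ?_)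
    refine sup_le le_sup_right ?_
    refine (hpow N).trans (sup_le le_sup_right ?_)
    refine le_trans ?_ le_sup_left
    rw [← Ideal.map_le_iff_le_comap, Ideal.map_pow, IsLocalization.AtPrime.map_eq_maximalIdeal Q T]
  obtain ⟨A, hA⟩ := h.bound
  obtain ⟨-, -, e', c, Λ, he, hΛ, hlow⟩ := sside2 X (s + 1) hs A hA
  obtain ⟨D, hD⟩ := h
  obtain ⟨D1, hD1⟩ := hlow 0 (s + 1) (by omega)
  have hcmp : e' ≤ e := by
    refine Vale.Agent.P202.compare e' e (D + D1) (s + 1) fun N => ?_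
    have h1 := hD N
    have h0 : (LL X 0 N : ℕ∞) = cl (maximalIdeal S ^ N) := by
      rw [coe_LL, P_zero, bot_sup_eq]
    rw [← h0] at h1
    have h2 : LL X 0 N ≤ e * (N + (s + 1)).choose (s + 1 + 1) + D * N ^ (s + 1) := by
      exact_mod_cast h1
    have h3 := hD1 N
    rw [add_mul]
    omega
  refine ⟨Λ * c, fun N => (hkey N).trans ?_⟩
  have h1 := LL_upper2 X hX (s + 1) e' (Λ * c) (base_of_stable X hX (s + 1) e' c Λ he hΛ) s 1
    (by omega) N
  have h2 : LL X 1 N ≤ e * (N + s).choose (s + 1) + Λ * c * N ^ s := by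
    refine h1.trans ?_
    gcongr
  exact_mod_cast h2

end LE

end Vale.Agent.P202
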