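import Vale.Agent.P202.LocE

namespace Vale.Agent.P202

open Finset IsLocalRing Polynomial

section Pre

theorem pseudo {S : Type*} [CommRing S] (a b : S) (G : S[X]) :
    ∃ (k : ℕ) (r : S) (H : S[X]),
      (Polynomial.C b) ^ k * G = (Polynomial.C b * X - Polynomial.C a) * H + Polynomial.C r := by
  induction G using Polynomial.induction_on' with
  | add p q hp hq =>
    obtain ⟨k1, r1, H1, h1⟩ := hp
    obtain ⟨k2, r2, H2, h2⟩ := hq
    refine ⟨k1 + k2, b ^ k2 * r1 + b ^ k1 * r2,
      (Polynomial.C b) ^ k2 * H1 + (Polynomial.C b) ^ k1 * H2, ?_⟩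
    have h3 : (Polynomial.C b) ^ (k1 + k2) * (p + q) =
        (Polynomial.C b) ^ k2 * ((Polynomial.C b) ^ k1 * p) +
          (Polynomial.C b) ^ k1 * ((Polynomial.C b) ^ k2 * q) := by ring
    rw [h3, h1, h2, Polynomial.C_add, Polynomial.C_mul, Polynomial.C_mul, Polynomial.C_pow,
      Polynomial.C_pow]
    ring
  | monomial n s =>
    obtain ⟨H, hH⟩ := sub_dvd_pow_sub_pow (Polynomial.C b * X) (Polynomial.C a) n
    refine ⟨n, s * a ^ n, Polynomial.C s * H, ?_⟩
    have h1 : (monomial n s : S[X]) = Polynomial.C s * X ^ n := by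
      rw [Polynomial.C_mul_X_pow_eq_monomial]
    rw [h1, Polynomial.C_mul, Polynomial.C_pow]
    have h2 : Polynomial.C b ^ n * (Polynomial.C s * X ^ n) =
        Polynomial.C s * ((Polynomial.C b * X) ^ n - Polynomial.C a ^ n) +
          Polynomial.C s * Polynomial.C a ^ n := by rw [mul_pow]; ring
    rw [h2, hH]
    ring

variable {S W : Type*} [CommRing S] [IsLocalRing S] [CommRing W] [IsLocalRing W]
  (ψ : S →+* W) [IsLocalHom ψ] (c : W)

theorem exists_F : ∃ F : S[X], (maximalIdeal W).comap (eval₂RingHom ψ c) =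
    (maximalIdeal S).map (Polynomial.C : S →+* S[X]) ⊔ Ideal.span {F} := by
  let ψb : ResidueField S →+* ResidueField W := ResidueField.map ψ
  let I : Ideal (ResidueField S)[X] := RingHom.ker (eval₂RingHom ψb (residue W c))
  obtain ⟨Fb, hFb⟩ := (IsPrincipalIdealRing.principal I).principal
  obtain ⟨F, hF⟩ := Polynomial.map_surjective (residue S) residue_surjective Fb
  have hcomm : ∀ G : S[X], G ∈ (maximalIdeal W).comap (eval₂RingHom ψ c) ↔
      G.map (residue S) ∈ I := by
    intro G
    rw [Ideal.mem_comap, ← residue_eq_zero_iff, RingHom.mem_ker]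
    have h1 : residue W (eval₂RingHom ψ c G) =
        eval₂RingHom ψb (residue W c) (G.map (residue S)) := by
      rw [coe_eval₂RingHom, coe_eval₂RingHom, Polynomial.eval₂_map, Polynomial.hom_eval₂]
      rfl
    rw [h1]
  have hker : ∀ G : S[X], G.map (residue S) = 0 →
      G ∈ (maximalIdeal S).map (Polynomial.C : S →+* S[X]) := by
    intro G hG
    rw [Ideal.mem_map_C_iff]
    intro n
    have h1 := congrArg (fun p => Polynomial.coeff p n) hG
    simp only [Polynomial.coeff_map, Polynomial.coeff_zero] at h1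
    rwa [residue_eq_zero_iff] at h1
  refine ⟨F, le_antisymm ?_ (sup_le ?_ ?_)⟩
  · intro G hG
    have h1 := (hcomm G).mp hG
    rw [hFb, ← Ideal.span, Ideal.mem_span_singleton'] at h1
    obtain ⟨Hb, hHb⟩ := h1
    obtain ⟨H, hH⟩ := Polynomial.map_surjective (residue S) residue_surjective Hb
    have h2 : G - H * F ∈ (maximalIdeal S).map (Polynomial.C : S →+* S[X]) := by
      refine hker _ ?_
      rw [Polynomial.map_sub, Polynomial.map_mul, hH, hF, hHb, sub_self]
    have h3 : G = (G - H * F) + H * F := by ring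
    rw [h3]
    exact Submodule.add_mem_sup h2 (Ideal.mul_mem_left _ _ (Ideal.mem_span_singleton_self F))
  · rw [Ideal.map_le_iff_le_comap]
    intro x hx
    rw [Ideal.mem_comap, Ideal.mem_comap, coe_eval₂RingHom, Polynomial.eval₂_C]
    rw [mem_maximalIdeal, mem_nonunits_iff] at hx ⊢
    intro h
    exact hx ((isUnit_map_iff ψ x).mp h)
  · rw [Ideal.span_singleton_le_iff_mem, hcomm, hF, hFb]
    exact Submodule.mem_span_singleton_self Fb

end Pre

end Vale.Agent.P202
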