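import Vale.Agent.P202.LocF

namespace Vale.Agent.P202

open Finset IsLocalRing Polynomial

universe v w

section StepB

variable {S W B : Type*} [CommRing S] [CommRing W] [IsDomain W] (ψ : S →+* W) (c : W) (a b : S)
  (hb : ψ b ≠ 0) (hc : c * ψ b = ψ a) [hp : (RingHom.ker (eval₂RingHom ψ c)).IsPrime]
  [CommRing B] [IsLocalRing B] [Algebra S[X] B]
  [IsLocalization.AtPrime B (RingHom.ker (eval₂RingHom ψ c))]

include hc in
omit [IsDomain W] hp in
theorem g_zero : eval₂RingHom ψ c (Polynomial.C b * X - Polynomial.C a) = 0 := by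
  rw [map_sub, map_mul, coe_eval₂RingHom, eval₂_C, eval₂_X, eval₂_C, mul_comm, hc, sub_self]

omit [IsLocalRing B] [IsDomain W] in
theorem j_unit (x : S[X]) (hx : eval₂RingHom ψ c x ≠ 0) : IsUnit (algebraMap S[X] B x) :=
  IsLocalization.map_units B (⟨x, fun h => hx h⟩ : (RingHom.ker (eval₂RingHom ψ c)).primeCompl)

include hb hc in
theorem stepB_max : maximalIdeal B =
    ((RingHom.ker ψ).map (Polynomial.C : S →+* S[X])).map (algebraMap S[X] B) ⊔
      Ideal.span {algebraMap S[X] B (Polynomial.C b * X - Polynomial.C a)} := by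
  have hmB : (RingHom.ker (eval₂RingHom ψ c)).map (algebraMap S[X] B) = maximalIdeal B :=
    IsLocalization.AtPrime.map_eq_maximalIdeal _ B
  have hg0 := g_zero ψ c a b hc
  refine le_antisymm ?_ (sup_le ?_ ?_)
  · rw [← hmB, Ideal.map_le_iff_le_comap]
    intro p hp
    rw [Ideal.mem_comap]
    have h1 : eval₂RingHom ψ c p = 0 := hp
    obtain ⟨k, r, H, hkr⟩ := pseudo a b p
    have hr : r ∈ RingHom.ker ψ := by
      have h2 := congrArg (eval₂RingHom ψ c) hkr
      rw [map_mul, h1, mul_zero, map_add, map_mul, hg0, zero_mul, zero_add,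
        coe_eval₂RingHom, eval₂_C] at h2
      exact h2.symm
    have hub : IsUnit (algebraMap S[X] B (Polynomial.C b ^ k)) := by
      refine j_unit ψ c _ ?_
      rw [map_pow, coe_eval₂RingHom, eval₂_C]
      exact pow_ne_zero _ hb
    rw [← Ideal.unit_mul_mem_iff_mem _ hub, ← map_mul, hkr, map_add, map_mul]
    refine Ideal.add_mem _ ?_ ?_
    · exact Ideal.mem_sup_right (Ideal.mul_mem_right _ _ (Ideal.mem_span_singleton_self _))
    · exact Ideal.mem_sup_left (Ideal.mem_map_of_mem _ (Ideal.mem_map_of_mem _ hr))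
  · rw [← hmB]
    refine Ideal.map_mono ?_
    rw [Ideal.map_le_iff_le_comap]
    intro z hz
    rw [Ideal.mem_comap, RingHom.mem_ker, coe_eval₂RingHom, eval₂_C]
    exact hz
  · rw [Ideal.span_singleton_le_iff_mem, ← hmB]
    exact Ideal.mem_map_of_mem _ hg0

omit [IsLocalRing B] [IsDomain W] in
include c hb in
theorem stepB_nzd [hQ : (RingHom.ker ψ).IsPrime] (w : B)
    (hw : algebraMap S[X] B (Polynomial.C b * X - Polynomial.C a) * w ∈
      ((RingHom.ker ψ).map (Polynomial.C : S →+* S[X])).map (algebraMap S[X] B)) :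
    w ∈ ((RingHom.ker ψ).map (Polynomial.C : S →+* S[X])).map (algebraMap S[X] B) := by
  have hprime : ((RingHom.ker ψ).map (Polynomial.C : S →+* S[X])).IsPrime :=
    Ideal.isPrime_map_C_of_isPrime
  have hqle : ∀ x : S[X], x ∈ (RingHom.ker (eval₂RingHom ψ c)).primeCompl →
      x ∉ (RingHom.ker ψ).map (Polynomial.C : S →+* S[X]) := by
    intro x hx hmem
    apply hx
    have h1 : (RingHom.ker ψ).map (Polynomial.C : S →+* S[X]) ≤
        RingHom.ker (eval₂RingHom ψ c) := by
      rw [Ideal.map_le_iff_le_comap]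
      intro z hz
      rw [Ideal.mem_comap, RingHom.mem_ker, coe_eval₂RingHom, eval₂_C]
      exact hz
    exact h1 hmem
  have hg : (Polynomial.C b * X - Polynomial.C a) ∉
      (RingHom.ker ψ).map (Polynomial.C : S →+* S[X]) := by
    intro h1
    rw [Ideal.mem_map_C_iff] at h1
    have h2 := h1 1
    rw [Polynomial.coeff_sub, Polynomial.coeff_C_mul, Polynomial.coeff_X_one, mul_one,
      Polynomial.coeff_C_of_ne_zero one_ne_zero, sub_zero] at h2
    exact hb h2
  obtain ⟨⟨p, q⟩, hpq⟩ := IsLocalization.surj (RingHom.ker (eval₂RingHom ψ c)).primeCompl w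
  obtain ⟨⟨⟨z, hz⟩, m⟩, hzm⟩ :=
    (IsLocalization.mem_map_algebraMap_iff (RingHom.ker (eval₂RingHom ψ c)).primeCompl B).mp hw
  simp only at hzm hpq
  have h1 : algebraMap S[X] B ((Polynomial.C b * X - Polynomial.C a) * p * (m : S[X])) =
      algebraMap S[X] B (z * (q : S[X])) := by
    rw [map_mul, map_mul, map_mul, ← hpq, ← hzm]
    ring
  obtain ⟨m', hm'⟩ := (IsLocalization.eq_iff_exists
    (RingHom.ker (eval₂RingHom ψ c)).primeCompl B).mp h1
  have h2 : (m' : S[X]) * ((Polynomial.C b * X - Polynomial.C a) * p * (m : S[X])) ∈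
      (RingHom.ker ψ).map (Polynomial.C : S →+* S[X]) := by
    rw [hm']
    exact Ideal.mul_mem_left _ _ (Ideal.mul_mem_right _ _ hz)
  have h3 := (hprime.mem_or_mem h2).resolve_left (hqle _ m'.2)
  have h4 := (hprime.mem_or_mem h3).resolve_right (hqle _ m.2)
  have h5 := (hprime.mem_or_mem h4).resolve_left hg
  have hq : IsUnit (algebraMap S[X] B q) := IsLocalization.map_units B q
  rw [← Ideal.unit_mul_mem_iff_mem _ hq, mul_comm, hpq]
  exact Ideal.mem_map_of_mem _ h5

theorem isLoc_congr {R : Type*} [CommSemiring R] {B : Type*} [CommSemiring B] [Algebra R B]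
    {P Q : Ideal R} [P.IsPrime] [Q.IsPrime] (h : P = Q) [hP : IsLocalization.AtPrime B P] :
    IsLocalization.AtPrime B Q := by
  subst h
  exact hP

end StepB

section SY

variable {S : Type v} [CommRing S] [IsLocalRing S] {W : Type w} [CommRing W] [IsLocalRing W]
  (ψ : S →+* W) (c : W)

instance nn_prime : ((maximalIdeal W).comap (eval₂RingHom ψ c)).IsPrime :=
  Ideal.comap_isPrime _ _

abbrev SY : Type v := Localization.AtPrime ((maximalIdeal W).comap (eval₂RingHom ψ c))

omit [IsLocalRing S] in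
theorem SY_units (y : ((maximalIdeal W).comap (eval₂RingHom ψ c)).primeCompl) :
    IsUnit (eval₂RingHom ψ c y) := by
  by_contra h
  exact y.2 ((mem_maximalIdeal _).mpr h)

noncomputable def SYpsi : SY ψ c →+* W :=
  IsLocalization.lift (M := ((maximalIdeal W).comap (eval₂RingHom ψ c)).primeCompl)
    (SY_units ψ c)

omit [IsLocalRing S] in
theorem SYpsi_alg (x : S[X]) : SYpsi ψ c (algebraMap S[X] (SY ψ c) x) = eval₂RingHom ψ c x :=
  IsLocalization.lift_eq (SY_units ψ c) x

noncomputable def SYi : S →+* SY ψ c := (algebraMap S[X] (SY ψ c)).comp Polynomial.C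

omit [IsLocalRing S] in
theorem SYpsi_i : (SYpsi ψ c).comp (SYi ψ c) = ψ := by
  ext x
  show SYpsi ψ c (algebraMap S[X] (SY ψ c) (Polynomial.C x)) = ψ x
  rw [SYpsi_alg, coe_eval₂RingHom, eval₂_C]

omit [IsLocalRing S] in
theorem SY_max : ((maximalIdeal W).comap (eval₂RingHom ψ c)).map (algebraMap S[X] (SY ψ c)) =
    maximalIdeal (SY ψ c) :=
  IsLocalization.AtPrime.map_eq_maximalIdeal _ _

omit [IsLocalRing S] in
theorem SY_noeth [IsNoetherianRing S] : IsNoetherianRing (SY ψ c) :=
  IsLocalization.isNoetherianRing ((maximalIdeal W).comap (eval₂RingHom ψ c)).primeCompl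
    (SY ψ c) inferInstance

omit [IsLocalRing S] in
theorem SYi_local [IsLocalHom ψ] : IsLocalHom (SYi ψ c) := by
  constructor
  intro x hx
  by_contra hn
  have h1 : Polynomial.C x ∈ (maximalIdeal W).comap (eval₂RingHom ψ c) := by
    rw [Ideal.mem_comap, coe_eval₂RingHom, eval₂_C, mem_maximalIdeal, mem_nonunits_iff]
    exact fun h => hn ((isUnit_map_iff ψ x).mp h)
  have h2 : SYi ψ c x ∈ maximalIdeal (SY ψ c) := by
    rw [← SY_max]
    exact Ideal.mem_map_of_mem _ h1
  exact ((mem_maximalIdeal _).mp h2) hx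

omit [IsLocalRing S] in
theorem SYpsi_local : IsLocalHom (SYpsi ψ c) := by
  constructor
  intro x hx
  obtain ⟨⟨p, q⟩, hpq⟩ := IsLocalization.surj
    ((maximalIdeal W).comap (eval₂RingHom ψ c)).primeCompl x
  have h1 : SYpsi ψ c x * eval₂RingHom ψ c q = eval₂RingHom ψ c p := by
    rw [← SYpsi_alg, ← SYpsi_alg, ← map_mul, hpq]
  have h2 : IsUnit (eval₂RingHom ψ c p) := by
    rw [← h1]
    exact hx.mul (SY_units ψ c q)
  have h3 : p ∉ (maximalIdeal W).comap (eval₂RingHom ψ c) := by
    intro h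
    exact ((mem_maximalIdeal _).mp (Ideal.mem_comap.mp h)) h2
  have h4 : IsUnit (algebraMap S[X] (SY ψ c) p) :=
    IsLocalization.map_units (SY ψ c)
      (⟨p, h3⟩ : ((maximalIdeal W).comap (eval₂RingHom ψ c)).primeCompl)
  rw [← hpq] at h4
  exact isUnit_of_mul_isUnit_left h4

omit [IsLocalRing S] in
theorem SYi_flat : (SYi ψ c).Flat := by
  refine RingHom.Flat.comp ?_ ?_
  · have : Module.Flat S S[X] := inferInstance
    exact RingHom.flat_algebraMap_iff.mpr this
  · have : Module.Flat S[X] (SY ψ c) := IsLocalization.flat (SY ψ c)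
      ((maximalIdeal W).comap (eval₂RingHom ψ c)).primeCompl
    exact RingHom.flat_algebraMap_iff.mpr this

theorem SY_UU [IsNoetherianRing S] [IsLocalHom ψ] {s e : ℕ} (h : UU S s e) :
    UU (SY ψ c) (s + 1) e := by
  have hN := SY_noeth ψ c
  obtain ⟨F, hF⟩ := exists_F ψ c
  have hT : maximalIdeal (SY ψ c) = (maximalIdeal S).map (SYi ψ c) ⊔
      Ideal.span {algebraMap S[X] (SY ψ c) F} := by
    have h1 := congrArg (Ideal.map (algebraMap S[X] (SY ψ c))) hF
    rw [SY_max] at h1
    rw [h1, Ideal.map_sup, Ideal.map_map, Ideal.map_span, Set.image_singleton]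
    rfl
  refine UU.lemA (SYi ψ c) (algebraMap S[X] (SY ψ c) F) ?_ hT h
  rw [hT]
  exact Ideal.mem_sup_right (Ideal.mem_span_singleton_self _)

end SY

end Vale.Agent.P202
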