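import Vale.Agent.P202.LocG

namespace Vale.Agent.P202

open Finset IsLocalRing Polynomial

universe v w

section Back

variable {S : Type v} [CommRing S] [IsLocalRing S] [IsNoetherianRing S] {W : Type w}
  [CommRing W] [IsDomain W] [IsLocalRing W] (ψ : S →+* W) (c : W)

omit [IsLocalRing S] in
theorem SY_both (a b : S) (hb : ψ b ≠ 0) (hc : c * ψ b = ψ a)
    [hQ : (RingHom.ker ψ).IsPrime] [hQ' : (RingHom.ker (SYpsi ψ c)).IsPrime] :
    (∀ s e : ℕ, UU (Localization.AtPrime (RingHom.ker (SYpsi ψ c))) (s + 1) e →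
      UU (Localization.AtPrime (RingHom.ker ψ)) s e) ∧
    (∀ e : ℕ, UU (Localization.AtPrime (RingHom.ker (SYpsi ψ c))) 0 e →
      ∀ N, cl (maximalIdeal (Localization.AtPrime (RingHom.ker ψ)) ^ N) ≤ e) := by
  have hcomap : RingHom.ker ψ = (RingHom.ker (SYpsi ψ c)).comap (SYi ψ c) := by
    conv_lhs => rw [← SYpsi_i ψ c]
    rfl
  let A := Localization.AtPrime (RingHom.ker ψ)
  let B := Localization.AtPrime (RingHom.ker (SYpsi ψ c))
  let hAB : Algebra A B := (Localization.localRingHom _ _ (SYi ψ c) hcomap).toAlgebra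
  have hNS : IsNoetherianRing (SY ψ c) := SY_noeth ψ c
  have hflat : Module.Flat A B := RingHom.Flat.localRingHom (SYi_flat ψ c) _ _ hcomap
  have hNA : IsNoetherianRing A :=
    IsLocalization.isNoetherianRing (RingHom.ker ψ).primeCompl A inferInstance
  have hNB : IsNoetherianRing B :=
    IsLocalization.isNoetherianRing (RingHom.ker (SYpsi ψ c)).primeCompl B inferInstance
  have hmA : (RingHom.ker ψ).map (algebraMap S A) = maximalIdeal A :=
    IsLocalization.AtPrime.map_eq_maximalIdeal _ A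
  have hmAB' : (maximalIdeal A).map (algebraMap A B) =
      ((RingHom.ker ψ).map (Polynomial.C : S →+* S[X])).map (algebraMap S[X] B) := by
    rw [← hmA, Ideal.map_map, Ideal.map_map]
    congr 1
    ext x
    exact Localization.localRingHom_to_map _ _ (SYi ψ c) hcomap x
  have hker : (RingHom.ker (SYpsi ψ c)).comap (algebraMap S[X] (SY ψ c)) =
      RingHom.ker (eval₂RingHom ψ c) := by
    ext x
    rw [Ideal.mem_comap, RingHom.mem_ker, RingHom.mem_ker, SYpsi_alg]
  have hprime : (RingHom.ker (eval₂RingHom ψ c)).IsPrime := RingHom.ker_isPrime _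
  have hlocB0 : IsLocalization.AtPrime B
      ((RingHom.ker (SYpsi ψ c)).comap (algebraMap S[X] (SY ψ c))) := by
    infer_instance
  have hlocB : IsLocalization.AtPrime B (RingHom.ker (eval₂RingHom ψ c)) := isLoc_congr hker
  have hB := stepB_max (B := B) ψ c a b hb hc
  have hy := stepB_nzd (B := B) ψ c a b hb
  rw [← hmAB'] at hB hy
  exact ⟨fun s e h => UU.lemB (A := A) (B := B) _ hB hy h,
    fun e h => UU.lemB0 (A := A) (B := B) _ hB hy h⟩

end Back

section Ind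

variable {W : Type w} [CommRing W] [IsDomain W] [IsLocalRing W]

omit [IsDomain W] in
theorem loc_base {S : Type v} [CommRing S] [IsLocalRing S] [IsNoetherianRing S]
    [Infinite (ResidueField S)] (ϖ : W) (hϖ : maximalIdeal W = Ideal.span {ϖ}) (hϖ0 : ϖ ≠ 0)
    (ψ : S →+* W) [IsLocalHom ψ] [hQ : (RingHom.ker ψ).IsPrime]
    (hgen : ∀ w : W, ∃ x y : W, x ∈ Subring.closure (Set.range ψ ∪ {c | c ∈ ([] : List W)}) ∧
      y ∈ Subring.closure (Set.range ψ ∪ {c | c ∈ ([] : List W)}) ∧ y ∉ maximalIdeal W ∧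
        w * y = x)
    {s e : ℕ} (h : UU S (s + 1) e) : UU (Localization.AtPrime (RingHom.ker ψ)) s e := by
  have hcl : ∀ x : W, x ∈ Subring.closure (Set.range ψ ∪ {c | c ∈ ([] : List W)}) →
      ∃ z, ψ z = x := by
    intro x hx
    have h1 : Subring.closure (Set.range ψ ∪ {c | c ∈ ([] : List W)}) ≤ ψ.range := by
      rw [Subring.closure_le]
      rintro z (hz | hz)
      · exact hz
      · exact absurd hz (List.not_mem_nil)
    exact h1 hx
  have hsurj : ∀ w : W, ∃ z, ψ z = w := by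
    intro w
    obtain ⟨x, y, hx, hy, hyn, hw⟩ := hgen w
    obtain ⟨x', rfl⟩ := hcl x hx
    obtain ⟨y', rfl⟩ := hcl y hy
    have hu : IsUnit (ψ y') := by
      by_contra h1
      exact hyn ((mem_maximalIdeal _).mpr h1)
    obtain ⟨v, hv⟩ := (isUnit_map_iff ψ y').mp hu
    refine ⟨x' * (↑v⁻¹ : S), ?_⟩
    rw [map_mul, ← hw, ← hv, mul_assoc, ← map_mul, Units.mul_inv, map_one, mul_one]
  obtain ⟨u, hu⟩ := hsurj ϖ
  have hmem : ∀ x, x ∈ maximalIdeal S ↔ ψ x ∈ maximalIdeal W := by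
    intro x
    rw [mem_maximalIdeal, mem_nonunits_iff, mem_maximalIdeal, mem_nonunits_iff, isUnit_map_iff]
  have hun : u ∈ maximalIdeal S := by
    rw [hmem, hu, hϖ]
    exact Ideal.mem_span_singleton_self _
  have hle : RingHom.ker ψ ≤ maximalIdeal S := by
    intro x hx
    rw [hmem]
    have h1 : ψ x = 0 := hx
    rw [h1]
    exact Ideal.zero_mem _
  have hmax : maximalIdeal S = RingHom.ker ψ ⊔ Ideal.span {u} := by
    refine le_antisymm ?_ (sup_le hle ((Ideal.span_singleton_le_iff_mem _).mpr hun))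
    intro x hx
    rw [hmem, hϖ, Ideal.mem_span_singleton'] at hx
    obtain ⟨w, hw⟩ := hx
    obtain ⟨z, rfl⟩ := hsurj w
    have h1 : x = (x - z * u) + z * u := by ring
    rw [h1]
    refine Submodule.add_mem_sup ?_ (Ideal.mul_mem_left _ _ (Ideal.mem_span_singleton_self u))
    rw [RingHom.mem_ker, map_sub, map_mul, hu, hw, sub_self]
  have hne : RingHom.ker ψ ≠ maximalIdeal S := by
    intro h1
    rw [← h1, RingHom.mem_ker, hu] at hun
    exact hϖ0 hun
  exact UU.lemE (RingHom.ker ψ) u hmax hne h _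

theorem loc_ind (ϖ : W) (hϖ : maximalIdeal W = Ideal.span {ϖ}) (hϖ0 : ϖ ≠ 0) (l : List W) :
    ∀ (S : Type v) [CommRing S] [IsLocalRing S] [IsNoetherianRing S]
      [Infinite (ResidueField S)] (ψ : S →+* W) [IsLocalHom ψ] [(RingHom.ker ψ).IsPrime],
      (∀ c ∈ l, ∃ a b, ψ b ≠ 0 ∧ c * ψ b = ψ a) →
      (∀ w : W, ∃ x y : W, x ∈ Subring.closure (Set.range ψ ∪ {c | c ∈ l}) ∧
        y ∈ Subring.closure (Set.range ψ ∪ {c | c ∈ l}) ∧ y ∉ maximalIdeal W ∧ w * y = x) →
      ∀ s e : ℕ, UU S (s + 1) e → UU (Localization.AtPrime (RingHom.ker ψ)) s e := by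
  induction l with
  | nil =>
    intro S _ _ _ _ ψ _ _ _ hgen s e h
    exact loc_base ϖ hϖ hϖ0 ψ hgen h
  | cons c l ih =>
    intro S _ _ _ _ ψ _ _ hab hgen s e h
    obtain ⟨a, b, hb, hc⟩ := hab c (List.mem_cons_self)
    have hN : IsNoetherianRing (SY ψ c) := SY_noeth ψ c
    have hl1 : IsLocalHom (SYi ψ c) := SYi_local ψ c
    have hl2 : IsLocalHom (SYpsi ψ c) := SYpsi_local ψ c
    have hQ' : (RingHom.ker (SYpsi ψ c)).IsPrime := RingHom.ker_isPrime _
    have hinf : Infinite (ResidueField (SY ψ c)) :=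
      Infinite.of_injective (ResidueField.map (SYi ψ c)) (RingHom.injective _)
    have hrange : Set.range ψ ⊆ Set.range (SYpsi ψ c) := by
      rintro _ ⟨x, rfl⟩
      exact ⟨SYi ψ c x, by rw [← RingHom.comp_apply, SYpsi_i]⟩
    have hcr : c ∈ Set.range (SYpsi ψ c) :=
      ⟨algebraMap S[X] (SY ψ c) X, by rw [SYpsi_alg, coe_eval₂RingHom, eval₂_X]⟩
    have hcl : Subring.closure (Set.range ψ ∪ {z | z ∈ c :: l}) ≤
        Subring.closure (Set.range (SYpsi ψ c) ∪ {z | z ∈ l}) := by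
      rw [Subring.closure_le]
      rintro z (hz | hz)
      · exact Subring.subset_closure (Or.inl (hrange hz))
      · rcases List.mem_cons.mp hz with rfl | hz
        · exact Subring.subset_closure (Or.inl hcr)
        · exact Subring.subset_closure (Or.inr hz)
    refine (SY_both ψ c a b hb hc).1 s e (ih (SY ψ c) (SYpsi ψ c) ?_ ?_ (s + 1) e (SY_UU ψ c h))
    · intro c' hc'
      obtain ⟨a', b', hb', hab'⟩ := hab c' (List.mem_cons_of_mem _ hc')
      refine ⟨SYi ψ c a', SYi ψ c b', ?_, ?_⟩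
      · rw [← RingHom.comp_apply, SYpsi_i]; exact hb'
      · rw [← RingHom.comp_apply, ← RingHom.comp_apply, SYpsi_i]; exact hab'
    · intro w
      obtain ⟨x, y, hx, hy, hyn, hw⟩ := hgen w
      exact ⟨x, y, hcl hx, hcl hy, hyn, hw⟩

theorem loc_ind0 (ϖ : W) (hϖ : maximalIdeal W = Ideal.span {ϖ}) (hϖ0 : ϖ ≠ 0) (l : List W)
    (S : Type v) [CommRing S] [IsLocalRing S] [IsNoetherianRing S]
    [Infinite (ResidueField S)] (ψ : S →+* W) [IsLocalHom ψ] [(RingHom.ker ψ).IsPrime]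
    (hab : ∀ c ∈ l, ∃ a b, ψ b ≠ 0 ∧ c * ψ b = ψ a)
    (hgen : ∀ w : W, ∃ x y : W, x ∈ Subring.closure (Set.range ψ ∪ {c | c ∈ l}) ∧
        y ∈ Subring.closure (Set.range ψ ∪ {c | c ∈ l}) ∧ y ∉ maximalIdeal W ∧ w * y = x)
    (e : ℕ) (h : UU S 0 e) (N : ℕ) :
    cl (maximalIdeal (Localization.AtPrime (RingHom.ker ψ)) ^ N) ≤ e := by
  have hN : IsNoetherianRing (SY ψ 0) := SY_noeth ψ 0
  have hl1 : IsLocalHom (SYi ψ 0) := SYi_local ψ 0
  have hl2 : IsLocalHom (SYpsi ψ 0) := SYpsi_local ψ 0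
  have hQ' : (RingHom.ker (SYpsi ψ 0)).IsPrime := RingHom.ker_isPrime _
  have hinf : Infinite (ResidueField (SY ψ 0)) :=
    Infinite.of_injective (ResidueField.map (SYi ψ 0)) (RingHom.injective _)
  have hrange : Set.range ψ ⊆ Set.range (SYpsi ψ 0) := by
    rintro _ ⟨x, rfl⟩
    exact ⟨SYi ψ 0 x, by rw [← RingHom.comp_apply, SYpsi_i]⟩
  have hcl : Subring.closure (Set.range ψ ∪ {z | z ∈ l}) ≤
      Subring.closure (Set.range (SYpsi ψ 0) ∪ {z | z ∈ l}) :=
    Subring.closure_mono (Set.union_subset_union_left _ hrange)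
  refine (SY_both ψ 0 0 1 (by rw [map_one]; exact one_ne_zero)
    (by rw [map_one, map_zero, zero_mul])).2 e
    (loc_ind ϖ hϖ hϖ0 l (SY ψ 0) (SYpsi ψ 0) ?_ ?_ 0 e (SY_UU ψ 0 h)) N
  · intro c' hc'
    obtain ⟨a', b', hb', hab'⟩ := hab c' hc'
    refine ⟨SYi ψ 0 a', SYi ψ 0 b', ?_, ?_⟩
    · rw [← RingHom.comp_apply, SYpsi_i]; exact hb'
    · rw [← RingHom.comp_apply, ← RingHom.comp_apply, SYpsi_i]; exact hab'
  · intro w
    obtain ⟨x, y, hx, hy, hyn, hw⟩ := hgen w
    exact ⟨x, y, hcl hx, hcl hy, hyn, hw⟩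

end Ind

end Vale.Agent.P202
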