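import Vale.Agent.P202.IntD
import Vale.Agent.P202.DimArt

namespace Vale.Agent.P202

open Finset IsLocalRing

universe u v

theorem loc_complete {S : Type v} [CommRing S] [IsLocalRing S] [IsNoetherianRing S]
    [Infinite (ResidueField S)] [IsPrecomplete (maximalIdeal S) S] (Q : Ideal S)
    [hQ : Q.IsPrime] (hne : Q ≠ maximalIdeal S)
    (hdim : ∀ p : Ideal S, p.IsPrime → Q ≤ p → p = Q ∨ p = maximalIdeal S) :
    (∀ s e : ℕ, UU S (s + 1) e → UU (Localization.AtPrime Q) s e) ∧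
    (∀ e : ℕ, UU S 0 e → ∀ N, cl (maximalIdeal (Localization.AtPrime Q) ^ N) ≤ e) := by
  have hQle : Q ≤ maximalIdeal S := IsLocalRing.le_maximalIdeal hQ.ne_top
  have hdom : IsDomain (S ⧸ Q) := Ideal.Quotient.isDomain Q
  have hlr : IsLocalRing (S ⧸ Q) :=
    IsLocalRing.of_surjective' (Ideal.Quotient.mk Q) Ideal.Quotient.mk_surjective
  have hmax : (maximalIdeal S).map (Ideal.Quotient.mk Q) = maximalIdeal (S ⧸ Q) :=
    IsLocalRing.map_maximalIdeal_of_surjective (Ideal.Quotient.mk _) Ideal.Quotient.mk_surjective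
  have hpre : IsPrecomplete (maximalIdeal (S ⧸ Q)) (S ⧸ Q) := precomplete_quot Q hmax
  have hmem : ∀ x : S, Ideal.Quotient.mk Q x ∈ maximalIdeal (S ⧸ Q) → x ∈ maximalIdeal S := by
    intro x hx
    rw [← hmax, Ideal.mem_quotient_iff_mem_sup, sup_eq_left.mpr hQle] at hx
    exact hx
  have hdimD : ∀ p : Ideal (S ⧸ Q), p.IsPrime → p = ⊥ ∨ p = maximalIdeal (S ⧸ Q) := by
    intro p hp
    have h0 : (p.comap (Ideal.Quotient.mk Q)).map (Ideal.Quotient.mk Q) = p :=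
      Ideal.map_comap_of_surjective _ Ideal.Quotient.mk_surjective p
    have h1 : Q ≤ p.comap (Ideal.Quotient.mk Q) := by
      intro x hx
      rw [Ideal.mem_comap, Ideal.Quotient.eq_zero_iff_mem.mpr hx]
      exact p.zero_mem
    rcases hdim (p.comap (Ideal.Quotient.mk Q)) (Ideal.comap_isPrime _ _) h1 with h | h
    · left
      rw [← h0, h, Ideal.map_quotient_self]
    · right
      rw [← h0, h, hmax]
  have hneD : maximalIdeal (S ⧸ Q) ≠ ⊥ := by
    intro h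
    apply hne
    refine le_antisymm hQle fun x hx => ?_
    have h1 : Ideal.Quotient.mk Q x ∈ maximalIdeal (S ⧸ Q) := by
      rw [← hmax]; exact Ideal.mem_map_of_mem _ hx
    rw [h, Ideal.mem_bot] at h1
    exact Ideal.Quotient.eq_zero_iff_mem.mp h1
  obtain ⟨W, iW1, iW2, iW3, φ, ϖ, l, hinj, hloc, hϖ, hϖ0, hab, hgen⟩ :=
    exists_dvr hdimD hneD
  let ψ : S →+* W := φ.comp (Ideal.Quotient.mk Q)
  have hψ : ∀ x, ψ x = φ (Ideal.Quotient.mk Q x) := fun x => rfl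
  have hker : RingHom.ker ψ = Q := by
    ext x
    rw [RingHom.mem_ker, hψ, map_eq_zero_iff φ hinj, Ideal.Quotient.eq_zero_iff_mem]
  have hkp : (RingHom.ker ψ).IsPrime := RingHom.ker_isPrime _
  have hψloc : IsLocalHom ψ := by
    constructor
    intro x hx
    by_contra hn
    have h1 : Ideal.Quotient.mk Q x ∈ maximalIdeal (S ⧸ Q) := by
      rw [← hmax]
      exact Ideal.mem_map_of_mem _ ((mem_maximalIdeal _).mpr hn)
    have h2 : IsUnit (Ideal.Quotient.mk Q x) := (isUnit_map_iff φ _).mp hx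
    exact ((mem_maximalIdeal _).mp h1) h2
  have hab' : ∀ c ∈ l, ∃ a b, ψ b ≠ 0 ∧ c * ψ b = ψ a := by
    intro c hc
    obtain ⟨a, b, hb, hcab⟩ := hab c hc
    obtain ⟨a', rfl⟩ := Ideal.Quotient.mk_surjective a
    obtain ⟨b', rfl⟩ := Ideal.Quotient.mk_surjective b
    exact ⟨a', b', hb, hcab⟩
  have hrange : Set.range φ ⊆ Set.range ψ := by
    rintro _ ⟨x, rfl⟩
    obtain ⟨x', rfl⟩ := Ideal.Quotient.mk_surjective x
    exact ⟨x', rfl⟩
  have hcl : Subring.closure (Set.range φ ∪ {z | z ∈ l}) ≤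
      Subring.closure (Set.range ψ ∪ {z | z ∈ l}) :=
    Subring.closure_mono (Set.union_subset_union_left _ hrange)
  have hgen' : ∀ w : W, ∃ x y : W, x ∈ Subring.closure (Set.range ψ ∪ {c | c ∈ l}) ∧
      y ∈ Subring.closure (Set.range ψ ∪ {c | c ∈ l}) ∧ y ∉ maximalIdeal W ∧ w * y = x := by
    intro w
    obtain ⟨x, y, hx, hy, hyn, hw⟩ := hgen w
    exact ⟨x, y, hcl hx, hcl hy, hyn, hw⟩
  have hfin : (∀ s e : ℕ, UU S (s + 1) e → UU (Localization.AtPrime (RingHom.ker ψ)) s e) ∧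
    (∀ e : ℕ, UU S 0 e →
      ∀ N, cl (maximalIdeal (Localization.AtPrime (RingHom.ker ψ)) ^ N) ≤ e) :=
    ⟨fun s e h => loc_ind ϖ hϖ hϖ0 l S ψ hab' hgen' s e h,
      fun e h N => loc_ind0 ϖ hϖ hϖ0 l S ψ hab' hgen' e h N⟩
  clear_value ψ
  subst hker
  exact hfin

end Vale.Agent.P202
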