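import Vale.Agent.P202.LocI

namespace Vale.Agent.P202

open Finset IsLocalRing

universe u v w

section Ext

theorem artin_fibre_field (S S' : Type*) [CommRing S] [IsLocalRing S] [CommRing S']
    [IsLocalRing S'] [Algebra S S']
    (hmap : (maximalIdeal S).map (algebraMap S S') = maximalIdeal S') :
    IsArtinianRing (S' ⧸ (maximalIdeal S).map (algebraMap S S')) := by
  rw [hmap]
  have : IsArtinianRing (ResidueField S') := inferInstance
  exact this

theorem ext_trans (S A P : Type*) [CommRing S] [IsLocalRing S] [CommRing A] [IsLocalRing A]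
    [CommRing P] [IsLocalRing P] [Algebra S A] [Algebra A P] [Module.Flat S A] [Module.Flat A P]
    [IsLocalHom (algebraMap S A)] [IsLocalHom (algebraMap A P)] :
    ∃ (_ : Algebra S P), Module.Flat S P ∧ IsLocalHom (algebraMap S P) ∧
      algebraMap S P = (algebraMap A P).comp (algebraMap S A) := by
  let i : Algebra S P := ((algebraMap A P).comp (algebraMap S A)).toAlgebra
  have htower : IsScalarTower S A P := IsScalarTower.of_algebraMap_eq fun _ => rfl
  have hlocS : IsLocalHom (algebraMap S P) := by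
    rw [IsScalarTower.algebraMap_eq S A P]
    infer_instance
  exact ⟨i, Module.Flat.trans S A P, hlocS, rfl⟩

theorem exists_complete' (A : Type v) [CommRing A] [IsLocalRing A] [IsNoetherianRing A]
    [Infinite (ResidueField A)] :
    ∃ (S' : Type v) (_ : CommRing S') (_ : IsLocalRing S') (_ : IsNoetherianRing S')
      (_ : Algebra A S'), Module.Flat A S' ∧ IsLocalHom (algebraMap A S') ∧
      (maximalIdeal A).map (algebraMap A S') = maximalIdeal S' ∧ Infinite (ResidueField S') ∧
      IsPrecomplete (maximalIdeal S') S' := by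
  have hfg : (maximalIdeal A).FG := IsNoetherian.noetherian _
  have hlrP := AdicCompletion.isLocalRing_of_fg hfg
  have hmP := AdicCompletion.maximalIdeal_eq_map_of_fg hfg
  have hacP := AdicCompletion.isAdicComplete_of_fg hfg
  have hfgP : (maximalIdeal (AdicCompletion (maximalIdeal A) A)).FG := by
    rw [hmP]
    exact Ideal.FG.map hfg _
  have hnP : IsNoetherianRing (AdicCompletion (maximalIdeal A) A) := noeth_local hfgP
  have hfP : Module.Flat A (AdicCompletion (maximalIdeal A) A) :=
    AdicCompletion.flat_of_isNoetherian _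
  have hlocP : IsLocalHom (algebraMap A (AdicCompletion (maximalIdeal A) A)) :=
    isLocalHom_of_map_le hmP.ge
  refine ⟨AdicCompletion (maximalIdeal A) A, inferInstance, hlrP, hnP, inferInstance,
    hfP, hlocP, hmP.symm, ?_, hacP.toIsPrecomplete⟩
  exact Infinite.of_injective
      (ResidueField.map (algebraMap A (AdicCompletion (maximalIdeal A) A)))
      (RingHom.injective _)

theorem exists_complete (S : Type v) [CommRing S] [IsLocalRing S] [IsNoetherianRing S] :
    ∃ (S' : Type v) (_ : CommRing S') (_ : IsLocalRing S') (_ : IsNoetherianRing S')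
      (_ : Algebra S S'), Module.Flat S S' ∧ IsLocalHom (algebraMap S S') ∧
      (maximalIdeal S).map (algebraMap S S') = maximalIdeal S' ∧ Infinite (ResidueField S') ∧
      IsPrecomplete (maximalIdeal S') S' := by
  obtain ⟨A, _, _, _, _, hflat, hloc, hmap, hinf⟩ := exists_infinite_residue S
  obtain ⟨P, _, _, _, _, hflat', hloc', hmap', hinf', hpre⟩ := exists_complete' A
  obtain ⟨i, h1, h2, h3⟩ := ext_trans S A P
  refine ⟨P, inferInstance, inferInstance, inferInstance, i, h1, h2, ?_, hinf', hpre⟩
  rw [h3, ← Ideal.map_map, hmap, hmap']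

end Ext

section Main

variable {R : Type u} [CommRing R] [IsLocalRing R] [IsNoetherianRing R]

theorem exists_Q {S : Type v} [CommRing S] [IsLocalRing S] [IsNoetherianRing S] [Algebra R S]
    [Module.Flat R S] [IsLocalHom (algebraMap R S)] (d f : ℕ) (hR : ringKrullDim R = d)
    (hS : ringKrullDim S = (d + f + 1 : ℕ)) :
    ∃ Q : Ideal S, ∃ _ : Q.IsPrime, (maximalIdeal R).map (algebraMap R S) ≤ Q ∧
      Q ≠ maximalIdeal S ∧ (∀ p : Ideal S, p.IsPrime → Q ≤ p → p = Q ∨ p = maximalIdeal S) ∧
      Q.height = (d + f : ℕ) := by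
  have hover : (maximalIdeal S).LiesOver (maximalIdeal R) := liesOver_max
  have h1 := Ideal.height_eq_height_add_of_liesOver_of_hasGoingDown (maximalIdeal R)
    (maximalIdeal S)
  have h2 : (maximalIdeal R).height = (d : ℕ∞) := by
    have := IsLocalRing.maximalIdeal_height_eq_ringKrullDim (R := R)
    rw [hR] at this
    exact_mod_cast this
  have h3 : (maximalIdeal S).height = ((d + f + 1 : ℕ) : ℕ∞) := by
    have := IsLocalRing.maximalIdeal_height_eq_ringKrullDim (R := S)
    rw [hS] at this
    exact_mod_cast this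
  set m' := (maximalIdeal R).map (algebraMap R S) with hm'
  have hne : m' ≠ ⊤ := fun h =>
    (maximalIdeal.isMaximal S).ne_top (top_le_iff.mp (h ▸ map_maximalIdeal_le))
  have hnt : Nontrivial (S ⧸ m') := Ideal.Quotient.nontrivial_iff.mpr hne
  have hlr : IsLocalRing (S ⧸ m') :=
    IsLocalRing.of_surjective' (Ideal.Quotient.mk _) Ideal.Quotient.mk_surjective
  have hmax : (maximalIdeal S).map (Ideal.Quotient.mk m') = maximalIdeal (S ⧸ m') :=
    IsLocalRing.map_maximalIdeal_of_surjective (Ideal.Quotient.mk _) Ideal.Quotient.mk_surjective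
  rw [h2, h3, hmax] at h1
  have h4 : (maximalIdeal (S ⧸ m')).height = ((f + 1 : ℕ) : ℕ∞) := by
    have h5 : (d : ℕ∞) + ((f + 1 : ℕ) : ℕ∞) = d + (maximalIdeal (S ⧸ m')).height := by
      rw [← h1]
      push_cast
      ring
    exact (ENat.add_right_injective_of_ne_top (ENat.natCast_ne_top d) h5).symm
  have h5 : Order.height (⟨maximalIdeal (S ⧸ m'), inferInstance⟩ : PrimeSpectrum (S ⧸ m')) =
      ((f + 1 : ℕ) : ℕ∞) := by
    rw [← PrimeSpectrum.height_eq_orderHeight]
    exact h4
  obtain ⟨q, hq, hqf⟩ := (Order.coe_lt_height_iff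
    (x := (⟨maximalIdeal (S ⧸ m'), inferInstance⟩ : PrimeSpectrum (S ⧸ m'))) (n := f) (by
      rw [h5]; exact ENat.natCast_lt_top _)).mp (by
      rw [h5]; exact_mod_cast Nat.lt_succ_self f)
  rw [← PrimeSpectrum.height_eq_orderHeight] at hqf
  have hqp := q.isPrime
  let Q : Ideal S := q.asIdeal.comap (Ideal.Quotient.mk m')
  have hQp : Q.IsPrime := Ideal.comap_isPrime _ _
  have hQmap : Q.map (Ideal.Quotient.mk m') = q.asIdeal :=
    Ideal.map_comap_of_surjective _ Ideal.Quotient.mk_surjective _
  have hmQ : m' ≤ Q := by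
    intro x hx
    rw [Ideal.mem_comap, Ideal.Quotient.eq_zero_iff_mem.mpr hx]
    exact q.asIdeal.zero_mem
  have hQover : Q.LiesOver (maximalIdeal R) := by
    refine ⟨?_⟩
    have h6 : maximalIdeal R ≤ Q.under R := by
      rw [Ideal.under_def, ← Ideal.map_le_iff_le_comap]
      exact hmQ
    exact (maximalIdeal.isMaximal R).eq_of_le (Ideal.IsPrime.ne_top inferInstance) h6
  have h6 := Ideal.height_eq_height_add_of_liesOver_of_hasGoingDown (maximalIdeal R) Q
  rw [← hm', hQmap, h2, hqf] at h6
  have h7 : Q.height = ((d + f : ℕ) : ℕ∞) := by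
    rw [h6]
    push_cast
    rfl
  have hQne : Q ≠ maximalIdeal S := by
    intro h
    rw [h, h3] at h7
    have : d + f + 1 = d + f := by exact_mod_cast h7
    omega
  refine ⟨Q, hQp, hmQ, hQne, fun p hp hQle => ?_, h7⟩
  by_contra hcon
  push Not at hcon
  have h8 : Q < p := lt_of_le_of_ne hQle hcon.1.symm
  have h9 : p < maximalIdeal S :=
    lt_of_le_of_ne (IsLocalRing.le_maximalIdeal hp.ne_top) hcon.2
  have h10 := Ideal.height_add_one_le_of_lt_of_isPrime h8
  have h11 := Ideal.height_add_one_le_of_lt_of_isPrime h9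
  rw [h7] at h10
  rw [h3] at h11
  have h12 : (((d + f : ℕ) : ℕ∞) + 1) + 1 ≤ ((d + f + 1 : ℕ) : ℕ∞) :=
    (add_le_add h10 le_rfl).trans h11
  have h13 : d + f + 1 + 1 ≤ d + f + 1 := by exact_mod_cast h12
  omega

def UX (A : Type*) [CommRing A] [IsLocalRing A] : ℕ → ℕ → Prop
  | 0, e => ∀ N, cl (maximalIdeal A ^ N) ≤ e
  | s + 1, e => UU A s e

theorem UX_congr {A B : Type*} [CommRing A] [IsLocalRing A] [CommRing B] [IsLocalRing B]
    (h : ∀ N, cl (maximalIdeal B ^ N) = cl (maximalIdeal A ^ N)) {n e : ℕ} (hA : UX A n e) :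
    UX B n e := by
  cases n with
  | zero =>
    intro N
    rw [h]
    exact hA N
  | succ n =>
    obtain ⟨D, hD⟩ := hA
    exact ⟨D, fun N => by rw [h]; exact hD N⟩

theorem UX_loc {S : Type v} [CommRing S] [IsLocalRing S] [IsNoetherianRing S]
    [Infinite (ResidueField S)] [IsPrecomplete (maximalIdeal S) S] (Q : Ideal S)
    [hQ : Q.IsPrime] (hne : Q ≠ maximalIdeal S)
    (hdim : ∀ p : Ideal S, p.IsPrime → Q ≤ p → p = Q ∨ p = maximalIdeal S) {n e : ℕ}
    (h : UX S (n + 1) e) : UX (Localization.AtPrime Q) n e := by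
  cases n with
  | zero => exact (loc_complete Q hne hdim).2 e h
  | succ n => exact (loc_complete Q hne hdim).1 n e h

theorem ext_loc (R S T : Type*) [CommRing R] [IsLocalRing R] [CommRing S]
    [CommRing T] [IsLocalRing T] [Algebra R S] [Algebra S T] [Module.Flat R S] [Module.Flat S T]
    (hle : ((maximalIdeal R).map (algebraMap R S)).map (algebraMap S T) ≤ maximalIdeal T) :
    ∃ (_ : Algebra R T), Module.Flat R T ∧ IsLocalHom (algebraMap R T) := by
  let i : Algebra R T := ((algebraMap S T).comp (algebraMap R S)).toAlgebra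
  have htower : IsScalarTower R S T := IsScalarTower.of_algebraMap_eq fun _ => rfl
  refine ⟨i, Module.Flat.trans R S T, isLocalHom_of_map_le ?_⟩
  rw [IsScalarTower.algebraMap_eq R S T, ← Ideal.map_map]
  exact hle

theorem exists_art (d : ℕ) (hR : ringKrullDim R = d) (e : ℕ) (f : ℕ) :
    ∀ (S : Type v) [CommRing S] [IsLocalRing S] [IsNoetherianRing S] [Algebra R S]
      [Module.Flat R S] [IsLocalHom (algebraMap R S)], ringKrullDim S = (d + f : ℕ) →
      UX S (d + f) e → ∃ (T : Type v) (_ : CommRing T) (_ : IsLocalRing T)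
        (_ : IsNoetherianRing T) (_ : Algebra R T) (_ : Module.Flat R T)
        (_ : IsLocalHom (algebraMap R T)), ringKrullDim T = (d : ℕ) ∧ UX T d e := by
  induction f with
  | zero =>
    intro S _ _ _ _ _ _ hS h
    exact ⟨S, inferInstance, inferInstance, inferInstance, inferInstance, inferInstance,
      inferInstance, hS, h⟩
  | succ f ih =>
    intro S _ _ _ _ _ _ hS h
    obtain ⟨S1, _, _, _, _, hflat1, hloc1, hmap1, hinf1, hpre1⟩ := exists_complete S
    obtain ⟨i, hRS1, hlocRS1, hcomp⟩ := ext_trans R S S1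
    have hcl1 : ∀ N, cl (maximalIdeal S1 ^ N) = cl (maximalIdeal S ^ N) := by
      intro N
      rw [← hmap1, ← Ideal.map_pow]
      exact cl_flat S S1 hmap1 _
    have hdS1 : ringKrullDim S1 = (d + f + 1 : ℕ) := by
      rw [dim_eq (R := S) (S := S1) (artin_fibre_field S S1 hmap1), hS]
      rfl
    obtain ⟨Q, hQ, hmQ, hQne, hQdim, hQh⟩ := exists_Q (R := R) (S := S1) d f hR hdS1
    have hflatT : Module.Flat S1 (Localization.AtPrime Q) :=
      IsLocalization.flat _ Q.primeCompl
    have hNT : IsNoetherianRing (Localization.AtPrime Q) :=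
      IsLocalization.isNoetherianRing Q.primeCompl _ inferInstance
    obtain ⟨j, hj1, hj2⟩ := ext_loc R S1 (Localization.AtPrime Q) (by
      rw [← IsLocalization.AtPrime.map_eq_maximalIdeal Q (Localization.AtPrime Q)]
      exact Ideal.map_mono hmQ)
    have hUX : UX (Localization.AtPrime Q) (d + f) e :=
      UX_loc Q hQne hQdim (UX_congr hcl1 h)
    refine ih (Localization.AtPrime Q) ?_ hUX
    rw [IsLocalization.AtPrime.ringKrullDim_eq_height Q (Localization.AtPrime Q), hQh]
    rfl

end Main

end Vale.Agent.P202
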