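import Vale.Agent.P202.Chain

namespace Vale.Agent.P202

open Finset IsLocalRing

section

variable {S : Type*} [CommRing S]

def P (X : ℕ → S) (i : ℕ) : Ideal S := Ideal.span (X '' {j | j < i})

theorem P_zero (X : ℕ → S) : P X 0 = ⊥ := by simp [P]

theorem P_succ (X : ℕ → S) (i : ℕ) : P X (i + 1) = P X i ⊔ Ideal.span {X i} := by
  unfold P
  rw [← Ideal.span_union]
  congr 1
  ext z
  simp only [Set.mem_image, Set.mem_ofPred_eq, Set.mem_union, Set.mem_singleton_iff]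
  constructor
  · rintro ⟨j, hj, rfl⟩
    rcases Nat.lt_succ_iff_lt_or_eq.mp hj with h | h
    · exact Or.inl ⟨j, h, rfl⟩
    · exact Or.inr (by rw [h])
  · rintro (⟨j, hj, rfl⟩ | h)
    · exact ⟨j, by omega, rfl⟩
    · exact ⟨i, by omega, h.symm⟩

variable [IsLocalRing S] [IsNoetherianRing S]

theorem cl_sup_pow_ne_top (𝔭 : Ideal S) (N : ℕ) : cl (𝔭 ⊔ maximalIdeal S ^ N) ≠ ⊤ := by
  refine ne_top_of_le_ne_top (cl_pow_ne_top (maximalIdeal S) ?_ N) (cl_anti le_sup_right)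
  rw [cl_maximalIdeal]
  exact ENat.one_ne_top

noncomputable def LL (X : ℕ → S) (i N : ℕ) : ℕ := (cl (P X i ⊔ maximalIdeal S ^ N)).toNat

theorem coe_LL (X : ℕ → S) (i N : ℕ) : (LL X i N : ℕ∞) = cl (P X i ⊔ maximalIdeal S ^ N) :=
  ENat.natCast_toNat (cl_sup_pow_ne_top _ _)

theorem LL_mono (X : ℕ → S) (i : ℕ) : Monotone (LL X i) := by
  intro a b hab
  have h1 : cl (P X i ⊔ maximalIdeal S ^ a) ≤ cl (P X i ⊔ maximalIdeal S ^ b) :=
    cl_anti (sup_le_sup_left (Ideal.pow_le_pow_right hab) _)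
  rw [← coe_LL, ← coe_LL] at h1
  exact_mod_cast h1

theorem LL_rec (X : ℕ → S) (i : ℕ) (hs : Sup (maximalIdeal S) (P X i) (X i)) :
    ∃ D : ℕ, ∀ N, LL X (i + 1) (N + 1) + LL X i N ≤ LL X i (N + 1) + D := by
  obtain ⟨c, hc⟩ := sup_ineq _ _ _ hs
  have hft : cl (maximalIdeal S ^ c) ≠ ⊤ := by
    have := cl_sup_pow_ne_top (⊥ : Ideal S) c
    rwa [bot_sup_eq] at this
  obtain ⟨D, hD⟩ := ENat.ne_top_iff_exists.mp hft
  refine ⟨D, fun N => ?_⟩
  have h := hc N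
  rw [← P_succ, ← coe_LL, ← coe_LL, ← coe_LL, ← hD] at h
  exact_mod_cast h

theorem LL_upper (X : ℕ → S) (d : ℕ)
    (hs : ∀ i < d + 1, Sup (maximalIdeal S) (P X i) (X i)) (A : ℕ)
    (hA : ∀ N, LL X 0 N ≤ A * (N + 1) ^ (d + 1)) (i : ℕ) :
    ∀ k, i + k = d + 1 → ∃ A', ∀ N, LL X i N ≤ A' * (N + 1) ^ k := by
  induction i with
  | zero =>
    intro k hk
    rw [zero_add] at hk
    subst hk
    exact ⟨A, hA⟩
  | succ i ih =>
    intro k hk
    obtain ⟨A', hA'⟩ := ih (k + 1) (by omega)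
    obtain ⟨D, hD⟩ := LL_rec X i (hs i (by omega))
    exact chain_upper _ _ D hD (LL_mono X (i + 1)) A' k hA'

theorem LL_lower (X : ℕ → S) (d : ℕ)
    (hs : ∀ i < d + 1, Sup (maximalIdeal S) (P X i) (X i)) (e D : ℕ)
    (hD : ∀ N, e * N.choose 1 ≤ LL X d N + D * N ^ 0) (k : ℕ) :
    ∀ i, i + k = d → ∃ D', ∀ N, e * N.choose (k + 1) ≤ LL X i N + D' * N ^ k := by
  induction k with
  | zero =>
    intro i hi
    rw [add_zero] at hi
    subst hi
    exact ⟨D, hD⟩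
  | succ k ih =>
    intro i hi
    obtain ⟨D', hD'⟩ := ih (i + 1) (by omega)
    obtain ⟨D1, hD1⟩ := LL_rec X i (hs i (by omega))
    exact chain_lower _ _ D1 hD1 e D' k hD'

theorem sside (X : ℕ → S) (d : ℕ)
    (hs : ∀ i < d + 1, Sup (maximalIdeal S) (P X i) (X i)) (A : ℕ)
    (hA : ∀ N, cl (maximalIdeal S ^ N) ≤ ((A * (N + 1) ^ (d + 1) : ℕ) : ℕ∞)) :
    (∃ c, maximalIdeal S ^ c ≤ P X (d + 1)) ∧
    ∃ e c Λ D : ℕ, (∀ i, c ≤ i → cl (qt (P X d) (X d ^ i) ⊔ Ideal.span {X d}) ≤ e) ∧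
      (∀ i, cl (qt (P X d) (X d ^ i) ⊔ Ideal.span {X d}) ≤ Λ) ∧
      ∀ N : ℕ, ((e * N.choose (d + 1) : ℕ) : ℕ∞) ≤
        cl (maximalIdeal S ^ N) + ((D * N ^ d : ℕ) : ℕ∞) := by
  have h0 : ∀ N, (LL X 0 N : ℕ∞) = cl (maximalIdeal S ^ N) := by
    intro N
    rw [coe_LL, P_zero, bot_sup_eq]
  have hA' : ∀ N, LL X 0 N ≤ A * (N + 1) ^ (d + 1) := by
    intro N
    have := hA N
    rw [← h0] at this
    exact_mod_cast this
  obtain ⟨A', hA'⟩ := LL_upper X d hs A hA' (d + 1) 0 (by omega)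
  have hex : ∃ c, maximalIdeal S ^ c ≤ P X (d + 1) := by
    refine exists_pow_le_of_bounded (P X (d + 1)) A' fun N => ?_
    rw [← coe_LL]
    have := hA' N
    rw [pow_zero, mul_one] at this
    exact_mod_cast this
  refine ⟨hex, ?_⟩
  have hfin : cl (P X d ⊔ Ideal.span {X d}) ≠ ⊤ := by
    obtain ⟨c, hc⟩ := hex
    rw [P_succ] at hc
    have := cl_sup_pow_ne_top (⊥ : Ideal S) c
    rw [bot_sup_eq] at this
    exact ne_top_of_le_ne_top this (cl_anti hc)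
  obtain ⟨e, c, Λ, he, hΛ, hle⟩ := exists_stable (P X d) (X d) hfin
  have hred : ∃ c, maximalIdeal S ^ c ≤ P X d ⊔ Ideal.span {X d} := by
    rw [← P_succ]; exact hex
  obtain ⟨c', hc'⟩ := reduction _ _ _ (hs d (by omega)) hred
  have hbase : ∀ N, e * N.choose 1 ≤ LL X d N + (e * c') * N ^ 0 := by
    intro N
    rw [Nat.choose_one_right, pow_zero, mul_one]
    by_cases hN : c' ≤ N
    · obtain ⟨a, rfl⟩ := Nat.exists_eq_add_of_le hN
      have h1 := le_cl_span_pow (P X d) (X d) e hle a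
      have h2 : cl (P X d ⊔ Ideal.span {X d ^ a}) ≤ cl (P X d ⊔ maximalIdeal S ^ (c' + a)) :=
        cl_anti (sup_le le_sup_left (hc' a))
      have h3 := h1.trans h2
      rw [← coe_LL] at h3
      have h4 : e * a ≤ LL X d (c' + a) := by exact_mod_cast h3
      rw [mul_add]
      omega
    · have : e * N ≤ e * c' := Nat.mul_le_mul_left _ (le_of_lt (not_le.mp hN))
      omega
  obtain ⟨D, hD⟩ := LL_lower X d hs e (e * c') hbase d 0 (by omega)
  refine ⟨e, c, Λ, D, he, hΛ, fun N => ?_⟩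
  rw [← h0]
  exact_mod_cast hD N

end

end Vale.Agent.P202
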