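import Vale.Agent.P202.Asymp

namespace Vale.Agent.P202

open Filter Topology IsLocalRing

universe u v

noncomputable def len (A : Type*) [CommRing A] [IsLocalRing A] (N : ℕ) : ℕ :=
  (Module.length A (A ⧸ maximalIdeal A ^ N)).toNat

theorem coe_len (A : Type*) [CommRing A] [IsLocalRing A] [IsNoetherianRing A] (N : ℕ) :
    (len A N : ℕ∞) = cl (maximalIdeal A ^ N) := by
  have := cl_sup_pow_ne_top (⊥ : Ideal A) N
  rw [bot_sup_eq] at this
  exact ENat.natCast_toNat this

theorem hasMult_succ {A : Type*} [CommRing A] [IsLocalRing A] [IsNoetherianRing A] (t : ℕ)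
    (hd : ringKrullDim A = (t + 1 : ℕ)) : ∃ e : ℝ, 0 ≤ e ∧ HasMult A e ∧
      Tendsto (fun N : ℕ => ((t + 1).factorial : ℝ) * (len A N : ℝ) / (N : ℝ) ^ (t + 1))
        atTop (𝓝 e) := by
  obtain ⟨e, D, h1, h2⟩ := exists_two_sided (S := A) t hd
  have h := limit_exists (len A) e D t (fun N => by
    have := h1 N
    rw [← coe_len] at this
    exact_mod_cast this) (fun N => by
    have := h2 N
    rw [← coe_len] at this
    exact_mod_cast this)
  exact ⟨e, Nat.cast_nonneg _, ⟨t + 1, hd, h⟩, h⟩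

theorem pow_eq_bot_of_dim_zero {A : Type*} [CommRing A] [IsLocalRing A] [IsNoetherianRing A]
    (hd : ringKrullDim A = (0 : ℕ)) : ∃ c, ∀ N, c ≤ N → maximalIdeal A ^ N = ⊥ := by
  obtain ⟨B, hB⟩ := exists_bound (S := A) 0 hd
  obtain ⟨c, hc⟩ := exists_pow_le_of_bounded (⊥ : Ideal A) B (fun N => by
    rw [bot_sup_eq]
    have := hB N
    rwa [pow_zero, mul_one] at this)
  exact ⟨c, fun N hN => le_bot_iff.mp ((Ideal.pow_le_pow_right hN).trans hc)⟩

theorem hasMult_zero {A : Type*} [CommRing A] [IsLocalRing A] [IsNoetherianRing A]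
    (hd : ringKrullDim A = (0 : ℕ)) (l : ℕ)
    (hl : (l : ℕ∞) = cl (⊥ : Ideal A)) : HasMult A l := by
  refine ⟨0, hd, ?_⟩
  obtain ⟨c, hc⟩ := pow_eq_bot_of_dim_zero hd
  refine tendsto_const_nhds.congr' ?_
  filter_upwards [eventually_ge_atTop c] with N hN
  have h1 : (len A N : ℕ∞) = l := by
    rw [coe_len, hc N hN, hl]
  have h2 : len A N = l := by exact_mod_cast h1
  have h3 : (Module.length A (A ⧸ maximalIdeal A ^ N)).toNat = l := h2
  rw [h3]
  simp

section

variable {R : Type u} {S : Type v} [CommRing R] [IsLocalRing R] [IsNoetherianRing R]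
    [CommRing S] [IsLocalRing S] [IsNoetherianRing S] [Algebra R S] [Module.Flat R S]
    [IsLocalHom (algebraMap R S)]

omit [IsNoetherianRing R] [IsNoetherianRing S] in
theorem cl_map (I : Ideal R) :
    cl (I.map (algebraMap R S)) = cl I * cl ((maximalIdeal R).map (algebraMap R S)) := by
  unfold cl
  rw [← IsLocalRing.length_baseChange R S (R ⧸ I)]
  exact (Algebra.TensorProduct.quotIdealMapEquivTensorQuot S I).toLinearEquiv.length_eq

theorem core_one_infinite [Infinite (ResidueField S)]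
    (hfib : ∃ K, maximalIdeal S ^ K ≤ (maximalIdeal R).map (algebraMap R S))
    (A : ℕ) (hA : ∀ N, cl (maximalIdeal S ^ N) ≤ ((A * (N + 1) ^ 1 : ℕ) : ℕ∞)) :
    ∃ e D : ℕ, (∀ N, cl (maximalIdeal R ^ N) ≤
      ((e * (N + 0).choose 1 + D * N ^ 0 : ℕ) : ℕ∞)) ∧
      (∀ N : ℕ, ((e * N.choose 1 : ℕ) : ℕ∞) ≤
        cl (maximalIdeal S ^ N) + ((D * N ^ 0 : ℕ) : ℕ∞)) := by
  obtain ⟨X, hX, hs, -⟩ := exists_seq (⊥ : Ideal S) 1
  obtain ⟨-, e, c, Λ, D, he, hΛ, hlow⟩ := sside X 0 hs A hA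
  obtain ⟨K, hK⟩ := hfib
  set 𝔪 := (maximalIdeal R).map (algebraMap R S) with h𝔪
  have hfin : cl 𝔪 ≠ ⊤ := by
    have := cl_sup_pow_ne_top (⊥ : Ideal S) K
    rw [bot_sup_eq] at this
    exact ne_top_of_le_ne_top this (cl_anti hK)
  have hproper : cl 𝔪 ≠ 0 := by
    intro h0
    rw [cl_eq_zero] at h0
    exact (IsLocalRing.maximalIdeal.isMaximal S).ne_top
      (top_le_iff.mp (h0 ▸ map_maximalIdeal_le))
  obtain ⟨a, ha⟩ := ENat.ne_top_iff_exists.mp hfin
  have ha1 : 1 ≤ a := by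
    rw [← ha] at hproper
    exact Nat.one_le_iff_ne_zero.mpr (by exact_mod_cast hproper)
  have hQ : ∀ j, Qf ⊥ 𝔪 j = 𝔪 ^ j := fun j => by unfold Qf; rw [bot_sup_eq]
  have hup : ∀ j, cl (maximalIdeal R ^ (j + 1)) ≤ ((e * (j + 1) + Λ * c : ℕ) : ℕ∞) := by
    intro j
    have h1 := cl_Qf_le X ⊥ 𝔪 1 0 0 j K c e Λ rfl (fun i h1 h2 => by omega)
      (fun i _ => by
        rw [hQ, pow_one]
        exact hK (Ideal.pow_mem_pow (hX i) K))
      (P X 0) (by rw [P_zero]; exact bot_le) he hΛ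
    rw [hQ, hQ, pow_one, h𝔪, ← Ideal.map_pow, cl_map, ← h𝔪, ← ha] at h1
    have hft : cl (maximalIdeal R ^ (j + 1)) ≠ ⊤ := by
      have := cl_sup_pow_ne_top (⊥ : Ideal R) (j + 1)
      rwa [bot_sup_eq] at this
    obtain ⟨l, hl⟩ := ENat.ne_top_iff_exists.mp hft
    rw [← hl] at h1 ⊢
    have h2 : l * a ≤ e * (a * (Nat.factorial 1 * (j + (0 + 1)).choose (0 + 1))) +
        Λ * c * (K * (j + 1)) ^ 0 := by exact_mod_cast h1
    simp only [Nat.factorial_one, zero_add, Nat.choose_one_right, one_mul, pow_zero,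
      mul_one] at h2
    have h3 : l ≤ e * (j + 1) + Λ * c := by
      refine Nat.le_of_mul_le_mul_right (h2.trans ?_) ha1
      rw [add_mul]
      refine add_le_add (le_of_eq (by ring)) ?_
      exact Nat.le_mul_of_pos_right _ ha1
    exact_mod_cast h3
  refine ⟨e, Λ * c + D, fun N => ?_, fun N => ?_⟩
  · cases N with
    | zero => simp [cl_top]
    | succ j =>
      refine (hup j).trans ?_
      rw [Nat.choose_one_right, add_zero, pow_zero, mul_one]
      have : e * (j + 1) + Λ * c ≤ e * (j + 1) + (Λ * c + D) := by omega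
      exact_mod_cast this
  · refine (hlow N).trans ?_
    gcongr
    omega

theorem core_one
    (hfib : ∃ K, maximalIdeal S ^ K ≤ (maximalIdeal R).map (algebraMap R S))
    (A : ℕ) (hA : ∀ N, cl (maximalIdeal S ^ N) ≤ ((A * (N + 1) ^ 1 : ℕ) : ℕ∞)) :
    ∃ e D : ℕ, (∀ N, cl (maximalIdeal R ^ N) ≤
      ((e * (N + 0).choose 1 + D * N ^ 0 : ℕ) : ℕ∞)) ∧
      (∀ N : ℕ, ((e * N.choose 1 : ℕ) : ℕ∞) ≤
        cl (maximalIdeal S ^ N) + ((D * N ^ 0 : ℕ) : ℕ∞)) := by
  obtain ⟨S', i1, i2, i3, i4, hflat, hloc, hmap, hinf⟩ := exists_infinite_residue S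
  let _ : Algebra R S' := ((algebraMap S S').comp (algebraMap R S)).toAlgebra
  have htower : IsScalarTower R S S' := IsScalarTower.of_algebraMap_eq fun _ => rfl
  have hflat' : Module.Flat R S' := Module.Flat.trans R S S'
  have hloc' : IsLocalHom (algebraMap R S') := by
    rw [IsScalarTower.algebraMap_eq R S S']
    infer_instance
  have hmm : (maximalIdeal R).map (algebraMap R S') =
      ((maximalIdeal R).map (algebraMap R S)).map (algebraMap S S') := by
    rw [Ideal.map_map, IsScalarTower.algebraMap_eq R S S']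
  have hcl : ∀ N, cl (maximalIdeal S' ^ N) = cl (maximalIdeal S ^ N) := by
    intro N
    rw [← hmap, ← Ideal.map_pow]
    exact cl_flat S S' hmap _
  obtain ⟨e, D, h1, h2⟩ := core_one_infinite (R := R) (S := S') (by
    obtain ⟨K, hK⟩ := hfib
    refine ⟨K, ?_⟩
    rw [← hmap, ← Ideal.map_pow, hmm]
    exact Ideal.map_mono hK) A (fun N => by rw [hcl]; exact hA N)
  refine ⟨e, D, h1, fun N => ?_⟩
  rw [← hcl]
  exact h2 N

theorem main_inequality_zero
    (hart : IsArtinianRing (S ⧸ (maximalIdeal R).map (algebraMap R S)))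
    (hd : ringKrullDim R = (0 : ℕ)) :
    ∃ eR eS : ℝ, HasMult R eR ∧ HasMult S eS ∧ 0 ≤ eS ∧ eR ≤ eS := by
  have hdS : ringKrullDim S = (0 : ℕ) := by rw [dim_eq (R := R) (S := S) hart, hd]
  have hR : cl (⊥ : Ideal R) ≠ ⊤ := by
    obtain ⟨c, hc⟩ := pow_eq_bot_of_dim_zero hd
    have := cl_sup_pow_ne_top (⊥ : Ideal R) c
    rwa [bot_sup_eq, hc c le_rfl] at this
  have hS : cl (⊥ : Ideal S) ≠ ⊤ := by
    obtain ⟨c, hc⟩ := pow_eq_bot_of_dim_zero hdS
    have := cl_sup_pow_ne_top (⊥ : Ideal S) c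
    rwa [bot_sup_eq, hc c le_rfl] at this
  obtain ⟨a, ha⟩ := ENat.ne_top_iff_exists.mp hR
  obtain ⟨b, hb⟩ := ENat.ne_top_iff_exists.mp hS
  refine ⟨a, b, hasMult_zero hd a ha, hasMult_zero hdS b hb, Nat.cast_nonneg _, ?_⟩
  have h1 := cl_map (S := S) (⊥ : Ideal R)
  rw [Ideal.map_bot, ← ha, ← hb] at h1
  have h2 : (1 : ℕ∞) ≤ cl ((maximalIdeal R).map (algebraMap R S)) := by
    rw [Order.one_le_iff_ne_zero]
    intro h0
    rw [cl_eq_zero] at h0
    exact (IsLocalRing.maximalIdeal.isMaximal S).ne_top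
      (top_le_iff.mp (h0 ▸ map_maximalIdeal_le))
  have h3 : (a : ℕ∞) ≤ b := by
    rw [h1]
    exact le_mul_of_one_le_right zero_le h2
  exact_mod_cast h3

theorem main_inequality
    (hart : IsArtinianRing (S ⧸ (maximalIdeal R).map (algebraMap R S)))
    (d : ℕ) (hd : ringKrullDim R = d) (r : ℕ) (x : Fin r → S)
    (hx : maximalIdeal S = (maximalIdeal R).map (algebraMap R S) ⊔ Ideal.span (Set.range x)) :
    ∃ eR eS : ℝ, HasMult R eR ∧ HasMult S eS ∧ 0 ≤ eS ∧
      eR ≤ ((min r d - 1).factorial : ℝ) * eS := by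
  have hfib := exists_pow_le_fibre (R := R) (S := S) hart
  have hdS : ringKrullDim S = d := by rw [dim_eq (R := R) (S := S) hart, hd]
  obtain ⟨B, hB⟩ := exists_bound (S := S) d hdS
  have hB' : ∀ N, cl (maximalIdeal S ^ N) ≤ ((B * (N + 1) ^ d : ℕ) : ℕ∞) := fun N =>
    (hB N).trans (by
      have : B * N ^ d ≤ B * (N + 1) ^ d := by gcongr; omega
      exact_mod_cast this)
  rcases Nat.lt_or_ge d 1 with h0 | h0
  · have hd0 : d = 0 := by omega
    subst hd0
    obtain ⟨a, b, ha, hb, hb0, hab⟩ := main_inequality_zero (R := R) (S := S) hart hd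
    refine ⟨a, b, ha, hb, hb0, ?_⟩
    simpa using hab
  · obtain ⟨t, rfl⟩ : ∃ t, d = t + 1 := ⟨d - 1, by omega⟩
    obtain ⟨eR, -, hmR, htR⟩ := hasMult_succ (A := R) t hd
    obtain ⟨eS, heS0, hmS, htS⟩ := hasMult_succ (A := S) t hdS
    refine ⟨eR, eS, hmR, hmS, heS0, ?_⟩
    rcases Nat.eq_zero_or_pos t with ht | ht
    · subst ht
      obtain ⟨e, D, h1, h2⟩ := core_one (R := R) (S := S) hfib B hB'
      have h3 := limit_le (len R) eR e D 0 htR (fun N => by
        have := h1 N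
        rw [← coe_len] at this
        exact_mod_cast this)
      have h4 := le_limit (len S) eS e D 0 htS (fun N => by
        have := h2 N
        rw [← coe_len] at this
        exact_mod_cast this)
      have h5 : min r (0 + 1) - 1 = 0 := by omega
      rw [h5, Nat.factorial_zero, Nat.cast_one, one_mul]
      exact h3.trans h4
    · obtain ⟨δ, rfl⟩ : ∃ δ, t = δ + 1 := ⟨t - 1, by omega⟩
      have hcore : ∃ e D : ℕ, (∀ N, cl (maximalIdeal R ^ N) ≤
          ((e * ((min r (δ + 2) - 1).factorial * (N + (δ + 1)).choose (δ + 2)) +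
            D * N ^ (δ + 1) : ℕ) : ℕ∞)) ∧
          (∀ N : ℕ, ((e * N.choose (δ + 2) : ℕ) : ℕ∞) ≤
            cl (maximalIdeal S ^ N) + ((D * N ^ (δ + 1) : ℕ) : ℕ∞)) := by
        rcases Nat.eq_zero_or_pos r with hr | hr
        · subst hr
          have h1 := core (R := R) (S := S) hfib δ B hB' 1 le_rfl (fun _ => 0)
            (fun _ => Ideal.zero_mem _) (by
              rw [hx]
              refine sup_le le_sup_left ?_
              rw [Ideal.span_le]
              rintro _ ⟨i, rfl⟩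
              exact i.elim0)
          have h2 : min 1 (δ + 2) - 1 = min 0 (δ + 2) - 1 := by omega
          rw [h2] at h1
          exact h1
        · refine core (R := R) (S := S) hfib δ B hB' r hr x (fun j => ?_) (le_of_eq hx)
          rw [hx]
          exact Ideal.mem_sup_right (Ideal.subset_span ⟨j, rfl⟩)
      obtain ⟨e, D, h1, h2⟩ := hcore
      have h3 := limit_le (len R) eR (e * (min r (δ + 2) - 1).factorial) D (δ + 1) htR
        (fun N => by
          have := h1 N
          rw [← coe_len] at this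
          have h5 : len R N ≤ e * ((min r (δ + 2) - 1).factorial *
              (N + (δ + 1)).choose (δ + 2)) + D * N ^ (δ + 1) := by exact_mod_cast this
          rw [mul_assoc]
          exact h5)
      have h4 := le_limit (len S) eS e D (δ + 1) htS (fun N => by
        have := h2 N
        rw [← coe_len] at this
        exact_mod_cast this)
      refine h3.trans ?_
      push_cast
      rw [mul_comm]
      gcongr

end

end Vale.Agent.P202
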