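import Vale.Agent.P202.Gauss

namespace Vale.Agent.P202

open Finset Matrix IsLocalRing

section Small

variable {R : Type*} [CommRing R]

theorem det_mem_pow {n : Type*} [Fintype n] [DecidableEq n] (M : Matrix n n R) (I : Ideal R)
    (s : Finset n) (h : ∀ i ∈ s, ∀ j, M i j ∈ I) : M.det ∈ I ^ #s := by
  rw [← Matrix.det_transpose, Matrix.det_apply']
  refine Ideal.sum_mem _ fun σ _ => Ideal.mul_mem_left _ _ ?_
  simp only [Matrix.transpose_apply]
  rw [← Finset.prod_mul_prod_compl s]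
  refine Ideal.mul_mem_right _ _ ?_
  have h1 : ∏ i ∈ s, M i (σ i) ∈ ∏ _i ∈ s, I := Ideal.prod_mem_prod fun i hi => h i hi (σ i)
  rwa [Finset.prod_const] at h1

theorem pow_le_of_prod {J K : Ideal R} (i : ℕ) (h : ∀ y : Fin i → R, (∀ r, y r ∈ J) →
    ∏ r, y r ∈ K) : J ^ i ≤ K := by
  rw [Submodule.pow_eq_span_pow_set, Submodule.span_le]
  intro z hz
  obtain ⟨f, hf⟩ := Set.mem_pow.mp hz
  rw [List.prod_ofFn] at hf
  rw [← hf]
  exact h _ fun r => (f r).2

variable [IsLocalRing R]

theorem det_unit {n : Type*} [Fintype n] [DecidableEq n] (M : Matrix n n R)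
    (h : ∀ i j, M i j - (if i = j then 1 else 0) ∈ maximalIdeal R) : IsUnit M.det := by
  rw [← IsLocalRing.residue_ne_zero_iff_isUnit, RingHom.map_det, RingHom.mapMatrix_apply]
  have h1 : M.map (residue R) = 1 := by
    ext i j
    have h2 := (residue_eq_zero_iff _).mpr (h i j)
    rw [map_sub, sub_eq_zero] at h2
    rw [Matrix.map_apply, h2, Matrix.one_apply]
    split_ifs <;> simp
  rw [h1, det_one]
  exact one_ne_zero

end Small

section Mat

variable {R : Type*} [CommRing R] [IsLocalRing R] {ι : Type*} [Fintype ι] [DecidableEq ι] {a : ℕ}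

omit [DecidableEq ι] in
theorem JI_eq_top {Φ : Matrix (Fin a) ι R} {Q : Matrix ι (Fin a) R} {r : ℕ} (hr : r ≤ a)
    (h : ∀ i j : Fin a, j.1 < r → (Φ * Q) i j - (if i = j then 1 else 0) ∈ maximalIdeal R)
    (i : ℕ) (hi : i ≤ r) : JI Φ i = ⊤ := by
  refine Ideal.eq_top_of_isUnit_mem _ (Ideal.subset_span
    ⟨hi.trans hr, Q.submatrix id (Fin.castLE (hi.trans hr)), rfl⟩) ?_
  refine det_unit _ fun p q => ?_
  have h1 := h (Fin.castLE (hi.trans hr) p) (Fin.castLE (hi.trans hr) q) (by
    have := q.2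
    show q.1 < r
    omega)
  have h2 : (Fin.castLE (hi.trans hr) p = Fin.castLE (hi.trans hr) q) ↔ p = q := by
    rw [Fin.ext_iff, Fin.ext_iff]; rfl
  simp only [h2] at h1
  exact h1

omit [DecidableEq ι] in
theorem KI_eq_top {Φ : Matrix (Fin a) ι R} {Q : Matrix ι (Fin a) R} {r : ℕ} (hr : r ≤ a)
    (h : ∀ i j : Fin a, j.1 < r → (Φ * Q) i j - (if i = j then 1 else 0) ∈ maximalIdeal R)
    (i : ℕ) (hi : a - r ≤ i) (hia : i ≤ a) : KI (Φᵀ.submatrix id Fin.rev) i = ⊤ := by
  have hk : i + (a - i) = a := by omega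
  refine Ideal.eq_top_of_isUnit_mem _ (Ideal.subset_span
    ⟨a - i, hk, Matrix.of fun (p : Fin (a - i)) c => Q c (Fin.rev ⟨i + p.1, by omega⟩), rfl⟩) ?_
  refine det_unit _ fun p q => ?_
  have h1 := h (Fin.rev ⟨i + q.1, by omega⟩) (Fin.rev ⟨i + p.1, by omega⟩) (by
    have := p.2
    rw [Fin.val_rev]
    show a - (i + p.1 + 1) < r
    omega)
  have h2 : ((Fin.rev ⟨i + q.1, by omega⟩ : Fin a) = Fin.rev ⟨i + p.1, by omega⟩) ↔ p = q := by
    rw [Fin.rev_inj, Fin.ext_iff, Fin.ext_iff]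
    show i + q.1 = i + p.1 ↔ p.1 = q.1
    omega
  simp only [h2] at h1
  have h3 : (Matrix.of (fun (p : Fin (a - i)) c => Q c (Fin.rev ⟨i + p.1, by omega⟩)) *
      (Φᵀ.submatrix id Fin.rev).submatrix id (fun c : Fin (a - i) =>
        (⟨i + c.1, by omega⟩ : Fin a))) p q =
      (Φ * Q) (Fin.rev ⟨i + q.1, by omega⟩) (Fin.rev ⟨i + p.1, by omega⟩) := by
    rw [Matrix.mul_apply, Matrix.mul_apply]
    refine sum_congr rfl fun c _ => ?_
    simp only [Matrix.of_apply, Matrix.submatrix_apply, Matrix.transpose_apply, id]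
    ring
  rw [h3]
  exact h1

omit [DecidableEq ι] in
theorem JI_le_pow {Φ : Matrix (Fin a) ι R} {r : ℕ}
    (h : ∀ i : Fin a, r ≤ i.1 → ∀ c, Φ i c ∈ maximalIdeal R) :
    JI Φ a ≤ maximalIdeal R ^ (a - r) := by
  refine JI_top_le fun Q => ?_
  have h1 := det_mem_pow (Φ * Q) (maximalIdeal R) (Finset.univ.filter fun i : Fin a => r ≤ i.1)
    (fun i hi j => by
      rw [Matrix.mul_apply]
      exact Ideal.sum_mem _ fun c _ =>
        Ideal.mul_mem_right _ _ (h i (Finset.mem_filter.mp hi).2 c))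
  have h2 : #(Finset.univ.filter fun i : Fin a => r ≤ i.1) = a - r := by
    rw [Finset.card_filter, Fin.sum_univ_eq_sum_range (fun i => if r ≤ i then 1 else 0) a,
      ← Finset.card_filter]
    have h3 : (range a).filter (fun i => r ≤ i) = Finset.Ico r a := by
      ext i
      simp only [mem_filter, mem_range, mem_Ico]
      omega
    rw [h3, Nat.card_Ico]
  rwa [h2] at h1

omit [IsLocalRing R] [DecidableEq ι] in
theorem JI_mul_left {Φ : Matrix (Fin a) ι R} {P : Matrix (Fin a) (Fin a) R} :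
    JI (P * Φ) a ≤ JI Φ a := by
  refine JI_top_le fun Q => ?_
  rw [Matrix.mul_assoc, det_mul]
  exact Ideal.mul_mem_left _ _ (mem_JI_top Q)

omit [IsLocalRing R] [DecidableEq ι] in
theorem JI_mul_left_eq {Φ : Matrix (Fin a) ι R} {P P' : Matrix (Fin a) (Fin a) R}
    (h : P' * P = 1) : JI (P * Φ) a = JI Φ a := by
  apply le_antisymm JI_mul_left
  have h1 := JI_mul_left (Φ := P * Φ) (P := P')
  rwa [← Matrix.mul_assoc, h, Matrix.one_mul] at h1

omit [IsLocalRing R] [DecidableEq ι] in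
theorem KI_zero_eq (Φ : Matrix (Fin a) ι R) : KI (Φᵀ.submatrix id Fin.rev) 0 = JI Φ a := by
  apply le_antisymm
  · unfold KI
    rw [Ideal.span_le]
    rintro _ ⟨k, h, Q, rfl⟩
    obtain rfl : k = a := by omega
    have h1 : (Q * ((Φᵀ.submatrix id Fin.rev).submatrix id (fun c : Fin k =>
        (⟨0 + c.1, by omega⟩ : Fin k)))).det = ((Φ * Qᵀ).submatrix Fin.revPerm id).det := by
      rw [← det_transpose]
      congr 1
      ext p q
      rw [Matrix.transpose_apply, Matrix.submatrix_apply, Matrix.mul_apply, Matrix.mul_apply]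
      refine sum_congr rfl fun c _ => ?_
      simp only [Matrix.submatrix_apply, Matrix.transpose_apply, id, Fin.revPerm_apply]
      rw [mul_comm]
      congr 3
      apply Fin.ext
      show 0 + p.1 = p.1
      omega
    rw [h1, det_permute]
    exact Ideal.mul_mem_left _ _ (mem_JI_top _)
  · refine JI_top_le fun Q => ?_
    have h1 : (Φ * Q).det = Equiv.Perm.sign (Fin.revPerm (n := a)) *
        (Qᵀ * ((Φᵀ.submatrix id Fin.rev).submatrix id (fun c : Fin a =>
        (⟨0 + c.1, by omega⟩ : Fin a)))).det := by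
      have h2 : (Φ * Q) = ((Φ * Q).submatrix Fin.revPerm id).submatrix Fin.revPerm id := by
        ext p q
        simp
      rw [h2, det_permute]
      congr 1
      rw [← det_transpose]
      congr 1
      ext p q
      rw [Matrix.transpose_apply, Matrix.submatrix_apply, Matrix.mul_apply, Matrix.mul_apply]
      refine sum_congr rfl fun c _ => ?_
      simp only [Matrix.submatrix_apply, Matrix.transpose_apply, id, Fin.revPerm_apply]
      rw [mul_comm]
      congr 3
      apply Fin.ext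
      show q.1 = 0 + q.1
      omega
    rw [h1]
    exact Ideal.mul_mem_left _ _ (Ideal.subset_span ⟨a, by omega, Qᵀ, rfl⟩)

end Mat

end Vale.Agent.P202
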