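import Vale.Agent.P202.Lower

namespace Vale.Agent.P202

open Finset IsLocalRing

theorem P_mono {S : Type*} [CommRing S] (X : ℕ → S) {i j : ℕ} (h : i ≤ j) : P X i ≤ P X j := by
  unfold P
  apply Ideal.span_mono
  rintro _ ⟨k, hk, rfl⟩
  exact ⟨k, lt_of_lt_of_le hk h, rfl⟩

theorem P_le {S : Type*} [CommRing S] (X : ℕ → S) (i : ℕ) (I : Ideal S)
    (h : ∀ j < i, X j ∈ I) : P X i ≤ I := by
  unfold P
  rw [Ideal.span_le]
  rintro _ ⟨k, hk, rfl⟩
  exact h k hk

theorem map_maximalIdeal_le {R S : Type*} [CommRing R] [IsLocalRing R]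
    [CommRing S] [IsLocalRing S] [Algebra R S] [IsLocalHom (algebraMap R S)] :
    (maximalIdeal R).map (algebraMap R S) ≤ maximalIdeal S := by
  rw [Ideal.map_le_iff_le_comap]
  intro a ha
  rw [Ideal.mem_comap, mem_maximalIdeal, mem_nonunits_iff]
  rw [mem_maximalIdeal, mem_nonunits_iff] at ha
  exact fun h => ha (isUnit_of_map_unit (algebraMap R S) a h)

theorem numeric {R S : Type*} [CommRing R] [IsLocalRing R] [IsNoetherianRing R]
    [CommRing S] [IsLocalRing S] [IsNoetherianRing S] [Algebra R S] [Module.Flat R S]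
    [IsLocalHom (algebraMap R S)]
    (hfib : ∃ K, maximalIdeal S ^ K ≤ (maximalIdeal R).map (algebraMap R S))
    (X : ℕ → S) (δ : ℕ) (hX : ∀ i, X i ∈ maximalIdeal S)
    (hs : ∀ i < δ + 2, Sup (maximalIdeal S) (P X i) (X i)) (A : ℕ)
    (hA : ∀ N, cl (maximalIdeal S ^ N) ≤ ((A * (N + 1) ^ (δ + 2) : ℕ) : ℕ∞))
    (r : ℕ) (hr : 1 ≤ r)
    (hgen : min r (δ + 2) = r →
      maximalIdeal S ≤ (maximalIdeal R).map (algebraMap R S) ⊔ P X r) :
    ∃ e D : ℕ, (∀ N, cl (maximalIdeal R ^ N) ≤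
      ((e * ((min r (δ + 2) - 1).factorial * (N + (δ + 1)).choose (δ + 2)) +
        D * N ^ (δ + 1) : ℕ) : ℕ∞)) ∧
      (∀ N : ℕ, ((e * N.choose (δ + 2) : ℕ) : ℕ∞) ≤
        cl (maximalIdeal S ^ N) + ((D * N ^ (δ + 1) : ℕ) : ℕ∞)) := by
  obtain ⟨-, e, c, Λ, D, he, hΛ, hlow⟩ := sside X (δ + 1) hs A hA
  obtain ⟨K, hK⟩ := hfib
  set 𝔪 := (maximalIdeal R).map (algebraMap R S) with h𝔪
  have h𝔪n : 𝔪 ≤ maximalIdeal S := map_maximalIdeal_le
  have hfin : cl 𝔪 ≠ ⊤ := by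
    have := cl_sup_pow_ne_top (⊥ : Ideal S) K
    rw [bot_sup_eq] at this
    exact ne_top_of_le_ne_top this (cl_anti hK)
  have hQn : Qf (Ideal.span {X 0}) 𝔪 1 ≤ maximalIdeal S := by
    unfold Qf
    rw [pow_one]
    exact sup_le ((Ideal.span_singleton_le_iff_mem _).mpr (hX 0)) h𝔪n
  have hproper : Qf (Ideal.span {X 0}) 𝔪 1 ≠ ⊤ := fun h =>
    (IsLocalRing.maximalIdeal.isMaximal S).ne_top (top_le_iff.mp (h ▸ hQn))
  obtain ⟨k, hk⟩ : ∃ k, (min r (δ + 2) - 1) + k = δ + 1 :=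
    ⟨δ + 1 - (min r (δ + 2) - 1), by omega⟩
  have hmemC : ∀ i, min r (δ + 2) - 1 ≤ i → i < (min r (δ + 2) - 1) + k →
      X (i + 1) ∈ C (fun i => X (i + 1)) i (Qf (Ideal.span {X 0}) 𝔪 1) 0 := by
    intro i hi1 hi2
    have hrr : min r (δ + 2) = r := by omega
    have hle : maximalIdeal S ≤ C (fun i => X (i + 1)) i (Qf (Ideal.span {X 0}) 𝔪 1) 0 := by
      refine (hgen hrr).trans (sup_le ?_ ?_)
      · refine le_trans ?_ (le_C (fun i => X (i + 1)) i _ 0)
        unfold Qf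
        rw [pow_one]
        exact le_sup_right
      · refine P_le X r _ fun j hj => ?_
        cases j with
        | zero =>
          refine le_C (fun i => X (i + 1)) i _ 0 ?_
          exact Ideal.mem_sup_left (Ideal.mem_span_singleton_self _)
        | succ j =>
          exact mem_C (fun i => X (i + 1)) i _ 0 j (by omega)
    exact hle (hX (i + 1))
  have h𝔭 : P X (δ + 1) ≤ Ideal.span {X 0} ⊔
      Ideal.span ((fun i => X (i + 1)) '' {i | i < δ}) := by
    refine P_le X _ _ fun j hj => ?_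
    cases j with
    | zero => exact Ideal.mem_sup_left (Ideal.mem_span_singleton_self _)
    | succ j => exact Ideal.mem_sup_right (Ideal.subset_span ⟨j, by simp; omega, rfl⟩)
  have hpowK : ∀ i, i < δ + 1 → X (i + 1) ^ K ∈ Qf (Ideal.span {X 0}) 𝔪 1 := by
    intro i _
    unfold Qf
    rw [pow_one]
    exact Ideal.mem_sup_right (hK (Ideal.pow_mem_pow (hX (i + 1)) K))
  have hup := rside (R := R) hfin (X 0) (fun i => X (i + 1)) hproper
    (min r (δ + 2) - 1) k δ K c e Λ hk hmemC hpowK (P X (δ + 1)) h𝔭 he hΛ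
  refine ⟨e, Λ * c * K ^ δ + D, fun N => ?_, fun N => ?_⟩
  · refine (hup N).trans ?_
    have : e * ((min r (δ + 2) - 1).factorial * (N + (δ + 1)).choose (δ + 2)) +
        Λ * c * K ^ δ * N ^ (δ + 1) ≤
        e * ((min r (δ + 2) - 1).factorial * (N + (δ + 1)).choose (δ + 2)) +
        (Λ * c * K ^ δ + D) * N ^ (δ + 1) := by
      gcongr; omega
    exact_mod_cast this
  · refine (hlow N).trans ?_
    gcongr
    omega

end Vale.Agent.P202
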