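import Vale.Agent.P202.Count
import Vale.Agent.P202.FlatIneq

namespace Vale.Agent.P202

open Finset IsLocalRing

section Bound

variable {S : Type*} [CommRing S] (y : ℕ → S) (𝔮 𝔪 : Ideal S)

theorem boxSum_last (M k c : ℕ) :
    boxSum M (k + 1) (fun a => if a k < c then 1 else 0) ≤ (c : ℕ∞) * (M : ℕ∞) ^ k := by
  rw [boxSum_succ, ← boxSum_one, ← boxSum_mul]
  refine boxSum_mono _ _ fun a => ?_
  simp only [Function.update_self, mul_one]
  rw [← sum_filter, sum_const, nsmul_eq_mul, mul_one]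
  have : #({i ∈ range M | i < c}) ≤ c := by
    calc #({i ∈ range M | i < c}) ≤ #(range c) := by
          apply card_le_card
          intro i hi
          rw [mem_filter] at hi
          exact mem_range.mpr hi.2
      _ = c := card_range c
  exact_mod_cast this

theorem cl_Qf_le (s k δ j K c e Λ : ℕ) (hδ : s + k = δ + 1)
    (h : ∀ i, s ≤ i → i < s + k → y i ∈ C y i (Qf 𝔮 𝔪 1) 0)
    (hK : ∀ i, i < δ + 1 → y i ^ K ∈ Qf 𝔮 𝔪 1)
    (𝔭 : Ideal S) (h𝔭 : 𝔭 ≤ 𝔮 ⊔ Ideal.span (y '' {i | i < δ}))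
    (he : ∀ i, c ≤ i → cl (qt 𝔭 (y δ ^ i) ⊔ Ideal.span {y δ}) ≤ e)
    (hΛ : ∀ i, cl (qt 𝔭 (y δ ^ i) ⊔ Ideal.span {y δ}) ≤ Λ) :
    cl (Qf 𝔮 𝔪 (j + 1)) ≤
      e * (cl (Qf 𝔮 𝔪 1) * ((s.factorial * (j + (δ + 1)).choose (δ + 1) : ℕ) : ℕ∞)) +
        ((Λ * c * (K * (j + 1)) ^ δ : ℕ) : ℕ∞) := by
  have hmem : ∀ i < δ + 1, y i ^ (K * (j + 1)) ∈ Qf 𝔮 𝔪 (j + 1) := by
    intro i hi
    rw [pow_mul]
    exact Qf_pow 𝔮 𝔪 (j + 1) (Ideal.pow_mem_pow (hK i hi) _)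
  rw [cl_eq_boxSum y (δ + 1) _ _ hmem]
  have hterm : ∀ a, cl (C y (δ + 1) (Qf 𝔮 𝔪 (j + 1)) a) ≤
      e * ind (C y (δ + 1) (Qf 𝔮 𝔪 (j + 1)) a) + Λ * (if a δ < c then 1 else 0) := by
    intro a
    have h1 : 𝔭 ≤ C y δ (Qf 𝔮 𝔪 (j + 1)) a := by
      refine h𝔭.trans (sup_le ?_ ?_)
      · exact (le_sup_left).trans (le_C y δ _ a)
      · rw [Ideal.span_le]
        rintro _ ⟨i, hi, rfl⟩
        exact mem_C y δ _ a i hi
    have h2 : cl (C y (δ + 1) (Qf 𝔮 𝔪 (j + 1)) a) ≤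
        cl (qt 𝔭 (y δ ^ (a δ)) ⊔ Ideal.span {y δ}) := by
      rw [C_succ]
      exact cl_anti (sup_le_sup_right (qt_mono h1 _) _)
    by_cases hc : a δ < c
    · rw [if_pos hc, mul_one]
      exact (h2.trans (hΛ _)).trans le_add_self
    · rw [if_neg hc, mul_zero, add_zero]
      exact cl_le_mul_ind (h2.trans (he _ (not_lt.mp hc)))
  refine (boxSum_mono _ _ hterm).trans ?_
  rw [boxSum_add, boxSum_mul, boxSum_mul]
  have hcount := count y 𝔮 𝔪 s k j (K * (j + 1)) h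
  rw [hδ] at hcount
  refine add_le_add ?_ ?_
  · gcongr
  · refine (mul_le_mul_right (boxSum_last _ _ _) _).trans ?_
    push_cast
    rw [mul_assoc]

end Bound

theorem cl_pow_ne_top {S : Type*} [CommRing S] [IsNoetherianRing S] (I : Ideal S)
    (h : cl I ≠ ⊤) (N : ℕ) : cl (I ^ N) ≠ ⊤ := by
  induction N with
  | zero => simp [cl_top]
  | succ N ih =>
    obtain ⟨n, g, hg⟩ := Submodule.fg_iff_exists_fin_generating_family.mp
      (IsNoetherian.noetherian (I ^ N))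
    rw [pow_succ']
    have h1 := cl_mul_le g I (I ^ N) hg
    refine ne_top_of_le_ne_top ?_ h1
    obtain ⟨a, ha⟩ := ENat.ne_top_iff_exists.mp h
    obtain ⟨b, hb⟩ := ENat.ne_top_iff_exists.mp ih
    rw [← ha, ← hb]
    exact_mod_cast ENat.natCast_ne_top (n * a + b)

theorem rside {R S : Type*} [CommRing R] [IsLocalRing R] [IsNoetherianRing R]
    [CommRing S] [IsNoetherianRing S] [Algebra R S] [Module.Flat R S]
    (hfin : cl ((maximalIdeal R).map (algebraMap R S)) ≠ ⊤)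
    (x : S) (y : ℕ → S)
    (hproper : Qf (Ideal.span {x}) ((maximalIdeal R).map (algebraMap R S)) 1 ≠ ⊤)
    (s k δ K c e Λ : ℕ) (hδ : s + k = δ + 1)
    (h : ∀ i, s ≤ i → i < s + k →
      y i ∈ C y i (Qf (Ideal.span {x}) ((maximalIdeal R).map (algebraMap R S)) 1) 0)
    (hK : ∀ i, i < δ + 1 →
      y i ^ K ∈ Qf (Ideal.span {x}) ((maximalIdeal R).map (algebraMap R S)) 1)
    (𝔭 : Ideal S) (h𝔭 : 𝔭 ≤ Ideal.span {x} ⊔ Ideal.span (y '' {i | i < δ}))
    (he : ∀ i, c ≤ i → cl (qt 𝔭 (y δ ^ i) ⊔ Ideal.span {y δ}) ≤ e)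
    (hΛ : ∀ i, cl (qt 𝔭 (y δ ^ i) ⊔ Ideal.span {y δ}) ≤ Λ) (N : ℕ) :
    cl (maximalIdeal R ^ N) ≤
      ((e * (s.factorial * (N + (δ + 1)).choose (δ + 2)) +
        (Λ * c * K ^ δ) * N ^ (δ + 1) : ℕ) : ℕ∞) := by
  set 𝔪 := (maximalIdeal R).map (algebraMap R S) with h𝔪
  have hstep : ∀ j, cl (maximalIdeal R ^ (j + 1)) ≤
      ((e * (s.factorial * (j + (δ + 1)).choose (δ + 1)) +
        Λ * c * (K * (j + 1)) ^ δ : ℕ) : ℕ∞) + cl (maximalIdeal R ^ j) := by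
    intro j
    have hj : cl (((maximalIdeal R) ^ j).map (algebraMap R S)) ≠ ⊤ := by
      rw [Ideal.map_pow]
      exact cl_pow_ne_top _ hfin j
    obtain ⟨n, h1, h2⟩ := flat_ineq_pow (R := R) x j hj
    refine h1.trans ?_
    gcongr
    have h3 := cl_Qf_le y (Ideal.span {x}) 𝔪 s k δ j K c e Λ hδ h hK 𝔭 h𝔭 he hΛ
    rw [Ideal.map_pow, ← h𝔪] at h2
    have h4 : Ideal.span {x} ⊔ 𝔪 = Qf (Ideal.span {x}) 𝔪 1 := by simp [Qf]
    have h5 : Ideal.span {x} ⊔ 𝔪 ^ (j + 1) = Qf (Ideal.span {x}) 𝔪 (j + 1) := rfl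
    rw [h4, h5] at h2
    set b := cl (Qf (Ideal.span {x}) 𝔪 1) with hb
    have hb0 : b ≠ 0 := fun h0 => hproper (cl_eq_zero.mp h0)
    have hbt : b ≠ ⊤ := by
      refine ne_top_of_le_ne_top hfin (cl_anti ?_)
      rw [← h4]
      exact le_sup_right
    obtain ⟨b', hb'⟩ := ENat.ne_top_iff_exists.mp hbt
    rw [← hb'] at h2 h3 hb0
    have h6 := h2.trans h3
    have h7 : n * b' ≤ e * (b' * (s.factorial * (j + (δ + 1)).choose (δ + 1))) +
        Λ * c * (K * (j + 1)) ^ δ := by exact_mod_cast h6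
    have hb1 : 1 ≤ b' := Nat.one_le_iff_ne_zero.mpr (by exact_mod_cast hb0)
    have h8 : n ≤ e * (s.factorial * (j + (δ + 1)).choose (δ + 1)) +
        Λ * c * (K * (j + 1)) ^ δ := by
      refine Nat.le_of_mul_le_mul_right (h7.trans ?_) hb1
      rw [add_mul]
      refine add_le_add (le_of_eq (by ring)) ?_
      exact Nat.le_mul_of_pos_right _ hb1
    exact_mod_cast h8
  have hsum : ∀ N, cl (maximalIdeal R ^ N) ≤
      ((∑ j ∈ range N, (e * (s.factorial * (j + (δ + 1)).choose (δ + 1)) +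
        Λ * c * (K * (j + 1)) ^ δ) : ℕ) : ℕ∞) := by
    intro N
    induction N with
    | zero => simp [cl_top]
    | succ N ih =>
      refine (hstep N).trans ((add_le_add le_rfl ih).trans (le_of_eq ?_))
      rw [sum_range_succ, ← Nat.cast_add, add_comm]
  refine (hsum N).trans ?_
  have h1 : ∑ j ∈ range N, (e * (s.factorial * (j + (δ + 1)).choose (δ + 1)) +
        Λ * c * (K * (j + 1)) ^ δ) ≤
        e * (s.factorial * (N + (δ + 1)).choose (δ + 2)) + (Λ * c * K ^ δ) * N ^ (δ + 1) := by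
    rw [sum_add_distrib]
    refine add_le_add ?_ ?_
    · rw [← mul_sum, ← mul_sum]
      gcongr
      cases N with
      | zero => simp
      | succ n =>
        rw [Nat.sum_range_add_choose]
        exact le_of_eq (by congr 1; omega)
    · have h2 : ∀ j ∈ range N, Λ * c * (K * (j + 1)) ^ δ ≤ (Λ * c * K ^ δ) * N ^ δ := by
        intro j hj
        rw [mul_pow, ← mul_assoc]
        gcongr
        have := mem_range.mp hj
        omega
      refine (sum_le_sum h2).trans (le_of_eq ?_)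
      rw [sum_const, card_range, smul_eq_mul, pow_succ]
      ring
  exact_mod_cast h1

end Vale.Agent.P202
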