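import Vale.Agent.P202.Col
import Vale.Agent.P202.Exist

namespace Vale.Agent.P202

section Rel

variable {S M : Type*} [CommRing S] [AddCommGroup M] [Module S M]

noncomputable def rl (V U : Submodule S M) : ℕ∞ := Module.length S (U ⧸ V.submoduleOf U)

theorem rl_exact_le {A B C : Type*} [AddCommGroup A] [Module S A] [AddCommGroup B] [Module S B]
    [AddCommGroup C] [Module S C] (f : A →ₗ[S] B) (g : B →ₗ[S] C)
    (h : ∀ b, g b = 0 → ∃ a, f a = b) :
    Module.length S B ≤ Module.length S A + Module.length S C := by
  have h1 : Module.length S B = Module.length S (LinearMap.ker g) +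
      Module.length S (LinearMap.range g) := by
    refine Module.length_eq_add_of_exact (LinearMap.ker g).subtype g.rangeRestrict
      (Submodule.injective_subtype _) g.surjective_rangeRestrict ?_
    intro b
    constructor
    · intro hb
      have : g b = 0 := congrArg Subtype.val hb
      exact ⟨⟨b, this⟩, rfl⟩
    · rintro ⟨a, rfl⟩
      exact Subtype.ext a.2
  rw [h1]
  refine add_le_add ?_ ?_
  · have h2 : ∀ a, f a ∈ LinearMap.ker g ∨ True := fun _ => Or.inr trivial
    have h3 : Module.length S (LinearMap.ker g) ≤ Module.length S (LinearMap.range f) := by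
      refine Module.length_le_of_injective
        (Submodule.inclusion (show LinearMap.ker g ≤ LinearMap.range f from ?_))
        (Submodule.inclusion_injective _)
      intro b hb
      exact h b hb
    exact h3.trans (Module.length_le_of_surjective f.rangeRestrict f.surjective_rangeRestrict)
  · exact Module.length_le_of_injective (LinearMap.range g).subtype
      (Submodule.injective_subtype _)

theorem rl_add {V U W : Submodule S M} (h1 : V ≤ U) (h2 : U ≤ W) :
    rl V W = rl V U + rl U W := by
  unfold rl
  have h3 : V.submoduleOf U ≤ (V.submoduleOf W).comap (Submodule.inclusion h2) := by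
    intro u hu
    exact hu
  have h4 : V.submoduleOf W ≤ U.submoduleOf W := by
    intro w hw
    exact h1 hw
  refine Module.length_eq_add_of_exact
    (Submodule.mapQ (V.submoduleOf U) (V.submoduleOf W) (Submodule.inclusion h2) h3)
    (Submodule.factor h4) ?_ (Submodule.factor_surjective h4) ?_
  · rw [← LinearMap.ker_eq_bot, Submodule.ker_mapQ]
    exact Submodule.mkQ_map_self _
  · intro z
    obtain ⟨z, rfl⟩ := Submodule.Quotient.mk_surjective _ z
    have hfac : (Submodule.factor h4) (Submodule.Quotient.mk z) = 0 ↔ z ∈ U.submoduleOf W := by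
      unfold Submodule.factor
      rw [Submodule.mapQ_apply]
      exact Submodule.Quotient.mk_eq_zero _
    rw [hfac]
    constructor
    · intro hz
      refine ⟨Submodule.Quotient.mk ⟨z.1, hz⟩, ?_⟩
      rw [Submodule.mapQ_apply]
      rfl
    · rintro ⟨u, hu⟩
      obtain ⟨u, rfl⟩ := Submodule.Quotient.mk_surjective _ u
      rw [Submodule.mapQ_apply, Submodule.Quotient.eq] at hu
      have h5 : (z : M) = u.1 - (u.1 - z.1) := by abel
      show (z : M) ∈ U
      rw [h5]
      exact Submodule.sub_mem _ u.2 (h1 hu)

theorem rl_sup (I J : Submodule S M) : rl I (J ⊔ I) = rl (J ⊓ I) J :=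
  (LinearMap.quotientInfEquivSupQuotient J I).symm.length_eq

theorem rl_anti {V V' U : Submodule S M} (h : V ≤ V') : rl V' U ≤ rl V U := by
  unfold rl
  have h4 : V.submoduleOf U ≤ V'.submoduleOf U := by
    intro w hw
    exact h hw
  exact Module.length_le_of_surjective (Submodule.factor h4) (Submodule.factor_surjective h4)

theorem rl_top (V : Submodule S M) : rl V ⊤ = Module.length S (M ⧸ V) := by
  unfold rl
  have h1 : V.submoduleOf ⊤ ≤ V.comap (⊤ : Submodule S M).subtype := fun _ h => h
  refine (LinearEquiv.ofBijective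
    (Submodule.mapQ (V.submoduleOf ⊤) V (⊤ : Submodule S M).subtype h1) ⟨?_, ?_⟩).length_eq
  · rw [← LinearMap.ker_eq_bot, Submodule.ker_mapQ]
    exact Submodule.mkQ_map_self _
  · intro z
    obtain ⟨z, rfl⟩ := Submodule.Quotient.mk_surjective _ z
    exact ⟨Submodule.Quotient.mk ⟨z, trivial⟩, rfl⟩

end Rel

section RelIdeal

variable {S : Type*} [CommRing S]

theorem cl_eq_rl_add {V U : Ideal S} (h : V ≤ U) : cl V = rl V U + cl U := by
  unfold cl
  rw [← rl_top, ← rl_top]
  exact rl_add h le_top

theorem cl_modular (I J : Ideal S) : cl I + cl J = cl (I ⊓ J) + cl (I ⊔ J) := by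
  have h1 : cl I = rl I (J ⊔ I) + cl (J ⊔ I) := cl_eq_rl_add le_sup_right
  have h2 : cl (J ⊓ I) = rl (J ⊓ I) J + cl J := cl_eq_rl_add inf_le_left
  rw [inf_comm, sup_comm, h2, h1, rl_sup]
  ring

end RelIdeal

end Vale.Agent.P202
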