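import Vale.Agent.P202.RSide

namespace Vale.Agent.P202

open Finset IsLocalRing

section SSide

variable {S : Type*} [CommRing S]

theorem cl_inf_le (J K : Ideal S) : cl (J ⊓ K) ≤ cl J + cl K := by
  unfold cl
  have h1 : Module.length S ((S ⧸ J) × (S ⧸ K)) =
      Module.length S (S ⧸ J) + Module.length S (S ⧸ K) := Module.length_prod _ _ _
  rw [← h1]
  refine Module.length_le_of_injective
    ((J ⊓ K).liftQ ((Submodule.mkQ J).prod (Submodule.mkQ K)) ?_) ?_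
  · rw [LinearMap.ker_prod, Submodule.ker_mkQ, Submodule.ker_mkQ]
  · rw [← LinearMap.ker_eq_bot]
    apply Submodule.ker_liftQ_eq_bot
    rw [LinearMap.ker_prod, Submodule.ker_mkQ, Submodule.ker_mkQ]

theorem eq_of_cl_le {I J : Ideal S} (h : I ≤ J) (hc : cl I ≤ cl J) (hI : cl I ≠ ⊤) : I = J := by
  by_contra hne
  obtain ⟨y, hyJ, hyI⟩ := SetLike.exists_of_lt (lt_of_le_of_ne h hne)
  have h1 := cl_qt I y
  have h2 : cl (qt I y) ≠ 0 := by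
    intro h0
    rw [cl_eq_zero, Ideal.eq_top_iff_one, mem_qt, mul_one] at h0
    exact hyI h0
  have h3 : cl J ≤ cl (I ⊔ Ideal.span {y}) :=
    cl_anti (sup_le h ((Ideal.span_singleton_le_iff_mem _).mpr hyJ))
  have h4 : 1 + cl I ≤ 0 + cl I := by
    rw [zero_add]
    conv_rhs => rw [h1]
    exact add_le_add (Order.one_le_iff_ne_zero.mpr h2) (hc.trans h3)
  have h5 := (ENat.add_le_add_iff_right hI).mp h4
  simp at h5

def Sup (n 𝔭 : Ideal S) (x : S) : Prop :=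
  ∃ c : ℕ, ∀ N, c ≤ N → ∀ w ∈ n ^ c, x * w ∈ 𝔭 ⊔ n ^ (N + 1) → w ∈ 𝔭 ⊔ n ^ N

theorem sup_ineq (n 𝔭 : Ideal S) (x : S) (hs : Sup n 𝔭 x) :
    ∃ c, ∀ N, cl ((𝔭 ⊔ Ideal.span {x}) ⊔ n ^ (N + 1)) + cl (𝔭 ⊔ n ^ N) ≤
      cl (𝔭 ⊔ n ^ (N + 1)) + cl (n ^ c) := by
  obtain ⟨c, hc⟩ := hs
  refine ⟨c, fun N => ?_⟩
  have h1 := cl_qt (𝔭 ⊔ n ^ (N + 1)) x
  have h2 : 𝔭 ⊔ n ^ (N + 1) ⊔ Ideal.span {x} = (𝔭 ⊔ Ideal.span {x}) ⊔ n ^ (N + 1) := by
    rw [sup_right_comm]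
  have h3 : cl (𝔭 ⊔ n ^ N) ≤ cl (qt (𝔭 ⊔ n ^ (N + 1)) x) + cl (n ^ c) := by
    by_cases hN : c ≤ N
    · refine (cl_anti ?_).trans (cl_inf_le _ _)
      intro w hw
      exact hc N hN w hw.2 hw.1
    · refine (cl_anti ?_).trans le_add_self
      exact (Ideal.pow_le_pow_right (le_of_lt (not_le.mp hN))).trans le_sup_right
  rw [h1, h2]
  calc _ ≤ cl ((𝔭 ⊔ Ideal.span {x}) ⊔ n ^ (N + 1)) +
        (cl (qt (𝔭 ⊔ n ^ (N + 1)) x) + cl (n ^ c)) := by gcongr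
    _ = _ := by ring

theorem artin_rees [IsNoetherianRing S] (n I : Ideal S) :
    ∃ k, ∀ N, k ≤ N → n ^ N ⊓ I ≤ n ^ (N - k) * I := by
  obtain ⟨k, hk⟩ := Ideal.exists_pow_inf_eq_pow_smul (M := S) n I
  refine ⟨k, fun N hN => ?_⟩
  have h1 : n ^ N ⊓ I = n ^ N • (⊤ : Submodule S S) ⊓ I := by
    rw [smul_eq_mul, Ideal.mul_top]
  rw [h1, hk N hN, smul_eq_mul]
  exact Ideal.mul_mono_right inf_le_right

theorem reduction [IsNoetherianRing S] (n 𝔭 : Ideal S) (x : S) (hs : Sup n 𝔭 x)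
    (hfin : ∃ c, n ^ c ≤ 𝔭 ⊔ Ideal.span {x}) :
    ∃ c, ∀ a, n ^ (c + a) ≤ 𝔭 ⊔ Ideal.span {x ^ a} := by
  obtain ⟨c, hc⟩ := hs
  obtain ⟨c', hc'⟩ := hfin
  obtain ⟨k, hk⟩ := artin_rees n (𝔭 ⊔ Ideal.span {x})
  have key : ∀ N, c' + k + c ≤ N → n ^ (N + 1) ≤ 𝔭 ⊔ Ideal.span {x} * n ^ N := by
    intro N hN z hz
    have hle1 : n ^ (N + 1) ≤ n ^ c' := Ideal.pow_le_pow_right (by omega)
    have hle2 : n ^ (N + 1 - k) ≤ n ^ c := Ideal.pow_le_pow_right (by omega)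
    have h2 : z ∈ n ^ (N + 1 - k) * (𝔭 ⊔ Ideal.span {x}) :=
      hk (N + 1) (by omega) ⟨hz, hc' (hle1 hz)⟩
    rw [Ideal.mul_sup] at h2
    obtain ⟨p, hp, q, hq, rfl⟩ := Submodule.mem_sup.mp h2
    obtain ⟨w, hw, rfl⟩ := Ideal.mem_mul_span_singleton.mp hq
    have hp' : p ∈ 𝔭 := Ideal.mul_le_right hp
    refine Submodule.add_mem _ (Ideal.mem_sup_left hp') ?_
    have h3 : w ∈ 𝔭 ⊔ n ^ N := by
      refine hc N (by omega) w (hle2 hw) ?_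
      have h4 : x * w = (p + w * x) - p := by ring
      rw [h4]
      exact Ideal.sub_mem _ (Ideal.mem_sup_right hz) (Ideal.mem_sup_left hp')
    obtain ⟨p', hp1, w', hw', rfl⟩ := Submodule.mem_sup.mp h3
    rw [add_mul]
    refine Submodule.add_mem_sup (Ideal.mul_mem_right _ _ hp1) ?_
    rw [mul_comm w']
    exact Ideal.mul_mem_mul (Ideal.mem_span_singleton_self x) hw'
  have key2 : ∀ a, n ^ ((c' + k + c) + a) ≤ 𝔭 ⊔ Ideal.span {x ^ a} * n ^ (c' + k + c) := by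
    intro a
    induction a with
    | zero => simp
    | succ a ih =>
      have h1 := key (c' + k + c + a) (by omega)
      refine h1.trans (sup_le le_sup_left ?_)
      refine (Ideal.mul_mono_right ih).trans ?_
      rw [Ideal.mul_sup, ← mul_assoc, Ideal.span_singleton_mul_span_singleton, ← pow_succ']
      exact sup_le_sup_right Ideal.mul_le_right _
  refine ⟨c' + k + c, fun a => (key2 a).trans (sup_le_sup_left Ideal.mul_le_left _)⟩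

end SSide

end Vale.Agent.P202
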