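import Vale.Agent.P202.Superf

namespace Vale.Agent.P202

open Finset IsLocalRing

section Seq

variable {S : Type*} [CommRing S]

theorem P_congr {X X' : ℕ → S} {i : ℕ} (h : ∀ j < i, X j = X' j) : P X i = P X' i := by
  unfold P
  congr 1
  ext z
  constructor
  · rintro ⟨j, hj, rfl⟩
    exact ⟨j, hj, (h j hj).symm⟩
  · rintro ⟨j, hj, rfl⟩
    exact ⟨j, hj, h j hj⟩

variable [IsLocalRing S] [IsNoetherianRing S]

theorem exists_seq [Infinite (ResidueField S)] (𝔪 : Ideal S) (m : ℕ) :
    ∃ X : ℕ → S, (∀ i, X i ∈ maximalIdeal S) ∧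
      (∀ i < m, Sup (maximalIdeal S) (P X i) (X i)) ∧
      ∀ i < m, maximalIdeal S ≤ 𝔪 ⊔ P X i ⊔ maximalIdeal S ^ 2 ∨
        X i ∉ 𝔪 ⊔ P X i ⊔ maximalIdeal S ^ 2 := by
  classical
  induction m with
  | zero => exact ⟨fun _ => 0, fun _ => Ideal.zero_mem _, fun i hi => by omega, fun i hi => by omega⟩
  | succ m ih =>
    obtain ⟨X, hX, hs, hc⟩ := ih
    obtain ⟨x, hxn, hxV, hxs⟩ := exists_sup (P X m)
      (({𝔪 ⊔ P X m ⊔ maximalIdeal S ^ 2} : Finset (Ideal S)).filter
        (fun V => ¬ maximalIdeal S ≤ V)) (fun V hV => (mem_filter.mp hV).2)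
    have hne : ∀ j, j < m → X j = Function.update X m x j := fun j hj => by
      rw [Function.update_of_ne (by omega)]
    have hP : ∀ i, i ≤ m → P (Function.update X m x) i = P X i := fun i hi =>
      P_congr fun j hj => (hne j (by omega)).symm
    refine ⟨Function.update X m x, ?_, ?_, ?_⟩
    · intro i
      by_cases h : i = m
      · subst h; rw [Function.update_self]; exact hxn
      · rw [Function.update_of_ne h]; exact hX i
    · intro i hi
      rw [hP i (by omega)]
      by_cases h : i = m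
      · subst h; rw [Function.update_self]; exact hxs
      · rw [Function.update_of_ne h]; exact hs i (by omega)
    · intro i hi
      rw [hP i (by omega)]
      by_cases h : i = m
      · subst h
        rw [Function.update_self]
        by_cases h2 : maximalIdeal S ≤ 𝔪 ⊔ P X i ⊔ maximalIdeal S ^ 2
        · exact Or.inl h2
        · right
          exact hxV _ (mem_filter.mpr ⟨mem_singleton_self _, h2⟩)
      · rw [Function.update_of_ne h]; exact hc i (by omega)

theorem gens_of_seq (𝔪 : Ideal S) (X : ℕ → S) (m : ℕ) (hX : ∀ i, X i ∈ maximalIdeal S)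
    (hc : ∀ i < m, maximalIdeal S ≤ 𝔪 ⊔ P X i ⊔ maximalIdeal S ^ 2 ∨
        X i ∉ 𝔪 ⊔ P X i ⊔ maximalIdeal S ^ 2)
    (r : ℕ) (g : Fin r → S) (hgn : ∀ j, g j ∈ maximalIdeal S)
    (hg : maximalIdeal S ≤ 𝔪 ⊔ Ideal.span (Set.range g)) (hr : r ≤ m) :
    maximalIdeal S ≤ 𝔪 ⊔ P X r := by
  have claim : ∀ i k, i + k = r → ∃ g' : Fin k → S, (∀ j, g' j ∈ maximalIdeal S) ∧
      maximalIdeal S ≤ 𝔪 ⊔ P X i ⊔ Ideal.span (Set.range g') := by
    intro i
    induction i with
    | zero =>
      intro k hk
      rw [zero_add] at hk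
      subst hk
      refine ⟨g, hgn, ?_⟩
      rw [P_zero, sup_bot_eq]
      exact hg
    | succ i ih =>
      intro k hk
      obtain ⟨g', hg'n, hg'⟩ := ih (k + 1) (by omega)
      rcases hc i (by omega) with h | h
      · refine ⟨fun _ => 0, fun _ => Ideal.zero_mem _, ?_⟩
        have h1 : maximalIdeal S ≤ 𝔪 ⊔ P X i := by
          refine Submodule.le_of_le_smul_of_le_jacobson_bot (I := maximalIdeal S)
            (IsNoetherian.noetherian _) (IsLocalRing.maximalIdeal_le_jacobson _) ?_
          rw [smul_eq_mul, ← sq]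
          exact h
        exact (h1.trans (sup_le_sup_left (P_mono X (Nat.le_succ i)) _)).trans le_sup_left
      · obtain ⟨a, ha, b, hb, hab⟩ := Submodule.mem_sup.mp (hg' (hX i))
        obtain ⟨c, hcb⟩ := (Submodule.mem_span_range_iff_exists_fun S).mp hb
        have hunit : ∃ j, c j ∉ maximalIdeal S := by
          by_contra hcon
          push Not at hcon
          apply h
          rw [← hab]
          refine Submodule.add_mem_sup ha ?_
          rw [← hcb]
          refine Ideal.sum_mem _ fun j _ => ?_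
          rw [smul_eq_mul, sq]
          exact Ideal.mul_mem_mul (hcon j) (hg'n j)
        obtain ⟨j0, hj0⟩ := hunit
        have hu : IsUnit (c j0) := by
          by_contra h1
          exact hj0 ((mem_maximalIdeal _).mpr h1)
        obtain ⟨u, hu⟩ := hu
        refine ⟨g' ∘ j0.succAbove, fun j => hg'n _, hg'.trans ?_⟩
        have hsub : ∀ l, g' (j0.succAbove l) ∈
            𝔪 ⊔ P X (i + 1) ⊔ Ideal.span (Set.range (g' ∘ j0.succAbove)) :=
          fun l => Ideal.mem_sup_right (Ideal.subset_span ⟨l, rfl⟩)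
        have hle1 : 𝔪 ⊔ P X i ≤
            𝔪 ⊔ P X (i + 1) ⊔ Ideal.span (Set.range (g' ∘ j0.succAbove)) :=
          (sup_le_sup_left (P_mono X (Nat.le_succ i)) _).trans le_sup_left
        have hXi : X i ∈ 𝔪 ⊔ P X (i + 1) ⊔ Ideal.span (Set.range (g' ∘ j0.succAbove)) := by
          refine Ideal.mem_sup_left (Ideal.mem_sup_right ?_)
          rw [P_succ]
          exact Ideal.mem_sup_right (Ideal.mem_span_singleton_self _)
        refine sup_le hle1 ?_
        rw [Ideal.span_le]
        rintro _ ⟨j, rfl⟩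
        rcases Fin.eq_self_or_eq_succAbove j0 j with h1 | ⟨l, rfl⟩
        · rw [h1]
          rw [Fin.sum_univ_succAbove _ j0] at hcb
          simp only [smul_eq_mul] at hcb
          have h2 : g' j0 = (↑u⁻¹ : S) * (X i - a -
              ∑ l, c (j0.succAbove l) * g' (j0.succAbove l)) := by
            have h3 : X i - a - ∑ l, c (j0.succAbove l) * g' (j0.succAbove l) =
                c j0 * g' j0 := by
              rw [← hab, ← hcb]; ring
            rw [h3, ← hu, ← mul_assoc, Units.inv_mul, one_mul]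
          show g' j0 ∈ 𝔪 ⊔ P X (i + 1) ⊔ Ideal.span (Set.range (g' ∘ j0.succAbove))
          rw [h2]
          refine Ideal.mul_mem_left _ _ (Ideal.sub_mem _ (Ideal.sub_mem _ hXi (hle1 ha)) ?_)
          exact Ideal.sum_mem _ fun l _ => Ideal.mul_mem_left _ _ (hsub l)
        · exact hsub l
  obtain ⟨g', -, hg'⟩ := claim r 0 (by omega)
  refine hg'.trans (sup_le le_rfl ?_)
  rw [Ideal.span_le]
  rintro _ ⟨j, rfl⟩
  exact j.elim0

end Seq

end Vale.Agent.P202
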