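import Vale.Agent.P202.Seq

namespace Vale.Agent.P202

open Finset IsLocalRing Polynomial

section Rees2

variable {S : Type*} [CommRing S] (n : Ideal S)

noncomputable def JE (E 𝔭 : Ideal S) : Ideal (reesAlgebra n) where
  carrier := {f | ∀ i, (f : S[X]).coeff i ∈ n ^ i * E ⊔ 𝔭}
  add_mem' := by
    intro f g hf hg i
    have : ((f + g : reesAlgebra n) : S[X]).coeff i = (f : S[X]).coeff i + (g : S[X]).coeff i := by
      simp
    rw [this]
    exact Ideal.add_mem _ (hf i) (hg i)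
  zero_mem' := by
    intro i
    simp
  smul_mem' := by
    intro c f hf i
    have : ((c • f : reesAlgebra n) : S[X]).coeff i = ((c : S[X]) * (f : S[X])).coeff i := rfl
    rw [this, coeff_mul]
    refine Ideal.sum_mem _ fun x hx => ?_
    have hc := (mem_reesAlgebra_iff n _).mp c.2 x.1
    obtain ⟨u, hu, v, hv, huv⟩ := Submodule.mem_sup.mp (hf x.2)
    rw [← huv, mul_add]
    refine Submodule.add_mem_sup ?_ (Ideal.mul_mem_left _ _ hv)
    have h1 : i = x.1 + x.2 := (mem_antidiagonal.mp hx).symm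
    rw [h1, pow_add, mul_assoc]
    exact Ideal.mul_mem_mul hc hu

theorem tm_mem_JE {E 𝔭 : Ideal S} {k : ℕ} {a : S} (ha : a ∈ n ^ k) :
    tm n k a ha ∈ JE n E 𝔭 ↔ a ∈ n ^ k * E ⊔ 𝔭 := by
  constructor
  · intro h
    have h1 := h k
    simpa [tm] using h1
  · intro h i
    show (monomial k a).coeff i ∈ _
    rw [coeff_monomial]
    split
    · next h2 => rw [← h2]; exact h
    · exact Ideal.zero_mem _

variable {n}

theorem tm_smul {k : ℕ} {a c : S} (ha : a ∈ n ^ k) (hca : c * a ∈ n ^ k) (q : Ideal (reesAlgebra n))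
    (h : tm n k a ha ∈ q) : tm n k (c * a) hca ∈ q := by
  have hc : c ∈ n ^ 0 := by simp
  have hca' : c * a ∈ n ^ (0 + k) := by rwa [zero_add]
  have h2 : tm n k (c * a) hca = tm n 0 c hc * tm n k a ha := by
    rw [tm_mul hc ha hca']
    apply Subtype.ext
    simp [tm]
  rw [h2]
  exact Ideal.mul_mem_left _ _ h

def WL (L L' : Ideal S) (hL : ∀ a ∈ L, ∀ z ∈ L', a * z ∈ n ^ 1) (q : Ideal (reesAlgebra n)) :
    Ideal S where
  carrier := {a | a ∈ L ∧ ∀ z ∈ L', ∀ h : a * z ∈ n ^ 1, tm n 1 (a * z) h ∈ q}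
  add_mem' := by
    rintro a b ⟨ha, ha'⟩ ⟨hb, hb'⟩
    refine ⟨Ideal.add_mem _ ha hb, fun z hz h => ?_⟩
    have h1 : tm n 1 ((a + b) * z) h =
        tm n 1 (a * z) (hL a ha z hz) + tm n 1 (b * z) (hL b hb z hz) := by
      apply Subtype.ext
      simp [tm, add_mul]
    rw [h1]
    exact Ideal.add_mem _ (ha' z hz _) (hb' z hz _)
  zero_mem' := by
    refine ⟨Ideal.zero_mem _, fun z hz h => ?_⟩
    have : tm n 1 (0 * z) h = 0 := by
      apply Subtype.ext
      simp [tm]
    rw [this]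
    exact Ideal.zero_mem _
  smul_mem' := by
    rintro c a ⟨ha, ha'⟩
    refine ⟨Ideal.mul_mem_left _ _ ha, fun z hz h => ?_⟩
    have h1 : c * (a * z) ∈ n ^ 1 := Ideal.mul_mem_left _ _ (hL a ha z hz)
    have h2 : tm n 1 ((c • a) * z) h = tm n 1 (c * (a * z)) h1 := by
      apply Subtype.ext
      simp [tm, mul_assoc]
    rw [h2]
    exact tm_smul (hL a ha z hz) h1 q (ha' z hz _)

theorem exists_sup2 [IsLocalRing S] [IsNoetherianRing S] [Infinite (ResidueField S)]
    (L L' : Ideal S) (hn : L * L' = n) (T : Finset (Ideal S × Ideal S))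
    (s : Finset (Ideal S)) (hs : ∀ V ∈ s, ¬ L ≤ V) :
    ∃ x ∈ L, (∀ V ∈ s, x ∉ V) ∧ ∀ p ∈ T, ∃ c, ∀ j, c ≤ j → ∀ w ∈ n ^ j,
      x * w ∈ n ^ j * (L * p.1) ⊔ p.2 → w ∈ n ^ j * p.1 ⊔ p.2 := by
  classical
  have hL : ∀ a ∈ L, ∀ z ∈ L', a * z ∈ n ^ 1 := by
    intro a ha z hz
    rw [pow_one, ← hn]
    exact Ideal.mul_mem_mul ha hz
  have hdec : ∀ p : Ideal S × Ideal S, ∃ t : Finset (Ideal (reesAlgebra n)),
      t.inf id = JE n p.1 p.2 ∧ ∀ ⦃J⦄, J ∈ t → J.IsPrimary := by
    intro p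
    exact Submodule.isLasker (reesAlgebra n) (reesAlgebra n) (JE n p.1 p.2)
  choose t ht hprim using hdec
  obtain ⟨x, hxn, hx⟩ := avoid L
    (s ∪ ((T.biUnion t).image (fun q => WL L L' hL (Ideal.radical q))).filter
      (fun W => ¬ L ≤ W)) (by
      intro W hW
      rcases mem_union.mp hW with h | h
      · exact hs W h
      · exact (mem_filter.mp h).2)
  refine ⟨x, hxn, fun V hV => hx V (mem_union_left _ hV), fun p hp => ?_⟩
  have hxgood : ∀ q ∈ t p, ¬ L ≤ WL L L' hL (Ideal.radical q) →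
      x ∉ WL L L' hL (Ideal.radical q) := by
    intro q hq hq'
    exact hx _ (mem_union_right _ (mem_filter.mpr
      ⟨mem_image_of_mem _ (mem_biUnion.mpr ⟨p, hp, hq⟩), hq'⟩))
  have hbad : ∀ q : Ideal (reesAlgebra n), ∃ k, L ≤ WL L L' hL (Ideal.radical q) →
      R1 n ^ k ≤ q := by
    intro q
    by_cases h : L ≤ WL L L' hL (Ideal.radical q)
    · have h1 : R1 n ≤ Ideal.radical q := by
        unfold R1
        rw [Ideal.span_le]
        rintro _ ⟨a, ha, rfl⟩
        have key : ∀ b, b ∈ L * L' → ∃ hb : b ∈ n ^ 1, tm n 1 b hb ∈ Ideal.radical q := by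
          intro b hb
          refine Submodule.mul_induction_on hb ?_ ?_
          · intro u hu v hv
            exact ⟨hL u hu v hv, (h hu).2 v hv _⟩
          · rintro u v ⟨hu, hu'⟩ ⟨hv, hv'⟩
            refine ⟨Ideal.add_mem _ hu hv, ?_⟩
            rw [← tm_add hu hv]
            exact Ideal.add_mem _ hu' hv'
        obtain ⟨_, h2⟩ := key a (by rw [hn]; rwa [pow_one] at ha)
        exact h2
      obtain ⟨k, hk⟩ := Ideal.exists_pow_le_of_le_radical_of_fg h1 (IsNoetherian.noetherian _)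
      exact ⟨k, fun _ => hk⟩
    · exact ⟨0, fun h' => absurd h' h⟩
  choose kk hkk using hbad
  refine ⟨(t p).sup kk, fun j hj w hw hxw => ?_⟩
  have h2 : tm n j w hw ∈ JE n p.1 p.2 := by
    rw [← ht, Submodule.mem_finsetInf]
    intro q hq
    by_cases h : L ≤ WL L L' hL (Ideal.radical q)
    · exact (Ideal.pow_le_pow_right ((Finset.le_sup hq).trans hj)).trans (hkk q h)
        (tm_mem_R1_pow n j hw)
    · have h3 : ∃ z, ∃ hz : z ∈ L', tm n 1 (x * z) (hL x hxn z hz) ∉ Ideal.radical q := by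
        by_contra hcon
        push Not at hcon
        exact hxgood q hq h ⟨hxn, fun z hz _ => hcon z hz⟩
      obtain ⟨z, hz, h3⟩ := h3
      have hxw1 : x * z * w ∈ n ^ (1 + j) := by
        rw [pow_add]; exact Ideal.mul_mem_mul (hL x hxn z hz) hw
      have h1 : tm n 1 (x * z) (hL x hxn z hz) * tm n j w hw ∈ JE n p.1 p.2 := by
        rw [tm_mul (hL x hxn z hz) hw hxw1, tm_mem_JE]
        obtain ⟨u, hu, v, hv, huv⟩ := Submodule.mem_sup.mp hxw
        have h4 : x * z * w = z * u + z * v := by rw [← mul_add, huv]; ring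
        rw [h4]
        refine Submodule.add_mem_sup ?_ (Ideal.mul_mem_left _ _ hv)
        have h5 : n ^ (1 + j) * p.1 = L' * (n ^ j * (L * p.1)) := by
          rw [pow_add, pow_one, ← hn]; ring
        rw [h5]
        exact Ideal.mul_mem_mul hz hu
      rw [← ht, Submodule.mem_finsetInf] at h1
      have h5 := Ideal.isPrimary_iff.mp (hprim p hq)
      have h6 : tm n j w hw * tm n 1 (x * z) (hL x hxn z hz) ∈ q := by
        rw [mul_comm]; exact h1 q hq
      rcases h5.2 h6 with h7 | h7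
      · exact h7
      · exact absurd h7 h3
  rwa [tm_mem_JE] at h2

end Rees2

end Vale.Agent.P202
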