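import Vale.Agent.P202.Col

namespace Vale.Agent.P202

open Finset IsLocalRing Polynomial

section

variable {S : Type*} [CommRing S]

theorem Sup_of_SupE {n 𝔭 : Ideal S} {x : S} (h : SupE n n n 𝔭 x) : Sup n 𝔭 x := by
  obtain ⟨c, hc⟩ := h
  refine ⟨c, fun N hN w hw hxw => ?_⟩
  have claim : ∀ i, c + i ≤ N → w ∈ 𝔭 ⊔ n ^ (c + i) := by
    intro i
    induction i with
    | zero => intro _; exact Ideal.mem_sup_right hw
    | succ i ih =>
      intro hi
      obtain ⟨p, hp, w', hw', hpw⟩ := Submodule.mem_sup.mp (ih (by omega))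
      have h1 : x * w' ∈ n ^ (c + i) * (n * n) ⊔ 𝔭 := by
        have h2 : x * w' = x * w - x * p := by rw [← hpw]; ring
        have h3 : n ^ (c + i) * (n * n) = n ^ (c + i + 2) := by
          rw [pow_add n (c + i) 2, sq]
        rw [h2, h3, sup_comm]
        refine Ideal.sub_mem _ ?_ (Ideal.mem_sup_left (Ideal.mul_mem_left _ _ hp))
        have h9 : 𝔭 ⊔ n ^ (N + 1) ≤ 𝔭 ⊔ n ^ (c + i + 2) :=
          sup_le_sup_left (Ideal.pow_le_pow_right (by omega)) _
        exact h9 hxw
      have h4 := hc (c + i) (by omega) w' hw' h1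
      rw [← pow_succ, sup_comm] at h4
      rw [← hpw, ← add_assoc]
      exact Ideal.add_mem _ (Ideal.mem_sup_left hp) h4
  have h1 := claim (N - c) (by omega)
  have h2 : c + (N - c) = N := by omega
  rwa [h2] at h1

theorem exists_avoid_set {R : Type*} [CommRing R] [IsLocalRing R] [IsNoetherianRing S]
    (φ : R →+* S) (𝔭 : Ideal S) :
    ∃ 𝒱 : Finset (Ideal R), (∀ V ∈ 𝒱, ¬ maximalIdeal R ≤ V) ∧
      ∀ g ∈ maximalIdeal R, (∀ V ∈ 𝒱, g ∉ V) → Sup ((maximalIdeal R).map φ) 𝔭 (φ g) := by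
  classical
  set n := (maximalIdeal R).map φ with hn
  obtain ⟨t, ht, hprim⟩ : ∃ t : Finset (Ideal (reesAlgebra n)),
      t.inf id = JE n n 𝔭 ∧ ∀ ⦃J⦄, J ∈ t → J.IsPrimary :=
    Submodule.isLasker (reesAlgebra n) (reesAlgebra n) (JE n n 𝔭)
  refine ⟨(t.image (fun q => (Wq n (Ideal.radical q)).comap φ)).filter
    (fun W => ¬ maximalIdeal R ≤ W), fun V hV => (mem_filter.mp hV).2, fun g hg hgV => ?_⟩
  have hx1 : φ g ∈ n ^ 1 := by rw [pow_one]; exact Ideal.mem_map_of_mem _ hg
  have hxgood : ∀ q ∈ t, ¬ maximalIdeal R ≤ (Wq n (Ideal.radical q)).comap φ →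
      φ g ∉ Wq n (Ideal.radical q) := by
    intro q hq hq' hmem
    exact hgV _ (mem_filter.mpr ⟨mem_image_of_mem _ hq, hq'⟩) hmem
  have hbad : ∀ q : Ideal (reesAlgebra n), ∃ k,
      maximalIdeal R ≤ (Wq n (Ideal.radical q)).comap φ → R1 n ^ k ≤ q := by
    intro q
    by_cases h : maximalIdeal R ≤ (Wq n (Ideal.radical q)).comap φ
    · have h0 : n ≤ Wq n (Ideal.radical q) := Ideal.map_le_iff_le_comap.mpr h
      have h1 : R1 n ≤ Ideal.radical q := by
        unfold R1
        rw [Ideal.span_le]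
        rintro _ ⟨a, ha, rfl⟩
        obtain ⟨_, h2⟩ := h0 (by rwa [pow_one] at ha)
        exact h2
      obtain ⟨k, hk⟩ := Ideal.exists_pow_le_of_le_radical_of_fg h1 (IsNoetherian.noetherian _)
      exact ⟨k, fun _ => hk⟩
    · exact ⟨0, fun h' => absurd h' h⟩
  choose kk hkk using hbad
  refine Sup_of_SupE ⟨t.sup kk, fun j hj w hw hxw => ?_⟩
  have h2 : tm n j w hw ∈ JE n n 𝔭 := by
    rw [← ht, Submodule.mem_finsetInf]
    intro q hq
    by_cases h : maximalIdeal R ≤ (Wq n (Ideal.radical q)).comap φ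
    · exact (Ideal.pow_le_pow_right ((Finset.le_sup hq).trans hj)).trans (hkk q h)
        (tm_mem_R1_pow n j hw)
    · have h3 : tm n 1 (φ g) hx1 ∉ Ideal.radical q := fun h4 => hxgood q hq h ⟨hx1, h4⟩
      have hxw1 : φ g * w ∈ n ^ (1 + j) := by
        rw [pow_add]; exact Ideal.mul_mem_mul hx1 hw
      have h1 : tm n 1 (φ g) hx1 * tm n j w hw ∈ JE n n 𝔭 := by
        rw [tm_mul hx1 hw hxw1, tm_mem_JE]
        have h5 : n ^ (1 + j) * n = n ^ j * (n * n) := by
          rw [pow_add, pow_one]; ring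
        rw [h5]
        exact hxw
      rw [← ht, Submodule.mem_finsetInf] at h1
      have h5 := Ideal.isPrimary_iff.mp (hprim hq)
      have h6 : tm n j w hw * tm n 1 (φ g) hx1 ∈ q := by
        rw [mul_comm]; exact h1 q hq
      rcases h5.2 h6 with h7 | h7
      · exact h7
      · exact absurd h7 h3
  rwa [tm_mem_JE] at h2

theorem exists_seqR {R : Type*} [CommRing R] [IsLocalRing R] [IsNoetherianRing R]
    [Infinite (ResidueField R)] [IsNoetherianRing S] (φ : R →+* S) (𝔭 : Ideal S) (m : ℕ) :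
    ∃ g : ℕ → R, (∀ i, g i ∈ maximalIdeal R) ∧
      (∀ i < m, Sup (maximalIdeal R) (P g i) (g i)) ∧
      ∀ i < m, Sup ((maximalIdeal R).map φ) (𝔭 ⊔ (P g i).map φ) (φ (g i)) := by
  classical
  induction m with
  | zero => exact ⟨fun _ => 0, fun _ => Ideal.zero_mem _, fun i hi => by omega, fun i hi => by omega⟩
  | succ m ih =>
    obtain ⟨g, hg, h1, h2⟩ := ih
    obtain ⟨𝒱1, hV1, hs1⟩ := exists_avoid_set (RingHom.id R) (P g m)
    obtain ⟨𝒱2, hV2, hs2⟩ := exists_avoid_set φ (𝔭 ⊔ (P g m).map φ)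
    obtain ⟨x, hxm, hx⟩ := avoid (maximalIdeal R) (𝒱1 ∪ 𝒱2) (by
      intro W hW
      rcases mem_union.mp hW with h | h
      · exact hV1 W h
      · exact hV2 W h)
    have hx1 := hs1 x hxm fun V hV => hx V (mem_union_left _ hV)
    have hx2 := hs2 x hxm fun V hV => hx V (mem_union_right _ hV)
    rw [Ideal.map_id] at hx1
    have hne : ∀ j, j < m → g j = Function.update g m x j := fun j hj => by
      rw [Function.update_of_ne (by omega)]
    have hP : ∀ i, i ≤ m → P (Function.update g m x) i = P g i := fun i hi =>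
      P_congr fun j hj => (hne j (by omega)).symm
    refine ⟨Function.update g m x, ?_, ?_, ?_⟩
    · intro i
      by_cases h : i = m
      · subst h; rw [Function.update_self]; exact hxm
      · rw [Function.update_of_ne h]; exact hg i
    · intro i hi
      rw [hP i (by omega)]
      by_cases h : i = m
      · subst h; rw [Function.update_self]; exact hx1
      · rw [Function.update_of_ne h]; exact h1 i (by omega)
    · intro i hi
      rw [hP i (by omega)]
      by_cases h : i = m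
      · subst h; rw [Function.update_self]; exact hx2
      · rw [Function.update_of_ne h]; exact h2 i (by omega)

end

end Vale.Agent.P202
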