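import Vale.Agent.P202.Numeric

namespace Vale.Agent.P202

open Finset IsLocalRing Polynomial

section Avoid

variable {S : Type*} [CommRing S] [IsLocalRing S]

theorem avoid [Infinite (ResidueField S)] (I : Ideal S) (s : Finset (Ideal S))
    (h : ∀ W ∈ s, ¬ I ≤ W) : ∃ x ∈ I, ∀ W ∈ s, x ∉ W := by
  by_contra hcon
  push Not at hcon
  have hcover : ⋃ W ∈ s, ((Submodule.comap I.subtype W : Submodule S I) : Set I) =
      Set.univ := by
    rw [Set.eq_univ_iff_forall]
    rintro ⟨x, hx⟩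
    obtain ⟨W, hW, hxW⟩ := hcon x hx
    simp only [Set.mem_iUnion]
    exact ⟨W, hW, hxW⟩
  obtain ⟨W, hW, hfi⟩ := Submodule.exists_finiteIndex_of_cover hcover
  have hfin : Finite (I ⧸ (Submodule.comap I.subtype W : Submodule S I)) :=
    AddSubgroup.finite_quotient_of_finiteIndex
  obtain ⟨a, haI, haW⟩ := SetLike.not_le_iff_exists.mp (h W hW)
  let φ : S →ₗ[S] (I ⧸ (Submodule.comap I.subtype W : Submodule S I)) :=
    LinearMap.toSpanSingleton S _ (Submodule.Quotient.mk ⟨a, haI⟩)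
  have hker : LinearMap.ker φ ≤ maximalIdeal S := by
    apply IsLocalRing.le_maximalIdeal
    rw [Ne, Ideal.eq_top_iff_one, LinearMap.mem_ker]
    intro h1
    simp only [φ, LinearMap.toSpanSingleton_apply, one_smul] at h1
    exact haW ((Submodule.Quotient.mk_eq_zero (Submodule.comap I.subtype W)).mp h1)
  have h1 : Finite (S ⧸ LinearMap.ker φ) :=
    Finite.of_injective _ (LinearMap.ker_eq_bot.mp (Submodule.ker_liftQ_eq_bot _ φ le_rfl le_rfl))
  have h2 : Finite (S ⧸ maximalIdeal S) :=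
    Finite.of_surjective _ (Submodule.factor_surjective hker)
  have h3 : Finite (ResidueField S) := h2
  exact _root_.not_finite (ResidueField S)

end Avoid

section Rees

variable {S : Type*} [CommRing S] (n : Ideal S)

noncomputable def tm (k : ℕ) (a : S) (ha : a ∈ n ^ k) : reesAlgebra n :=
  ⟨monomial k a, reesAlgebra.monomial_mem.mpr ha⟩

variable {n}

theorem tm_mul {j k : ℕ} {a b : S} (ha : a ∈ n ^ j) (hb : b ∈ n ^ k) (hab : a * b ∈ n ^ (j + k)) :
    tm n j a ha * tm n k b hb = tm n (j + k) (a * b) hab := by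
  apply Subtype.ext
  exact monomial_mul_monomial j k a b

theorem tm_add {k : ℕ} {a b : S} (ha : a ∈ n ^ k) (hb : b ∈ n ^ k) (hab : a + b ∈ n ^ k) :
    tm n k a ha + tm n k b hb = tm n k (a + b) hab := by
  apply Subtype.ext
  exact (map_add (monomial k) a b).symm

variable (n)

noncomputable def JJ (𝔭 : Ideal S) : Ideal (reesAlgebra n) where
  carrier := {f | ∀ i, (f : S[X]).coeff i ∈ n ^ (i + 1) ⊔ 𝔭}
  add_mem' := by
    intro f g hf hg i
    have : ((f + g : reesAlgebra n) : S[X]).coeff i = (f : S[X]).coeff i + (g : S[X]).coeff i := by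
      simp
    rw [this]
    exact Ideal.add_mem _ (hf i) (hg i)
  zero_mem' := by
    intro i
    simp
  smul_mem' := by
    intro c f hf i
    have : ((c • f : reesAlgebra n) : S[X]).coeff i = ((c : S[X]) * (f : S[X])).coeff i := rfl
    rw [this, coeff_mul]
    refine Ideal.sum_mem _ fun x hx => ?_
    have hc := (mem_reesAlgebra_iff n _).mp c.2 x.1
    obtain ⟨u, hu, v, hv, huv⟩ := Submodule.mem_sup.mp (hf x.2)
    rw [← huv, mul_add]
    refine Submodule.add_mem_sup ?_ (Ideal.mul_mem_left _ _ hv)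
    have h1 : i + 1 = x.1 + (x.2 + 1) := by
      have := mem_antidiagonal.mp hx
      omega
    rw [h1, pow_add]
    exact Ideal.mul_mem_mul hc hu

theorem tm_mem_JJ {𝔭 : Ideal S} {k : ℕ} {a : S} (ha : a ∈ n ^ k) :
    tm n k a ha ∈ JJ n 𝔭 ↔ a ∈ n ^ (k + 1) ⊔ 𝔭 := by
  constructor
  · intro h
    have h1 := h k
    simpa [tm] using h1
  · intro h i
    show (monomial k a).coeff i ∈ _
    rw [coeff_monomial]
    split
    · next h2 => rw [← h2]; exact h
    · exact Ideal.zero_mem _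

noncomputable def Wq (q : Ideal (reesAlgebra n)) : Ideal S where
  carrier := {a | ∃ h : a ∈ n ^ 1, tm n 1 a h ∈ q}
  add_mem' := by
    rintro a b ⟨ha, ha'⟩ ⟨hb, hb'⟩
    refine ⟨Ideal.add_mem _ ha hb, ?_⟩
    rw [← tm_add ha hb]
    exact Ideal.add_mem _ ha' hb'
  zero_mem' := by
    refine ⟨Ideal.zero_mem _, ?_⟩
    have : tm n 1 0 (Ideal.zero_mem _) = 0 := by
      apply Subtype.ext
      simp [tm]
    rw [this]
    exact Ideal.zero_mem _
  smul_mem' := by
    rintro c a ⟨ha, ha'⟩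
    have hc : c ∈ n ^ 0 := by simp
    have hca : c * a ∈ n ^ (0 + 1) := by
      rw [zero_add]; exact Ideal.mul_mem_left _ _ ha
    refine ⟨Ideal.mul_mem_left _ _ ha, ?_⟩
    have := tm_mul hc ha hca
    have h2 : tm n 1 (c • a) (Ideal.mul_mem_left _ _ ha) = tm n 0 c hc * tm n 1 a ha := by
      rw [this]
      apply Subtype.ext
      simp [tm]
    rw [h2]
    exact Ideal.mul_mem_left _ _ ha'

noncomputable def R1 : Ideal (reesAlgebra n) := Ideal.span {f | ∃ a, ∃ h : a ∈ n ^ 1, f = tm n 1 a h}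

theorem tm_mem_R1_pow (k : ℕ) {b : S} (hb : b ∈ n ^ k) : tm n k b hb ∈ R1 n ^ k := by
  induction k generalizing b with
  | zero => simp
  | succ k ih =>
    have key : ∀ b, b ∈ n * n ^ k → ∃ h : b ∈ n ^ (k + 1), tm n (k + 1) b h ∈ R1 n ^ (k + 1) := by
      intro b hb
      refine Submodule.mul_induction_on hb ?_ ?_
      · intro a ha c hc
        have h1 : a ∈ n ^ 1 := by rwa [pow_one]
        have h3 : c * a ∈ n ^ (k + 1) := by
          rw [pow_succ]; exact Ideal.mul_mem_mul hc ha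
        have h2 : a * c ∈ n ^ (k + 1) := by rwa [mul_comm]
        refine ⟨h2, ?_⟩
        have h4 := tm_mul hc h1 h3
        have h5 : tm n (k + 1) (a * c) h2 = tm n k c hc * tm n 1 a h1 := by
          rw [h4]
          apply Subtype.ext
          simp [tm, mul_comm]
        rw [h5, pow_succ]
        exact Ideal.mul_mem_mul (ih hc) (Ideal.subset_span ⟨a, h1, rfl⟩)
      · rintro x y ⟨hx, hx'⟩ ⟨hy, hy'⟩
        refine ⟨Ideal.add_mem _ hx hy, ?_⟩
        rw [← tm_add hx hy]
        exact Ideal.add_mem _ hx' hy'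
    have hb' : b ∈ n * n ^ k := by rwa [← pow_succ']
    obtain ⟨_, h⟩ := key b hb'
    exact h

end Rees

section Exists

variable {S : Type*} [CommRing S]

def filt (n 𝔭 : Ideal S) (x : S) : n.Filtration S where
  N j := n ^ j ⊓ qt (n ^ (j + 2) ⊔ 𝔭) x
  mono i := inf_le_inf (Ideal.pow_le_pow_right (Nat.le_succ i))
    (qt_mono (sup_le_sup_right (Ideal.pow_le_pow_right (by omega)) _) x)
  smul_le i := by
    rw [Submodule.smul_le]
    intro a ha w hw
    refine ⟨?_, ?_⟩
    · rw [smul_eq_mul, pow_succ']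
      exact Ideal.mul_mem_mul ha hw.1
    · show a * w ∈ qt _ x
      have h2 : x * w ∈ n ^ (i + 2) ⊔ 𝔭 := hw.2
      rw [mem_qt, mul_left_comm]
      obtain ⟨u, hu, v, hv, huv⟩ := Submodule.mem_sup.mp h2
      rw [← huv, mul_add]
      refine Submodule.add_mem_sup ?_ (Ideal.mul_mem_left _ _ hv)
      have h3 : i + 1 + 2 = (i + 2) + 1 := by ring
      rw [h3, pow_succ']
      exact Ideal.mul_mem_mul ha hu

theorem exists_sup [IsLocalRing S] [IsNoetherianRing S] [Infinite (ResidueField S)]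
    (𝔭 : Ideal S) (s : Finset (Ideal S)) (hs : ∀ V ∈ s, ¬ maximalIdeal S ≤ V) :
    ∃ x ∈ maximalIdeal S, (∀ V ∈ s, x ∉ V) ∧ Sup (maximalIdeal S) 𝔭 x := by
  classical
  set n := maximalIdeal S with hn
  obtain ⟨t, ht, hprim⟩ := Submodule.isLasker (reesAlgebra n) (reesAlgebra n) (JJ n 𝔭)
  obtain ⟨x, hxn, hx⟩ := avoid n
    (s ∪ (t.image (fun q => Wq n (Ideal.radical q))).filter (fun W => ¬ n ≤ W)) (by
      intro W hW
      rcases mem_union.mp hW with h | h
      · exact hs W h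
      · exact (mem_filter.mp h).2)
  refine ⟨x, hxn, fun V hV => hx V (mem_union_left _ hV), ?_⟩
  have hxgood : ∀ q ∈ t, ¬ n ≤ Wq n (Ideal.radical q) → x ∉ Wq n (Ideal.radical q) := by
    intro q hq hq'
    exact hx _ (mem_union_right _ (mem_filter.mpr ⟨mem_image_of_mem _ hq, hq'⟩))
  have hbad : ∀ q : Ideal (reesAlgebra n), ∃ k, n ≤ Wq n (Ideal.radical q) → R1 n ^ k ≤ q := by
    intro q
    by_cases h : n ≤ Wq n (Ideal.radical q)
    · have h1 : R1 n ≤ Ideal.radical q := by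
        unfold R1
        rw [Ideal.span_le]
        rintro _ ⟨a, ha, rfl⟩
        obtain ⟨_, h2⟩ := h (by rwa [pow_one] at ha)
        exact h2
      obtain ⟨k, hk⟩ := Ideal.exists_pow_le_of_le_radical_of_fg h1 (IsNoetherian.noetherian _)
      exact ⟨k, fun _ => hk⟩
    · exact ⟨0, fun h' => absurd h' h⟩
  choose kk hkk using hbad
  set K := t.sup kk with hK
  have hbad' : ∀ q ∈ t, n ≤ Wq n (Ideal.radical q) → R1 n ^ K ≤ q := by
    intro q hq h
    exact (Ideal.pow_le_pow_right (Finset.le_sup hq)).trans (hkk q h)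
  have hx1 : x ∈ n ^ 1 := by rwa [pow_one]
  have star : ∀ j w, w ∈ n ^ j → x * w ∈ n ^ (j + 2) ⊔ 𝔭 → ∀ b ∈ n ^ K,
      b * w ∈ n ^ (K + j + 1) ⊔ 𝔭 := by
    intro j w hw hxw b hb
    have hxw1 : x * w ∈ n ^ (1 + j) := by rw [pow_add]; exact Ideal.mul_mem_mul hx1 hw
    have h1 : tm n 1 x hx1 * tm n j w hw ∈ JJ n 𝔭 := by
      rw [tm_mul hx1 hw hxw1, tm_mem_JJ]
      have : 1 + j + 1 = j + 2 := by ring
      rwa [this]
    have hbw : b * w ∈ n ^ (K + j) := by rw [pow_add]; exact Ideal.mul_mem_mul hb hw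
    have h2 : tm n K b hb * tm n j w hw ∈ JJ n 𝔭 := by
      rw [← ht, Submodule.mem_finsetInf]
      intro q hq
      have hq1 : tm n 1 x hx1 * tm n j w hw ∈ q := by
        rw [← ht, Submodule.mem_finsetInf] at h1
        exact h1 q hq
      by_cases h : n ≤ Wq n (Ideal.radical q)
      · exact Ideal.mul_mem_right _ _ (hbad' q hq h (tm_mem_R1_pow n K hb))
      · have h3 : tm n 1 x hx1 ∉ Ideal.radical q := fun h4 => hxgood q hq h ⟨hx1, h4⟩
        have h5 := Ideal.isPrimary_iff.mp (hprim hq)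
        have h6 : tm n j w hw * tm n 1 x hx1 ∈ q := by rwa [mul_comm]
        rcases h5.2 h6 with h7 | h7
        · exact Ideal.mul_mem_left _ _ h7
        · exact absurd h7 h3
    rw [tm_mul hb hw hbw, tm_mem_JJ] at h2
    exact h2
  have hstable : (filt n 𝔭 x).Stable := by
    refine (Ideal.stableFiltration_stable n (⊤ : Submodule S S)).of_le ?_
    intro i
    show n ^ i ⊓ _ ≤ n ^ i • (⊤ : Submodule S S)
    rw [smul_eq_mul, Ideal.mul_top]
    exact inf_le_left
  obtain ⟨n₀, hn₀⟩ := hstable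
  have hpow : ∀ m, n₀ ≤ m → ∀ k, (filt n 𝔭 x).N (m + k) = n ^ k • (filt n 𝔭 x).N m := by
    intro m hm k
    induction k with
    | zero => simp
    | succ k ih =>
      rw [← add_assoc, ← hn₀ (m + k) (by omega), ih, pow_succ', mul_smul]
  have hN : ∀ m, n₀ ≤ m → (filt n 𝔭 x).N (m + K) ≤ n ^ (K + m + 1) ⊔ 𝔭 := by
    intro m hm
    rw [hpow m hm K, Submodule.smul_le]
    intro b hb w hw
    exact star m w hw.1 hw.2 b hb
  refine ⟨n₀ + K, fun N hNc w hw hxw => ?_⟩
  have claim : ∀ i, n₀ + K + i ≤ N → w ∈ 𝔭 ⊔ n ^ (n₀ + K + i) := by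
    intro i
    induction i with
    | zero => intro _; exact Ideal.mem_sup_right hw
    | succ i ih =>
      intro hi
      obtain ⟨p, hp, w', hw', hpw⟩ := Submodule.mem_sup.mp (ih (by omega))
      have h1 : x * w' ∈ n ^ (n₀ + K + i + 2) ⊔ 𝔭 := by
        have h2 : x * w' = x * w - x * p := by rw [← hpw]; ring
        rw [h2, sup_comm]
        refine Ideal.sub_mem _ ?_ (Ideal.mem_sup_left (Ideal.mul_mem_left _ _ hp))
        have h9 : 𝔭 ⊔ n ^ (N + 1) ≤ 𝔭 ⊔ n ^ (n₀ + K + i + 2) :=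
          sup_le_sup_left (Ideal.pow_le_pow_right (by omega)) _
        exact h9 hxw
      have h3 : w' ∈ (filt n 𝔭 x).N (n₀ + i + K) := by
        have : n₀ + i + K = n₀ + K + i := by ring
        rw [this]
        exact ⟨hw', h1⟩
      have h4 := hN (n₀ + i) (by omega) h3
      have h5 : K + (n₀ + i) + 1 = n₀ + K + (i + 1) := by ring
      rw [h5, sup_comm] at h4
      rw [← hpw]
      exact Ideal.add_mem _ (Ideal.mem_sup_left hp) h4
  have h := claim (N - (n₀ + K)) (by omega)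
  have h6 : n₀ + K + (N - (n₀ + K)) = N := by omega
  rwa [h6] at h

end Exists

end Vale.Agent.P202
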