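import Vale.Agent.P202.WGen
import Vale.Agent.P202.Main

namespace Vale.Agent.P202

open Finset IsLocalRing

def UU (A : Type*) [CommRing A] [IsLocalRing A] (s e : ℕ) : Prop :=
  ∃ D : ℕ, ∀ N, cl (maximalIdeal A ^ N) ≤
    ((e * (N + s).choose (s + 1) + D * N ^ s : ℕ) : ℕ∞)

section One

variable {S : Type*} [CommRing S] [IsLocalRing S] [IsNoetherianRing S]

theorem base_of_stable (X : ℕ → S) (hX : ∀ i, X i ∈ maximalIdeal S) (d e c Λ : ℕ)
    (he : ∀ i, c ≤ i → cl (qt (P X d) (X d ^ i) ⊔ Ideal.span {X d}) ≤ e)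
    (hΛ : ∀ i, cl (qt (P X d) (X d ^ i) ⊔ Ideal.span {X d}) ≤ Λ) (N : ℕ) :
    LL X d N ≤ e * (N + 0).choose 1 + (Λ * c) * N ^ 0 := by
  rw [Nat.choose_one_right, pow_zero, mul_one, add_zero]
  have h1 : (LL X d N : ℕ∞) ≤ ∑ i ∈ range N, ((e : ℕ∞) + if i < c then (Λ : ℕ∞) else 0) := by
    rw [coe_LL, cl_layer (P X d ⊔ maximalIdeal S ^ N) (X d) N,
      qt_eq_top (Ideal.mem_sup_right (Ideal.pow_mem_pow (hX d) N)), cl_top, add_zero]
    refine sum_le_sum fun i _ => ?_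
    have h2 : cl (qt (P X d ⊔ maximalIdeal S ^ N) (X d ^ i) ⊔ Ideal.span {X d}) ≤
        cl (qt (P X d) (X d ^ i) ⊔ Ideal.span {X d}) :=
      cl_anti (sup_le_sup_right (qt_mono le_sup_left _) _)
    by_cases hic : i < c
    · rw [if_pos hic]
      exact (h2.trans (hΛ i)).trans le_add_self
    · rw [if_neg hic, add_zero]
      exact h2.trans (he i (not_lt.mp hic))
  rw [sum_add_distrib, sum_const, card_range, nsmul_eq_mul, ← sum_filter, sum_const,
    nsmul_eq_mul] at h1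
  have h3 : #({i ∈ range N | i < c}) ≤ c := by
    calc #({i ∈ range N | i < c}) ≤ #(range c) := by
          apply card_le_card
          intro i hi
          rw [mem_filter] at hi
          exact mem_range.mpr hi.2
      _ = c := card_range c
  have h4 : LL X d N ≤ N * e + #({i ∈ range N | i < c}) * Λ := by exact_mod_cast h1
  refine h4.trans ?_
  have h5 := Nat.mul_le_mul_right Λ h3
  rw [mul_comm e N, mul_comm Λ c]
  omega

theorem two_sided_inf [Infinite (ResidueField S)] (t A : ℕ)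
    (hA : ∀ N, cl (maximalIdeal S ^ N) ≤ ((A * (N + 1) ^ (t + 1) : ℕ) : ℕ∞)) :
    ∃ e D : ℕ, (∀ N, cl (maximalIdeal S ^ N) ≤
        ((e * (N + t).choose (t + 1) + D * N ^ t : ℕ) : ℕ∞)) ∧
      (∀ N : ℕ, ((e * N.choose (t + 1) : ℕ) : ℕ∞) ≤
        cl (maximalIdeal S ^ N) + ((D * N ^ t : ℕ) : ℕ∞)) := by
  obtain ⟨X, hX, hs, -⟩ := exists_seq (⊥ : Ideal S) (t + 1)
  obtain ⟨-, e, c, Λ, D, he, hΛ, hlow⟩ := sside X t hs A hA
  refine ⟨e, Λ * c + D, fun N => ?_, fun N => ?_⟩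
  · refine (upper_of_stable X hX t e c Λ he hΛ N).trans ?_
    have : e * (N + t).choose (t + 1) + Λ * c * N ^ t ≤
        e * (N + t).choose (t + 1) + (Λ * c + D) * N ^ t := by gcongr; omega
    exact_mod_cast this
  · refine (hlow N).trans ?_
    gcongr
    omega

theorem two_sided (t A : ℕ)
    (hA : ∀ N, cl (maximalIdeal S ^ N) ≤ ((A * (N + 1) ^ (t + 1) : ℕ) : ℕ∞)) :
    ∃ e D : ℕ, (∀ N, cl (maximalIdeal S ^ N) ≤
        ((e * (N + t).choose (t + 1) + D * N ^ t : ℕ) : ℕ∞)) ∧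
      (∀ N : ℕ, ((e * N.choose (t + 1) : ℕ) : ℕ∞) ≤
        cl (maximalIdeal S ^ N) + ((D * N ^ t : ℕ) : ℕ∞)) := by
  obtain ⟨S', i1, i2, i3, i4, hflat, hloc, hmap, hinf⟩ := exists_infinite_residue S
  have hcl : ∀ N, cl (maximalIdeal S' ^ N) = cl (maximalIdeal S ^ N) := by
    intro N
    rw [← hmap, ← Ideal.map_pow]
    exact cl_flat S S' hmap _
  obtain ⟨e, D, h1, h2⟩ := two_sided_inf (S := S') t A (fun N => by rw [hcl]; exact hA N)
  refine ⟨e, D, fun N => ?_, fun N => ?_⟩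
  · rw [← hcl]; exact h1 N
  · rw [← hcl]; exact h2 N

omit [IsNoetherianRing S] in
theorem UU.bound {s e : ℕ} (h : UU S s e) :
    ∃ A : ℕ, ∀ N, cl (maximalIdeal S ^ N) ≤ ((A * (N + 1) ^ (s + 1) : ℕ) : ℕ∞) := by
  obtain ⟨D, hD⟩ := h
  refine ⟨e * (s + 1) ^ (s + 1) + D, fun N => (hD N).trans ?_⟩
  have h1 : (N + s).choose (s + 1) ≤ (s + 1) ^ (s + 1) * (N + 1) ^ (s + 1) := by
    refine (Nat.choose_le_pow (N + s) (s + 1)).trans ?_
    rw [← mul_pow]
    refine Nat.pow_le_pow_left ?_ _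
    nlinarith
  have h2 : N ^ s ≤ (N + 1) ^ (s + 1) :=
    (Nat.pow_le_pow_left (Nat.le_succ N) s).trans (Nat.pow_le_pow_right (Nat.succ_pos N)
      (Nat.le_succ s))
  have h3 : e * (N + s).choose (s + 1) + D * N ^ s ≤
      (e * (s + 1) ^ (s + 1) + D) * (N + 1) ^ (s + 1) := by
    rw [add_mul, mul_assoc]
    gcongr
  exact_mod_cast h3

end One

section LemA

variable {S T : Type*} [CommRing S] [IsLocalRing S] [IsNoetherianRing S]
  [CommRing T] [IsLocalRing T] [IsNoetherianRing T]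

omit [IsNoetherianRing T] in
theorem cl_step_A (φ : S →+* T) (F : T) (hF : F ∈ maximalIdeal T)
    (hT : maximalIdeal T = (maximalIdeal S).map φ ⊔ Ideal.span {F}) (N : ℕ) :
    cl (maximalIdeal T ^ (N + 1)) ≤ cl (maximalIdeal T ^ N) + cl (maximalIdeal S ^ (N + 1)) := by
  have h1 := cl_qt (maximalIdeal T ^ (N + 1)) F
  have h2 : cl (qt (maximalIdeal T ^ (N + 1)) F) ≤ cl (maximalIdeal T ^ N) := by
    refine cl_anti fun w hw => ?_
    rw [mem_qt, pow_succ']
    exact Ideal.mul_mem_mul hF hw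
  have hne : Ideal.span {F} ≠ ⊤ := fun h =>
    (maximalIdeal.isMaximal T).ne_top
      (top_le_iff.mp (h ▸ (Ideal.span_singleton_le_iff_mem _).mpr hF))
  have hnt : Nontrivial (T ⧸ Ideal.span {F}) := Ideal.Quotient.nontrivial_iff.mpr hne
  have hlr : IsLocalRing (T ⧸ Ideal.span {F}) :=
    IsLocalRing.of_surjective' (Ideal.Quotient.mk _) Ideal.Quotient.mk_surjective
  have hmax : (maximalIdeal T).map (Ideal.Quotient.mk (Ideal.span {F})) =
      maximalIdeal (T ⧸ Ideal.span {F}) :=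
    IsLocalRing.map_maximalIdeal_of_surjective (Ideal.Quotient.mk _) Ideal.Quotient.mk_surjective
  have hSP : (maximalIdeal S).map ((Ideal.Quotient.mk (Ideal.span {F})).comp φ) =
      maximalIdeal (T ⧸ Ideal.span {F}) := by
    rw [← hmax, hT, Ideal.map_sup, ← Ideal.map_map, Ideal.map_span, Set.image_singleton,
      Ideal.Quotient.eq_zero_iff_mem.mpr (Ideal.mem_span_singleton_self F)]
    rw [Ideal.span_singleton_zero, sup_bot_eq]
  have h3 := cl_map_pow_le _ hSP (N + 1)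
  have h4 : cl (maximalIdeal T ^ (N + 1) ⊔ Ideal.span {F}) =
      cl (maximalIdeal (T ⧸ Ideal.span {F}) ^ (N + 1)) := by
    refine cl_pull (R := T) (R' := T ⧸ Ideal.span {F}) Ideal.Quotient.mk_surjective _ _ ?_
    intro v
    rw [← hmax, ← Ideal.map_pow]
    rw [Ideal.Quotient.algebraMap_eq, Ideal.mem_quotient_iff_mem_sup]
  rw [h1, h4]
  exact add_le_add h2 h3

theorem UU.lemA (φ : S →+* T) (F : T) (hF : F ∈ maximalIdeal T)
    (hT : maximalIdeal T = (maximalIdeal S).map φ ⊔ Ideal.span {F}) {s e : ℕ}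
    (h : UU S s e) : UU T (s + 1) e := by
  obtain ⟨D, hD⟩ := h
  refine ⟨D, fun N => ?_⟩
  have hfT : ∀ N, ((len T N : ℕ) : ℕ∞) = cl (maximalIdeal T ^ N) := coe_len T
  have hfS : ∀ N, ((len S N : ℕ) : ℕ∞) = cl (maximalIdeal S ^ N) := coe_len S
  have h1 := chain_upper2 (len T) (len S) (fun N => by
    have := cl_step_A φ F hF hT N
    rw [← hfT, ← hfT, ← hfS] at this
    exact_mod_cast this) (by
      have h0 : ((len T 0 : ℕ) : ℕ∞) = 0 := by
        rw [hfT, pow_zero, Ideal.one_eq_top, cl_top]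
      exact_mod_cast h0) e D s (fun N => by
      have := hD N
      rw [← hfS] at this
      exact_mod_cast this) N
  rw [← hfT]
  exact_mod_cast h1

end LemA

end Vale.Agent.P202
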