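import Vale.Agent.P202.Mat

namespace Vale.Agent.P202

open Finset Matrix IsLocalRing

section FinLen

variable {R : Type*} [CommRing R] [IsLocalRing R]

theorem exists_pow_smul_bot {N : Type*} [AddCommGroup N] [Module R N]
    (h : Module.length R N ≠ ⊤) : ∃ c, ∀ z ∈ maximalIdeal R ^ c, ∀ v : N, z • v = 0 := by
  have hfl := Module.length_ne_top_iff.mp h
  obtain ⟨hN, hA⟩ := isFiniteLength_iff_isNoetherian_isArtinian.mp hfl
  let f : ℕ →o (Submodule R N)ᵒᵈ :=
    ⟨fun k => OrderDual.toDual (maximalIdeal R ^ k • (⊤ : Submodule R N)), by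
      intro k k' hkk
      exact Submodule.smul_mono_left (Ideal.pow_le_pow_right hkk)⟩
  obtain ⟨c, hc⟩ := IsArtinian.monotone_stabilizes f
  have h1 : maximalIdeal R ^ c • (⊤ : Submodule R N) =
      maximalIdeal R ^ (c + 1) • (⊤ : Submodule R N) := hc (c + 1) (Nat.le_succ c)
  have h2 : maximalIdeal R ^ c • (⊤ : Submodule R N) = ⊥ := by
    refine Submodule.eq_bot_of_le_smul_of_le_jacobson_bot (maximalIdeal R) _
      (IsNoetherian.noetherian _) ?_ (IsLocalRing.maximalIdeal_le_jacobson _)
    rw [← mul_smul, ← pow_succ']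
    exact le_of_eq h1
  refine ⟨c, fun z hz v => ?_⟩
  have h3 : z • v ∈ maximalIdeal R ^ c • (⊤ : Submodule R N) :=
    Submodule.smul_mem_smul hz trivial
  rw [h2] at h3
  exact (Submodule.mem_bot R).mp h3

theorem UI_le_of_length {ι : Type*} [Fintype ι] [DecidableEq ι] (V : Submodule R (ι → R))
    (h : Module.length R ((ι → R) ⧸ V) ≠ ⊤) : ∃ c, UI ι (maximalIdeal R ^ c) ≤ V := by
  obtain ⟨c, hc⟩ := exists_pow_smul_bot h
  refine ⟨c, fun w hw => ?_⟩
  have h1 : w = ∑ i, w i • (Pi.single i (1 : R) : ι → R) := by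
    ext j
    simp [Pi.single_apply]
  rw [h1]
  refine Submodule.sum_mem _ fun i _ => ?_
  rw [← Submodule.Quotient.mk_eq_zero, Submodule.Quotient.mk_smul]
  exact hc _ (hw i) _

end FinLen

section Beta

variable {R : Type*} [CommRing R] [IsLocalRing R] {ι : Type*} [Fintype ι] [DecidableEq ι] {a : ℕ}

omit [IsLocalRing R] in
theorem mulVec_mem_UI {m n : Type*} [Fintype n] (M : Matrix m n R) {I : Ideal R} {v : n → R}
    (hv : v ∈ UI n I) : M *ᵥ v ∈ UI m I := by
  intro i
  rw [Matrix.mulVec, dotProduct]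
  exact Ideal.sum_mem _ fun j _ => Ideal.mul_mem_left _ _ (hv j)

omit [DecidableEq ι] in
theorem beta_bound (Φ : Matrix (Fin a) ι R) {r : ℕ} {P P' : Matrix (Fin a) (Fin a) R}
    {Q : Matrix ι (Fin a) R} (hP'P : P' * P = 1)
    (h : ∀ i j : Fin a, j.1 < r → (P * Φ * Q) i j - (if i = j then 1 else 0) ∈ maximalIdeal R) :
    Module.length R ((Fin a → R) ⧸ (LinearMap.range Φ.mulVecLin ⊔ UI (Fin a) (maximalIdeal R))) ≤
      (a - r : ℕ) := by
  let p : Fin a → Submodule R R := fun i => if r ≤ i.1 then (maximalIdeal R : Submodule R R) else ⊤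
  let V := Submodule.pi Set.univ p
  have hV : ∀ w, w ∈ V ↔ ∀ i : Fin a, r ≤ i.1 → w i ∈ maximalIdeal R := by
    intro w
    rw [Submodule.mem_pi]
    constructor
    · intro hw i hi
      have := hw i trivial
      simpa [p, hi] using this
    · intro hw i _
      by_cases hi : r ≤ i.1
      · simpa [p, hi] using hw i hi
      · simp [p, hi]
  have h1 : Module.length R ((Fin a → R) ⧸ V) = (a - r : ℕ) := by
    rw [(Submodule.quotientPi p).length_eq, Module.length_pi_of_fintype]
    have h2 : ∀ i : Fin a, Module.length R (R ⧸ p i) =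
        ((if r ≤ i.1 then 1 else 0 : ℕ) : ℕ∞) := by
      intro i
      by_cases hi : r ≤ i.1
      · have h3 : p i = maximalIdeal R := by simp [p, hi]
        rw [h3, if_pos hi]
        have := cl_maximalIdeal (R := R)
        unfold cl at this
        rw [this]
        simp
      · have h3 : p i = ⊤ := by simp [p, hi]
        rw [h3, if_neg hi]
        have := cl_top (S := R)
        unfold cl at this
        rw [this]
        simp
    rw [sum_congr rfl fun i _ => h2 i, ← Nat.cast_sum]
    congr 1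
    rw [Fin.sum_univ_eq_sum_range (fun i => if r ≤ i then 1 else 0) a, ← Finset.card_filter]
    have h3 : (range a).filter (fun i => r ≤ i) = Finset.Ico r a := by
      ext i
      simp only [mem_filter, mem_range, mem_Ico]
      omega
    rw [h3, Nat.card_Ico]
  rw [← h1]
  have hle : V ≤ (LinearMap.range Φ.mulVecLin ⊔ UI (Fin a) (maximalIdeal R)).comap
      P'.mulVecLin := by
    intro w hw
    rw [Submodule.mem_comap, Matrix.mulVecLin_apply]
    let w' : Fin a → R := fun j => if j.1 < r then w j else 0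
    have h4 : w - (P * Φ * Q) *ᵥ w' ∈ UI (Fin a) (maximalIdeal R) := by
      intro i
      have h5 : (w - (P * Φ * Q) *ᵥ w') i = (w i - w' i) -
          ∑ j, ((P * Φ * Q) i j - (if i = j then 1 else 0)) * w' j := by
        simp only [Pi.sub_apply, Matrix.mulVec, dotProduct, sub_mul, sum_sub_distrib]
        simp
      rw [h5]
      refine Ideal.sub_mem _ ?_ (Ideal.sum_mem _ fun j _ => ?_)
      · by_cases hi : i.1 < r
        · simp [w', hi]
        · simp only [w', hi, if_false, sub_zero]
          exact (hV w).mp hw i (not_lt.mp hi)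
      · by_cases hj : j.1 < r
        · exact Ideal.mul_mem_right _ _ (h i j hj)
        · simp [w', hj]
    have h5 : P' *ᵥ w = Φ *ᵥ (Q *ᵥ w') + P' *ᵥ (w - (P * Φ * Q) *ᵥ w') := by
      rw [Matrix.mulVec_sub]
      have h6 : P' *ᵥ ((P * Φ * Q) *ᵥ w') = Φ *ᵥ (Q *ᵥ w') := by
        rw [Matrix.mulVec_mulVec, Matrix.mulVec_mulVec, ← Matrix.mul_assoc, ← Matrix.mul_assoc,
          hP'P, Matrix.one_mul]
      rw [h6]
      abel
    rw [h5]
    exact Submodule.add_mem_sup ⟨_, rfl⟩ (mulVec_mem_UI _ h4)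
  refine Module.length_le_of_surjective (Submodule.mapQ V _ P'.mulVecLin hle) ?_
  intro z
  obtain ⟨z, rfl⟩ := Submodule.Quotient.mk_surjective _ z
  refine ⟨Submodule.Quotient.mk (P *ᵥ z), ?_⟩
  rw [Submodule.mapQ_apply, Matrix.mulVecLin_apply, Matrix.mulVec_mulVec, hP'P,
    Matrix.one_mulVec]

end Beta

end Vale.Agent.P202
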