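import Vale.Agent.P202.W

namespace Vale.Agent.P202

open Finset Matrix IsLocalRing

section JIR

variable {R : Type*} [CommRing R] {ι ι' : Type*} [Fintype ι] [Fintype ι'] {a : ℕ}

theorem JI_mul_right {Φ : Matrix (Fin a) ι R} (V : Matrix ι ι' R) :
    JI (Φ * V) a ≤ JI Φ a := by
  refine JI_top_le fun Q => ?_
  rw [Matrix.mul_assoc]
  exact mem_JI_top _

theorem JI_swap (A B : Matrix (Fin a) (Fin a) R) : JI (fromCols (-B) A) a = JI (fromCols A B) a := by
  have h1 : fromCols (-B) A = fromCols A B * (fromBlocks 0 1 (-1) 0 :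
      Matrix (Fin a ⊕ Fin a) (Fin a ⊕ Fin a) R) := by
    rw [Matrix.fromCols_mul_fromBlocks]
    simp
  have h2 : fromCols A B = fromCols (-B) A * (fromBlocks 0 (-1) 1 0 :
      Matrix (Fin a ⊕ Fin a) (Fin a ⊕ Fin a) R) := by
    rw [Matrix.fromCols_mul_fromBlocks]
    simp
  apply le_antisymm
  · rw [h1]; exact JI_mul_right _
  · nth_rw 1 [h2]; exact JI_mul_right _

theorem JI_dual (X Y : Matrix (Fin a) (Fin a) R) (hXY : X * Y = Y * X) :
    JI (fromRows (-Y) X)ᵀ a = JI (fromCols X Y) a := by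
  rw [JI_cols_eq X Y hXY, transpose_fromRows, transpose_neg, JI_swap]

end JIR

section Main

variable {R : Type*} [CommRing R] [IsLocalRing R] [IsNoetherianRing R] {a : ℕ}

omit [IsNoetherianRing R] in
theorem Pm_JI {ι : Type*} [Fintype ι] [DecidableEq ι] (Φ : Matrix (Fin a) ι R) {c : ℕ}
    (h : UI (Fin a) (maximalIdeal R ^ c) ≤ LinearMap.range Φ.mulVecLin) (t : ℕ) (ht : t ≤ a) :
    Pm (JI Φ t) := by
  refine ⟨c * t, ?_⟩
  rw [pow_mul]
  refine pow_le_of_prod t fun y hy => ?_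
  have hu : ∀ q : Fin t, ∃ u : ι → R, Φ *ᵥ u = Pi.single (Fin.castLE ht q) (y q) := by
    intro q
    have h1 : (Pi.single (Fin.castLE ht q) (y q) : Fin a → R) ∈
        UI (Fin a) (maximalIdeal R ^ c) := by
      intro i
      rw [Pi.single_apply]
      split_ifs
      · exact hy q
      · exact Ideal.zero_mem _
    obtain ⟨u, hu⟩ := h h1
    exact ⟨u, hu⟩
  choose u hu using hu
  refine Ideal.subset_span ⟨ht, Matrix.of fun c q => u q c, ?_⟩
  have h1 : (Φ.submatrix (Fin.castLE ht) id) * (Matrix.of fun c q => u q c) =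
      Matrix.diagonal y := by
    ext p q
    have h2 := congrFun (hu q) (Fin.castLE ht p)
    rw [Matrix.mulVec, dotProduct, Pi.single_apply] at h2
    rw [Matrix.mul_apply, Matrix.diagonal_apply]
    simp only [Matrix.submatrix_apply, Matrix.of_apply, id]
    rw [h2]
    have h3 : (Fin.castLE ht p = Fin.castLE ht q) ↔ p = q := by
      rw [Fin.ext_iff, Fin.ext_iff]; rfl
    simp only [h3]
    split_ifs with h4
    · rw [h4]
    · rfl
  rw [h1, Matrix.det_diagonal]

theorem W_matrix (hG : Good R) (X Y : Matrix (Fin a) (Fin a) R) (hXY : X * Y = Y * X) (l₀ : ℕ)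
    (hl₀ : Module.length R ((Fin a → R) ⧸ LinearMap.range (fromCols X Y).mulVecLin) = l₀)
    (E₀ K₀ : ℕ) (hE : ∀ k : ℕ, (E₀ : ℤ) * k ^ 2 ≤ 2 * hh (maximalIdeal R ^ k) + K₀ * k + K₀) :
    ∃ β : ℕ, Module.length R ((Fin a → R) ⧸ (LinearMap.range (fromCols X Y).mulVecLin ⊔
      UI (Fin a) (maximalIdeal R))) ≤ β ∧ β * E₀ ≤ l₀ := by
  set Φ := fromCols X Y with hΦ
  set Ψ := fromRows (-Y) X with hΨ
  have hΦΨ : Φ * Ψ = 0 := by
    rw [hΦ, hΨ, fromCols_mul_fromRows, Matrix.mul_neg, hXY]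
    simp
  obtain ⟨r, hr, P, P', Q, hPP', hP'P, hrow, hQ⟩ := gauss Φ
  obtain ⟨r2, hr2, P2, P2', Q2, hPP2, hP2P, hrow2, hQ2⟩ := gauss Ψᵀ
  refine ⟨a - r, beta_bound Φ hP'P hQ, ?_⟩
  set Φ1 := P * Φ with hΦ1
  set Φ2 := P2 * Ψᵀ with hΦ2
  set Ψ1 := Φ2ᵀ.submatrix id Fin.rev with hΨ1
  have hd1 : JI Φ1 a = JI Φ a := JI_mul_left_eq hP'P
  have hd2 : JI Φ2 a = JI Φ a := by
    rw [hΦ2, JI_mul_left_eq hP2P, hΨ, JI_dual X Y hXY]
  have hK0 : KI Ψ1 0 = JI Φ1 a := by rw [hΨ1, KI_zero_eq, hd2, hd1]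
  have hfin : Module.length R ((Fin a → R) ⧸ LinearMap.range Φ.mulVecLin) ≠ ⊤ := by
    rw [hl₀]; exact ENat.natCast_ne_top l₀
  obtain ⟨c, hc⟩ := UI_le_of_length _ hfin
  have hc1 : UI (Fin a) (maximalIdeal R ^ c) ≤ LinearMap.range Φ1.mulVecLin := by
    intro w hw
    obtain ⟨u, hu⟩ := hc (mulVec_mem_UI P' hw)
    refine ⟨u, ?_⟩
    rw [Matrix.mulVecLin_apply] at hu ⊢
    rw [hΦ1, ← Matrix.mulVec_mulVec, hu, Matrix.mulVec_mulVec, hPP', Matrix.one_mulVec]
  have hJPm : ∀ t, t ≤ a → Pm (JI Φ1 t) := fun t ht => Pm_JI Φ1 hc1 t ht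
  have hKmono : ∀ i, i ≤ a → KI Ψ1 0 ≤ KI Ψ1 i := by
    intro i
    induction i with
    | zero => intro _; exact le_rfl
    | succ i ih =>
      intro hi
      exact (ih (by omega)).trans (KI_le_succ Ψ1 i (by omega))
  let G : ℕ → Ideal R := fun t => if t ≤ a then JI Φ1 t else if t ≤ 2 * a then KI Ψ1 (t - a) else ⊤
  have hGle : ∀ t, t ≤ a → G t = JI Φ1 t := fun t ht => if_pos ht
  have hGgt : ∀ t, a < t → t ≤ 2 * a → G t = KI Ψ1 (t - a) := fun t h1 h2 => by
    show (if t ≤ a then JI Φ1 t else if t ≤ 2 * a then KI Ψ1 (t - a) else ⊤) = _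
    rw [if_neg (by omega), if_pos h2]
  have hGge : ∀ t, a ≤ t → t ≤ 2 * a → G t = KI Ψ1 (t - a) := by
    intro t h1 h2
    rcases Nat.lt_or_ge a t with h | h
    · exact hGgt t h h2
    · obtain rfl : t = a := by omega
      rw [hGle t le_rfl, Nat.sub_self, hK0]
  have hGbig : ∀ t, 2 * a < t → G t = ⊤ := fun t h1 => by
    show (if t ≤ a then JI Φ1 t else if t ≤ 2 * a then KI Ψ1 (t - a) else ⊤) = _
    rw [if_neg (by omega), if_neg (by omega)]
  refine abs_main hG G a (a - r) (a - r2) (by omega) (by omega) ?_ ?_ ?_ ?_ ?_ l₀ ?_ E₀ K₀ hE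
  · intro t
    rcases Nat.lt_or_ge a t with h | h
    · rcases Nat.lt_or_ge (2 * a) t with h' | h'
      · rw [hGbig t h']; exact Pm_top
      · rw [hGgt t h h']
        refine (hJPm a le_rfl).mono ?_
        rw [← hK0]
        exact hKmono _ (by omega)
    · rw [hGle t h]; exact hJPm t h
  · intro t ht
    rw [hGle t (by omega)]
    exact JI_eq_top hr hQ t (by omega)
  · intro t h1 h2
    rw [hGge t (by omega) h2]
    exact KI_eq_top hr2 hQ2 (t - a) (by omega) (by omega)
  · rw [hGle a le_rfl]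
    exact JI_le_pow hrow
  · rw [hGle a le_rfl, hd1, ← hd2]
    exact JI_le_pow hrow2
  · intro I hI
    set W := (UI (Fin a ⊕ Fin a) I).map Φ1.mulVecLin with hW
    set Z := (UI (Fin a ⊕ Fin a) I).comap Ψ1.mulVecLin with hZ
    let K : ℕ → Ideal R := fun t => if h : t < a then fl W ⟨t, h⟩ else
      if h2 : t - a < a then fl Z ⟨t - a, h2⟩ else ⊤
    have hKlt : ∀ t (h : t < a), K t = fl W ⟨t, h⟩ := fun t h => dif_pos h
    have hKge : ∀ t (h : a ≤ t) (h2 : t - a < a), K t = fl Z ⟨t - a, h2⟩ := fun t h h2 => by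
      show (if h : t < a then fl W ⟨t, h⟩ else
        if h2 : t - a < a then fl Z ⟨t - a, h2⟩ else ⊤) = _
      rw [dif_neg (by omega), dif_pos h2]
    refine ⟨K, ?_, ?_⟩
    · intro t ht
      rcases Nat.lt_or_ge t a with h | h
      · rw [hKlt t h, hGle t h.le, hGle (t + 1) h, Ideal.mul_le]
        intro x hx d hd
        exact flagJ Φ1 I t h x hx d hd
      · have h2 : t - a < a := by omega
        have h3 : t + 1 - a = t - a + 1 := by omega
        rw [hKge t h h2, hGge t h (by omega), hGge (t + 1) (by omega) (by omega), h3,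
          Ideal.mul_le]
        intro x hx d hd
        exact flagK Ψ1 I (t - a) h2 x hx d hd
    · have hsplit : ∑ t ∈ range (2 * a), cl (K t) =
          ∑ i : Fin a, cl (fl W i) + ∑ i : Fin a, cl (fl Z i) := by
        rw [two_mul, Finset.sum_range_add, Finset.sum_range, Finset.sum_range]
        congr 1
        · refine sum_congr rfl fun i _ => ?_
          rw [hKlt i.1 i.2]
        · refine sum_congr rfl fun i _ => ?_
          have h2 : a + i.1 - a < a := by
            have := i.2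
            omega
          rw [hKge (a + i.1) (by omega) h2]
          congr 2
          apply Fin.ext
          show a + i.1 - a = i.1
          omega
      rw [hsplit]
      have h1 : ∑ i : Fin a, cl (fl W i) ≤ Module.length R ((Fin a → R) ⧸ W) := sum_fl_le W
      have h2 : ∑ i : Fin a, cl (fl Z i) ≤ Module.length R ((Fin a → R) ⧸ Z) := sum_fl_le Z
      have hzero : ∀ v, Φ1.mulVecLin (Ψ1.mulVecLin v) = 0 := by
        intro v
        rw [Matrix.mulVecLin_apply, Matrix.mulVecLin_apply, Matrix.mulVec_mulVec]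
        have h3 : Φ1 * Ψ1 = (P * (Φ * Ψ) * P2ᵀ).submatrix id Fin.rev := by
          rw [hΨ1, hΦ2, hΦ1, transpose_mul, transpose_transpose]
          have : (Ψ * P2ᵀ).submatrix id Fin.rev = Ψ * P2ᵀ.submatrix id Fin.rev := rfl
          rw [this, Matrix.mul_assoc, ← Matrix.mul_assoc Φ]
          have h4 : (P * (Φ * Ψ) * P2ᵀ).submatrix id Fin.rev =
            (P * (Φ * Ψ)) * P2ᵀ.submatrix id Fin.rev := rfl
          rw [h4]
          simp only [Matrix.mul_assoc]
        rw [h3, hΦΨ]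
        simp
      have h3 := koszul_length Φ1.mulVecLin Ψ1.mulVecLin hzero (UI (Fin a ⊕ Fin a) I)
      have h4 : Module.length R ((Fin a → R) ⧸ LinearMap.range Φ1.mulVecLin) ≤ l₀ := by
        rw [← hl₀]
        have hle : LinearMap.range Φ.mulVecLin ≤
            (LinearMap.range Φ1.mulVecLin).comap P.mulVecLin := by
          rintro _ ⟨v, rfl⟩
          refine ⟨v, ?_⟩
          rw [Matrix.mulVecLin_apply, Matrix.mulVecLin_apply, Matrix.mulVecLin_apply,
            Matrix.mulVec_mulVec]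
        refine Module.length_le_of_surjective (Submodule.mapQ _ _ P.mulVecLin hle) ?_
        intro z
        obtain ⟨z, rfl⟩ := Submodule.Quotient.mk_surjective _ z
        refine ⟨Submodule.Quotient.mk (P' *ᵥ z), ?_⟩
        rw [Submodule.mapQ_apply, Matrix.mulVecLin_apply, Matrix.mulVec_mulVec, hPP',
          Matrix.one_mulVec]
      rw [length_UI] at h3
      have h5 : Fintype.card (Fin a ⊕ Fin a) = 2 * a := by
        rw [Fintype.card_sum, Fintype.card_fin]; ring
      rw [h5] at h3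
      refine (add_le_add h1 h2).trans (h3.trans ?_)
      gcongr

end Main

end Vale.Agent.P202
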