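import Vale.Agent.P202.W3

namespace Vale.Agent.P202

open Finset Matrix IsLocalRing

section Ring

variable {R S : Type*} [CommRing R] [CommRing S] [Algebra R S] {a : ℕ}
  (b : Module.Basis (Fin a) R S)

theorem mem_map_iff (I : Ideal R) (s : S) :
    s ∈ I.map (algebraMap R S) ↔ ∀ i, b.repr s i ∈ I := by
  constructor
  · intro hs
    refine Submodule.span_induction (p := fun s _ => ∀ i, b.repr s i ∈ I) ?_ ?_ ?_ ?_ hs
    · rintro _ ⟨r, hr, rfl⟩ i
      have h1 : algebraMap R S r = r • (1 : S) := by rw [Algebra.smul_def, mul_one]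
      rw [h1, map_smul, Finsupp.smul_apply, smul_eq_mul]
      exact I.mul_mem_right _ hr
    · intro i
      simp
    · intro x y _ _ hx hy i
      rw [map_add, Finsupp.add_apply]
      exact I.add_mem (hx i) (hy i)
    · intro c x _ hx i
      rw [smul_eq_mul, ← Algebra.leftMulMatrix_mulVec_repr]
      have h1 : (⇑(b.repr x)) ∈ UI (Fin a) I := hx
      exact mulVec_mem_UI _ h1 i
  · intro hs
    rw [← b.sum_repr s]
    refine Ideal.sum_mem _ fun i _ => ?_
    rw [Algebra.smul_def]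
    exact Ideal.mul_mem_right _ _ (Ideal.mem_map_of_mem _ (hs i))

theorem mem_iff_range (x1 x2 : S) (I : Ideal R) (s : S) :
    s ∈ Ideal.span {x1} ⊔ Ideal.span {x2} ⊔ I.map (algebraMap R S) ↔
      b.equivFun s ∈ LinearMap.range (fromCols (Algebra.leftMulMatrix b x1)
        (Algebra.leftMulMatrix b x2)).mulVecLin ⊔ UI (Fin a) I := by
  have key : ∀ u v : S, b.equivFun (x1 * u + x2 * v) = (fromCols (Algebra.leftMulMatrix b x1)
        (Algebra.leftMulMatrix b x2)).mulVecLin (Sum.elim (b.repr u) (b.repr v)) := by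
    intro u v
    rw [Matrix.mulVecLin_apply, fromCols_mulVec_sumElim, Algebra.leftMulMatrix_mulVec_repr,
      Algebra.leftMulMatrix_mulVec_repr]
    funext i
    rw [Module.Basis.equivFun_apply, map_add]
    rfl
  constructor
  · intro hs
    obtain ⟨p, hp, q, hq, rfl⟩ := Submodule.mem_sup.mp hs
    obtain ⟨p1, hp1, p2, hp2, rfl⟩ := Submodule.mem_sup.mp hp
    obtain ⟨u, rfl⟩ := Ideal.mem_span_singleton.mp hp1
    obtain ⟨v, rfl⟩ := Ideal.mem_span_singleton.mp hp2
    rw [map_add]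
    exact Submodule.add_mem_sup ⟨_, (key u v).symm⟩ fun i => (mem_map_iff b I q).mp hq i
  · intro hs
    obtain ⟨_, ⟨w, rfl⟩, t, ht, hst⟩ := Submodule.mem_sup.mp hs
    set u := b.equivFun.symm (fun i => w (Sum.inl i)) with hu
    set v := b.equivFun.symm (fun i => w (Sum.inr i)) with hv
    set q := b.equivFun.symm t with hq
    have hw : w = Sum.elim (b.repr u) (b.repr v) := by
      have h1 : (⇑(b.repr u)) = fun i => w (Sum.inl i) := by
        rw [← Module.Basis.equivFun_apply, hu, LinearEquiv.apply_symm_apply]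
      have h2 : (⇑(b.repr v)) = fun i => w (Sum.inr i) := by
        rw [← Module.Basis.equivFun_apply, hv, LinearEquiv.apply_symm_apply]
      rw [h1, h2]
      funext i
      cases i <;> rfl
    have hs2 : s = (x1 * u + x2 * v) + q := by
      apply b.equivFun.injective
      rw [map_add, key, ← hw, hq, LinearEquiv.apply_symm_apply, hst]
    rw [hs2]
    refine Submodule.add_mem_sup (Submodule.add_mem_sup ?_ ?_) ?_
    · exact Ideal.mem_span_singleton.mpr ⟨u, rfl⟩
    · exact Ideal.mem_span_singleton.mpr ⟨v, rfl⟩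
    · rw [mem_map_iff b]
      intro i
      rw [← Module.Basis.equivFun_apply, hq, LinearEquiv.apply_symm_apply]
      exact ht i

theorem length_eq_cl [IsLocalRing R] [IsLocalRing S] [IsLocalHom (algebraMap R S)]
    (J : Ideal S) (V : Submodule R (Fin a → R)) (h : ∀ s, s ∈ J ↔ b.equivFun s ∈ V) :
    Module.length R ((Fin a → R) ⧸ V) =
      cl J * Module.length (ResidueField R) (ResidueField S) := by
  have h1 : Module.length R (S ⧸ J.restrictScalars R) = Module.length R ((Fin a → R) ⧸ V) :=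
    length_pull (R := R) (R' := R) Function.surjective_id (b.equivFun : S →ₗ[R] (Fin a → R))
      b.equivFun.surjective _ V fun v => h v
  rw [← h1, (Submodule.Quotient.restrictScalarsEquiv R J).length_eq]
  exact IsLocalRing.length_restrictScalars R S (S ⧸ J)

end Ring

theorem W_ring {R S : Type*} [CommRing R] [IsLocalRing R] [IsNoetherianRing R]
    [CommRing S] [IsLocalRing S] [Algebra R S] [IsLocalHom (algebraMap R S)] {a : ℕ}
    (b : Module.Basis (Fin a) R S) (hinf : Infinite (ResidueField R)) (𝔤 : Ideal R)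
    (hdim : ringKrullDim (R ⧸ 𝔤) ≤ 2) (x1 x2 : S) (E₀ K₀ : ℕ)
    (hE : ∀ k : ℕ, (E₀ : ℤ) * k ^ 2 ≤
      2 * (cl (𝔤 ⊔ maximalIdeal R ^ k)).toNat + K₀ * k + K₀) :
    cl (Ideal.span {x1} ⊔ Ideal.span {x2} ⊔ (maximalIdeal R).map (algebraMap R S)) * E₀ ≤
      cl (Ideal.span {x1} ⊔ Ideal.span {x2} ⊔ 𝔤.map (algebraMap R S)) := by
  have hfin : Module.Finite R S := Module.Finite.of_basis b
  set f := Module.length (ResidueField R) (ResidueField S) with hf
  have hfne : f ≠ ⊤ := by
    rw [hf]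
    exact Module.length_ne_top
  have hf0 : f ≠ 0 := by
    rw [hf]
    exact (Module.length_pos).ne'
  obtain ⟨f', hf'⟩ := ENat.ne_top_iff_exists.mp hfne
  have hf1 : 1 ≤ f' := by
    rw [← hf'] at hf0
    exact Nat.one_le_iff_ne_zero.mpr (by exact_mod_cast hf0)
  by_cases htop : cl (Ideal.span {x1} ⊔ Ideal.span {x2} ⊔ 𝔤.map (algebraMap R S)) = ⊤
  · rw [htop]; exact le_top
  obtain ⟨L, hL⟩ := ENat.ne_top_iff_exists.mp htop
  have h1 := length_eq_cl b _ _ (mem_iff_range b x1 x2 𝔤)
  have h2 := length_eq_cl b _ _ (mem_iff_range b x1 x2 (maximalIdeal R))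
  have hXY : Algebra.leftMulMatrix b x1 * Algebra.leftMulMatrix b x2 =
      Algebra.leftMulMatrix b x2 * Algebra.leftMulMatrix b x1 := by
    rw [← map_mul, ← map_mul, mul_comm]
  obtain ⟨β, hβ1, hβ2⟩ := W_quot hinf 𝔤 hdim _ _ hXY (L * f') (by
    rw [h1, ← hL, ← hf, ← hf']
    push_cast
    exact le_rfl) E₀ K₀ hE
  rw [h2, ← hf, ← hf'] at hβ1
  have hBne : cl (Ideal.span {x1} ⊔ Ideal.span {x2} ⊔ (maximalIdeal R).map (algebraMap R S)) ≠
      ⊤ := by
    intro h3
    rw [h3, ENat.top_mul (by exact_mod_cast (by omega : f' ≠ 0))] at hβ1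
    exact absurd (top_le_iff.mp hβ1) (ENat.natCast_ne_top β)
  obtain ⟨B, hB⟩ := ENat.ne_top_iff_exists.mp hBne
  rw [← hB] at hβ1 ⊢
  rw [← hL]
  have h4 : B * f' ≤ β := by exact_mod_cast hβ1
  have h5 : B * E₀ ≤ L := by
    refine Nat.le_of_mul_le_mul_right ?_ hf1
    calc B * E₀ * f' = B * f' * E₀ := by ring
      _ ≤ β * E₀ := Nat.mul_le_mul_right _ h4
      _ ≤ L * f' := hβ2
  exact_mod_cast h5

end Vale.Agent.P202
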