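import Vale.Agent.P202.GenW

namespace Vale.Agent.P202

open Finset Matrix IsLocalRing

section Mx

variable {P T : Type*} [CommRing P] [CommRing T] [Algebra P T] {a : ℕ}

theorem exists_matrix {V : Submodule P T} (p : (Fin a → P) →ₗ[P] V)
    (hp : Function.Surjective p) (e : T) (he : ∀ v ∈ V, e * v ∈ V) :
    ∃ M : Matrix (Fin a) (Fin a) P, ∀ v, ((p (M *ᵥ v) : V) : T) = e * (p v : V) := by
  choose col hcol using fun j => hp ⟨e * (p (Pi.single j 1) : V), he _ (p (Pi.single j 1)).2⟩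
  refine ⟨Matrix.of fun i j => col j i, fun v => ?_⟩
  have h1 : (Matrix.of fun i j => col j i) *ᵥ v = ∑ j, v j • col j := by
    funext i
    rw [Finset.sum_apply]
    simp only [Matrix.mulVec, dotProduct, Matrix.of_apply, Pi.smul_apply, smul_eq_mul]
    exact Finset.sum_congr rfl fun j _ => mul_comm _ _
  have h2 : v = ∑ j, v j • (Pi.single j 1 : Fin a → P) := by
    ext j
    simp [Pi.single_apply]
  rw [h1, map_sum]
  nth_rw 2 [h2]
  rw [map_sum, AddSubmonoidClass.coe_finsetSum, AddSubmonoidClass.coe_finsetSum, Finset.mul_sum]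
  refine Finset.sum_congr rfl fun j _ => ?_
  rw [map_smul, map_smul, hcol]
  show v j • (e * _) = e * (v j • _)
  rw [mul_smul_comm]

theorem entries_mem {V : Submodule P T} {p : (Fin a → P) →ₗ[P] V} {I : Ideal P}
    (hker : ∀ v, p v = 0 → v ∈ UI (Fin a) I) (D : Matrix (Fin a) (Fin a) P)
    (hD : ∀ v, ((p (D *ᵥ v) : V) : T) = 0) (i j : Fin a) : D i j ∈ I := by
  have h1 := hker _ (Subtype.ext (hD (Pi.single j 1))) i
  rwa [Matrix.mulVec_single_one] at h1

end Mx

section Rng

variable {P : Type*} [CommRing P] [IsLocalRing P] [IsNoetherianRing P] {a : ℕ}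

theorem UI_le_range (c M : ℕ) (hM : c + 1 ≤ M) (𝔤 : Ideal P) (tc tg : Finset P)
    (htc : Ideal.span (tc : Set P) = maximalIdeal P ^ c) (htg : ∀ g ∈ tg, g ∈ 𝔤)
    (X Y : Matrix (Fin a) (Fin a) P) (S1 S2 : P → Matrix (Fin a) (Fin a) P)
    (Sg : P → P → Matrix (Fin a) (Fin a) P)
    (hD : ∀ y ∈ tc, ∀ i j, (y • (1 : Matrix (Fin a) (Fin a) P) - X * S1 y - Y * S2 y -
      ∑ g ∈ tg, g • Sg y g) i j ∈ maximalIdeal P ^ M) :
    UI (Fin a) (maximalIdeal P ^ c) ≤ LinearMap.range (fromCols X Y).mulVecLin ⊔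
      UI (Fin a) 𝔤 := by
  refine UI_nak c _ ?_
  set N := (LinearMap.range (fromCols X Y).mulVecLin ⊔ UI (Fin a) 𝔤) ⊔
    UI (Fin a) (maximalIdeal P ^ (c + 1)) with hN
  have key : ∀ i : Fin a, ∀ z ∈ maximalIdeal P ^ c, z • (Pi.single i 1 : Fin a → P) ∈ N := by
    intro i z hz
    rw [← htc] at hz
    refine Submodule.span_induction
      (p := fun z _ => z • (Pi.single i 1 : Fin a → P) ∈ N) ?_ ?_ ?_ ?_ hz
    · intro y hy
      set D := y • (1 : Matrix (Fin a) (Fin a) P) - X * S1 y - Y * S2 y -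
        ∑ g ∈ tg, g • Sg y g with hDd
      have h1 : y • (1 : Matrix (Fin a) (Fin a) P) = X * S1 y + Y * S2 y +
          ∑ g ∈ tg, g • Sg y g + D := by rw [hDd]; abel
      have h2 : y • (Pi.single i 1 : Fin a → P) =
          (y • (1 : Matrix (Fin a) (Fin a) P)) *ᵥ (Pi.single i 1 : Fin a → P) := by
        rw [Matrix.smul_mulVec, Matrix.one_mulVec]
      rw [h2, h1, Matrix.add_mulVec, Matrix.add_mulVec, Matrix.add_mulVec]
      refine N.add_mem (N.add_mem ?_ ?_) ?_
      · refine Submodule.mem_sup_left (Submodule.mem_sup_left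
          ⟨Sum.elim (S1 y *ᵥ Pi.single i 1) (S2 y *ᵥ Pi.single i 1), ?_⟩)
        rw [Matrix.mulVecLin_apply, fromCols_mulVec_sumElim, Matrix.mulVec_mulVec,
          Matrix.mulVec_mulVec]
      · refine Submodule.mem_sup_left (Submodule.mem_sup_right fun j => ?_)
        rw [Matrix.mulVec_single_one, Matrix.col_apply, Matrix.sum_apply]
        exact Ideal.sum_mem _ fun g hg => by
          rw [Matrix.smul_apply, smul_eq_mul]
          exact Ideal.mul_mem_right _ _ (htg g hg)
      · refine Submodule.mem_sup_right fun j => ?_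
        rw [Matrix.mulVec_single_one, Matrix.col_apply]
        exact Ideal.pow_le_pow_right hM (hD y (by exact_mod_cast hy) j i)
    · rw [zero_smul]; exact N.zero_mem
    · intro x y _ _ hx hy
      rw [add_smul]; exact N.add_mem hx hy
    · intro c x _ hx
      rw [smul_eq_mul, mul_smul]; exact N.smul_mem _ hx
  intro w hw
  have h1 : w = ∑ i, w i • (Pi.single i 1 : Fin a → P) := by
    ext j
    simp [Pi.single_apply]
  rw [h1]
  exact N.sum_mem fun i _ => key i _ (hw i)

end Rng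

end Vale.Agent.P202
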