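import Vale.Agent.P202.WT

namespace Vale.Agent.P202

open Finset Matrix IsLocalRing

section WT2

variable {P T : Type*} [CommRing P] [CommRing T] [Algebra P T]

theorem mul_ne_top' (n : ℕ) {x : ℕ∞} (hx : x ≠ ⊤) : (n : ℕ∞) * x ≠ ⊤ := by
  obtain ⟨m, rfl⟩ := ENat.ne_top_iff_exists.mp hx
  exact_mod_cast ENat.natCast_ne_top (n * m)

theorem rl_act_le {t : Set T} {V : Submodule P T} (hle : actV t V ≤ V) (N : ℕ)
    (h : N * rl ⊥ (Ideal.span t) ≤ Module.length P (actV t V))
    (hV : Module.length P V = N * cl (⊥ : Ideal T)) (hfin : cl (⊥ : Ideal T) ≠ ⊤) :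
    rl (actV t V) V ≤ N * cl (Ideal.span t) := by
  have h1 := rl_add (bot_le : ⊥ ≤ actV t V) hle
  rw [rl_bot, rl_bot, hV] at h1
  have h2 := cl_eq_rl_add (bot_le : ⊥ ≤ Ideal.span t)
  have h3 : rl ⊥ (Ideal.span t) ≠ ⊤ := fun h => hfin (by rw [h2, h, top_add])
  obtain ⟨m, hm⟩ := ENat.ne_top_iff_exists.mp h3
  rw [h2] at h1
  rw [← hm] at h1 h
  have h4 : (N : ℕ∞) * m + rl (actV t V) V ≤ (N : ℕ∞) * m + N * cl (Ideal.span t) := by
    calc (N : ℕ∞) * m + rl (actV t V) V ≤ Module.length P (actV t V) + rl (actV t V) V := by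
          gcongr
      _ = N * (m + cl (Ideal.span t)) := h1.symm
      _ = _ := by rw [mul_add]
  have h5 : (N : ℕ∞) * m ≠ ⊤ := by exact_mod_cast ENat.natCast_ne_top (N * m)
  exact (ENat.add_le_add_iff_left h5).mp h4

variable [IsLocalRing P] [IsNoetherianRing P] [IsLocalRing T] [IsLocalHom (algebraMap P T)]

theorem W_T (hinf : Infinite (ResidueField P)) [IsPrecomplete (maximalIdeal P) P]
    (hint : Algebra.IsIntegral P T) (c : ℕ)
    (hM : ∀ r ∈ maximalIdeal P ^ (2 * c + 1), algebraMap P T r = 0)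
    (hnil : ∃ K, maximalIdeal T ^ K = ⊥) (l : ℕ)
    (hl : cl ((maximalIdeal P).map (algebraMap P T)) ≤ l)
    (hbot : cl (⊥ : Ideal T) ≠ ⊤)
    (hbot2 : l * cl (maximalIdeal P ^ (2 * c + 1)) ≤ cl (⊥ : Ideal T))
    (𝔤 : Ideal P) (hdim : ringKrullDim (P ⧸ 𝔤) ≤ 2) (x1 x2 : T)
    (hc : ∀ y ∈ maximalIdeal P ^ c, algebraMap P T y ∈
      Ideal.span {x1} ⊔ Ideal.span {x2} ⊔ 𝔤.map (algebraMap P T))
    (L : ℕ) (hL : cl (Ideal.span {x1} ⊔ Ideal.span {x2} ⊔ 𝔤.map (algebraMap P T)) ≤ L)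
    (B : ℕ) (hB : B ≤ cl (Ideal.span {x1} ⊔ Ideal.span {x2} ⊔
      (maximalIdeal P).map (algebraMap P T)))
    (E₀ K₀ : ℕ) (hE : ∀ k : ℕ, (E₀ : ℤ) * k ^ 2 ≤
      2 * (cl (𝔤 ⊔ maximalIdeal P ^ k)).toNat + K₀ * k + K₀) : B * E₀ ≤ L := by
  classical
  set ρ := algebraMap P T with hρ
  have halg : Algebra.IsAlgebraic (ResidueField P) (ResidueField T) := by
    refine ⟨fun x => ?_⟩
    obtain ⟨t, rfl⟩ := residue_surjective x
    have h1 : IsIntegral P (residue T t) :=
      (hint.isIntegral t).map (IsScalarTower.toAlgHom P T (ResidueField T))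
    exact (h1.tower_top (A := ResidueField P)).isAlgebraic
  have hPM : cl (maximalIdeal P ^ (2 * c + 1)) ≠ ⊤ := ((Pm_max (S := P)).pow _).cl_ne_top
  have hfl : ∀ V : Submodule P T, V.FG → Module.length P V ≠ ⊤ := by
    intro V hV
    obtain ⟨n, g, hg⟩ := Submodule.fg_iff_exists_fin_generating_family.mp hV
    let q : (Fin n → P) →ₗ[P] T := Fintype.linearCombination P g
    have hqr : LinearMap.range q = V := by rw [Fintype.range_linearCombination, hg]
    have hker : UI (Fin n) (maximalIdeal P ^ (2 * c + 1)) ≤ LinearMap.ker q := by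
      intro v hv
      rw [LinearMap.mem_ker]
      show ∑ i, v i • g i = 0
      refine Finset.sum_eq_zero fun i _ => ?_
      rw [Algebra.smul_def, hM _ (hv i), zero_mul]
    have h1 : Module.length P V ≤
        Module.length P ((Fin n → P) ⧸ UI (Fin n) (maximalIdeal P ^ (2 * c + 1))) := by
      rw [← hqr, ← q.quotKerEquivRange.length_eq]
      exact Module.length_le_of_surjective (Submodule.factor hker)
        (Submodule.factor_surjective hker)
    rw [length_UI] at h1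
    refine ne_top_of_le_ne_top ?_ h1
    exact mul_ne_top' _ hPM
  obtain ⟨tm, htm⟩ := (IsNoetherian.noetherian (maximalIdeal P) : (maximalIdeal P).FG)
  obtain ⟨tg, htg⟩ := (IsNoetherian.noetherian 𝔤 : 𝔤.FG)
  obtain ⟨tc, htc⟩ := (IsNoetherian.noetherian (maximalIdeal P ^ c) : (maximalIdeal P ^ c).FG)
  have htmI : Ideal.span ((tm.image ρ : Finset T) : Set T) = (maximalIdeal P).map ρ := by
    rw [Finset.coe_image, ← Ideal.map_span]
    congr 1
  have htgI : Ideal.span ((tg.image ρ : Finset T) : Set T) = 𝔤.map ρ := by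
    rw [Finset.coe_image, ← Ideal.map_span]
    congr 1
  set t1 : Finset T := tm.image ρ with ht1
  set t2 : Finset T := insert x1 (insert x2 (tg.image ρ)) with ht2
  set t3 : Finset T := insert x1 (insert x2 (tm.image ρ)) with ht3
  have ht2I : Ideal.span (t2 : Set T) = Ideal.span {x1} ⊔ Ideal.span {x2} ⊔ 𝔤.map ρ := by
    rw [ht2, Finset.coe_insert, Finset.coe_insert, Ideal.span_insert, Ideal.span_insert, htgI,
      sup_assoc]
  have ht3I : Ideal.span (t3 : Set T) = Ideal.span {x1} ⊔ Ideal.span {x2} ⊔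
      (maximalIdeal P).map ρ := by
    rw [ht3, Finset.coe_insert, Finset.coe_insert, Ideal.span_insert, Ideal.span_insert, htmI,
      sup_assoc]
  have hrep : ∀ y : P, ∃ (s1 s2 : T) (σ : P → T), y ∈ tc →
      ρ y = x1 * s1 + x2 * s2 + ∑ g ∈ tg, ρ g * σ g := by
    intro y
    by_cases hy : y ∈ tc
    · have h1 : y ∈ maximalIdeal P ^ c := by
        rw [← htc]
        exact Submodule.subset_span (by exact_mod_cast hy)
      obtain ⟨u, hu, w, hw, huw⟩ := Submodule.mem_sup.mp (hc y h1)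
      obtain ⟨u1, hu1, u2, hu2, rfl⟩ := Submodule.mem_sup.mp hu
      obtain ⟨s1, rfl⟩ := Ideal.mem_span_singleton.mp hu1
      obtain ⟨s2, rfl⟩ := Ideal.mem_span_singleton.mp hu2
      have h2 : ∀ w ∈ 𝔤.map ρ, ∃ σ : P → T, w = ∑ g ∈ tg, ρ g * σ g := by
        intro w hw
        have h3 : 𝔤.map ρ = Ideal.span (ρ '' (tg : Set P)) := by
          rw [← Ideal.map_span]
          congr 1
          exact htg.symm
        rw [h3] at hw
        obtain ⟨σ, hσ⟩ := (Submodule.mem_span_image_finset_iff_exists_fun' T).mp hw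
        refine ⟨σ, ?_⟩
        rw [← hσ]
        exact Finset.sum_congr rfl fun g _ => mul_comm _ _
      obtain ⟨σ, hσ⟩ := h2 w hw
      exact ⟨s1, s2, σ, fun _ => by rw [← huw, hσ]⟩
    · exact ⟨0, 0, 0, fun h => absurd h hy⟩
  choose s1 s2 σ hrep using hrep
  let E : Finset T := {x1, x2} ∪ tc.image s1 ∪ tc.image s2 ∪ tc.biUnion fun y => tg.image (σ y)
  have hEx1 : x1 ∈ E := by simp [E]
  have hEx2 : x2 ∈ E := by simp [E]
  have hEs1 : ∀ y ∈ tc, s1 y ∈ E := fun y hy => by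
    refine Finset.mem_union_left _ (Finset.mem_union_left _ (Finset.mem_union_right _ ?_))
    exact Finset.mem_image_of_mem _ hy
  have hEs2 : ∀ y ∈ tc, s2 y ∈ E := fun y hy =>
    Finset.mem_union_left _ (Finset.mem_union_right _ (Finset.mem_image_of_mem _ hy))
  have hEσ : ∀ y ∈ tc, ∀ g ∈ tg, σ y g ∈ E := fun y hy g hg =>
    Finset.mem_union_right _ (Finset.mem_biUnion.mpr ⟨y, hy, Finset.mem_image_of_mem _ hg⟩)
  obtain ⟨V, N, hVfg, hN, hVE, hVlen, hV𝒯⟩ := lemV halg hint hfl hnil hbot E {t1, t2, t3}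
  obtain ⟨hA1, -⟩ := hV𝒯 t1 (by simp)
  obtain ⟨hA2, -⟩ := hV𝒯 t2 (by simp)
  obtain ⟨-, hA3⟩ := hV𝒯 t3 (by simp)
  have hle1 : actV (t1 : Set T) V ≤ V := by
    refine actV_le fun u hu v hv => ?_
    rw [ht1, Finset.mem_coe, Finset.mem_image] at hu
    obtain ⟨r, -, rfl⟩ := hu
    rw [hρ, ← Algebra.smul_def]
    exact V.smul_mem _ hv
  have hle2 : actV (t2 : Set T) V ≤ V := by
    refine actV_le fun u hu v hv => ?_
    rw [ht2, Finset.mem_coe, Finset.mem_insert, Finset.mem_insert, Finset.mem_image] at hu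
    rcases hu with rfl | rfl | ⟨r, -, rfl⟩
    · exact hVE _ hEx1 v hv
    · exact hVE _ hEx2 v hv
    · rw [hρ, ← Algebra.smul_def]
      exact V.smul_mem _ hv
  have hr1 := rl_act_le hle1 N hA1 hVlen hbot
  have hr2 := rl_act_le hle2 N hA2 hVlen hbot
  rw [htmI] at hr1
  rw [ht2I] at hr2
  have hgen : Module.length P (V ⧸ (maximalIdeal P • (⊤ : Submodule P V))) ≤ (N * l : ℕ) := by
    have h1 : (actV (t1 : Set T) V).submoduleOf V ≤ maximalIdeal P • (⊤ : Submodule P V) := by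
      have h2 : actV (t1 : Set T) V ≤ (maximalIdeal P • (⊤ : Submodule P V)).map V.subtype := by
        refine actV_le fun u hu v hv => ?_
        rw [ht1, Finset.mem_coe, Finset.mem_image] at hu
        obtain ⟨r, hr, rfl⟩ := hu
        refine ⟨r • ⟨v, hv⟩, Submodule.smul_mem_smul ?_ trivial, ?_⟩
        · rw [← htm]
          exact Submodule.subset_span (by exact_mod_cast hr)
        · rw [hρ, ← Algebra.smul_def]
          rfl
      intro v hv
      obtain ⟨w, hw, hwv⟩ := h2 hv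
      have : w = v := Subtype.ext hwv
      rwa [← this]
    refine (Module.length_le_of_surjective (Submodule.factor h1)
      (Submodule.factor_surjective h1)).trans (hr1.trans ?_)
    push_cast
    gcongr
  set a := N * l with ha
  obtain ⟨p, hp⟩ := exists_surj (W := V) ((Submodule.fg_top V).mpr hVfg) a hgen
  have hpv : ∀ (v : Fin a → P), p v = ∑ i, v i • p (Pi.single i 1) := by
    intro v
    have h2 : v = ∑ j, v j • (Pi.single j 1 : Fin a → P) := by
      ext j
      simp [Pi.single_apply]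
    nth_rw 1 [h2]
    rw [map_sum]
    exact Finset.sum_congr rfl fun i _ => map_smul _ _ _
  have hUk : UI (Fin a) (maximalIdeal P ^ (2 * c + 1)) ≤ LinearMap.ker p := by
    intro v hv
    rw [LinearMap.mem_ker, hpv]
    refine Finset.sum_eq_zero fun i _ => Subtype.ext ?_
    show v i • ((p (Pi.single i 1) : V) : T) = 0
    rw [Algebra.smul_def, hM _ (hv i), zero_mul]
  have hkereq : UI (Fin a) (maximalIdeal P ^ (2 * c + 1)) = LinearMap.ker p := by
    refine eq_of_length hUk ?_ ?_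
    · rw [length_UI]
      exact mul_ne_top' _ hPM
    · rw [length_UI, (p.quotKerEquivOfSurjective hp).length_eq, hVlen, Fintype.card_fin, ha]
      push_cast
      rw [mul_assoc]
      gcongr
  have hker : ∀ v, p v = 0 → v ∈ UI (Fin a) (maximalIdeal P ^ (2 * c + 1)) := by
    intro v hv
    rw [hkereq]
    exact hv
  have hMx : ∀ e : T, ∃ Mx : Matrix (Fin a) (Fin a) P, (∀ v ∈ V, e * v ∈ V) →
      ∀ v, ((p (Mx *ᵥ v) : V) : T) = e * (p v : V) := by
    intro e
    by_cases he : ∀ v ∈ V, e * v ∈ V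
    · obtain ⟨Mx, h⟩ := exists_matrix p hp e he
      exact ⟨Mx, fun _ => h⟩
    · exact ⟨0, fun h => absurd h he⟩
  choose Mx hMx using hMx
  have hMxE : ∀ e ∈ E, ∀ v, ((p (Mx e *ᵥ v) : V) : T) = e * (p v : V) := fun e he =>
    hMx e (hVE e he)
  set X := Mx x1 with hX
  set Y := Mx x2 with hY
  have hpX := hMxE x1 hEx1
  have hpY := hMxE x2 hEx2
  have hXY : ∀ i j, (X * Y - Y * X) i j ∈ maximalIdeal P ^ (2 * c + 1) := by
    refine entries_mem hker _ fun v => ?_
    rw [Matrix.sub_mulVec, ← Matrix.mulVec_mulVec, ← Matrix.mulVec_mulVec, map_sub]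
    show ((p (X *ᵥ Y *ᵥ v) : V) : T) - ((p (Y *ᵥ X *ᵥ v) : V) : T) = 0
    rw [hpX, hpY, hpY, hpX]
    ring
  have hpsm : ∀ (y : P) (v : Fin a → P), ((p (y • v) : V) : T) = ρ y * (p v : V) := by
    intro y v
    rw [map_smul, hρ, ← Algebra.smul_def]
    rfl
  have hpsum : ∀ (s : Finset P) (f : P → Fin a → P), ((p (∑ g ∈ s, f g) : V) : T) =
      ∑ g ∈ s, ((p (f g) : V) : T) := by
    intro s f
    rw [map_sum, AddSubmonoidClass.coe_finsetSum]
  have htg' : ∀ g ∈ tg, g ∈ 𝔤 := fun g hg => by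
    rw [← htg]; exact Submodule.subset_span (by exact_mod_cast hg)
  have hrange1 : UI (Fin a) (maximalIdeal P ^ c) ≤ LinearMap.range (fromCols X Y).mulVecLin ⊔
      UI (Fin a) 𝔤 := by
    refine UI_le_range c (2 * c + 1) (by omega) 𝔤 tc tg htc htg' X Y (fun y => Mx (s1 y))
      (fun y => Mx (s2 y)) (fun y g => Mx (σ y g)) fun y hy => ?_
    refine entries_mem hker _ fun v => ?_
    rw [Matrix.sub_mulVec, Matrix.sub_mulVec, Matrix.sub_mulVec, Matrix.sum_mulVec,
      Matrix.smul_mulVec, Matrix.one_mulVec, ← Matrix.mulVec_mulVec, ← Matrix.mulVec_mulVec,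
      map_sub, map_sub, map_sub]
    show ((p (y • v) : V) : T) - ((p (X *ᵥ Mx (s1 y) *ᵥ v) : V) : T) -
      ((p (Y *ᵥ Mx (s2 y) *ᵥ v) : V) : T) -
      ((p (∑ g ∈ tg, (g • Mx (σ y g)) *ᵥ v) : V) : T) = 0
    rw [hpsum, hpX, hpY, hMxE _ (hEs1 y hy), hMxE _ (hEs2 y hy), hpsm]
    have h1 : ∀ g ∈ tg, ((p ((g • Mx (σ y g)) *ᵥ v) : V) : T) = ρ g * σ y g * (p v : V) := by
      intro g hg
      rw [Matrix.smul_mulVec, hpsm, hMxE _ (hEσ y hy g hg), mul_assoc]
    rw [Finset.sum_congr rfl h1, ← Finset.sum_mul, hrep y hy]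
    ring
  have hrange2 : UI (Fin a) (maximalIdeal P ^ c) ≤
      LinearMap.range (fromCols Xᵀ Yᵀ).mulVecLin ⊔ UI (Fin a) 𝔤 := by
    refine UI_le_range c (2 * c + 1) (by omega) 𝔤 tc tg htc htg' Xᵀ Yᵀ
      (fun y => (Mx (s1 y))ᵀ) (fun y => (Mx (s2 y))ᵀ) (fun y g => (Mx (σ y g))ᵀ)
      fun y hy => ?_
    have h0 : (y • (1 : Matrix (Fin a) (Fin a) P) - Xᵀ * (Mx (s1 y))ᵀ - Yᵀ * (Mx (s2 y))ᵀ -
        ∑ g ∈ tg, g • (Mx (σ y g))ᵀ) = (y • (1 : Matrix (Fin a) (Fin a) P) - Mx (s1 y) * X -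
        Mx (s2 y) * Y - ∑ g ∈ tg, g • Mx (σ y g))ᵀ := by
      simp only [Matrix.transpose_sub, Matrix.transpose_mul, Matrix.transpose_smul,
        Matrix.transpose_one, Matrix.transpose_sum]
    rw [h0]
    intro i j
    rw [Matrix.transpose_apply]
    refine entries_mem hker _ (fun v => ?_) j i
    rw [Matrix.sub_mulVec, Matrix.sub_mulVec, Matrix.sub_mulVec, Matrix.sum_mulVec,
      Matrix.smul_mulVec, Matrix.one_mulVec, ← Matrix.mulVec_mulVec, ← Matrix.mulVec_mulVec,
      map_sub, map_sub, map_sub]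
    show ((p (y • v) : V) : T) - ((p (Mx (s1 y) *ᵥ X *ᵥ v) : V) : T) -
      ((p (Mx (s2 y) *ᵥ Y *ᵥ v) : V) : T) -
      ((p (∑ g ∈ tg, (g • Mx (σ y g)) *ᵥ v) : V) : T) = 0
    rw [hpsum, hMxE _ (hEs1 y hy), hMxE _ (hEs2 y hy), hpX, hpY, hpsm]
    have h1 : ∀ g ∈ tg, ((p ((g • Mx (σ y g)) *ᵥ v) : V) : T) = ρ g * σ y g * (p v : V) := by
      intro g hg
      rw [Matrix.smul_mulVec, hpsm, hMxE _ (hEσ y hy g hg), mul_assoc]
    rw [Finset.sum_congr rfl h1, ← Finset.sum_mul, hrep y hy]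
    ring
  have hfromX : ∀ u : Fin a → P, X *ᵥ u ∈ LinearMap.range (fromCols X Y).mulVecLin := fun u =>
    ⟨Sum.elim u 0, by
      rw [Matrix.mulVecLin_apply, fromCols_mulVec_sumElim, Matrix.mulVec_zero, add_zero]⟩
  have hfromY : ∀ u : Fin a → P, Y *ᵥ u ∈ LinearMap.range (fromCols X Y).mulVecLin := fun u =>
    ⟨Sum.elim 0 u, by
      rw [Matrix.mulVecLin_apply, fromCols_mulVec_sumElim, Matrix.mulVec_zero, zero_add]⟩
  have hpull : ∀ U : Submodule P T, Module.length P ((Fin a → P) ⧸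
      ((U.submoduleOf V).comap p)) = rl U V := by
    intro U
    exact length_pull (R := P) (R' := P) Function.surjective_id p hp _ (U.submoduleOf V)
      fun v => Iff.rfl
  have hlen : Module.length P ((Fin a → P) ⧸ (LinearMap.range (fromCols X Y).mulVecLin ⊔
      UI (Fin a) 𝔤)) ≤ (N * L : ℕ) := by
    have h1 : ((actV (t2 : Set T) V).submoduleOf V).comap p ≤
        LinearMap.range (fromCols X Y).mulVecLin ⊔ UI (Fin a) 𝔤 := by
      have h2 : actV (t2 : Set T) V ≤ (LinearMap.range (fromCols X Y).mulVecLin ⊔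
          UI (Fin a) 𝔤).map (V.subtype.comp p) := by
        refine actV_le fun u hu v hv => ?_
        obtain ⟨w, hw⟩ := hp ⟨v, hv⟩
        have hwv : ((p w : V) : T) = v := congrArg Subtype.val hw
        rw [ht2, Finset.mem_coe, Finset.mem_insert, Finset.mem_insert, Finset.mem_image] at hu
        rcases hu with rfl | rfl | ⟨r, hr, rfl⟩
        · refine ⟨X *ᵥ w, Submodule.mem_sup_left (hfromX w), ?_⟩
          show ((p (X *ᵥ w) : V) : T) = _
          rw [hpX, hwv]
        · refine ⟨Y *ᵥ w, Submodule.mem_sup_left (hfromY w), ?_⟩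
          show ((p (Y *ᵥ w) : V) : T) = _
          rw [hpY, hwv]
        · refine ⟨r • w, Submodule.mem_sup_right fun i => ?_, ?_⟩
          · rw [Pi.smul_apply, smul_eq_mul]
            exact Ideal.mul_mem_right _ _ (htg' r hr)
          · show ((p (r • w) : V) : T) = _
            rw [hpsm, hwv]
      intro v hv
      obtain ⟨w, hw, hwv⟩ := h2 hv
      have h3 : p (v - w) = 0 := by
        rw [map_sub, sub_eq_zero]
        exact Subtype.ext hwv.symm
      have h4 : v = w + (v - w) := by abel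
      rw [h4]
      refine Submodule.add_mem _ hw (hrange1 ?_)
      exact UI_mono (Ideal.pow_le_pow_right (by omega)) (hker _ h3)
    refine (Module.length_le_of_surjective (Submodule.factor h1)
      (Submodule.factor_surjective h1)).trans ?_
    rw [hpull]
    refine hr2.trans ?_
    push_cast
    gcongr
  obtain ⟨β, hβ1, hβ2⟩ := W_approx hinf 𝔤 hdim X Y c hXY hrange1 hrange2 (N * L) hlen E₀ K₀ hE
  have hβ3 : (N : ℕ∞) * B ≤ β := by
    refine le_trans ?_ hβ1
    have h1 : LinearMap.range (fromCols X Y).mulVecLin ⊔ UI (Fin a) (maximalIdeal P) ≤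
        ((V ⊓ (Ideal.span (t3 : Set T)).restrictScalars P).submoduleOf V).comap p := by
      refine sup_le ?_ ?_
      · rintro _ ⟨u, rfl⟩
        refine ⟨(p _).2, ?_⟩
        have hu : u = Sum.elim (fun i => u (Sum.inl i)) (fun i => u (Sum.inr i)) := by
          funext i
          cases i <;> rfl
        show ((p ((fromCols X Y).mulVecLin u) : V) : T) ∈ Ideal.span (t3 : Set T)
        rw [hu, Matrix.mulVecLin_apply, fromCols_mulVec_sumElim, map_add]
        show ((p (X *ᵥ _) : V) : T) + ((p (Y *ᵥ _) : V) : T) ∈ _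
        rw [hpX, hpY]
        refine Ideal.add_mem _ (Ideal.mul_mem_right _ _ (Ideal.subset_span ?_))
          (Ideal.mul_mem_right _ _ (Ideal.subset_span ?_))
        · simp [ht3]
        · simp [ht3]
      · intro u hu
        refine ⟨(p _).2, ?_⟩
        show ((p u : V) : T) ∈ Ideal.span (t3 : Set T)
        rw [hpv, AddSubmonoidClass.coe_finsetSum]
        refine Ideal.sum_mem _ fun i _ => ?_
        show u i • ((p (Pi.single i 1) : V) : T) ∈ _
        rw [Algebra.smul_def]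
        refine Ideal.mul_mem_right _ _ ?_
        rw [ht3I]
        exact Ideal.mem_sup_right (Ideal.mem_map_of_mem _ (hu i))
    refine le_trans ?_ (Module.length_le_of_surjective (Submodule.factor h1)
      (Submodule.factor_surjective h1))
    rw [hpull]
    refine le_trans ?_ hA3
    rw [ht3I]
    gcongr
  have hβ4 : N * B ≤ β := by exact_mod_cast hβ3
  refine Nat.le_of_mul_le_mul_left ?_ hN
  calc N * (B * E₀) = N * B * E₀ := by ring
    _ ≤ β * E₀ := Nat.mul_le_mul_right _ hβ4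
    _ ≤ N * L := hβ2

end WT2

end Vale.Agent.P202
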